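import Vale.Agent.Lib.P328.RAM.Down
import Vale.Agent.Lib.P328.Samp.Final

/-!
# P328: the first stage as a circuit (module A)

`annealChains`: one run of the chain for each level `k` and each `s`, with its own block of wires.
`annealHatOf`: the estimate from the labels, with factorials from `logFactHat`.
`annealSelR`: with `i0 = iMax r`, `j0 = jMax c`, selected by comparisons, `Nb = ∑ r`.

`annealSel_close`: with probability at least `1 - δ` the estimate is within `ε / 4` of `Aval r c`.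
Proof. `Pr_blocks` and `chainRunR_law`: the labels have the law `annealLaw`. On labels `annealHatOf = annealEst * exp θ`,
`|θ| ≤ (n + m + 2) * 3 / factN0 W` (`logFactHat_close`, `psiCellR_eq`, `detTR_eq`, `phiMinR_eq`, and
`betaC c = exp (log N! - N log N + ∑ (c j log c j - log (c j)!))` as all `c j > 0`). `annealEst_close` with `ε / 2`,
and `exp θ` is within `ε / 16`.
-/

namespace Vale.Agent.Lib.P328.RAM

open Finset MeasureTheory Vale.Agent.Lib.P328.Cap Vale.Agent.Lib.P328.Fpras Vale.Agent.Lib.P328.Samp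

variable {m n : ℕ}

/-- The random wires: one block for each level and sample. -/
abbrev AnnealW (n m W K S : ℕ) : Type := (Fin K × Fin S) × (Fin (chainT W) × ChainW (Fin n × Fin m))

/-- The runs of the chain. -/
noncomputable def annealChains (W Tm K S : ℕ) (Nb : ℝ) (i0 : Fin m) (j0 : Fin n) (r : Fin m → ℝ) (c : Fin n → ℝ)
    (ω : AnnealW n m W K S → ℝ) : Fin K → Fin S → Fin n × Fin m → ℝ := fun k s =>
  chainRunR W Tm (((k : ℕ) : ℝ) / (K : ℝ)) Nb i0 j0 r c fun a => ω ((k, s), a)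

/-- The logarithm of `betaC`. -/
noncomputable def logBetaR (W : ℕ) (c : Fin n → ℝ) : ℝ :=
  logFactHat W (∑ j, c j) - (∑ j, c j) * Real.log (∑ j, c j)
    + ∑ j, (c j * Real.log (c j) - logFactHat W (c j))

/-- The estimate from the labels. -/
noncomputable def annealHatOf (W Tm K S : ℕ) (Nb : ℝ) (i0 : Fin m) (j0 : Fin n) (r : Fin m → ℝ) (c : Fin n → ℝ)
    (zz : Fin K → Fin S → Fin n × Fin m → ℝ) : ℝ :=
  Real.exp (logBetaR W c - ∑ i, logFactHat W (r i) - phiMinR r) * detTR i0 j0 r c * cellD W ^ (n * m)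
    * ((cellM W : ℝ) ^ (n * m) * ∏ k, ((S : ℝ)⁻¹ * ∑ s,
      Real.exp (-(psiCellR W Tm Nb i0 j0 r c (zz k s)) / (K : ℝ))))

open Classical in
/-- The estimate of the first stage. -/
noncomputable def annealSelR (W Tm K S : ℕ) (r : Fin m → ℝ) (c : Fin n → ℝ) (ω : AnnealW n m W K S → ℝ) : ℝ :=
  ∑ i0 : Fin m, ∑ j0 : Fin n,
    if argFirst r = ((i0 : ℕ) : ℝ) then
      if argFirst c = ((j0 : ℕ) : ℝ) then
        annealHatOf W Tm K S (∑ i, r i) i0 j0 r c (annealChains W Tm K S (∑ i, r i) i0 j0 r c ω)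
      else 0
    else 0

namespace AnnealAux

/-- The values of the run are labels. -/
theorem chainRunR_label (W Tm : ℕ) (a Nb : ℝ) (i0 : Fin m) (j0 : Fin n) (r : Fin m → ℝ) (c : Fin n → ℝ)
    (ω : Fin (chainT W) × ChainW (Fin n × Fin m) → ℝ) :
    ∃ z : Fin n × Fin m → Fin (cellM W), chainRunR W Tm a Nb i0 j0 r c ω = encZ z := by
  have hstart : (fun _ : Fin n × Fin m => (0 : ℝ)) = encZ (zStart _ W) := by
    funext i
    simp [encZ, zStart]
  refine ⟨runSeq (chainStepL (chainProp m n) (cellM W) a (psiCellR W Tm Nb i0 j0 r c)) (zStart _ W) (chainT W) ω, ?_⟩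
  unfold chainRunR
  rw [hstart, encZ_runSeq _ (chainStepL (chainProp m n) (cellM W) a (psiCellR W Tm Nb i0 j0 r c)) encZ_chainStepL]

/-- The run is measurable in the random wires, for a fixed rational temperature. -/
theorem measurable_chainRunR (W Tm k K : ℕ) (Nb : ℝ) (i0 : Fin m) (j0 : Fin n) (r : Fin m → ℝ) (c : Fin n → ℝ) :
    Measurable (chainRunR W Tm ((k : ℝ) / (K : ℝ)) Nb i0 j0 r c) := by
  obtain ⟨e, he⟩ := chainRunR_cost
  obtain ⟨X, hX, hXm, hXn, hXW, hXT, hXk, hXK⟩ : ∃ X : ℕ, 1000 ≤ X ∧ m ≤ X ∧ n ≤ X ∧ W ≤ X ∧ Tm ≤ X ∧ k ≤ X ∧ K ≤ X :=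
    ⟨1000 + m + n + W + Tm + k + K, by omega, by omega, by omega, by omega, by omega, by omega, by omega⟩
  have hle : ∀ {a : ℕ}, a ≤ X → ∀ {b : ℕ}, 0 < b → a ≤ X ^ b := fun h _ hb =>
    h.trans (Nat.le_self_pow hb.ne' X)
  refine measurable_pi_iff.2 fun l => ?_
  have h := he (m := m) (n := n) (X := X) (W := W) (Tm := Tm) (k := k) (K := K)
    (ι := (Fin (chainT W) × ChainW (Fin n × Fin m)) ⊕ (Unit ⊕ (Fin m ⊕ Fin n))) hX hXm hXn hXW
    (hle hXT (by norm_num)) (hle hXk (by norm_num)) (hle hXK (by norm_num)) i0 j0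
    (Sum.inr (Sum.inl ())) (fun i => Sum.inr (Sum.inr (Sum.inl i))) (fun j => Sum.inr (Sum.inr (Sum.inr j)))
    Sum.inl l (by omega)
  have hm1 : Measurable (fun x : ((Fin (chainT W) × ChainW (Fin n × Fin m)) ⊕ (Unit ⊕ (Fin m ⊕ Fin n))) → ℝ =>
      chainRunR W Tm ((k : ℝ) / (K : ℝ)) (x (Sum.inr (Sum.inl ()))) i0 j0 (fun i => x (Sum.inr (Sum.inr (Sum.inl i))))
        (fun j => x (Sum.inr (Sum.inr (Sum.inr j)))) (fun a => x (Sum.inl a)) l) :=
    (measurable_pi_apply ()).comp (Cost.measurable h)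
  have hm2 : Measurable (fun ω : Fin (chainT W) × ChainW (Fin n × Fin m) → ℝ =>
      (Sum.elim ω (Sum.elim (fun _ => Nb) (Sum.elim r c)) :
        ((Fin (chainT W) × ChainW (Fin n × Fin m)) ⊕ (Unit ⊕ (Fin m ⊕ Fin n))) → ℝ)) := by
    refine measurable_pi_iff.2 fun a => ?_
    cases a with
    | inl a => exact measurable_pi_apply a
    | inr a => exact measurable_const
  have hm3 := hm1.comp hm2
  simp only [Function.comp_def, Sum.elim_inl, Sum.elim_inr] at hm3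
  exact hm3

/-- `betaC` as an exponential. -/
theorem betaC_eq_exp {c : Fin n → ℕ} (hn : 0 < n) (hc : ∀ j, 0 < c j) :
    betaC c = Real.exp (Real.log ((Nat.factorial (∑ j, c j) : ℕ) : ℝ) - ((∑ j, c j : ℕ) : ℝ) * Real.log ((∑ j, c j : ℕ) : ℝ)
      + ∑ j, ((c j : ℝ) * Real.log (c j) - Real.log ((Nat.factorial (c j) : ℕ) : ℝ))) := by
  have hN : 0 < ∑ j, c j := Finset.sum_pos (fun j _ => hc j) ⟨⟨0, hn⟩, mem_univ _⟩
  have hNr : (0 : ℝ) < ((∑ j, c j : ℕ) : ℝ) := by exact_mod_cast hN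
  have hf : ∀ k : ℕ, (0 : ℝ) < ((Nat.factorial k : ℕ) : ℝ) := fun k => by exact_mod_cast Nat.factorial_pos k
  have hcr : ∀ j, (0 : ℝ) < (c j : ℝ) := fun j => by exact_mod_cast hc j
  rw [Real.exp_add, Real.exp_sub, Real.exp_log (hf _), Real.exp_sum]
  unfold betaC
  have h1 : Real.exp (((∑ j, c j : ℕ) : ℝ) * Real.log ((∑ j, c j : ℕ) : ℝ)) = ((∑ j, c j : ℕ) : ℝ) ^ (∑ j, c j) := by
    rw [mul_comm, ← Real.rpow_def_of_pos hNr, Real.rpow_natCast]
  rw [h1]
  congr 1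
  refine Finset.prod_congr rfl fun j _ => ?_
  rw [Real.exp_sub, Real.exp_log (hf _), mul_comm, ← Real.rpow_def_of_pos (hcr j), Real.rpow_natCast]

/-- The error in the logarithm of the factorial factors. -/
theorem logHat_close {W : ℕ} (hW : 2 ≤ W) {r : Fin m → ℕ} {c : Fin n → ℕ} :
    |(logBetaR W (fun j => (c j : ℝ)) - ∑ i, logFactHat W (r i : ℝ))
        - ((Real.log ((Nat.factorial (∑ j, c j) : ℕ) : ℝ) - ((∑ j, c j : ℕ) : ℝ) * Real.log ((∑ j, c j : ℕ) : ℝ)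
      + ∑ j, ((c j : ℝ) * Real.log (c j) - Real.log ((Nat.factorial (c j) : ℕ) : ℝ)))
          - ∑ i, Real.log ((Nat.factorial (r i) : ℕ) : ℝ))|
      ≤ (1 + (n : ℝ) + m) / (factN0 W : ℝ) := by
  have hN0 : (0 : ℝ) ≤ 1 / (factN0 W : ℝ) := by positivity
  unfold logBetaR
  have hcast : (∑ j, (c j : ℝ)) = ((∑ j, c j : ℕ) : ℝ) := by push_cast; rfl
  rw [hcast]
  have e : (logFactHat W ((∑ j, c j : ℕ) : ℝ) - ((∑ j, c j : ℕ) : ℝ) * Real.log ((∑ j, c j : ℕ) : ℝ)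
        + ∑ j, ((c j : ℝ) * Real.log (c j) - logFactHat W (c j : ℝ)) - ∑ i, logFactHat W (r i : ℝ))
        - ((Real.log ((Nat.factorial (∑ j, c j) : ℕ) : ℝ) - ((∑ j, c j : ℕ) : ℝ) * Real.log ((∑ j, c j : ℕ) : ℝ)
      + ∑ j, ((c j : ℝ) * Real.log (c j) - Real.log ((Nat.factorial (c j) : ℕ) : ℝ)))
          - ∑ i, Real.log ((Nat.factorial (r i) : ℕ) : ℝ))
      = (logFactHat W ((∑ j, c j : ℕ) : ℝ) - Real.log ((Nat.factorial (∑ j, c j) : ℕ) : ℝ))
        - ∑ j, (logFactHat W (c j : ℝ) - Real.log ((Nat.factorial (c j) : ℕ) : ℝ))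
        - ∑ i, (logFactHat W (r i : ℝ) - Real.log ((Nat.factorial (r i) : ℕ) : ℝ)) := by
    simp only [Finset.sum_sub_distrib]
    ring
  rw [e]
  have h1 := logFactHat_close hW (∑ j, c j)
  have h2 : |∑ j, (logFactHat W (c j : ℝ) - Real.log ((Nat.factorial (c j) : ℕ) : ℝ))| ≤ (n : ℝ) * (1 / (factN0 W : ℝ)) := by
    refine (Finset.abs_sum_le_sum_abs _ _).trans ?_
    refine (Finset.sum_le_sum fun j _ => logFactHat_close hW (c j)).trans ?_
    simp
  have h3 : |∑ i, (logFactHat W (r i : ℝ) - Real.log ((Nat.factorial (r i) : ℕ) : ℝ))| ≤ (m : ℝ) * (1 / (factN0 W : ℝ)) := by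
    refine (Finset.abs_sum_le_sum_abs _ _).trans ?_
    refine (Finset.sum_le_sum fun i _ => logFactHat_close hW (r i)).trans ?_
    simp
  have e2 : (1 + (n : ℝ) + m) / (factN0 W : ℝ)
      = 1 / (factN0 W : ℝ) + (n : ℝ) * (1 / (factN0 W : ℝ)) + (m : ℝ) * (1 / (factN0 W : ℝ)) := by ring
  rw [e2]
  refine (abs_sub _ _).trans (add_le_add ((abs_sub _ _).trans (add_le_add h1 h2)) h3)

/-- On labels, the estimate is `annealEst` up to the factor `exp θ`. -/
theorem annealHatOf_labels {W Tm Nb : ℕ} (hT : ellIters W Nb ≤ Tm) (S : ℕ) (i0 : Fin m) (j0 : Fin n)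
    (r : Fin m → ℕ) (c : Fin n → ℕ) (ω : Anneal n m W (annealK W) S) :
    annealHatOf W Tm (annealK W) S (Nb : ℝ) i0 j0 (fun i => (r i : ℝ)) (fun j => (c j : ℝ))
        (fun k s => encZ (ω k s))
      = Real.exp (logBetaR W (fun j => (c j : ℝ)) - ∑ i, logFactHat W (r i : ℝ) - phiMin r)
        * (detT i0 j0 r c * cellD W ^ (n * m) * annealSum W Nb i0 j0 r c S ω) := by
  have hpsi : ∀ z : Fin n × Fin m → Fin (cellM W),
      psiCellR W Tm (Nb : ℝ) i0 j0 (fun i => (r i : ℝ)) (fun j => (c j : ℝ)) (encZ z) = psiCell W Nb i0 j0 r c z :=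
    fun z => psiCellR_eq hT i0 j0 r c z
  unfold annealHatOf annealSum
  simp only [hpsi, detTR_eq, phiMinR_eq]
  ring

/-- On labels: the estimate is close if `annealEst` is closer. -/
theorem annealHat_close {W Tm Nb : ℕ} (hT : ellIters W Nb ≤ Tm) (hW : WOK m n W) (hm : 0 < m) (hn : 0 < n)
    {S : ℕ} {i0 : Fin m} {j0 : Fin n} {r : Fin m → ℕ} {c : Fin n → ℕ} (hc : ∀ j, 0 < c j)
    {ε : ℝ} (hε0 : 2 / (W : ℝ) ≤ ε) (hε1 : ε ≤ 1) (ω : Anneal n m W (annealK W) S)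
    (hclose : |annealEst W Nb i0 j0 r c S ω - Aval r c| ≤ ε / 2 / 4 * Aval r c) :
    |annealHatOf W Tm (annealK W) S (Nb : ℝ) i0 j0 (fun i => (r i : ℝ)) (fun j => (c j : ℝ))
        (fun k s => encZ (ω k s)) - Aval r c| ≤ ε / 4 * Aval r c := by
  have hn1 : (1 : ℝ) ≤ n := by exact_mod_cast hn
  have hm1 : (1 : ℝ) ≤ m := by exact_mod_cast hm
  have hnm : (1 : ℝ) ≤ (n : ℝ) * m := by nlinarith
  have hW' : 10 ^ 6 * ((n : ℝ) * m + 1) ^ 2 ≤ (W : ℝ) := hW
  have hW1 : (10 : ℝ) ^ 6 ≤ W := by nlinarith [sq_nonneg ((n : ℝ) * m)]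
  have hW2 : 2 ≤ W := by
    have : (2 : ℝ) ≤ W := by linarith [show (10 : ℝ) ^ 6 = 1000000 by norm_num]
    exact_mod_cast this
  have hWpos : (0 : ℝ) < W := by linarith [show (10 : ℝ) ^ 6 = 1000000 by norm_num]
  have hε : 0 < ε := lt_of_lt_of_le (by positivity) hε0
  -- the error term
  set E0 : ℝ := logBetaR W (fun j => (c j : ℝ)) - ∑ i, logFactHat W (r i : ℝ) with hE0
  set E1 : ℝ := (Real.log ((Nat.factorial (∑ j, c j) : ℕ) : ℝ) - ((∑ j, c j : ℕ) : ℝ) * Real.log ((∑ j, c j : ℕ) : ℝ)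
      + ∑ j, ((c j : ℝ) * Real.log (c j) - Real.log ((Nat.factorial (c j) : ℕ) : ℝ)))
          - ∑ i, Real.log ((Nat.factorial (r i) : ℕ) : ℝ) with hE1
  have hθ : |E0 - E1| ≤ (1 + (n : ℝ) + m) / (factN0 W : ℝ) := logHat_close hW2
  have hθ2 : (1 + (n : ℝ) + m) / (factN0 W : ℝ) ≤ ε / 32 := by
    have h16 : 16 * (1 + (n : ℝ) + m) ≤ W := by nlinarith [sq_nonneg ((n : ℝ) * m), mul_nonneg (sub_nonneg.2 hn1) (sub_nonneg.2 hm1)]
    have hpow : (W : ℝ) * W ≤ (factN0 W : ℝ) := by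
      have : (W : ℝ) ^ 2 ≤ (W : ℝ) ^ 30 :=
        pow_le_pow_right₀ (by linarith [show (10 : ℝ) ^ 6 = 1000000 by norm_num]) (by norm_num)
      unfold factN0
      push_cast
      nlinarith
    have hN0 : (0 : ℝ) < (factN0 W : ℝ) := by nlinarith
    rw [div_le_iff₀ hN0]
    have h1 : 1 / (16 * (W : ℝ)) ≤ ε / 32 := by
      have : 2 / (W : ℝ) / 32 ≤ ε / 32 := by linarith
      calc 1 / (16 * (W : ℝ)) = 2 / (W : ℝ) / 32 := by field_simp; norm_num
        _ ≤ ε / 32 := this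
    have h2 : (1 + (n : ℝ) + m) ≤ 1 / (16 * (W : ℝ)) * (factN0 W : ℝ) := by
      rw [div_mul_eq_mul_div, one_mul, le_div_iff₀ (by positivity)]
      nlinarith
    calc (1 + (n : ℝ) + m) ≤ 1 / (16 * (W : ℝ)) * (factN0 W : ℝ) := h2
      _ ≤ ε / 32 * (factN0 W : ℝ) := mul_le_mul_of_nonneg_right h1 hN0.le
  have ht : |E0 - E1| ≤ ε / 32 := hθ.trans hθ2
  have ht1 : |E0 - E1| ≤ 1 := ht.trans (by linarith)
  have hexp := Real.abs_exp_sub_one_le ht1
  -- the two estimates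
  have hN : 0 < ∑ j, c j := Finset.sum_pos (fun j _ => hc j) ⟨⟨0, hn⟩, mem_univ _⟩
  have hf : ∀ k : ℕ, (0 : ℝ) < ((Nat.factorial k : ℕ) : ℝ) := fun k => by exact_mod_cast Nat.factorial_pos k
  have hbeta : betaC c = _ := betaC_eq_exp hn hc
  have hprod : (∏ i, (Nat.factorial (r i) : ℝ)) = Real.exp (∑ i, Real.log ((Nat.factorial (r i) : ℕ) : ℝ)) := by
    rw [Real.exp_sum]
    exact Finset.prod_congr rfl fun i _ => (Real.exp_log (hf _)).symm
  set D : ℝ := detT i0 j0 r c * cellD W ^ (n * m) * annealSum W Nb i0 j0 r c S ω with hD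
  have hest : annealEst W Nb i0 j0 r c S ω = Real.exp (E1 - phiMin r) * D := by
    unfold annealEst
    rw [hbeta, hprod, hE1, hD, Real.exp_sub, Real.exp_sub, Real.exp_neg]
    field_simp
  have hhat : annealHatOf W Tm (annealK W) S (Nb : ℝ) i0 j0 (fun i => (r i : ℝ)) (fun j => (c j : ℝ))
      (fun k s => encZ (ω k s)) = Real.exp (E0 - E1) * annealEst W Nb i0 j0 r c S ω := by
    rw [annealHatOf_labels hT, hest]
    show Real.exp (E0 - phiMin r) * D = _
    have e : E0 - phiMin r = (E0 - E1) + (E1 - phiMin r) := by ring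
    rw [e, Real.exp_add]
    ring
  rw [hhat]
  -- the inequality
  have hA : 0 ≤ Aval r c := by
    unfold Aval
    rw [hbeta]
    positivity
  set est := annealEst W Nb i0 j0 r c S ω with hestdef
  have hest2 : |est| ≤ 2 * Aval r c := by
    have h1 : |est| ≤ |est - Aval r c| + |Aval r c| := by
      have := abs_add_le (est - Aval r c) (Aval r c)
      simpa using this
    rw [abs_of_nonneg hA] at h1
    nlinarith
  have e : Real.exp (E0 - E1) * est - Aval r c = (Real.exp (E0 - E1) - 1) * est + (est - Aval r c) := by ring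
  rw [e]
  refine (abs_add_le _ _).trans ?_
  rw [abs_mul]
  have h3 : |Real.exp (E0 - E1) - 1| * |est| ≤ 2 * |E0 - E1| * (2 * Aval r c) :=
    mul_le_mul hexp hest2 (abs_nonneg _) (by positivity)
  have h4 : 2 * |E0 - E1| * (2 * Aval r c) ≤ 2 * (ε / 32) * (2 * Aval r c) := by
    have : 2 * |E0 - E1| ≤ 2 * (ε / 32) := by linarith
    exact mul_le_mul_of_nonneg_right this (by positivity)
  nlinarith

/-- Selection among the values. -/
theorem sum_select {K : ℕ} (k0 : Fin K) (F : Fin K → ℝ) [∀ k : Fin K, Decidable (((k0 : ℕ) : ℝ) = ((k : ℕ) : ℝ))] :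
    ∑ k : Fin K, (if ((k0 : ℕ) : ℝ) = ((k : ℕ) : ℝ) then F k else 0) = F k0 := by
  rw [Finset.sum_eq_single k0]
  · simp
  · intro b _ hb
    rw [if_neg]
    intro h
    exact hb (Fin.ext (by exact_mod_cast h.symm))
  · intro h
    exact absurd (mem_univ _) h

/-- On natural margins `annealSelR` uses `iMax`, `jMax`. -/
theorem annealSelR_eq (W Tm K S : ℕ) (hm : 0 < m) (hn : 0 < n) (r : Fin m → ℕ) (c : Fin n → ℕ)
    (ω : AnnealW n m W K S → ℝ) :
    annealSelR W Tm K S (fun i => (r i : ℝ)) (fun j => (c j : ℝ)) ω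
      = annealHatOf W Tm K S ((∑ i, r i : ℕ) : ℝ) (iMax hm r) (jMax hn c) (fun i => (r i : ℝ)) (fun j => (c j : ℝ))
          (annealChains W Tm K S ((∑ i, r i : ℕ) : ℝ) (iMax hm r) (jMax hn c) (fun i => (r i : ℝ))
            (fun j => (c j : ℝ)) ω) := by
  classical
  unfold annealSelR
  rw [argFirst_iMax hm r]
  have hc : argFirst (fun j => (c j : ℝ)) = ((jMax hn c : ℕ) : ℝ) := argFirst_iMax hn c
  rw [hc]
  have hcast : (∑ i, (r i : ℝ)) = ((∑ i, r i : ℕ) : ℝ) := by push_cast; rfl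
  rw [hcast]
  have h1 : ∀ i0 : Fin m, (∑ j0 : Fin n, if ((iMax hm r : ℕ) : ℝ) = ((i0 : ℕ) : ℝ) then
        (if ((jMax hn c : ℕ) : ℝ) = ((j0 : ℕ) : ℝ) then
          annealHatOf W Tm K S ((∑ i, r i : ℕ) : ℝ) i0 j0 (fun i => (r i : ℝ)) (fun j => (c j : ℝ))
            (annealChains W Tm K S ((∑ i, r i : ℕ) : ℝ) i0 j0 (fun i => (r i : ℝ)) (fun j => (c j : ℝ)) ω)
          else 0) else 0)
      = if ((iMax hm r : ℕ) : ℝ) = ((i0 : ℕ) : ℝ) then
          annealHatOf W Tm K S ((∑ i, r i : ℕ) : ℝ) i0 (jMax hn c) (fun i => (r i : ℝ)) (fun j => (c j : ℝ))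
            (annealChains W Tm K S ((∑ i, r i : ℕ) : ℝ) i0 (jMax hn c) (fun i => (r i : ℝ)) (fun j => (c j : ℝ)) ω)
          else 0 := by
    intro i0
    by_cases h : ((iMax hm r : ℕ) : ℝ) = ((i0 : ℕ) : ℝ)
    · simp only [if_pos h]
      exact sum_select (jMax hn c) _
    · rw [if_neg h]
      exact Finset.sum_eq_zero fun j _ => if_neg h
  rw [Finset.sum_congr rfl fun i0 _ => h1 i0]
  exact sum_select (iMax hm r) _

end AnnealAux

open AnnealAux

/-- **The first stage.** Here `S = annealS W δ`. -/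
theorem annealSel_close {W Tm Nb' : ℕ} (hm : 0 < m) (hn : 0 < n) {r : Fin m → ℕ} {c : Fin n → ℕ}
    (hc : ∀ j, 0 < c j) (hsum : ∑ i, r i = ∑ j, c j) (hNb : ∑ i, r i ≤ Nb')
    (hT : ∀ N, N ≤ Nb' → ellIters W N ≤ Tm) (hW : WOK m n W) {ε δ : ℝ} (hε0 : 2 / (W : ℝ) ≤ ε) (hε1 : ε ≤ 1)
    (hδ0 : 0 < δ) (hδ1 : δ ≤ 1) :
    1 - δ ≤ Pr (fun ω : AnnealW n m W (annealK W) (annealS W δ) → ℝ =>
      |annealSelR W Tm (annealK W) (annealS W δ) (fun i => (r i : ℝ)) (fun j => (c j : ℝ)) ω - Aval r c|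
        ≤ ε / 4 * Aval r c) := by
  classical
  have hT' := hT _ hNb
  have hinst : InstOK (iMax hm r) (jMax hn c) r c := ⟨hc, hsum, iMax_spec hm r, jMax_spec hn c⟩
  set i0 := iMax hm r with hi0
  set j0 := jMax hn c with hj0
  set Nb : ℕ := ∑ i, r i with hNbdef
  set K := annealK W with hK
  set S := annealS W δ with hS
  have hWpos : 0 < W := by
    have h1 : (10 : ℝ) ^ 6 * ((n : ℝ) * m + 1) ^ 2 ≤ (W : ℝ) := hW
    have h2 : (0 : ℝ) < (10 : ℝ) ^ 6 * ((n : ℝ) * m + 1) ^ 2 := by positivity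
    exact_mod_cast lt_of_lt_of_le h2 h1
  have hε : 0 < ε := lt_of_lt_of_le (by positivity) hε0
  -- the blocks
  let I := Fin K × Fin S
  let L := Fin n × Fin m → Fin (cellM W)
  let X : I → ((Fin (chainT W) × ChainW (Fin n × Fin m)) → ℝ) → (Fin n × Fin m → ℝ) := fun i =>
    chainRunR W Tm (((i.1 : ℕ) : ℝ) / (K : ℝ)) (Nb : ℝ) i0 j0 (fun i => (r i : ℝ)) (fun j => (c j : ℝ))
  let Sset : I → Finset (Fin n × Fin m → ℝ) := fun _ => (univ : Finset L).image encZ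
  have hSmem : ∀ i, ∀ ω ∈ Cube (Fin (chainT W) × ChainW (Fin n × Fin m)), X i ω ∈ Sset i := by
    intro i ω _
    obtain ⟨z, hz⟩ := chainRunR_label W Tm (((i.1 : ℕ) : ℝ) / (K : ℝ)) (Nb : ℝ) i0 j0 (fun i => (r i : ℝ))
      (fun j => (c j : ℝ)) ω
    exact Finset.mem_image.2 ⟨z, mem_univ _, hz.symm⟩
  have hXm : ∀ i, ∀ y ∈ Sset i, MeasurableSet {ω | X i ω = y} := by
    intro i y _
    exact (measurable_chainRunR W Tm (i.1 : ℕ) K (Nb : ℝ) i0 j0 _ _) (measurableSet_singleton y)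
  let E : (I → (Fin n × Fin m → ℝ)) → Prop := fun y =>
    |annealHatOf W Tm K S (Nb : ℝ) i0 j0 (fun i => (r i : ℝ)) (fun j => (c j : ℝ)) (fun k s => y (k, s)) - Aval r c|
      ≤ ε / 4 * Aval r c
  have hblocks := Pr_blocks X Sset hSmem hXm E
  have hgoal : Pr (fun ω : AnnealW n m W K S → ℝ =>
      |annealSelR W Tm K S (fun i => (r i : ℝ)) (fun j => (c j : ℝ)) ω - Aval r c| ≤ ε / 4 * Aval r c)
      = Pr (fun ω : I × (Fin (chainT W) × ChainW (Fin n × Fin m)) → ℝ => E fun i => X i fun a => ω (i, a)) := by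
    refine Pr_congr fun ω _ => ?_
    rw [annealSelR_eq W Tm K S hm hn r c ω]
    exact Iff.rfl
  rw [hgoal, hblocks]
  -- the labels
  let enc : (I → L) → I → (Fin n × Fin m → ℝ) := fun w i => encZ (w i)
  have henc : Function.Injective enc := by
    intro w w' h
    funext i
    exact encZ_injective (congrFun h i)
  have hsub : (univ : Finset (I → L)).image enc ⊆ Fintype.piFinset Sset := by
    intro y hy
    obtain ⟨w, -, rfl⟩ := Finset.mem_image.1 hy
    exact Fintype.mem_piFinset.2 fun i => Finset.mem_image.2 ⟨w i, mem_univ _, rfl⟩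
  have hnn : ∀ y ∈ Fintype.piFinset Sset, y ∉ (univ : Finset (I → L)).image enc →
      0 ≤ (∏ i, Pr (fun ω => X i ω = y i)) * (if E y then (1 : ℝ) else 0) := by
    intro y _ _
    refine mul_nonneg (Finset.prod_nonneg fun i _ => Pr_nonneg _) ?_
    split_ifs <;> norm_num
  refine le_trans ?_ (Finset.sum_le_sum_of_subset_of_nonneg hsub hnn)
  rw [Finset.sum_image fun a _ b _ h => henc h]
  -- the law
  have hlaw : ∀ w : I → L, (∏ i, Pr (fun ω => X i ω = enc w i))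
      = annealLaw W Nb i0 j0 r c S (Function.curry w) := by
    intro w
    unfold annealLaw
    rw [Fintype.prod_prod_type]
    refine Finset.prod_congr rfl fun k _ => Finset.prod_congr rfl fun s _ => ?_
    exact chainRunR_law hT' hm hn _ i0 j0 r c (w (k, s))
  have hA := annealEst_close hinst hW hm hn (ε := ε / 2) (δ := δ) (by
    have : 1 / (W : ℝ) = 2 / (W : ℝ) / 2 := by ring
    rw [this]
    linarith) (by linarith) hδ0 hδ1
  refine hA.trans ?_
  have hsumeq := (Equiv.curry (Fin K) (Fin S) L).sum_comp (fun ω : Anneal n m W K S =>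
    annealLaw W Nb i0 j0 r c S ω
      * if |annealEst W Nb i0 j0 r c S ω - Aval r c| ≤ ε / 2 / 4 * Aval r c then (1 : ℝ) else 0)
  rw [← hsumeq]
  refine Finset.sum_le_sum fun w _ => ?_
  have hlw := hlaw w
  rw [hlw]
  have hnonneg : 0 ≤ annealLaw W Nb i0 j0 r c S (Function.curry w) := by
    rw [← hlw]
    exact Finset.prod_nonneg fun i _ => Pr_nonneg _
  refine mul_le_mul_of_nonneg_left ?_ hnonneg
  by_cases hcl : |annealEst W Nb i0 j0 r c S (Function.curry w) - Aval r c| ≤ ε / 2 / 4 * Aval r c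
  · have h2 : E (enc w) := annealHat_close hT' hW hm hn hc hε0 hε1 (Function.curry w) hcl
    simp only [Equiv.curry_apply]
    rw [if_pos hcl, if_pos h2]
  · simp only [Equiv.curry_apply]
    rw [if_neg hcl]
    split_ifs <;> norm_num

namespace AnnealCost

/-- The estimate from wires with the labels. -/
theorem annealHatOf_cost : ∃ e, ∀ {m n X W Tm K S : ℕ} {ι : Type} (_ : 1000 ≤ X) (_ : m ≤ X) (_ : n ≤ X)
    (_ : W ≤ X) (_ : Tm ≤ X ^ 4) (_ : K ≤ X ^ 40) (_ : S ≤ X ^ 80) (Nb : ι) (R : Fin m → ι) (C : Fin n → ι)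
    (Z : Fin K → Fin S → Fin n × Fin m → ι) (i0 : Fin m) (j0 : Fin n),
    P1 X e (fun x => annealHatOf W Tm K S (x Nb) i0 j0 (fun i => x (R i)) (fun j => x (C j))
      (fun k s l => x (Z k s l))) := by
  obtain ⟨e1, hpsi⟩ := psiCellR_cost
  obtain ⟨e2, hfact⟩ := logFactHat_cost
  obtain ⟨e3, hphi⟩ := phiMinR_cost
  obtain ⟨e4, hdet⟩ := detTR_cost
  refine ⟨?e, fun {m n X W Tm K S ι} hX hm hn hW hTm hK hS Nb R C Z i0 j0 => ?_⟩
  swap
  have hsumC : P1 X _ (fun x : ι → ℝ => ∑ j, x (C j)) := P1.sumFin hn fun j => P1.var (C j)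
  have hlogN : P1 X _ (fun x : ι → ℝ => logFactHat W (∑ j, x (C j))) :=
    P1.comp (show PC X _ (fun (x : ι → ℝ) (_ : Unit) => ∑ j, x (C j)) from hsumC) (hfact hX hW (ι := Unit) ())
  have hbeta : P1 X _ (fun x : ι → ℝ => logBetaR W (fun j => x (C j))) :=
    ((hlogN.sub (hsumC.mul hsumC.log)).add
      (P1.sumFin hn fun j => ((P1.var (C j)).mul (P1.var (C j)).log).sub (hfact hX hW (C j)))).congr fun x => rfl
  have hsumR : P1 X _ (fun x : ι → ℝ => ∑ i, logFactHat W (x (R i))) :=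
    P1.sumFin hm fun i => hfact hX hW (R i)
  have hexp := ((hbeta.sub hsumR).sub (hphi hm R)).exp
  have hnm : n * m ≤ X ^ 2 := by
    rw [sq]
    exact Nat.mul_le_mul hn hm
  have hcellD := (DownCost.cellD_cost (ι := ι) hX hW).pow hnm
  have hcellM := (P1.nat (ι := ι) (DownCost.cellM_le hX hW)).pow hnm
  have hcK : (univ : Finset (Fin K)).card ≤ X ^ 40 := by simpa using hK
  have hcS : (univ : Finset (Fin S)).card ≤ X ^ 80 := by simpa using hS
  have hprod := P1.prod (d := 40) (F := fun (k : Fin K) (x : ι → ℝ) => (S : ℝ)⁻¹ * ∑ s,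
      Real.exp (-(psiCellR W Tm (x Nb) i0 j0 (fun i => x (R i)) (fun j => x (C j)) (fun l => x (Z k s l))) / (K : ℝ)))
    univ hcK fun k _ => (P1.nat (ι := ι) hS).inv.mul
      (P1.sum (d := 80) univ hcS fun s _ =>
        (((hpsi hX hm hn hW hTm i0 j0 Nb R C (Z k s)).neg).div (P1.nat (ι := ι) hK)).exp)
  exact ((hexp.mul (hdet hX hm hn i0 j0 R C)).mul hcellD).mul (hcellM.mul hprod)

/-- With `i0`, `j0` fixed and a wire for the total. -/
theorem annealFixed_cost : ∃ e, ∀ {m n X W Tm K S : ℕ} {ι : Type} (_ : 1000 ≤ X) (_ : m ≤ X) (_ : n ≤ X)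
    (_ : W ≤ X) (_ : Tm ≤ X ^ 4) (_ : K ≤ X ^ 40) (_ : S ≤ X ^ 80) (Nb : ι) (R : Fin m → ι) (C : Fin n → ι)
    (Ωw : AnnealW n m W K S → ι) (i0 : Fin m) (j0 : Fin n),
    P1 X e (fun x => annealHatOf W Tm K S (x Nb) i0 j0 (fun i => x (R i)) (fun j => x (C j))
      (annealChains W Tm K S (x Nb) i0 j0 (fun i => x (R i)) (fun j => x (C j)) fun a => x (Ωw a))) := by
  obtain ⟨e1, hch⟩ := chainRunR_cost
  obtain ⟨e2, hhat⟩ := annealHatOf_cost
  refine ⟨?e, fun {m n X W Tm K S ι} hX hm hn hW hTm hK hS Nb R C Ωw i0 j0 => ?_⟩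
  swap
  have hcard : Fintype.card (Fin K × Fin S × (Fin n × Fin m)) ≤ X ^ 122 := by
    simp only [Fintype.card_prod, Fintype.card_fin]
    have h2 : n * m ≤ X ^ 2 := by
      rw [sq]
      exact Nat.mul_le_mul hn hm
    calc K * (S * (n * m)) ≤ X ^ 40 * (X ^ 80 * X ^ 2) :=
          Nat.mul_le_mul hK (Nat.mul_le_mul hS h2)
      _ = X ^ 122 := by ring
  have hz : PC X (122 + e1) (fun (x : ι → ℝ) (q : Fin K × Fin S × (Fin n × Fin m)) =>
      annealChains W Tm K S (x Nb) i0 j0 (fun i => x (R i)) (fun j => x (C j)) (fun a => x (Ωw a)) q.1 q.2.1 q.2.2) :=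
    PC.pi hcard fun q =>
      hch hX hm hn hW hTm (k := (q.1 : ℕ)) (K := K) (q.1.2.le.trans hK) hK i0 j0 Nb R C
        (fun a => Ωw ((q.1, q.2.1), a)) q.2.2
  exact P1.bind hz (hhat hX hm hn hW hTm hK hS (ι := ι ⊕ (Fin K × Fin S × (Fin n × Fin m))) (Sum.inl Nb)
    (fun i => Sum.inl (R i)) (fun j => Sum.inl (C j)) (fun k s l => Sum.inr (k, s, l)) i0 j0)

end AnnealCost

/-- The first stage is a circuit. -/
theorem annealSelR_cost : ∃ e, ∀ {m n X W Tm K S : ℕ} {ι : Type} (_ : 1000 ≤ X) (_ : m ≤ X) (_ : n ≤ X)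
    (_ : W ≤ X) (_ : Tm ≤ X ^ 4) (_ : K ≤ X ^ 40) (_ : S ≤ X ^ 80) (R : Fin m → ι) (C : Fin n → ι)
    (Ωw : AnnealW n m W K S → ι),
    P1 X e (fun x => annealSelR W Tm K S (fun i => x (R i)) (fun j => x (C j)) fun a => x (Ωw a)) := by
  classical
  obtain ⟨e1, hf⟩ := AnnealCost.annealFixed_cost
  refine ⟨?e, fun {m n X W Tm K S ι} hX hm hn hW hTm hK hS R C Ωw => ?_⟩
  swap
  have hNb : PC X (0 + 1 + 6) (fun (x : ι → ℝ) (_ : Unit) => ∑ i, x (R i)) :=
    (P1.sumFin hm fun i => P1.var (R i) : P1 X (0 + 1 + 6) (fun x : ι → ℝ => ∑ i, x (R i)))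
  have hfix : ∀ (i0 : Fin m) (j0 : Fin n), P1 X _ (fun x =>
      annealHatOf W Tm K S (∑ i, x (R i)) i0 j0 (fun i => x (R i)) (fun j => x (C j))
        (annealChains W Tm K S (∑ i, x (R i)) i0 j0 (fun i => x (R i)) (fun j => x (C j)) fun a => x (Ωw a))) :=
    fun i0 j0 => P1.bind hNb (hf hX hm hn hW hTm hK hS (Sum.inr ()) (fun i => Sum.inl (R i))
      (fun j => Sum.inl (C j)) (fun a => Sum.inl (Ωw a)) i0 j0)
  have hA := DownCost.argFirst_cost (a := 0) (v := fun i (x : ι → ℝ) => x (R i)) hX hm fun i => P1.var (R i)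
  have hB := DownCost.argFirst_cost (a := 0) (v := fun j (x : ι → ℝ) => x (C j)) hX hn fun j => P1.var (C j)
  have hcast : ∀ {K : ℕ} (hK : K ≤ X) (k : Fin K), P1 (ι := ι) X 6 (fun _ => ((k : ℕ) : ℝ)) :=
    fun hK k => P1.natLe (k.2.le.trans hK)
  refine (P1.sumFin hm fun i0 => P1.sumFin hn fun j0 =>
    P1.iteEq hA (hcast hm i0) (P1.iteEq hB (hcast hn j0) (hfix i0 j0) P1.zero) P1.zero).congr fun x => ?_
  unfold annealSelR
  rfl

end Vale.Agent.Lib.P328.RAM
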