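import Vale.Agent.Lib.P328.Fpras.Binom

/-!
# P328: a tail bound for binomial laws, with the variance (module B2)

For `|θ| ≤ 1`: `E exp (θ (X - R p)) = ∏ ... ≤ exp (θ² V)`, `V = R p (1 - p)`: one factor is
`1 - p + p exp θ) exp (-θ p) ≤ 1 + θ² p (1 - p)`, from `exp x ≤ 1 + x + x²` for `|x| ≤ 1`, applied to `x = θ (1 - p)`
and `x = -θ p`; the sum over `v` of `bw R p v * t ^ v` is `sum_bw_mul_pow`. Markov with
`θ = min 1 (s / (2 V))`: `exp (θ² V - θ s) ≤ exp (-L)` for `s ≥ 2 √(V L) + 2 L`. The other side with `-θ`.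
-/

namespace Vale.Agent.Lib.P328.RAM

open Finset Vale.Agent.Lib.P328.Cap Vale.Agent.Lib.P328.Fpras

namespace BinTailAux

lemma exp_le_quad {x : ℝ} (hx : |x| ≤ 1) : Real.exp x ≤ 1 + x + x ^ 2 := by
  have := Real.abs_exp_sub_one_sub_id_le hx
  have h2 := (abs_le.mp this).2
  linarith

lemma factor_le {p τ : ℝ} (h0 : 0 ≤ p) (h1 : p ≤ 1) (hτ : |τ| ≤ 1) :
    (1 + (Real.exp τ - 1) * p) * Real.exp (-(τ * p)) ≤ Real.exp (τ ^ 2 * (p * (1 - p))) := by
  have e : (1 + (Real.exp τ - 1) * p) * Real.exp (-(τ * p))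
      = (1 - p) * Real.exp (-(τ * p)) + p * Real.exp (τ * (1 - p)) := by
    have : Real.exp (τ * (1 - p)) = Real.exp τ * Real.exp (-(τ * p)) := by
      rw [← Real.exp_add]; congr 1; ring
    rw [this]; ring
  have a1 : |(-(τ * p))| ≤ 1 := by
    rw [abs_neg, abs_mul, abs_of_nonneg h0]
    calc |τ| * p ≤ 1 * 1 := mul_le_mul hτ h1 h0 (by norm_num)
      _ = 1 := by norm_num
  have a2 : |τ * (1 - p)| ≤ 1 := by
    rw [abs_mul, abs_of_nonneg (by linarith : (0 : ℝ) ≤ 1 - p)]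
    calc |τ| * (1 - p) ≤ 1 * 1 := mul_le_mul hτ (by linarith) (by linarith) (by norm_num)
      _ = 1 := by norm_num
  have b1 := mul_le_mul_of_nonneg_left (exp_le_quad a1) (by linarith : (0 : ℝ) ≤ 1 - p)
  have b2 := mul_le_mul_of_nonneg_left (exp_le_quad a2) h0
  have c := Real.add_one_le_exp (τ ^ 2 * (p * (1 - p)))
  rw [e]
  nlinarith

/-- The moment generating function. -/
lemma mgf_le (R : ℕ) {p τ : ℝ} (h0 : 0 ≤ p) (h1 : p ≤ 1) (hτ : |τ| ≤ 1) :
    ∑ v ∈ range (R + 1), bw R p v * Real.exp (τ * ((v : ℝ) - R * p))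
      ≤ Real.exp (τ ^ 2 * ((R : ℝ) * p * (1 - p))) := by
  have e : ∑ v ∈ range (R + 1), bw R p v * Real.exp (τ * ((v : ℝ) - R * p))
      = ((1 + (Real.exp τ - 1) * p) * Real.exp (-(τ * p))) ^ R := by
    have h2 : ∀ v : ℕ, bw R p v * Real.exp (τ * ((v : ℝ) - R * p))
        = (bw R p v * Real.exp τ ^ v) * Real.exp (-(τ * p)) ^ R := by
      intro v
      rw [← Real.exp_nat_mul, ← Real.exp_nat_mul, mul_assoc, ← Real.exp_add]
      congr 2
      ring
    simp_rw [h2]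
    rw [← sum_mul, sum_bw_mul_pow, mul_pow]
  rw [e]
  have hnn : 0 ≤ (1 + (Real.exp τ - 1) * p) * Real.exp (-(τ * p)) := by
    apply mul_nonneg _ (Real.exp_pos _).le
    have := Real.exp_pos τ
    nlinarith
  calc _ ≤ Real.exp (τ ^ 2 * (p * (1 - p))) ^ R := pow_le_pow_left₀ hnn (factor_le h0 h1 hτ) R
    _ = _ := by
      rw [← Real.exp_nat_mul]
      congr 1
      ring

/-- The Markov step. -/
lemma tail_exp (R : ℕ) {p τ : ℝ} (h0 : 0 ≤ p) (h1 : p ≤ 1) (hτ : |τ| ≤ 1) (c : ℝ) :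
    ∑ v ∈ (range (R + 1)).filter (fun v : ℕ => c ≤ τ * ((v : ℝ) - R * p)), bw R p v
      ≤ Real.exp (τ ^ 2 * ((R : ℝ) * p * (1 - p)) - c) := by
  have hbw := bw_nonneg (R := R) h0 h1
  have hstep : ∑ v ∈ (range (R + 1)).filter (fun v : ℕ => c ≤ τ * ((v : ℝ) - R * p)), bw R p v
      ≤ ∑ v ∈ range (R + 1), (bw R p v * Real.exp (τ * ((v : ℝ) - R * p))) * Real.exp (-c) := by
    calc _ ≤ ∑ v ∈ (range (R + 1)).filter (fun v : ℕ => c ≤ τ * ((v : ℝ) - R * p)),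
            (bw R p v * Real.exp (τ * ((v : ℝ) - R * p))) * Real.exp (-c) := by
          refine sum_le_sum fun v hv => ?_
          have hv' := (mem_filter.mp hv).2
          rw [mul_assoc, ← Real.exp_add]
          have : 1 ≤ Real.exp (τ * ((v : ℝ) - R * p) + -c) :=
            Real.one_le_exp (by linarith)
          nlinarith [hbw v]
      _ ≤ _ := sum_le_sum_of_subset_of_nonneg (filter_subset _ _) fun v _ _ =>
          mul_nonneg (mul_nonneg (hbw v) (Real.exp_pos _).le) (Real.exp_pos _).le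
  refine hstep.trans ?_
  rw [← sum_mul, sub_eq_add_neg, Real.exp_add]
  exact mul_le_mul_of_nonneg_right (mgf_le R h0 h1 hτ) (Real.exp_pos _).le

/-- The choice of the parameter. -/
lemma exists_theta {V L s : ℝ} (hV : 0 ≤ V) (hL : 1 ≤ L)
    (hs : 2 * Real.sqrt (V * L) + 2 * L ≤ s) :
    ∃ θ : ℝ, 0 < θ ∧ θ ≤ 1 ∧ θ ^ 2 * V - θ * s ≤ -L := by
  have hsq : 0 ≤ Real.sqrt (V * L) := Real.sqrt_nonneg _
  have hss : Real.sqrt (V * L) ^ 2 = V * L := Real.sq_sqrt (by positivity)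
  have hs0 : 0 < s := by linarith
  by_cases hc : 2 * V ≤ s
  · refine ⟨1, one_pos, le_rfl, ?_⟩
    nlinarith
  · rw [not_le] at hc
    have hVpos : 0 < V := by linarith
    refine ⟨s / (2 * V), by positivity, ?_, ?_⟩
    · rw [div_le_one (by positivity)]
      exact hc.le
    · have e : (s / (2 * V)) ^ 2 * V - s / (2 * V) * s = -(s ^ 2 / (4 * V)) := by
        field_simp
        ring
      rw [e, neg_le_neg_iff, le_div_iff₀ (by positivity)]
      have : 2 * Real.sqrt (V * L) ≤ s := by linarith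
      have h2 : (2 * Real.sqrt (V * L)) ^ 2 ≤ s ^ 2 := pow_le_pow_left₀ (by positivity) this 2
      nlinarith

end BinTailAux

open BinTailAux

/-- The mass of the binomial law at distance at least `2 √(V L) + 2 L` from the mean is at most
`2 exp (-L)`. -/
theorem bw_tail (R : ℕ) {p : ℝ} (h0 : 0 ≤ p) (h1 : p ≤ 1) {L : ℝ} (hL : 1 ≤ L) :
    ∑ v ∈ (range (R + 1)).filter (fun v : ℕ =>
        2 * Real.sqrt ((R : ℝ) * p * (1 - p) * L) + 2 * L ≤ |(v : ℝ) - R * p|), bw R p v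
      ≤ 2 * Real.exp (-L) := by
  classical
  have hbw := bw_nonneg (R := R) h0 h1
  set V : ℝ := (R : ℝ) * p * (1 - p) with hVdef
  have hV : 0 ≤ V := by
    have : (0 : ℝ) ≤ 1 - p := by linarith
    positivity
  set s : ℝ := 2 * Real.sqrt (V * L) + 2 * L with hsdef
  obtain ⟨θ, hθ0, hθ1, hθ⟩ := exists_theta hV hL (le_of_eq hsdef.symm)
  have hτ1 : |θ| ≤ 1 := by rw [abs_of_pos hθ0]; exact hθ1
  have hτ2 : |(-θ)| ≤ 1 := by rw [abs_neg]; exact hτ1
  have t1 := tail_exp R h0 h1 hτ1 (θ * s)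
  have t2 := tail_exp R h0 h1 hτ2 (θ * s)
  rw [← hVdef] at t1 t2
  have e1 : Real.exp (θ ^ 2 * V - θ * s) ≤ Real.exp (-L) := Real.exp_le_exp.mpr hθ
  have e2 : Real.exp ((-θ) ^ 2 * V - θ * s) ≤ Real.exp (-L) := by
    apply Real.exp_le_exp.mpr
    rw [neg_sq]
    exact hθ
  set F1 := (range (R + 1)).filter (fun v : ℕ => θ * s ≤ θ * ((v : ℝ) - R * p)) with hF1
  set F2 := (range (R + 1)).filter (fun v : ℕ => θ * s ≤ -θ * ((v : ℝ) - R * p)) with hF2
  have hsub : (range (R + 1)).filter (fun v : ℕ => s ≤ |(v : ℝ) - R * p|) ⊆ F1 ∪ F2 := by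
    intro v hv
    rw [mem_filter] at hv
    rw [mem_union, hF1, hF2, mem_filter, mem_filter]
    rcases le_abs.mp hv.2 with h | h
    · exact Or.inl ⟨hv.1, mul_le_mul_of_nonneg_left h hθ0.le⟩
    · refine Or.inr ⟨hv.1, ?_⟩
      have := mul_le_mul_of_nonneg_left h hθ0.le
      linarith
  calc _ ≤ ∑ v ∈ F1 ∪ F2, bw R p v :=
        sum_le_sum_of_subset_of_nonneg hsub fun v _ _ => hbw v
    _ ≤ ∑ v ∈ F1, bw R p v + ∑ v ∈ F2, bw R p v := by
        have := sum_union_inter (s₁ := F1) (s₂ := F2) (f := fun v => bw R p v)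
        have h3 : 0 ≤ ∑ v ∈ F1 ∩ F2, bw R p v := sum_nonneg fun v _ => hbw v
        linarith
    _ ≤ 2 * Real.exp (-L) := by linarith

end Vale.Agent.Lib.P328.RAM
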