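import Vale.Agent.Lib.P328.RAM.RunCost

/-!
# P328: the integer part by comparisons (module B1)

There is no floor gate. For `0 ≤ y < 2 ^ K`, `floorR K y` is the integer part of `y`, found bit by bit from
the top with `K` comparisons.
-/

namespace Vale.Agent.Lib.P328.RAM

/-- The bits `b - 1, ..., 0` added to `st` as long as the sum stays at most `y`. -/
noncomputable def floorAux (y : ℝ) : ℕ → ℝ → ℝ
  | 0, st => st
  | b + 1, st => floorAux y b (if st + 2 ^ b ≤ y then st + 2 ^ b else st)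

/-- The integer part of `y`, for `0 ≤ y < 2 ^ K`. -/
noncomputable def floorR (K : ℕ) (y : ℝ) : ℝ := floorAux y K 0

/-- The invariant of the descent: the integer part lies in `[st, st + 2 ^ b)`. -/
theorem floorAux_eq {y : ℝ} (b n : ℕ) (h0 : (n : ℝ) ≤ y) (h1 : y < (n : ℝ) + 2 ^ b) :
    floorAux y b (n : ℝ) = (⌊y⌋₊ : ℝ) := by
  induction b generalizing n with
  | zero =>
    have hy : 0 ≤ y := le_trans (Nat.cast_nonneg n) h0
    have hf : ⌊y⌋₊ = n := by
      rw [Nat.floor_eq_iff hy]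
      exact ⟨h0, by simpa using h1⟩
    simp [floorAux, hf]
  | succ b ih =>
    have e2 : (2:ℝ) ^ (b + 1) = 2 ^ b + 2 ^ b := by ring
    rw [floorAux]
    by_cases hc : (n : ℝ) + 2 ^ b ≤ y
    · rw [if_pos hc]
      have hcast : (n : ℝ) + 2 ^ b = ((n + 2 ^ b : ℕ) : ℝ) := by push_cast; ring
      rw [hcast]
      apply ih
      · rw [← hcast]; exact hc
      · rw [← hcast]; linarith
    · rw [if_neg hc]
      apply ih _ h0
      linarith

theorem floorR_eq {K : ℕ} {y : ℝ} (h0 : 0 ≤ y) (h1 : y < 2 ^ K) : floorR K y = (⌊y⌋₊ : ℝ) := by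
  unfold floorR
  have := floorAux_eq (y := y) K 0 (by simpa using h0) (by simpa using h1)
  simpa using this

/-- The step of the loop computing `floorR`. -/
noncomputable def floorStep {ι : Type} (K : ℕ) (Y : ι) (k : ℕ) (x : ι → ℝ) (st : Unit → ℝ) : Unit → ℝ :=
  fun _ => if st () + 2 ^ (K - 1 - k) ≤ x Y then st () + 2 ^ (K - 1 - k) else st ()

theorem floorAux_loopI {ι : Type} (K : ℕ) (Y : ι) (x : ι → ℝ) (k : ℕ) (hk : k ≤ K) :
    floorAux (x Y) (K - k) (loopI (floorStep K Y) (fun _ _ => 0) x k ()) = floorAux (x Y) K 0 := by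
  induction k with
  | zero => simp [loopI]
  | succ k ih =>
    have h1 := ih (by omega)
    rw [← h1]
    have e : K - k = (K - (k + 1)) + 1 := by omega
    rw [e, floorAux]
    have e2 : K - 1 - k = K - (k + 1) := by omega
    simp only [loopI, floorStep, e2]

theorem floorR_eq_loopI {ι : Type} (K : ℕ) (Y : ι) (x : ι → ℝ) :
    floorR K (x Y) = loopI (floorStep K Y) (fun _ _ => 0) x K () := by
  have h := floorAux_loopI K Y x K le_rfl
  simp only [Nat.sub_self, floorAux] at h
  rw [h]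
  rfl

theorem floorR_cost : ∃ e, ∀ {X K : ℕ} {ι : Type} (_ : 1000 ≤ X) (_ : K ≤ X) (Y : ι),
    P1 X e (fun x => floorR K (x Y)) := by
  refine ⟨24, fun {X K ι} _ hK Y => ?_⟩
  have hstep : ∀ k, k < K → PC X 19 (fun y : (ι ⊕ Unit) → ℝ =>
      floorStep K Y k (fun i => y (Sum.inl i)) fun j => y (Sum.inr j)) := by
    intro k _
    have hb : K - 1 - k ≤ X ^ 1 := by
      rw [pow_one]; omega
    have h2 : P1 (ι := ι ⊕ Unit) X 6 (fun _ => (2:ℝ) ^ (K - 1 - k)) :=
      (((P1.one (X := X)).add P1.one).congr (fun _ => by norm_num) : P1 X 2 (fun _ => (2:ℝ))).pow hb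
    have hst : P1 (ι := ι ⊕ Unit) X 0 (fun y => y (Sum.inr ())) := P1.var _
    have hY : P1 (ι := ι ⊕ Unit) X 0 (fun y => y (Sum.inl Y)) := P1.var _
    have := P1.ite (hst.add h2) hY (hst.add h2) hst
    exact this
  have hinit : PC X 3 (fun (_ : ι → ℝ) (_ : Unit) => (0:ℝ)) := P1.zero
  have hT : K ≤ X ^ 1 := by rwa [pow_one]
  have := PC.loopI hstep hinit hT
  exact PC.congr (g := fun x (_ : Unit) => floorR K (x Y)) this (fun x _ => floorR_eq_loopI K Y x)

end Vale.Agent.Lib.P328.RAM
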