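import Vale.Agent.Lib.P328.RAM.RunCost

/-!
# P328: repeated attempts (module B3)

State: `-1` as long as no attempt succeeded, afterwards the value found. One attempt `att` returns `-1`
or a value in the finite set `S` of nonnegative numbers. Induction on `J` with `Pr_runSeq`.
-/

namespace Vale.Agent.Lib.P328.RAM

open Finset

variable {Ω : Type} [Fintype Ω]

/-- One round of the repeated attempts. -/
noncomputable def rejStep (att : (Ω → ℝ) → ℝ) (st : Unit → ℝ) (ω : Ω → ℝ) : Unit → ℝ :=
  fun _ => if 0 ≤ st () then st () else att ω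

/-- The law after `J` rounds. -/
theorem reject_law {att : (Ω → ℝ) → ℝ} (hm : Measurable att) {S : Finset ℝ} (hS : ∀ y ∈ S, 0 ≤ y)
    (hatt : ∀ ω ∈ Cube Ω, att ω = -1 ∨ att ω ∈ S) (J : ℕ) {y : ℝ} (hy : y ∈ S) :
    Pr (fun ω => runSeq (rejStep att) (fun _ => -1) J ω () = y)
      = Pr (fun ω => att ω = y) * ∑ t ∈ range J, (1 - ∑ z ∈ S, Pr fun ω => att ω = z) ^ t := by
  classical
  have hne1 : ∀ z ∈ S, z ≠ -1 := fun z hz h => by
    have := hS z hz
    rw [h] at this
    norm_num at this
  have hconst : Function.Injective (fun z : ℝ => (fun _ : Unit => z)) := fun a b h => congrFun h ()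
  -- the step is measurable
  have hstep : Measurable fun p : (Unit → ℝ) × (Ω → ℝ) => rejStep att p.1 p.2 := by
    refine measurable_pi_iff.2 fun _ => ?_
    refine Measurable.ite ?_ ?_ ?_
    · exact measurableSet_le measurable_const
        ((measurable_pi_apply ()).comp measurable_fst)
    · exact (measurable_pi_apply ()).comp measurable_fst
    · exact hm.comp measurable_snd
  -- the finite set of states
  set S' : Finset (Unit → ℝ) := insert (fun _ => -1) (S.image fun z => fun _ => z) with hS'
  have hnotin : (fun _ : Unit => (-1:ℝ)) ∉ S.image (fun z : ℝ => fun _ : Unit => z) := by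
    intro h
    obtain ⟨z, hz, hze⟩ := Finset.mem_image.1 h
    exact hne1 z hz (congrFun hze ())
  have hx0 : (fun _ : Unit => (-1:ℝ)) ∈ S' := Finset.mem_insert_self _ _
  have hSS : ∀ x ∈ S', ∀ ω ∈ Cube Ω, rejStep att x ω ∈ S' := by
    intro x hx ω hω
    rcases Finset.mem_insert.1 hx with rfl | hx
    · have : rejStep att (fun _ => -1) ω = fun _ => att ω := by
        funext u
        simp [rejStep]
      rw [this]
      rcases hatt ω hω with h | h
      · rw [h]; exact hx0
      · exact Finset.mem_insert_of_mem (Finset.mem_image_of_mem _ h)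
    · obtain ⟨z, hz, rfl⟩ := Finset.mem_image.1 hx
      have : rejStep att (fun _ => z) ω = fun _ => z := by
        funext u
        simp [rejStep, hS z hz]
      rw [this]
      exact Finset.mem_insert_of_mem (Finset.mem_image_of_mem _ hz)
  -- one step from a final state and from the initial state
  have hfinal : ∀ z ∈ S, ∀ w : ℝ,
      Pr (fun ω : Ω → ℝ => rejStep att (fun _ => z) ω = fun _ => w) = if z = w then 1 else 0 := by
    intro z hz w
    have e : ∀ ω : Ω → ℝ, rejStep att (fun _ => z) ω = fun _ => z := by
      intro ω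
      funext u
      simp [rejStep, hS z hz]
    by_cases hzw : z = w
    · rw [if_pos hzw, ← Pr_true (Ω := Ω)]
      refine Pr_congr fun ω _ => ?_
      rw [e, hzw]
      simp
    · rw [if_neg hzw, ← Pr_false (Ω := Ω)]
      refine Pr_congr fun ω _ => ?_
      rw [e]
      simp only [iff_false]
      intro h
      exact hzw (congrFun h ())
  have hstart : ∀ w : ℝ,
      Pr (fun ω : Ω → ℝ => rejStep att (fun _ => -1) ω = fun _ => w) = Pr (fun ω => att ω = w) := by
    intro w
    refine Pr_congr fun ω _ => ?_
    have e : rejStep att (fun _ => -1) ω = fun _ => att ω := by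
      funext u
      simp [rejStep]
    rw [e]
    exact ⟨fun h => congrFun h (), fun h => by rw [h]⟩
  -- the sum over states
  have hsum : ∀ (J : ℕ) (w : ℝ), Pr (fun ω => runSeq (rejStep att) (fun _ => -1) (J + 1) ω = fun _ => w)
      = Pr (fun ω => runSeq (rejStep att) (fun _ => -1) J ω = fun _ => (-1:ℝ)) * Pr (fun ω => att ω = w)
        + ∑ z ∈ S, Pr (fun ω => runSeq (rejStep att) (fun _ => -1) J ω = fun _ => z)
            * (if z = w then 1 else 0) := by
    intro J w
    rw [Pr_runSeq hstep hx0 hSS J, hS', Finset.sum_insert hnotin, hstart,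
      Finset.sum_image (fun a _ b _ h => hconst h)]
    congr 1
    refine Finset.sum_congr rfl fun z hz => ?_
    rw [hfinal z hz]
  -- the failure probability
  have htotal : Pr (fun ω => att ω = -1) = 1 - ∑ z ∈ S, Pr fun ω => att ω = z := by
    have h1 := Pr_total (Ω := Ω) att (insert (-1) S)
      (fun a _ => hm (measurableSet_singleton a))
      (fun ω hω => by
        rcases hatt ω hω with h | h
        · rw [h]; exact Finset.mem_insert_self _ _
        · exact Finset.mem_insert_of_mem h)
    rw [Finset.sum_insert (fun h => hne1 _ h rfl)] at h1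
    linarith
  set q : ℝ := 1 - ∑ z ∈ S, Pr fun ω => att ω = z with hq
  have hfail : ∀ J : ℕ, Pr (fun ω => runSeq (rejStep att) (fun _ => -1) J ω = fun _ => (-1:ℝ)) = q ^ J := by
    intro J
    induction J with
    | zero =>
      rw [Pr_runSeq_zero]
      simp
    | succ J ih =>
      rw [hsum, ih, htotal, pow_succ]
      have : ∑ z ∈ S, Pr (fun ω => runSeq (rejStep att) (fun _ => -1) J ω = fun _ => z)
            * (if z = (-1:ℝ) then (1:ℝ) else 0) = 0 := by
        refine Finset.sum_eq_zero fun z hz => ?_
        rw [if_neg (hne1 z hz), mul_zero]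
      rw [this, add_zero]
  have hlaw : ∀ J : ℕ, Pr (fun ω => runSeq (rejStep att) (fun _ => -1) J ω = fun _ => y)
      = Pr (fun ω => att ω = y) * ∑ t ∈ range J, q ^ t := by
    intro J
    induction J with
    | zero =>
      rw [Pr_runSeq_zero, if_neg]
      · simp
      · intro h
        exact hne1 y hy (congrFun h ())
    | succ J ih =>
      rw [hsum, hfail, Finset.sum_eq_single y]
      · rw [ih, Finset.sum_range_succ, if_pos rfl]
        ring
      · intro z _ hzy
        rw [if_neg hzy, mul_zero]
      · intro h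
        exact absurd hy h
  rw [← hlaw J]
  refine Pr_congr fun ω _ => ?_
  exact ⟨fun h => funext fun u => h, fun h => congrFun h ()⟩

/-- The values after `J` rounds. -/
theorem reject_mem {att : (Ω → ℝ) → ℝ} {S : Finset ℝ} (hatt : ∀ ω ∈ Cube Ω, att ω = -1 ∨ att ω ∈ S)
    (hS : ∀ y ∈ S, 0 ≤ y) (J : ℕ) :
    ∀ ω ∈ Cube (Fin J × Ω), runSeq (rejStep att) (fun _ => -1) J ω () = -1
      ∨ runSeq (rejStep att) (fun _ => -1) J ω () ∈ S := by
  induction J with
  | zero =>
    intro ω _
    exact Or.inl rfl
  | succ J ih =>
    intro ω hω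
    have h1 := ih (fun p => ω (p.1.castSucc, p.2)) (fun p => hω _)
    have hlast : (fun a => ω (Fin.last J, a)) ∈ Cube Ω := fun a => hω _
    simp only [runSeq, rejStep]
    by_cases hc : 0 ≤ runSeq (rejStep att) (fun _ => -1) J (fun p => ω (p.1.castSucc, p.2)) ()
    · rw [if_pos hc]
      exact h1
    · rw [if_neg hc]
      exact hatt _ hlast

end Vale.Agent.Lib.P328.RAM
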