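import Vale.Agent.Lib.P328.RAM.Fact
import Vale.Agent.Lib.P328.RAM.Floor
import Vale.Agent.Lib.P328.RAM.BinTail
import Vale.Agent.Lib.P328.RAM.Reject

/-!
# P328: a sampler for binomial laws from uniform draws (module B4)

Parameters: natural `R`, `0 < p ≤ 1`. If `p = 1` the value is `R`. Otherwise `V = R p (1 - p)`,
`A = ⌊2 √(V W) + 2 W⌋ + 2`, `C = ⌊R p⌋`. One attempt: `y = C - A + ⌊ω₀ (2 A + 1)⌋`, uniform on the
window of `2 A + 1` integers; reject unless `0 ≤ y ≤ R` and `ω₁ * (2 * bUp V) ≤ bwHat W R p y`. Here `bUp V`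
is `1` if `V ≤ 1`, else `1 / √V`: `bw R p y ≤ bUp V` by `bw_sqrt_le`, so `bwHat / (2 bUp) ≤ 1`.
`J = binJ W = 52 W²` attempts.

Law of one attempt: for `y` in the window `G` and in `[0, R]`: `q y = κ bwHat y`, `κ = 1 / (2 (2 A + 1) bUp V)`,
`κ ≥ 1 / (26 W)`: if `V ≤ 1` then `A ≤ 2 √W + 2 W + 2 ≤ 6 W`; if `V > 1` then `A ≤ 6 W √V`.
Mass in `G`: outside the window `|y - R p| ≥ A - 1 ≥ 2 √(V W) + 2 W`, so `bw_tail` gives `∑_G bw ≥ 1 - 2 exp (-W)`.
So `a = ∑_G q ≥ κ / 2` and `(1 - a) ^ J ≤ exp (-W)`.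
`reject_law`: `Pr (value = y) = κ bwHat y ∑_{t < J} (1 - a) ^ t = bwHat y (1 - (1 - a) ^ J) / ∑_G bwHat`.
Compare with `bw` using `bwHat_close`: total `ℓ¹` distance at most `1 / W ^ 29`.

Bounds for the integer parts: `2 R + 6 W + 8 ≤ 2 ^ Kb`.
-/

namespace Vale.Agent.Lib.P328.RAM

open Finset Vale.Agent.Lib.P328.Cap Vale.Agent.Lib.P328.Fpras

/-- The variance. -/
noncomputable def binV (R p : ℝ) : ℝ := R * p * (1 - p)

/-- An upper bound for the binomial weights. -/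
noncomputable def bUp (V : ℝ) : ℝ := if V ≤ 1 then 1 else (Real.sqrt V)⁻¹

/-- The half width of the window. -/
noncomputable def winA (W Kb : ℕ) (R p : ℝ) : ℝ :=
  floorR Kb (2 * Real.sqrt (binV R p * W) + 2 * W) + 2

/-- The centre of the window. -/
noncomputable def winC (Kb : ℕ) (R p : ℝ) : ℝ := floorR Kb (R * p)

/-- One attempt: the value or `-1`. -/
noncomputable def binTry (W Kb : ℕ) (R p : ℝ) (ω : Fin 2 → ℝ) : ℝ :=
  let A := winA W Kb R p
  let y := winC Kb R p - A + floorR Kb (ω 0 * (2 * A + 1))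
  if 0 ≤ y ∧ y ≤ R ∧ ω 1 * (2 * bUp (binV R p)) ≤ bwHat W R p y then y else -1

/-- The number of attempts. -/
def binJ (W : ℕ) : ℕ := 52 * W ^ 2

/-- The random wires of the sampler. -/
abbrev BinW (W : ℕ) : Type := Fin (binJ W) × Fin 2

/-- The sampler: the value found, or `-1`. -/
noncomputable def binSampleR (W Kb : ℕ) (R p : ℝ) (ω : BinW W → ℝ) : ℝ :=
  if 1 ≤ p then R else runSeq (rejStep (binTry W Kb R p)) (fun _ => -1) (binJ W) ω ()

namespace BinAux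

/-- The real half width. -/
noncomputable def winS (W : ℕ) (R p : ℝ) : ℝ := 2 * Real.sqrt (binV R p * W) + 2 * W

/-- The natural half width. -/
noncomputable def AN (W : ℕ) (R p : ℝ) : ℕ := ⌊winS W R p⌋₊ + 2

/-- The natural centre. -/
noncomputable def CN (R p : ℝ) : ℕ := ⌊R * p⌋₊

/-- The number of points of the window. -/
noncomputable def MN (W : ℕ) (R p : ℝ) : ℕ := 2 * AN W R p + 1

section Window

variable {W Kb R : ℕ} {p : ℝ}

theorem binV_nonneg (h0 : 0 ≤ p) (h1 : p ≤ 1) : 0 ≤ binV (R : ℝ) p :=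
  mul_nonneg (mul_nonneg (Nat.cast_nonneg _) h0) (sub_nonneg.2 h1)

theorem binV_le (h0 : 0 ≤ p) (h1 : p ≤ 1) : binV (R : ℝ) p ≤ R / 4 := by
  unfold binV
  have hR : (0 : ℝ) ≤ R := Nat.cast_nonneg _
  nlinarith [mul_nonneg hR (sq_nonneg (p - 1 / 2))]

theorem winS_nonneg : 0 ≤ winS W (R : ℝ) p := by
  unfold winS
  have := Real.sqrt_nonneg (binV (R : ℝ) p * W)
  have hW : (0 : ℝ) ≤ W := Nat.cast_nonneg _
  linarith

theorem two_sqrt_le {V w : ℝ} (hV : 0 ≤ V) (hw : 0 ≤ w) : 2 * Real.sqrt (V * w) ≤ V + w := by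
  have h : Real.sqrt (V * w) ≤ (V + w) / 2 := by
    rw [Real.sqrt_le_left (by positivity)]
    nlinarith [sq_nonneg (V - w)]
  linarith

theorem winS_le (h0 : 0 ≤ p) (h1 : p ≤ 1) : winS W (R : ℝ) p ≤ R / 4 + 3 * W := by
  unfold winS
  have h2 := two_sqrt_le (binV_nonneg (R := R) h0 h1) (Nat.cast_nonneg (α := ℝ) W)
  have h3 := binV_le (R := R) h0 h1
  linarith

theorem pow_Kb (hKb : 2 * R + 6 * W + 8 ≤ 2 ^ Kb) : 2 * (R : ℝ) + 6 * W + 8 ≤ 2 ^ Kb := by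
  exact_mod_cast hKb

theorem winA_eq (hKb : 2 * R + 6 * W + 8 ≤ 2 ^ Kb) (h0 : 0 ≤ p) (h1 : p ≤ 1) :
    winA W Kb R p = (AN W R p : ℝ) := by
  have hK := pow_Kb hKb
  have hR : (0 : ℝ) ≤ R := Nat.cast_nonneg _
  have hW : (0 : ℝ) ≤ W := Nat.cast_nonneg _
  have h2 := winS_le (W := W) (R := R) h0 h1
  have h3 : winS W (R : ℝ) p < 2 ^ Kb := by linarith
  have h4 : floorR Kb (2 * Real.sqrt (binV R p * W) + 2 * W) = (⌊winS W (R : ℝ) p⌋₊ : ℝ) :=
    floorR_eq winS_nonneg h3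
  unfold winA AN
  rw [h4]
  push_cast
  ring

theorem winC_eq (hKb : 2 * R + 6 * W + 8 ≤ 2 ^ Kb) (h0 : 0 ≤ p) (h1 : p ≤ 1) :
    winC Kb R p = (CN R p : ℝ) := by
  have hK := pow_Kb hKb
  have hR : (0 : ℝ) ≤ R := Nat.cast_nonneg _
  have hW : (0 : ℝ) ≤ W := Nat.cast_nonneg _
  have h2 : (R : ℝ) * p ≤ R := by nlinarith
  exact floorR_eq (mul_nonneg hR h0) (by linarith)

theorem AN_le (h0 : 0 ≤ p) (h1 : p ≤ 1) : (AN W R p : ℝ) ≤ winS W R p + 2 := by
  unfold AN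
  have := Nat.floor_le (winS_nonneg (W := W) (R := R) (p := p))
  push_cast
  linarith

theorem AN_ge : winS W R p + 1 ≤ (AN W R p : ℝ) := by
  unfold AN
  have := Nat.lt_floor_add_one (winS W R p)
  push_cast
  linarith

theorem MN_pos : 0 < (MN W R p : ℝ) := by
  unfold MN
  positivity

theorem MN_lt (hKb : 2 * R + 6 * W + 8 ≤ 2 ^ Kb) (h0 : 0 ≤ p) (h1 : p ≤ 1) :
    (MN W R p : ℝ) < 2 ^ Kb := by
  have hK := pow_Kb hKb
  have hR : (0 : ℝ) ≤ R := Nat.cast_nonneg _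
  have hW : (0 : ℝ) ≤ W := Nat.cast_nonneg _
  have h2 := winS_le (W := W) (R := R) h0 h1
  have h3 := AN_le (W := W) (R := R) h0 h1
  unfold MN
  push_cast
  linarith

/-- The draw as a natural number. -/
theorem floor_draw_eq (hKb : 2 * R + 6 * W + 8 ≤ 2 ^ Kb) (h0 : 0 ≤ p) (h1 : p ≤ 1) {u : ℝ}
    (hu0 : 0 ≤ u) (hu1 : u ≤ 1) :
    floorR Kb (u * (2 * winA W Kb R p + 1)) = (⌊u * (MN W R p : ℝ)⌋₊ : ℝ) := by
  have hM : (2 * winA W Kb R p + 1) = (MN W R p : ℝ) := by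
    rw [winA_eq hKb h0 h1]
    unfold MN
    push_cast
    ring
  rw [hM]
  have hM0 := MN_pos (W := W) (R := R) (p := p)
  have hM1 := MN_lt hKb h0 h1
  refine floorR_eq (mul_nonneg hu0 hM0.le) ?_
  nlinarith

/-- The candidate value on the cube. -/
theorem cand_eq (hKb : 2 * R + 6 * W + 8 ≤ 2 ^ Kb) (h0 : 0 ≤ p) (h1 : p ≤ 1) {u : ℝ}
    (hu0 : 0 ≤ u) (hu1 : u ≤ 1) :
    winC Kb R p - winA W Kb R p + floorR Kb (u * (2 * winA W Kb R p + 1))
      = (CN R p : ℝ) - (AN W R p : ℝ) + (⌊u * (MN W R p : ℝ)⌋₊ : ℝ) := by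
  rw [floor_draw_eq hKb h0 h1 hu0 hu1, winA_eq hKb h0 h1, winC_eq hKb h0 h1]

/-- The event `att = y`. -/
theorem try_eq_iff (hKb : 2 * R + 6 * W + 8 ≤ 2 ^ Kb) (h0 : 0 ≤ p) (h1 : p ≤ 1) {y : ℕ} (hy : y ≤ R)
    {ω : Fin 2 → ℝ} (hω : ω ∈ Cube (Fin 2)) :
    binTry W Kb R p ω = y ↔ (⌊ω 0 * (MN W R p : ℝ)⌋₊ + CN R p = y + AN W R p ∧
      ω 1 * (2 * bUp (binV R p)) ≤ bwHat W R p y) := by
  have hc := cand_eq (W := W) (R := R) hKb h0 h1 (hω 0).1 (hω 0).2
  have hy' : (y : ℝ) ≤ R := by exact_mod_cast hy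
  have hiff : ((CN R p : ℝ) - (AN W R p : ℝ) + (⌊ω 0 * (MN W R p : ℝ)⌋₊ : ℝ) = y) ↔
      ⌊ω 0 * (MN W R p : ℝ)⌋₊ + CN R p = y + AN W R p := by
    constructor
    · intro h
      have : ((⌊ω 0 * (MN W R p : ℝ)⌋₊ + CN R p : ℕ) : ℝ) = ((y + AN W R p : ℕ) : ℝ) := by
        push_cast
        linarith
      exact_mod_cast this
    · intro h
      have : ((⌊ω 0 * (MN W R p : ℝ)⌋₊ + CN R p : ℕ) : ℝ) = ((y + AN W R p : ℕ) : ℝ) := by
        rw [h]
      push_cast at this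
      linarith
  unfold binTry
  simp only []
  rw [hc, ← hiff]
  constructor
  · intro h
    split_ifs at h with hcond
    · exact ⟨h, h ▸ hcond.2.2⟩
    · exfalso
      have : (0 : ℝ) ≤ y := Nat.cast_nonneg _
      linarith
  · rintro ⟨h2, h3⟩
    rw [h2]
    rw [if_pos ⟨Nat.cast_nonneg _, hy', h3⟩]

/-- The values of one attempt. -/
theorem try_mem (hKb : 2 * R + 6 * W + 8 ≤ 2 ^ Kb) (h0 : 0 ≤ p) (h1 : p ≤ 1)
    {ω : Fin 2 → ℝ} (hω : ω ∈ Cube (Fin 2)) :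
    binTry W Kb R p ω = -1 ∨ ∃ y : ℕ, y ≤ R ∧ binTry W Kb R p ω = y := by
  have hc := cand_eq (W := W) (R := R) hKb h0 h1 (hω 0).1 (hω 0).2
  unfold binTry
  simp only []
  rw [hc]
  split_ifs with hcond
  · right
    obtain ⟨h2, h3, _⟩ := hcond
    have h4 : AN W R p ≤ CN R p + ⌊ω 0 * (MN W R p : ℝ)⌋₊ := by
      have : ((AN W R p : ℕ) : ℝ) ≤ ((CN R p + ⌊ω 0 * (MN W R p : ℝ)⌋₊ : ℕ) : ℝ) := by
        push_cast
        linarith
      exact_mod_cast this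
    refine ⟨CN R p + ⌊ω 0 * (MN W R p : ℝ)⌋₊ - AN W R p, ?_, ?_⟩
    · have : ((CN R p + ⌊ω 0 * (MN W R p : ℝ)⌋₊ - AN W R p : ℕ) : ℝ) ≤ (R : ℝ) := by
        rw [Nat.cast_sub h4]
        push_cast
        linarith
      exact_mod_cast this
    · rw [Nat.cast_sub h4]
      push_cast
      ring
  · left
    rfl

end Window

end BinAux

namespace BinAux

section CostPart

theorem const_two {X : ℕ} {ι : Type} (hX : 1000 ≤ X) : P1 X 6 (fun _ : ι → ℝ => (2 : ℝ)) :=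
  (P1.natLe (N := 2) (by omega)).congr fun _ => by norm_num

/-- `floorR` after a circuit. -/
theorem floorR_comp : ∃ e, ∀ {X K a : ℕ} {ι : Type} {g : (ι → ℝ) → ℝ} (_ : 1000 ≤ X) (_ : K ≤ X)
    (_ : P1 X a g), P1 X (a + e + 2) (fun x => floorR K (g x)) := by
  obtain ⟨e, he⟩ := floorR_cost
  refine ⟨e, fun {X K a ι g} hX hK hg => ?_⟩
  have h1 : P1 X e (fun x : Unit → ℝ => floorR K (x ())) := he hX hK ()
  have h2 : PC X a (fun x (_ : Unit) => g x) := hg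
  exact P1.comp h2 h1

/-- `bwHat` after a circuit on the third argument. -/
theorem bwHat_comp : ∃ e, ∀ {X W a : ℕ} {ι : Type} {g : (ι → ℝ) → ℝ} (_ : 1000 ≤ X) (_ : W ≤ X)
    (R p : ι) (_ : P1 X a g), P1 X (a + e + 2) (fun x => bwHat W (x R) (x p) (g x)) := by
  obtain ⟨e, he⟩ := bwHat_cost
  refine ⟨e, fun {X W a ι g} hX hW R p hg => ?_⟩
  have h1 : P1 X e (fun x : (ι ⊕ Unit) → ℝ => bwHat W (x (Sum.inl R)) (x (Sum.inl p)) (x (Sum.inr ()))) :=
    he hX hW _ _ _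
  have h2 : PC X a (fun x (_ : Unit) => g x) := hg
  exact P1.bind h2 h1

theorem binV_cost : ∃ e, ∀ {X : ℕ} {ι : Type} (R p : ι), P1 X e (fun x => binV (x R) (x p)) :=
  ⟨_, fun R p => P1.mul (P1.mul (P1.var R) (P1.var p)) (P1.sub P1.one (P1.var p))⟩

theorem bUp_cost : ∃ e, ∀ {X : ℕ} {ι : Type} (R p : ι), P1 X e (fun x => bUp (binV (x R) (x p))) := by
  obtain ⟨e, he⟩ := binV_cost
  exact ⟨_, fun R p => P1.ite (he R p) P1.one P1.one (P1.inv (P1.sqrt (he R p)))⟩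

theorem winA_cost : ∃ e, ∀ {X W Kb : ℕ} {ι : Type} (_ : 1000 ≤ X) (_ : W ≤ X) (_ : Kb ≤ X) (R p : ι),
    P1 X e (fun x => winA W Kb (x R) (x p)) := by
  obtain ⟨e, he⟩ := binV_cost
  obtain ⟨f, hf⟩ := floorR_comp
  refine ⟨?e, fun {X W Kb ι} hX hW hK R p => ?_⟩
  swap
  unfold winA
  exact P1.add (hf hX hK (P1.add (P1.mul (const_two hX)
    (P1.sqrt (P1.mul (he R p) (P1.natLe hW)))) (P1.mul (const_two hX) (P1.natLe hW)))) (const_two hX)

theorem winC_cost : ∃ e, ∀ {X Kb : ℕ} {ι : Type} (_ : 1000 ≤ X) (_ : Kb ≤ X) (R p : ι),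
    P1 X e (fun x => winC Kb (x R) (x p)) := by
  obtain ⟨f, hf⟩ := floorR_comp
  refine ⟨?e, fun {X Kb ι} hX hK R p => ?_⟩
  swap
  unfold winC
  exact hf hX hK (P1.mul (P1.var R) (P1.var p))

/-- One attempt is a circuit. -/
theorem binTry_cost : ∃ e, ∀ {X W Kb : ℕ} {ι : Type} (_ : 1000 ≤ X) (_ : W ≤ X) (_ : Kb ≤ X)
    (R p : ι) (w : Fin 2 → ι), P1 X e (fun x => binTry W Kb (x R) (x p) fun a => x (w a)) := by
  obtain ⟨e1, h1⟩ := winA_cost
  obtain ⟨e2, h2⟩ := winC_cost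
  obtain ⟨e3, h3⟩ := floorR_comp
  obtain ⟨e4, h4⟩ := bwHat_comp
  obtain ⟨e5, h5⟩ := bUp_cost
  refine ⟨?e, fun {X W Kb ι} hX hW hK R p w => ?_⟩
  swap
  have hy := P1.add (P1.sub (h2 hX hK R p) (h1 hX hW hK R p))
    (h3 hX hK (P1.mul (P1.var (w 0)) (P1.add (P1.mul (const_two hX) (h1 hX hW hK R p)) P1.one)))
  have hh := h4 hX hW R p hy
  refine (P1.ite (P1.mul P1.one (P1.neg P1.one) |>.add P1.one) hy
    (P1.ite hy (P1.var R)
      (P1.ite (P1.mul (P1.var (w 1)) (P1.mul (const_two hX) (h5 R p))) hh hy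
        (P1.neg P1.one)) (P1.neg P1.one)) (P1.neg P1.one)).congr fun x => ?_
  unfold binTry
  simp only [mul_neg, mul_one, neg_add_cancel]
  split_ifs <;> first | rfl | (exfalso; tauto)

theorem measurable_binTry (W Kb : ℕ) (R p : ℝ) : Measurable (binTry W Kb R p) := by
  obtain ⟨e, he⟩ := binTry_cost
  have hX : 1000 ≤ 1000 + W + Kb := by omega
  have h1 := (he (W := W) (Kb := Kb) (ι := Fin 2 ⊕ Fin 2) hX (by omega) (by omega) (Sum.inl 0) (Sum.inl 1)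
    Sum.inr) (by omega)
  have h2 := (measurable_pi_apply ()).comp h1.measurable
  have h3 : Measurable (fun ω : Fin 2 → ℝ => (Sum.elim ![R, p] ω : Fin 2 ⊕ Fin 2 → ℝ)) := by
    refine measurable_pi_iff.2 fun k => ?_
    cases k with
    | inl k => exact measurable_const
    | inr k => exact measurable_pi_apply k
  exact h2.comp h3

end CostPart

end BinAux

/-- The sampler is a circuit. -/
theorem binSampleR_cost : ∃ e, ∀ {X W Kb : ℕ} {ι : Type} (_ : 1000 ≤ X) (_ : W ≤ X) (_ : Kb ≤ X)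
    (R p : ι) (Ωw : BinW W → ι), P1 X e (fun x => binSampleR W Kb (x R) (x p) fun a => x (Ωw a)) := by
  obtain ⟨e1, h1⟩ := BinAux.binTry_cost
  refine ⟨?e, fun {X W Kb ι} hX hW hK R p Ωw => ?_⟩
  swap
  have hstep : PC X _ (fun (y : (Fin 2 ⊕ (Unit ⊕ Fin 2)) → ℝ) =>
      (rejStep (binTry W Kb (y (Sum.inl 0)) (y (Sum.inl 1)))
        (fun k => y (Sum.inr (Sum.inl k))) (fun a => y (Sum.inr (Sum.inr a))))) :=
    P1.ite P1.zero (P1.var (Sum.inr (Sum.inl ()))) (P1.var (Sum.inr (Sum.inl ())))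
      (h1 hX hW hK (Sum.inl 0) (Sum.inl 1) fun a => Sum.inr (Sum.inr a))
  have hinit : PC X _ (fun (_ : Fin 2 → ℝ) (_ : Unit) => (-1 : ℝ)) :=
    (P1.neg (P1.one (X := X) (ι := Fin 2)) : P1 X 1 fun _ => (-1 : ℝ))
  have hT : binJ W ≤ X ^ 3 := by
    unfold binJ
    have h2 : W ^ 2 ≤ X ^ 2 := Nat.pow_le_pow_left hW 2
    have h3 : X ^ 3 = X * X ^ 2 := by ring
    rw [h3]
    exact Nat.mul_le_mul (by omega) h2
  have h2 := (PC.runSeq (stepF := fun (param : Fin 2 → ℝ) st ω =>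
      rejStep (binTry W Kb (param 0) (param 1)) st ω) hstep hinit hT).rewire
    (ι := ι) (Sum.elim ![R, p] Ωw)
  have h3 : P1 X _ (fun x : ι → ℝ => runSeq (rejStep (binTry W Kb (x R) (x p))) (fun _ => -1) (binJ W)
      (fun a => x (Ωw a)) ()) := h2
  exact P1.ite P1.one (P1.var p) (P1.var R) h3

namespace BinAux

section Analytic

theorem exp_bounds {θ δ : ℝ} (h : |θ| ≤ δ) (hδ : δ ≤ 1 / 2) :
    1 - δ ≤ Real.exp θ ∧ Real.exp θ ≤ 1 + 2 * δ := by
  have hδ0 : 0 ≤ δ := (abs_nonneg θ).trans h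
  obtain ⟨h1, h2⟩ := abs_le.1 h
  have h3 := Real.add_one_le_exp (-δ)
  have h4 : Real.exp (-δ) ≤ Real.exp θ := Real.exp_le_exp.2 h1
  have h5 : Real.exp θ ≤ Real.exp δ := Real.exp_le_exp.2 h2
  have h6 : Real.exp δ * Real.exp (-δ) = 1 := by
    rw [← Real.exp_add]
    simp
  have h7 : 0 < Real.exp δ := Real.exp_pos _
  refine ⟨by linarith, h5.trans ?_⟩
  by_contra hc
  push Not at hc
  have h8 : (1 + 2 * δ) * (1 - δ) < Real.exp δ * Real.exp (-δ) := by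
    have h9 : 0 < 1 - δ := by linarith
    calc (1 + 2 * δ) * (1 - δ) < Real.exp δ * (1 - δ) := mul_lt_mul_of_pos_right hc h9
      _ ≤ Real.exp δ * Real.exp (-δ) := mul_le_mul_of_nonneg_left (by linarith) h7.le
  rw [h6] at h8
  nlinarith

variable {s G : Finset ℕ} {b h : ℕ → ℝ} {δ ε d B c : ℝ}

theorem T_bounds (hG : G ⊆ s) (hb : ∀ i ∈ s, 0 ≤ b i) (hsum : ∑ i ∈ s, b i = 1)
    (hh : ∀ i ∈ s, ∃ θ, |θ| ≤ δ ∧ h i = b i * Real.exp θ) (hδ : δ ≤ 1 / 2) (hδ0 : 0 ≤ δ)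
    (hout : ∑ i ∈ s \ G, b i ≤ 2 * ε) :
    (1 - δ) * (1 - 2 * ε) ≤ ∑ i ∈ G, h i ∧ ∑ i ∈ G, h i ≤ 1 + 2 * δ := by
  have h1 := Finset.sum_sdiff (f := b) hG
  have h2 : 0 ≤ ∑ i ∈ s \ G, b i :=
    Finset.sum_nonneg fun i hi => hb i (Finset.sdiff_subset hi)
  have h3 : ∑ i ∈ G, b i ≤ 1 := by linarith
  have h4 : 1 - 2 * ε ≤ ∑ i ∈ G, b i := by linarith
  constructor
  · calc (1 - δ) * (1 - 2 * ε) ≤ (1 - δ) * ∑ i ∈ G, b i :=
          mul_le_mul_of_nonneg_left h4 (by linarith)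
      _ = ∑ i ∈ G, (1 - δ) * b i := Finset.mul_sum _ _ _
      _ ≤ ∑ i ∈ G, h i := by
          refine Finset.sum_le_sum fun i hi => ?_
          obtain ⟨θ, h5, h6⟩ := hh i (hG hi)
          rw [h6]
          have h7 := (exp_bounds h5 hδ).1
          have h8 := hb i (hG hi)
          nlinarith
  · calc ∑ i ∈ G, h i ≤ ∑ i ∈ G, (1 + 2 * δ) * b i := by
          refine Finset.sum_le_sum fun i hi => ?_
          obtain ⟨θ, h5, h6⟩ := hh i (hG hi)
          rw [h6]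
          have h7 := (exp_bounds h5 hδ).2
          have h8 := hb i (hG hi)
          nlinarith
      _ = (1 + 2 * δ) * ∑ i ∈ G, b i := (Finset.mul_sum _ _ _).symm
      _ ≤ (1 + 2 * δ) * 1 := mul_le_mul_of_nonneg_left h3 (by linarith)
      _ = 1 + 2 * δ := by ring

theorem sum_close (hG : G ⊆ s) (hb : ∀ i ∈ s, 0 ≤ b i) (hsum : ∑ i ∈ s, b i = 1)
    (hh : ∀ i ∈ s, ∃ θ, |θ| ≤ δ ∧ h i = b i * Real.exp θ) (hδ0 : 0 ≤ δ) (hδ : δ ≤ 3 * d)
    (hd0 : 0 < d) (hd1 : d ≤ 1 / 60) (hε0 : 0 ≤ ε) (hε : ε ≤ d)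
    (hout : ∑ i ∈ s \ G, b i ≤ 2 * ε)
    (hc : c * ∑ i ∈ G, h i = B) (hB0 : 1 - ε ≤ B) (hB1 : B ≤ 1) :
    ∑ i ∈ s, |(if i ∈ G then h i * c else 0) - b i| ≤ 12 * d + 2 * ε := by
  have hδ2 : δ ≤ 1 / 2 := by linarith
  obtain ⟨hT0, hT1⟩ := T_bounds hG hb hsum hh hδ2 hδ0 hout
  set T := ∑ i ∈ G, h i with hT
  have h1 : 1 - 5 * d ≤ T := by
    have h2 : (1 - 3 * d) * (1 - 2 * d) ≤ (1 - δ) * (1 - 2 * ε) :=
      mul_le_mul (by linarith) (by linarith) (by linarith) (by linarith)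
    nlinarith
  have hT2 : T ≤ 1 + 6 * d := by linarith
  have hTpos : 0 < T := by linarith
  have hcT : c = B / T := by
    rw [eq_div_iff hTpos.ne']
    exact hc
  have hkey : ∀ E : ℝ, 1 - 3 * d ≤ E → E ≤ 1 + 6 * d → |E * c - 1| ≤ 12 * d := by
    intro E hE0 hE1
    have hE2 : 0 ≤ E := by linarith
    have hB2 : 1 - d ≤ B := by linarith
    have e : E * c = E * B / T := by
      rw [hcT]
      ring
    rw [abs_le, e]
    constructor
    · have h2 : (1 - 12 * d) * T ≤ E * B := by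
        have h3 : (1 - 12 * d) * T ≤ (1 - 12 * d) * (1 + 6 * d) :=
          mul_le_mul_of_nonneg_left hT2 (by linarith)
        have h4 : (1 - 3 * d) * (1 - d) ≤ E * B :=
          mul_le_mul hE0 hB2 (by linarith) hE2
        nlinarith
      have h5 : 1 - 12 * d ≤ E * B / T := (le_div_iff₀ hTpos).2 h2
      linarith
    · have h2 : E * B ≤ (1 + 12 * d) * T := by
        have h3 : (1 + 12 * d) * (1 - 5 * d) ≤ (1 + 12 * d) * T :=
          mul_le_mul_of_nonneg_left h1 (by linarith)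
        have h4 : E * B ≤ (1 + 6 * d) * 1 :=
          mul_le_mul hE1 hB1 (by linarith) (by linarith)
        nlinarith
      have h5 : E * B / T ≤ 1 + 12 * d := (div_le_iff₀ hTpos).2 h2
      linarith
  rw [← Finset.sum_sdiff hG]
  have h2 : ∑ i ∈ s \ G, |(if i ∈ G then h i * c else 0) - b i| = ∑ i ∈ s \ G, b i := by
    refine Finset.sum_congr rfl fun i hi => ?_
    rw [if_neg (Finset.mem_sdiff.1 hi).2, zero_sub, abs_neg,
      abs_of_nonneg (hb i (Finset.sdiff_subset hi))]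
  have h3 : ∑ i ∈ G, |(if i ∈ G then h i * c else 0) - b i| ≤ ∑ i ∈ G, b i * (12 * d) := by
    refine Finset.sum_le_sum fun i hi => ?_
    rw [if_pos hi]
    obtain ⟨θ, h5, h6⟩ := hh i (hG hi)
    obtain ⟨h7, h8⟩ := exp_bounds h5 hδ2
    have h9 := hkey (Real.exp θ) (by linarith) (by linarith)
    have e : h i * c - b i = b i * (Real.exp θ * c - 1) := by
      rw [h6]
      ring
    rw [e, abs_mul, abs_of_nonneg (hb i (hG hi))]
    exact mul_le_mul_of_nonneg_left h9 (hb i (hG hi))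
  have h4 : ∑ i ∈ G, b i ≤ 1 := by
    have h5 := Finset.sum_sdiff (f := b) hG
    have h6 : 0 ≤ ∑ i ∈ s \ G, b i :=
      Finset.sum_nonneg fun i hi => hb i (Finset.sdiff_subset hi)
    linarith
  rw [h2]
  have h5 : ∑ i ∈ G, b i * (12 * d) = (∑ i ∈ G, b i) * (12 * d) := (Finset.sum_mul _ _ _).symm
  rw [h5] at h3
  have h6 : (∑ i ∈ G, b i) * (12 * d) ≤ 1 * (12 * d) :=
    mul_le_mul_of_nonneg_right h4 (by linarith)
  linarith

end Analytic

section Volume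

open MeasureTheory

theorem Pr_two (A B : Set ℝ) : Pr (fun ω : Fin 2 → ℝ => ω 0 ∈ A ∧ ω 1 ∈ B)
    = (volume (A ∩ Set.Icc 0 1)).toReal * (volume (B ∩ Set.Icc 0 1)).toReal := by
  have hset : {ω : Fin 2 → ℝ | ω ∈ Cube (Fin 2) ∧ (ω 0 ∈ A ∧ ω 1 ∈ B)}
      = Set.pi Set.univ (fun a : Fin 2 => (![A, B] a) ∩ Set.Icc 0 1) := by
    ext ω
    simp only [Set.mem_ofPred_eq, Cube, Set.mem_pi, Set.mem_univ, true_implies, Set.mem_inter_iff,
      Set.mem_Icc, Fin.forall_fin_two, Matrix.cons_val_zero, Matrix.cons_val_one]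
    tauto
  rw [Pr, hset, volume_pi_pi, ENNReal.toReal_prod, Fin.prod_univ_two]
  simp

theorem vol_draw {c t M : ℕ} (hM : 0 < M) :
    (volume ({u : ℝ | ⌊u * (M : ℝ)⌋₊ + c = t} ∩ Set.Icc 0 1)).toReal
      = if c ≤ t ∧ t < c + M then 1 / (M : ℝ) else 0 := by
  have hM' : (0 : ℝ) < M := by exact_mod_cast hM
  split_ifs with hw
  · obtain ⟨k, rfl⟩ : ∃ k, t = c + k := ⟨t - c, by omega⟩
    have hk : k < M := by omega
    have hk' : (k : ℝ) + 1 ≤ M := by exact_mod_cast hk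
    have hset : {u : ℝ | ⌊u * (M : ℝ)⌋₊ + c = c + k} ∩ Set.Icc 0 1
        = Set.Ico ((k : ℝ) / M) (((k : ℝ) + 1) / M) := by
      ext u
      simp only [Set.mem_inter_iff, Set.mem_ofPred_eq, Set.mem_Icc, Set.mem_Ico]
      constructor
      · rintro ⟨h1, h2, h3⟩
        have h4 : ⌊u * (M : ℝ)⌋₊ = k := by omega
        obtain ⟨h5, h6⟩ := (Nat.floor_eq_iff (mul_nonneg h2 hM'.le)).1 h4
        exact ⟨(div_le_iff₀ hM').2 h5, (lt_div_iff₀ hM').2 h6⟩
      · rintro ⟨h1, h2⟩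
        have h3 : 0 ≤ u := le_trans (by positivity) h1
        have h4 : u ≤ 1 := by
          have : ((k : ℝ) + 1) / M ≤ 1 := (div_le_one hM').2 hk'
          linarith
        have h5 : ⌊u * (M : ℝ)⌋₊ = k :=
          (Nat.floor_eq_iff (mul_nonneg h3 hM'.le)).2
            ⟨(div_le_iff₀ hM').1 h1, (lt_div_iff₀ hM').1 h2⟩
        exact ⟨by omega, h3, h4⟩
    rw [hset, Real.volume_Ico, ENNReal.toReal_ofReal]
    · rw [← sub_div]
      simp
    · rw [← sub_div]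
      simp only [add_sub_cancel_left]
      positivity
  · have hsub : {u : ℝ | ⌊u * (M : ℝ)⌋₊ + c = t} ∩ Set.Icc 0 1 ⊆ {1} := by
      rintro u ⟨h1, h2, h3⟩
      simp only [Set.mem_ofPred_eq] at h1
      have h4 : M ≤ ⌊u * (M : ℝ)⌋₊ := by omega
      have h5 : (⌊u * (M : ℝ)⌋₊ : ℝ) ≤ u * M := Nat.floor_le (mul_nonneg h2 hM'.le)
      have h6 : (M : ℝ) ≤ (⌊u * (M : ℝ)⌋₊ : ℝ) := by exact_mod_cast h4
      have h7 : 1 ≤ u := by
        by_contra hc
        push Not at hc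
        nlinarith
      exact le_antisymm h3 h7
    have h0 : volume ({u : ℝ | ⌊u * (M : ℝ)⌋₊ + c = t} ∩ Set.Icc 0 1) = 0 :=
      measure_mono_null hsub (by simp)
    rw [h0]
    rfl

theorem vol_le {q : ℝ} (h0 : 0 ≤ q) (h1 : q ≤ 1) : (volume (Set.Iic q ∩ Set.Icc 0 1)).toReal = q := by
  have hset : Set.Iic q ∩ Set.Icc (0 : ℝ) 1 = Set.Icc 0 q := by
    ext u
    simp only [Set.mem_inter_iff, Set.mem_Iic, Set.mem_Icc]
    constructor
    · rintro ⟨h2, h3, _⟩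
      exact ⟨h3, h2⟩
    · rintro ⟨h2, h3⟩
      exact ⟨h3, h2, h3.trans h1⟩
  rw [hset, Real.volume_Icc, sub_zero, ENNReal.toReal_ofReal h0]

end Volume

end BinAux

namespace BinAux

section Law

open MeasureTheory

variable {W Kb R : ℕ} {p : ℝ}

theorem bUp_pos (V : ℝ) : 0 < bUp V := by
  unfold bUp
  split_ifs with h
  · norm_num
  · push Not at h
    exact inv_pos.2 (Real.sqrt_pos.2 (by linarith))

theorem bw_le_one_aux {v : ℕ} (h0 : 0 ≤ p) (h1 : p ≤ 1) (hv : v ≤ R) : bw R p v ≤ 1 := by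
  rw [← sum_bw_eq_one R p]
  exact Finset.single_le_sum (f := fun v => bw R p v) (fun w _ => bw_nonneg h0 h1 w)
    (Finset.mem_range.2 (by omega))

theorem bw_le_bUp {v : ℕ} (h0 : 0 ≤ p) (h1 : p ≤ 1) (hv : v ≤ R) : bw R p v ≤ bUp (binV R p) := by
  unfold bUp
  split_ifs with h
  · exact bw_le_one_aux h0 h1 hv
  · push Not at h
    have h2 : 0 < Real.sqrt (binV R p) := Real.sqrt_pos.2 (by linarith)
    have h3 : bw R p v * Real.sqrt (binV R p) ≤ 1 := bw_sqrt_le R v h0 h1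
    rw [← one_div]
    exact (le_div_iff₀ h2).2 h3

/-- The acceptance threshold is a probability. -/
theorem thr_bounds (hW : 1000 ≤ W) {y : ℕ} (hy : y ≤ R) (h0 : 0 < p) (h1 : p ≤ 1) :
    0 ≤ bwHat W R p y / (2 * bUp (binV R p)) ∧ bwHat W R p y / (2 * bUp (binV R p)) ≤ 1 := by
  obtain ⟨θ, h2, h3⟩ := bwHat_close (W := W) (by omega) hy h0 h1
  have hU := bUp_pos (binV R p)
  have hb := bw_nonneg (R := R) h0.le h1 y
  have hb2 := bw_le_bUp (R := R) (v := y) h0.le h1 hy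
  have hW' : (1000 : ℝ) ≤ W := by exact_mod_cast hW
  have hN : (1000 : ℝ) ≤ (factN0 W : ℝ) := by
    unfold factN0
    push_cast
    calc (1000 : ℝ) ≤ W := hW'
      _ = (W : ℝ) ^ 1 := (pow_one _).symm
      _ ≤ (W : ℝ) ^ 30 := pow_le_pow_right₀ (by linarith) (by norm_num)
  have hδ : 3 / (factN0 W : ℝ) ≤ 1 / 2 := by
    rw [div_le_iff₀ (by linarith)]
    linarith
  obtain ⟨h4, h5⟩ := exp_bounds h2 hδ
  have hexp : Real.exp θ ≤ 2 := by linarith
  rw [h3]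
  constructor
  · exact div_nonneg (mul_nonneg hb (Real.exp_pos _).le) (by positivity)
  · rw [div_le_one (by positivity)]
    have := Real.exp_pos θ
    calc bw R p y * Real.exp θ ≤ bUp (binV R p) * 2 :=
          mul_le_mul hb2 hexp this.le hU.le
      _ = 2 * bUp (binV R p) := by ring

/-- The law of one attempt. -/
theorem Pr_try (hW : 1000 ≤ W) (hKb : 2 * R + 6 * W + 8 ≤ 2 ^ Kb) (h0 : 0 < p) (h1 : p ≤ 1) {y : ℕ}
    (hy : y ≤ R) :
    Pr (fun ω => binTry W Kb R p ω = y)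
      = if CN R p ≤ y + AN W R p ∧ y + AN W R p < CN R p + MN W R p then
          (1 / (MN W R p : ℝ)) * (bwHat W R p y / (2 * bUp (binV R p))) else 0 := by
  have hU := bUp_pos (binV R p)
  have h2 : Pr (fun ω => binTry W Kb R p ω = y)
      = Pr (fun ω : Fin 2 → ℝ => ω 0 ∈ {u : ℝ | ⌊u * (MN W R p : ℝ)⌋₊ + CN R p = y + AN W R p}
        ∧ ω 1 ∈ Set.Iic (bwHat W R p y / (2 * bUp (binV R p)))) := by
    refine Pr_congr fun ω hω => ?_
    rw [try_eq_iff hKb h0.le h1 hy hω]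
    simp only [Set.mem_ofPred_eq, Set.mem_Iic]
    rw [le_div_iff₀ (by positivity)]
  obtain ⟨h3, h4⟩ := thr_bounds (R := R) hW hy h0 h1
  rw [h2, Pr_two, vol_le h3 h4, vol_draw (by unfold MN; omega)]
  split_ifs
  · rfl
  · simp

/-- The constant of the law of one attempt. -/
noncomputable def kap (W : ℕ) (R p : ℝ) : ℝ := 1 / ((MN W R p : ℝ) * (2 * bUp (binV R p)))

theorem kap_pos : 0 < kap W R p := by
  unfold kap
  have := bUp_pos (binV R p)
  have := MN_pos (W := W) (R := R) (p := p)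
  positivity

theorem MN_le (h0 : 0 ≤ p) (h1 : p ≤ 1) :
    (MN W R p : ℝ) ≤ 4 * Real.sqrt (binV R p * W) + 4 * W + 5 := by
  have h2 := AN_le (W := W) (R := R) h0 h1
  unfold MN
  unfold winS at h2
  push_cast
  linarith

theorem MN_ge : 4 * Real.sqrt (binV R p * W) + 1 ≤ (MN W R p : ℝ) := by
  have h2 := AN_ge (W := W) (R := R) (p := p)
  unfold MN
  unfold winS at h2
  have hW : (0 : ℝ) ≤ W := Nat.cast_nonneg _
  push_cast
  linarith

theorem sqrt_W_le (hW : 1 ≤ W) : Real.sqrt (W : ℝ) ≤ W := by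
  have hW' : (1 : ℝ) ≤ W := by exact_mod_cast hW
  rw [Real.sqrt_le_left (by linarith)]
  nlinarith

/-- Lower bound for the constant. -/
theorem kap_ge (hW : 1000 ≤ W) (h0 : 0 ≤ p) (h1 : p ≤ 1) : 1 / (26 * (W : ℝ)) ≤ kap W R p := by
  have hW' : (1000 : ℝ) ≤ W := by exact_mod_cast hW
  have hV := binV_nonneg (R := R) h0 h1
  have hU := bUp_pos (binV R p)
  have hM := MN_pos (W := W) (R := R) (p := p)
  have hM2 := MN_le (W := W) (R := R) h0 h1
  have hs := sqrt_W_le (W := W) (by omega)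
  unfold kap
  refine one_div_le_one_div_of_le (by positivity) ?_
  rw [Real.sqrt_mul hV] at hM2
  have hsW := Real.sqrt_nonneg (W : ℝ)
  by_cases hV1 : binV R p ≤ 1
  · have e : bUp (binV R p) = 1 := if_pos hV1
    rw [e]
    have h2 : Real.sqrt (binV R p) ≤ 1 := by
      rw [Real.sqrt_le_left (by norm_num)]
      linarith
    have h3 : Real.sqrt (binV R p) * Real.sqrt W ≤ 1 * Real.sqrt W :=
      mul_le_mul_of_nonneg_right h2 hsW
    nlinarith
  · have e : bUp (binV R p) = (Real.sqrt (binV R p))⁻¹ := if_neg hV1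
    push Not at hV1
    rw [e]
    set r := Real.sqrt (binV R p) with hr
    have hr1 : 1 ≤ r := by
      rw [hr, Real.le_sqrt' (by norm_num)]
      linarith
    have hr0 : 0 < r := by linarith
    have hr2 : r⁻¹ ≤ 1 := inv_le_one_of_one_le₀ hr1
    have hr3 : 0 < r⁻¹ := inv_pos.2 hr0
    have e2 : r * r⁻¹ = 1 := mul_inv_cancel₀ hr0.ne'
    have h3 : (MN W R p : ℝ) * r⁻¹ ≤ (4 * (r * Real.sqrt W) + 4 * W + 5) * r⁻¹ :=
      mul_le_mul_of_nonneg_right hM2 hr3.le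
    have e3 : (4 * (r * Real.sqrt W) + 4 * W + 5) * r⁻¹ = 4 * Real.sqrt W + (4 * W + 5) * r⁻¹ := by
      calc (4 * (r * Real.sqrt W) + 4 * W + 5) * r⁻¹
          = 4 * Real.sqrt W * (r * r⁻¹) + (4 * W + 5) * r⁻¹ := by ring
        _ = 4 * Real.sqrt W + (4 * W + 5) * r⁻¹ := by rw [e2, mul_one]
    have h4 : (4 * (W : ℝ) + 5) * r⁻¹ ≤ (4 * W + 5) * 1 :=
      mul_le_mul_of_nonneg_left hr2 (by linarith)
    have e4 : (MN W R p : ℝ) * (2 * r⁻¹) = 2 * ((MN W R p : ℝ) * r⁻¹) := by ring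
    rw [e4]
    linarith

/-- Upper bound for the constant. -/
theorem kap_le (hW : 1000 ≤ W) (h0 : 0 ≤ p) (h1 : p ≤ 1) : kap W R p ≤ 1 / 2 := by
  have hW' : (1000 : ℝ) ≤ W := by exact_mod_cast hW
  have hV := binV_nonneg (R := R) h0 h1
  have hU := bUp_pos (binV R p)
  have hM := MN_pos (W := W) (R := R) (p := p)
  have hM2 := MN_ge (W := W) (R := R) (p := p)
  unfold kap
  refine one_div_le_one_div_of_le (by norm_num) ?_
  by_cases hV1 : binV R p ≤ 1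
  · have e : bUp (binV R p) = 1 := if_pos hV1
    rw [e]
    have := Real.sqrt_nonneg (binV R p * W)
    linarith
  · have e : bUp (binV R p) = (Real.sqrt (binV R p))⁻¹ := if_neg hV1
    push Not at hV1
    rw [e]
    rw [Real.sqrt_mul hV] at hM2
    set r := Real.sqrt (binV R p) with hr
    have hr1 : 1 ≤ r := by
      rw [hr, Real.le_sqrt' (by norm_num)]
      linarith
    have hr0 : 0 < r := by linarith
    have hr3 : 0 < r⁻¹ := inv_pos.2 hr0
    have e2 : r * r⁻¹ = 1 := mul_inv_cancel₀ hr0.ne'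
    have hs : 1 ≤ Real.sqrt (W : ℝ) := by
      rw [Real.le_sqrt' (by norm_num)]
      linarith
    have h3 : (4 * (r * Real.sqrt W) + 1) * r⁻¹ ≤ (MN W R p : ℝ) * r⁻¹ :=
      mul_le_mul_of_nonneg_right hM2 hr3.le
    have e3 : (4 * (r * Real.sqrt W) + 1) * r⁻¹ = 4 * Real.sqrt W * (r * r⁻¹) + r⁻¹ := by ring
    rw [e3, e2] at h3
    have e4 : (MN W R p : ℝ) * (2 * r⁻¹) = 2 * ((MN W R p : ℝ) * r⁻¹) := by ring
    rw [e4]
    linarith

/-- Outside the window the binomial mass is small. -/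
theorem out_sum (hW : 1 ≤ W) (h0 : 0 ≤ p) (h1 : p ≤ 1) :
    ∑ y ∈ range (R + 1) \ (range (R + 1)).filter (fun y : ℕ =>
        CN R p ≤ y + AN W R p ∧ y + AN W R p < CN R p + MN W R p), bw R p y
      ≤ 2 * Real.exp (-(W : ℝ)) := by
  have hW' : (1 : ℝ) ≤ W := by exact_mod_cast hW
  refine le_trans ?_ (bw_tail R h0 h1 hW')
  refine Finset.sum_le_sum_of_subset_of_nonneg ?_ fun i _ _ => bw_nonneg h0 h1 i
  intro y hy
  obtain ⟨h2, h3⟩ := Finset.mem_sdiff.1 hy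
  refine Finset.mem_filter.2 ⟨h2, ?_⟩
  have h4 : ¬ (CN R p ≤ y + AN W R p ∧ y + AN W R p < CN R p + MN W R p) := fun h =>
    h3 (Finset.mem_filter.2 ⟨h2, h⟩)
  have hA := AN_ge (W := W) (R := R) (p := p)
  have hRp : (0 : ℝ) ≤ (R : ℝ) * p := mul_nonneg (Nat.cast_nonneg _) h0
  have hC1 : (CN R p : ℝ) ≤ (R : ℝ) * p := Nat.floor_le hRp
  have hC2 : (R : ℝ) * p < (CN R p : ℝ) + 1 := Nat.lt_floor_add_one _
  change winS W (R : ℝ) p ≤ _
  by_cases h5 : CN R p ≤ y + AN W R p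
  · have h6 : CN R p + MN W R p ≤ y + AN W R p := by
      by_contra hc
      exact h4 ⟨h5, by omega⟩
    have h7 : ((CN R p + MN W R p : ℕ) : ℝ) ≤ ((y + AN W R p : ℕ) : ℝ) := by exact_mod_cast h6
    unfold MN at h7
    push_cast at h7
    have h8 : winS W (R : ℝ) p ≤ (y : ℝ) - R * p := by linarith
    exact h8.trans (le_abs_self _)
  · push Not at h5
    have h7 : ((y + AN W R p + 1 : ℕ) : ℝ) ≤ ((CN R p : ℕ) : ℝ) := by exact_mod_cast h5
    push_cast at h7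
    have h8 : winS W (R : ℝ) p ≤ -((y : ℝ) - R * p) := by linarith
    exact h8.trans (neg_le_abs _)

end Law

end BinAux

namespace BinAux

section Final

variable {W Kb R : ℕ} {p : ℝ}

theorem exp_neg_le (hW : 1000 ≤ W) : Real.exp (-(W : ℝ)) ≤ 1 / (W : ℝ) ^ 30 := by
  have hW' : (1000 : ℝ) ≤ W := by exact_mod_cast hW
  have h1 := Real.pow_div_factorial_le_exp ((W : ℝ) / 32) (by positivity) 3
  have h2 : (W : ℝ) ≤ ((W : ℝ) / 32) ^ 3 / (Nat.factorial 3 : ℝ) := by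
    have e : (Nat.factorial 3 : ℝ) = 6 := by norm_num [Nat.factorial]
    rw [e, le_div_iff₀ (by norm_num), div_pow]
    have h3 : (W : ℝ) * (6 * 32 ^ 3) ≤ (W : ℝ) * (W * W) :=
      mul_le_mul_of_nonneg_left (by nlinarith) (by linarith)
    rw [le_div_iff₀ (by norm_num)]
    nlinarith
  have h3 : (W : ℝ) ≤ Real.exp ((W : ℝ) / 32) := h2.trans h1
  have h4 : (W : ℝ) ^ 30 ≤ Real.exp (W : ℝ) := by
    calc (W : ℝ) ^ 30 ≤ Real.exp ((W : ℝ) / 32) ^ 30 := pow_le_pow_left₀ (by linarith) h3 30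
      _ = Real.exp (30 * ((W : ℝ) / 32)) := (Real.exp_nat_mul _ 30).symm
      _ ≤ Real.exp (W : ℝ) := Real.exp_le_exp.2 (by linarith)
  rw [Real.exp_neg, ← one_div]
  exact one_div_le_one_div_of_le (by positivity) h4

theorem pow_rem_le {a : ℝ} (hW : 1000 ≤ W) (ha : 1 / (52 * (W : ℝ)) ≤ a) (ha1 : a ≤ 1) :
    (1 - a) ^ binJ W ≤ Real.exp (-(W : ℝ)) := by
  have hW' : (1000 : ℝ) ≤ W := by exact_mod_cast hW
  have h1 : 0 ≤ 1 - a := by linarith
  have h2 : 1 - a ≤ Real.exp (-(1 / (52 * (W : ℝ)))) := by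
    have := Real.add_one_le_exp (-(1 / (52 * (W : ℝ))))
    linarith
  calc (1 - a) ^ binJ W ≤ Real.exp (-(1 / (52 * (W : ℝ)))) ^ binJ W := pow_le_pow_left₀ h1 h2 _
    _ = Real.exp ((binJ W : ℝ) * (-(1 / (52 * (W : ℝ))))) := (Real.exp_nat_mul _ _).symm
    _ = Real.exp (-(W : ℝ)) := by
        congr 1
        unfold binJ
        push_cast
        field_simp

theorem close_lt (hW : 1000 ≤ W) (hKb : 2 * R + 6 * W + 8 ≤ 2 ^ Kb) (h0 : 0 < p) (h1 : p < 1) :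
    ∑ y ∈ range (R + 1), |Pr (fun ω => binSampleR W Kb R p ω = (y : ℝ)) - bw R p y|
      ≤ 1 / (W : ℝ) ^ 29 := by
  have hW' : (1000 : ℝ) ≤ W := by exact_mod_cast hW
  have hWpos : (0 : ℝ) < W := by linarith
  have hp1 := h1.le
  set s := range (R + 1) with hs
  set G := s.filter (fun y : ℕ => CN R p ≤ y + AN W R p ∧ y + AN W R p < CN R p + MN W R p) with hGdef
  have hG : G ⊆ s := Finset.filter_subset _ _
  set h : ℕ → ℝ := fun y => bwHat W R p y with hh_def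
  set att := binTry W Kb R p with hatt_def
  set κ := kap W R p with hκ
  set T := ∑ i ∈ G, h i with hT
  set ε := Real.exp (-(W : ℝ)) with hε
  set d : ℝ := 1 / (W : ℝ) ^ 30 with hd
  set δ : ℝ := 3 / (factN0 W : ℝ) with hδ
  have hd0 : 0 < d := by positivity
  have hpow : (1000 : ℝ) ≤ (W : ℝ) ^ 30 := by
    calc (1000 : ℝ) ≤ W := hW'
      _ = (W : ℝ) ^ 1 := (pow_one _).symm
      _ ≤ (W : ℝ) ^ 30 := pow_le_pow_right₀ (by linarith) (by norm_num)
  have hd1 : d ≤ 1 / 1000 := one_div_le_one_div_of_le (by norm_num) hpow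
  have hδe : δ = 3 * d := by
    rw [hδ, hd]
    unfold factN0
    push_cast
    ring
  have hδ0 : 0 ≤ δ := by rw [hδe]; positivity
  have hε0 : 0 < ε := Real.exp_pos _
  have hεd : ε ≤ d := exp_neg_le hW
  have hb : ∀ i ∈ s, 0 ≤ bw R p i := fun i _ => bw_nonneg h0.le hp1 i
  have hsum : ∑ i ∈ s, bw R p i = 1 := sum_bw_eq_one R p
  have hh : ∀ i ∈ s, ∃ θ, |θ| ≤ δ ∧ h i = bw R p i * Real.exp θ := fun i hi =>
    bwHat_close (W := W) (by omega) (by
      have := Finset.mem_range.1 hi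
      omega) h0 hp1
  have hout : ∑ i ∈ s \ G, bw R p i ≤ 2 * ε := out_sum (W := W) (by omega) h0.le hp1
  obtain ⟨hT0, hT1⟩ := T_bounds hG hb hsum hh (by rw [hδe]; linarith) hδ0 hout
  have hT2 : 1 / 2 ≤ T := by
    have h2 : (1 - 3 * d) * (1 - 2 * d) ≤ (1 - δ) * (1 - 2 * ε) :=
      mul_le_mul (by linarith) (by linarith) (by linarith) (by linarith)
    nlinarith
  have hT3 : T ≤ 2 := by
    rw [hδe] at hT1
    linarith
  have hκ1 : 1 / (26 * (W : ℝ)) ≤ κ := kap_ge hW h0.le hp1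
  have hκ2 : κ ≤ 1 / 2 := kap_le hW h0.le hp1
  have hκ0 : 0 < κ := kap_pos
  -- the law of one attempt
  have hq : ∀ y ∈ s, Pr (fun ω => att ω = (y : ℝ)) = if y ∈ G then κ * h y else 0 := by
    intro y hy
    have hy' : y ≤ R := by
      have := Finset.mem_range.1 hy
      omega
    rw [hatt_def, Pr_try hW hKb h0 hp1 hy']
    by_cases hw : CN R p ≤ y + AN W R p ∧ y + AN W R p < CN R p + MN W R p
    · rw [if_pos hw, if_pos (Finset.mem_filter.2 ⟨hy, hw⟩), hκ, kap]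
      have := bUp_pos (binV R p)
      have := MN_pos (W := W) (R := R) (p := p)
      simp only [hh_def]
      field_simp
    · have hn : y ∉ G := fun h3 => hw (Finset.mem_filter.1 h3).2
      rw [if_neg hw, if_neg hn]
  set S : Finset ℝ := s.image (fun y : ℕ => (y : ℝ)) with hS
  have hS0 : ∀ y ∈ S, 0 ≤ y := by
    intro y hy
    obtain ⟨n, _, rfl⟩ := Finset.mem_image.1 hy
    exact Nat.cast_nonneg _
  have hatt : ∀ ω ∈ Cube (Fin 2), att ω = -1 ∨ att ω ∈ S := by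
    intro ω hω
    rcases try_mem (W := W) (R := R) hKb h0.le hp1 hω with h2 | ⟨y, hy, h2⟩
    · exact Or.inl h2
    · refine Or.inr (Finset.mem_image.2 ⟨y, Finset.mem_range.2 (by omega), h2.symm⟩)
  have ha : ∑ z ∈ S, Pr (fun ω => att ω = z) = κ * T := by
    rw [hS, Finset.sum_image fun a _ b _ hab => by exact_mod_cast hab]
    rw [Finset.sum_congr rfl hq, hT, Finset.mul_sum]
    rw [Finset.sum_ite_mem, Finset.inter_eq_right.2 hG]
  set a := κ * T with hadef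
  have ha1 : 1 / (52 * (W : ℝ)) ≤ a := by
    have h2 : 1 / (26 * (W : ℝ)) * (1 / 2) ≤ κ * T := mul_le_mul hκ1 hT2 (by norm_num) hκ0.le
    have e : 1 / (52 * (W : ℝ)) = 1 / (26 * (W : ℝ)) * (1 / 2) := by
      field_simp
      norm_num
    rw [e]
    exact h2
  have ha2 : a ≤ 1 := by
    have h2 : κ * T ≤ 1 / 2 * 2 := mul_le_mul hκ2 hT3 (by linarith) (by norm_num)
    linarith
  have hrem := pow_rem_le hW ha1 ha2
  have hrem0 : 0 ≤ (1 - a) ^ binJ W := pow_nonneg (by linarith) _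
  set D := ∑ t ∈ range (binJ W), (1 - a) ^ t with hD
  have hgeom : a * D = 1 - (1 - a) ^ binJ W := by
    have := mul_neg_geom_sum (1 - a) (binJ W)
    rw [← this]
    ring
  have hlaw : ∀ y ∈ s, Pr (fun ω => binSampleR W Kb R p ω = (y : ℝ))
      = if y ∈ G then h y * (κ * D) else 0 := by
    intro y hy
    have h2 : (fun ω => binSampleR W Kb R p ω = (y : ℝ))
        = fun ω => runSeq (rejStep att) (fun _ => -1) (binJ W) ω () = (y : ℝ) := by
      funext ω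
      unfold binSampleR
      rw [if_neg (not_le.2 h1)]
    rw [h2, reject_law (measurable_binTry W Kb R p) hS0 hatt (binJ W)
      (Finset.mem_image.2 ⟨y, hy, rfl⟩), ha, hq y hy]
    split_ifs
    · ring
    · ring
  have hmain := sum_close (c := κ * D) (B := 1 - (1 - a) ^ binJ W) hG hb hsum hh hδ0 hδe.le hd0
    (by linarith) hε0.le hεd hout (by rw [← hgeom, hadef]; ring) (by linarith) (by linarith)
  have hfinal : 12 * d + 2 * ε ≤ 1 / (W : ℝ) ^ 29 := by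
    have e : 1 / (W : ℝ) ^ 29 = W * d := by
      rw [hd]
      field_simp
    rw [e]
    nlinarith
  refine le_trans (le_of_eq ?_) (hmain.trans hfinal)
  refine Finset.sum_congr rfl fun y hy => ?_
  rw [hlaw y hy]

theorem close_one (hW : 1000 ≤ W) :
    ∑ y ∈ range (R + 1), |Pr (fun ω => binSampleR W Kb R 1 ω = (y : ℝ)) - bw R 1 y|
      ≤ 1 / (W : ℝ) ^ 29 := by
  have h2 : ∑ y ∈ range (R + 1), |Pr (fun ω => binSampleR W Kb R 1 ω = (y : ℝ)) - bw R 1 y| = 0 := by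
    refine Finset.sum_eq_zero fun y hy => ?_
    have hy' : y ≤ R := by
      have := Finset.mem_range.1 hy
      omega
    have h3 : (fun ω => binSampleR W Kb R 1 ω = (y : ℝ)) = fun _ => (R : ℝ) = (y : ℝ) := by
      funext ω
      unfold binSampleR
      rw [if_pos le_rfl]
    rw [h3]
    by_cases hR : y = R
    · subst hR
      have h4 : bw y 1 y = 1 := by
        unfold bw
        simp
      rw [h4]
      simp only [eq_iff_iff, iff_true]
      rw [show (fun _ : BinW W → ℝ => True) = fun _ => True from rfl, Pr_true]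
      simp
    · have h4 : bw R 1 y = 0 := by
        unfold bw
        have : R - y ≠ 0 := by omega
        simp [this]
      have h5 : (R : ℝ) ≠ (y : ℝ) := fun h => hR (by exact_mod_cast h.symm)
      rw [h4]
      simp only [h5, sub_zero, abs_eq_zero]
      exact Pr_false
  rw [h2]
  positivity

end Final

end BinAux

/-- The values of the sampler. -/
theorem binSampleR_mem {W Kb R : ℕ} (hW : 1000 ≤ W) (hKb : 2 * R + 6 * W + 8 ≤ 2 ^ Kb) {p : ℝ} (h0 : 0 < p)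
    (h1 : p ≤ 1) (ω : BinW W → ℝ) (hω : ω ∈ Cube (BinW W)) :
    binSampleR W Kb R p ω = -1 ∨ ∃ y : ℕ, y ≤ R ∧ binSampleR W Kb R p ω = y := by
  by_cases hp : 1 ≤ p
  · right
    refine ⟨R, le_rfl, ?_⟩
    unfold binSampleR
    rw [if_pos hp]
  · have hS0 : ∀ y ∈ (range (R + 1)).image (fun y : ℕ => (y : ℝ)), 0 ≤ y := by
      intro y hy
      obtain ⟨n, _, rfl⟩ := Finset.mem_image.1 hy
      exact Nat.cast_nonneg _
    have hatt : ∀ ω ∈ Cube (Fin 2), binTry W Kb R p ω = -1 ∨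
        binTry W Kb R p ω ∈ (range (R + 1)).image (fun y : ℕ => (y : ℝ)) := by
      intro ω hω
      rcases BinAux.try_mem (W := W) (R := R) hKb h0.le h1 hω with h2 | ⟨y, hy, h2⟩
      · exact Or.inl h2
      · refine Or.inr (Finset.mem_image.2 ⟨y, Finset.mem_range.2 (by omega), h2.symm⟩)
    unfold binSampleR
    rw [if_neg hp]
    rcases reject_mem hatt hS0 (binJ W) ω hω with h2 | h2
    · exact Or.inl h2
    · right
      obtain ⟨y, hy, h3⟩ := Finset.mem_image.1 h2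
      exact ⟨y, by
        have := Finset.mem_range.1 hy
        omega, h3.symm⟩

/-- **The sampler is close to the binomial law.** -/
theorem binSampleR_close {W Kb R : ℕ} (hW : 1000 ≤ W) (hKb : 2 * R + 6 * W + 8 ≤ 2 ^ Kb) {p : ℝ} (h0 : 0 < p)
    (h1 : p ≤ 1) :
    ∑ y ∈ range (R + 1), |Pr (fun ω => binSampleR W Kb R p ω = (y : ℝ)) - bw R p y|
      ≤ 1 / (W : ℝ) ^ 29 := by
  rcases h1.eq_or_lt with rfl | h2
  · exact BinAux.close_one hW
  · exact BinAux.close_lt hW hKb h0 h2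

end Vale.Agent.Lib.P328.RAM
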