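import Vale.Agent.Lib.P328.RAM.RDefs

/-!
# P328: the coordinates are circuits of polynomial size (see `RCost.lean` for the style)

Style: `∃ e, ∀ parameters, P1 X e (function of wires)`. Inputs are wire maps into any index type `ι`.
Compute an exponent by unification:

`refine ⟨?e, fun {m n X ι} hX hm hn hW R C T B => ?_⟩; swap; unfold capGR;`
`exact (P1.sumFin hm fun i => (P1.var _).mul (P1.log (P1.sumFin hn fun j => (P1.var _).mul (P1.exp (P1.var _))))).sub (P1.sumFin hn fun j => (P1.var _).mul (P1.var _))`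

`X` bounds all parameters, `1000 ≤ X`, so that numerals up to `1000` are at most `X` (`P1.natLe`).
Rounds: `Tm ≤ X ^ 4`. If an intermediate vector is used many times in a loop, use `PC.iterate`; inside
one round no sharing is needed (a constant number of nested copies costs only a constant in `e`).
-/

namespace Vale.Agent.Lib.P328.RAM

open Finset Vale.Agent.Lib.P328.Samp

variable {m n : ℕ}

namespace RCostT

variable {ι : Type} {X a b : ℕ} {u v : (ι → ℝ) → ℝ}

/-- A comparison decided when the circuit is built. -/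
theorem iteConst {p : Prop} {inst : Decidable p} (hu : P1 X a u) (hv : P1 X b v) :
    P1 X (a + b) (fun x => @ite _ p inst (u x) (v x)) := by
  by_cases h : p
  · exact (hu.mono (by omega)).congr fun x => by simp [h]
  · exact (hv.mono (by omega)).congr fun x => by simp [h]

/-- The numeral `16`. -/
theorem num16 (hX : 1000 ≤ X) : P1 X 6 (fun _ : ι → ℝ => (16 : ℝ)) :=
  (P1.natLe (N := 16) (by omega)).congr fun _ => by norm_num

/-- The numeral `2`. -/
theorem num2 (hX : 1000 ≤ X) : P1 X 6 (fun _ : ι → ℝ => (2 : ℝ)) :=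
  (P1.natLe (N := 2) (by omega)).congr fun _ => by norm_num

theorem scSR_cost {m n : ℕ} (hX : 1000 ≤ X) (hm : m ≤ X) (hn : n ≤ X) (hu : P1 X a u) :
    P1 X (0 + (a + 1) + 2 + ((6 + ((6 + 6 + 2) + 1 + 3) + 2) + 1) + 2)
      (fun x => scSR m n (u x)) := by
  unfold scSR
  have h2 : 2 ≤ X ^ 1 := by simpa using (by omega : 2 ≤ X)
  exact (P1.one.add (P1.sqrt hu)).div
    ((num16 hX).mul (((P1.natLe hn).mul (P1.natLe hm)).pow h2))

theorem scFR_cost {m n : ℕ} (hX : 1000 ≤ X) (hm : m ≤ X) (hn : n ≤ X) (hu : P1 X a u)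
    (hv : P1 X b v) :
    P1 X (((a + b + 2) + 0 + 2) + ((6 + ((6 + 6 + 2) + 1 + 3) + 2) + 1) + 2)
      (fun x => (min (u x) (v x) + 1) / (2 * ((n : ℝ) * m) ^ 2)) := by
  have h2 : 2 ≤ X ^ 1 := by simpa using (by omega : 2 ≤ X)
  exact ((hu.min hv).add P1.one).div
    ((num2 hX).mul (((P1.natLe hn).mul (P1.natLe hm)).pow h2))

end RCostT

open RCostT

theorem phiMinR_cost : ∃ e, ∀ {m X : ℕ} {ι : Type} (_ : m ≤ X) (R : Fin m → ι),
    P1 X e (fun x => phiMinR (fun i => x (R i))) := by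
  refine ⟨?e, fun {m X ι} hm R => ?_⟩
  swap
  unfold phiMinR
  exact P1.sumFin hm fun i => (P1.var _).sub ((P1.var _).mul (P1.log (P1.var _)))

theorem cornerTabR_cost : ∃ e, ∀ {m n X : ℕ} {ι : Type} (_ : 1000 ≤ X) (_ : m ≤ X) (_ : n ≤ X)
    (R : Fin m → ι) (C : Fin n → ι) (j' : Fin n) (i' : Fin m) (j : Fin n) (i : Fin m),
    P1 X e (fun x => cornerTabR (fun i => x (R i)) (fun j => x (C j)) j' i' j i) := by
  refine ⟨?e, fun {m n X ι} hX hm hn R C j' i' j i => ?_⟩
  swap
  unfold cornerTabR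
  have hu : P1 X _ (fun x : ι → ℝ => min (x (R i')) (x (C j'))) := (P1.var _).min (P1.var _)
  have hz : P1 X _ (fun _ : ι → ℝ => (0 : ℝ)) := P1.zero
  exact ((iteConst hu hz).add
    ((((P1.var _).sub (iteConst hu hz)).mul ((P1.var _).sub (iteConst hu hz))).div
      ((P1.sumFin hm fun _ => P1.var _).sub hu)))

theorem centreTabR_cost : ∃ e, ∀ {m n X : ℕ} {ι : Type} (_ : 1000 ≤ X) (_ : m ≤ X) (_ : n ≤ X)
    (R : Fin m → ι) (C : Fin n → ι) (j : Fin n) (i : Fin m),
    P1 X e (fun x => centreTabR (fun i => x (R i)) (fun j => x (C j)) j i) := by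
  obtain ⟨e0, h0⟩ := cornerTabR_cost
  refine ⟨?e, fun {m n X ι} hX hm hn R C j i => ?_⟩
  swap
  unfold centreTabR
  exact (P1.sumFin hn fun j' => P1.sumFin hm fun i' => h0 hX hm hn R C j' i' j i).div
    ((P1.natLe hn).mul (P1.natLe hm))

theorem tFreeR_cost : ∃ e, ∀ {m n X : ℕ} {ι : Type} (_ : 1000 ≤ X) (_ : m ≤ X) (_ : n ≤ X)
    (R : Fin m → ι) (C : Fin n → ι) (Y : Fin n × Fin m → ι) (j : Fin n) (i : Fin m),
    P1 X e (fun x => tFreeR (fun i => x (R i)) (fun j => x (C j)) (fun k => x (Y k)) j i) := by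
  obtain ⟨e0, h0⟩ := centreTabR_cost
  refine ⟨?e, fun {m n X ι} hX hm hn R C Y j i => ?_⟩
  swap
  unfold tFreeR scFR
  exact ((h0 hX hm hn R C j i).add P1.one).add
    ((scFR_cost hX hm hn (P1.var _) (P1.var _)).mul (P1.var _))

theorem tColR_cost : ∃ e, ∀ {m n X : ℕ} {ι : Type} (_ : 1000 ≤ X) (_ : m ≤ X) (_ : n ≤ X)
    (i0 : Fin m) (R : Fin m → ι) (C : Fin n → ι) (Y : Fin n × Fin m → ι) (j : Fin n),
    P1 X e (fun x => tColR i0 (fun i => x (R i)) (fun j => x (C j)) (fun k => x (Y k)) j) := by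
  obtain ⟨e0, h0⟩ := tFreeR_cost
  refine ⟨?e, fun {m n X ι} hX hm hn i0 R C Y j => ?_⟩
  swap
  unfold tColR
  have hc : (univ.erase i0).card ≤ X ^ 1 := by
    rw [pow_one]
    exact (Finset.card_le_univ _).trans (by simpa using hm)
  exact (((P1.var _).add (P1.natLe hm)).add
    ((scSR_cost hX hm hn (P1.var _)).mul (P1.var _))).sub
      (P1.sum (univ.erase i0) hc fun i' _ => h0 hX hm hn R C Y j i')

/-- The map `tMapR`: `i0`, `j0` are constants of the circuit. -/
theorem tMapR_cost : ∃ e, ∀ {m n X : ℕ} {ι : Type} (_ : 1000 ≤ X) (_ : m ≤ X) (_ : n ≤ X)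
    (i0 : Fin m) (j0 : Fin n) (R : Fin m → ι) (C : Fin n → ι) (Y : Fin n × Fin m → ι) (j : Fin n)
    (i : Fin m),
    P1 X e (fun x => tMapR i0 j0 (fun i => x (R i)) (fun j => x (C j)) (fun k => x (Y k)) j i) := by
  obtain ⟨e0, h0⟩ := tFreeR_cost
  obtain ⟨e1, h1⟩ := tColR_cost
  refine ⟨?e, fun {m n X ι} hX hm hn i0 j0 R C Y j i => ?_⟩
  swap
  unfold tMapR
  have hc : (univ.erase j0).card ≤ X ^ 1 := by
    rw [pow_one]
    exact (Finset.card_le_univ _).trans (by simpa using hn)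
  exact iteConst
    (iteConst
      ((((P1.var _).add (P1.natLe hn)).add
        ((scSR_cost hX hm hn (P1.var _)).mul (P1.var _))).sub
          (P1.sum (univ.erase j0) hc fun j' _ => h1 hX hm hn i0 R C Y j'))
      (((((P1.var _).add (P1.natLe hn)).add
        ((scSR_cost hX hm hn (P1.var _)).mul (P1.var _))).sub
          (P1.sum (univ.erase j0) hc fun j' _ => h0 hX hm hn R C Y j' i))))
    (iteConst (h1 hX hm hn i0 R C Y j) (h0 hX hm hn R C Y j i))

theorem detTR_cost : ∃ e, ∀ {m n X : ℕ} {ι : Type} (_ : 1000 ≤ X) (_ : m ≤ X) (_ : n ≤ X)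
    (i0 : Fin m) (j0 : Fin n) (R : Fin m → ι) (C : Fin n → ι),
    P1 X e (fun x => detTR i0 j0 (fun i => x (R i)) (fun j => x (C j))) := by
  refine ⟨?e, fun {m n X ι} hX hm hn i0 j0 R C => ?_⟩
  swap
  unfold detTR scFR
  have hc : (univ.erase j0).card ≤ X ^ 1 := by
    rw [pow_one]
    exact (Finset.card_le_univ _).trans (by simpa using hn)
  have hc' : (univ.erase i0).card ≤ X ^ 1 := by
    rw [pow_one]
    exact (Finset.card_le_univ _).trans (by simpa using hm)
  exact ((P1.prod (univ.erase j0) hc fun j _ => P1.prod (univ.erase i0) hc' fun i _ =>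
      scFR_cost hX hm hn (P1.var _) (P1.var _)).mul
    (P1.prod (univ.erase j0) hc fun j _ => scSR_cost hX hm hn (P1.var _))).mul
    (P1.prodFin hm fun i => scSR_cost hX hm hn (P1.var _))

end Vale.Agent.Lib.P328.RAM
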