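import Vale.Agent.Lib.P328.RAM.RCost
import Vale.Agent.Lib.P328.RAM.RCostT

/-!
# P328: the potential is a circuit of polynomial size (see `RCost.lean` for the style)

Style: `∃ e, ∀ parameters, P1 X e (function of wires)`. Inputs are wire maps into any index type `ι`.
`X` bounds all parameters, `1000 ≤ X`, so that numerals up to `1000` are at most `X` (`P1.natLe`).
-/

namespace Vale.Agent.Lib.P328.RAM

open Finset Vale.Agent.Lib.P328.Samp

variable {m n : ℕ}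

section Const

variable {ι : Type} {X W : ℕ}

/-- A small numeral as a constant. -/
theorem P1.numeral (N : ℕ) (hN : N ≤ X) : P1 X 6 (fun _ : ι → ℝ => (N : ℝ)) := P1.natLe hN

/-- A constant power of `W`. -/
theorem P1.wPow {p : ℕ} (hW : W ≤ X) (hp : p ≤ X) :
    P1 X 10 (fun _ : ι → ℝ => (W : ℝ) ^ p) :=
  P1.pow (d := 1) (P1.natLe hW) (by simpa using hp)

/-- The constant `s = 1 + k / W ^ 53`. -/
theorem P1.sConst (hX : 1000 ≤ X) (hW : W ≤ X) {k : ℕ} (hk : k ≤ 8 * W ^ 57) :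
    P1 X (0 + ((58 + 5) + (10 + 1) + 2) + 2) (fun _ : ι → ℝ => 1 + (k : ℝ) / (W : ℝ) ^ 53) := by
  have h1 : k ≤ X ^ 58 := by
    calc k ≤ 8 * W ^ 57 := hk
      _ ≤ X * X ^ 57 := Nat.mul_le_mul (by omega) (Nat.pow_le_pow_left hW 57)
      _ = X ^ 58 := by ring
  exact P1.one.add ((P1.nat h1).div (P1.wPow hW (by omega)))

end Const

/-- `psiValR`, for each constant `k ≤ 8 * W ^ 57`. -/
theorem psiValR_cost : ∃ e, ∀ {m n X W Tm : ℕ} {ι : Type} (_ : 1000 ≤ X) (_ : m ≤ X) (_ : n ≤ X)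
    (_ : W ≤ X) (_ : Tm ≤ X ^ 4) (i0 : Fin m) (j0 : Fin n) (Nb : ι) (R : Fin m → ι) (C : Fin n → ι)
    (Y : Fin n × Fin m → ι) (k : ℕ) (_ : k ≤ 8 * W ^ 57),
    P1 X e (fun x => psiValR W Tm (x Nb) i0 j0 (fun i => x (R i)) (fun j => x (C j)) (fun k => x (Y k)) k) := by
  obtain ⟨e1, h1⟩ := tMapR_cost
  obtain ⟨e2, h2⟩ := phiGate_cost
  refine ⟨?e, fun {m n X W Tm ι} hX hm hn hW hTm i0 j0 Nb R C Y k hk => ?_⟩
  swap
  classical
  have hcard : Fintype.card (Fin n × Fin m) ≤ X ^ 2 := by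
    rw [Fintype.card_prod, Fintype.card_fin, Fintype.card_fin, sq]
    exact Nat.mul_le_mul hn hm
  have hs := P1.sConst (ι := ι) hX hW hk
  set s : ℝ := 1 + (k : ℝ) / (W : ℝ) ^ 53 with hsdef
  -- the scaled point
  have hf0 : PC X (2 + _) (fun (x : ι → ℝ) (q : Fin n × Fin m) => s⁻¹ * x (Y q)) :=
    PC.pi hcard fun q => (hs.inv).mul (P1.var (Y q))
  -- the coordinates `t`
  have ht : ∀ q : Fin n × Fin m, P1 X _ (fun x : ι → ℝ => tMapR i0 j0 (fun i => x (R i))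
      (fun j => x (C j)) (fun q' => s⁻¹ * x (Y q')) q.1 q.2) := fun q =>
    P1.bind hf0 (h1 (ι := ι ⊕ (Fin n × Fin m)) hX hm hn i0 j0 (fun i => Sum.inl (R i))
      (fun j => Sum.inl (C j)) Sum.inr q.1 q.2)
  have hf1 : PC X (2 + _) (fun (x : ι → ℝ) (q : Fin n × Fin m) => tMapR i0 j0 (fun i => x (R i))
      (fun j => x (C j)) (fun q' => s⁻¹ * x (Y q')) q.1 q.2) := PC.pi hcard ht
  -- the value of `phiGate`
  have hphi : P1 X _ (fun x : ι → ℝ => phiGate W Tm (x Nb) (fun i => x (R i)) (fun j => x (C j))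
      (fun j i => tMapR i0 j0 (fun i => x (R i)) (fun j => x (C j)) (fun q' => s⁻¹ * x (Y q')) j i)) :=
    P1.bind hf1 (h2 (ι := ι ⊕ (Fin n × Fin m)) hX hm hn hW hTm (Sum.inl Nb) (fun i => Sum.inl (R i))
      (fun j => Sum.inl (C j)) (fun j i => Sum.inr (j, i)))
  have hu := (hs.mul hphi).add ((P1.wPow (ι := ι) (p := 27) hW (by omega)).mul (hs.sub P1.one))
  have hv := P1.wPow (ι := ι) (p := 32) hW (by omega)
  have hcut : P1 X _ (fun _ : ι → ℝ => cutK W) :=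
    (P1.one.div (P1.wPow (ι := ι) (p := 26) hW (by omega))).congr fun _ => rfl
  have hmain := P1.iteAll (s := (univ : Finset (Fin n × Fin m))) (d := 2)
    (F := fun _ _ => cutK W)
    (G := fun q x => tMapR i0 j0 (fun i => x (R i))
      (fun j => x (C j)) (fun q' => s⁻¹ * x (Y q')) q.1 q.2)
    (by simpa using hcard) (fun _ _ => hcut) (fun q _ => ht q) hu hv
  refine hmain.congr fun x => ?_
  unfold psiValR
  simp only
  apply if_congr
  · constructor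
    · intro h q _
      exact h q.1 q.2
    · intro h j i
      exact h (j, i) (mem_univ _)
  · rfl
  · rfl

theorem psiHatR_cost : ∃ e, ∀ {m n X W Tm : ℕ} {ι : Type} (_ : 1000 ≤ X) (_ : m ≤ X) (_ : n ≤ X)
    (_ : W ≤ X) (_ : Tm ≤ X ^ 4) (i0 : Fin m) (j0 : Fin n) (Nb : ι) (R : Fin m → ι) (C : Fin n → ι)
    (Y : Fin n × Fin m → ι),
    P1 X e (fun x => psiHatR W Tm (x Nb) i0 j0 (fun i => x (R i)) (fun j => x (C j)) (fun k => x (Y k))) := by
  obtain ⟨e1, h1⟩ := psiValR_cost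
  refine ⟨?e, fun {m n X W Tm ι} hX hm hn hW hTm i0 j0 Nb R C Y => ?_⟩
  swap
  have hN : 8 * W ^ 57 + 1 ≤ X ^ 58 := by
    have h2 : W ^ 57 ≤ X ^ 57 := Nat.pow_le_pow_left hW 57
    have h3 : X ^ 58 = X * X ^ 57 := by ring
    have h4 : 0 < X ^ 57 := by positivity
    have h5 : 9 * X ^ 57 ≤ X * X ^ 57 := Nat.mul_le_mul (by omega) le_rfl
    omega
  exact P1.infRange (N := 8 * W ^ 57 + 1) (by omega) hN fun k hk =>
    h1 hX hm hn hW hTm i0 j0 Nb R C Y k (by omega)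

theorem psiCellR_cost : ∃ e, ∀ {m n X W Tm : ℕ} {ι : Type} (_ : 1000 ≤ X) (_ : m ≤ X) (_ : n ≤ X)
    (_ : W ≤ X) (_ : Tm ≤ X ^ 4) (i0 : Fin m) (j0 : Fin n) (Nb : ι) (R : Fin m → ι) (C : Fin n → ι)
    (Z : Fin n × Fin m → ι),
    P1 X e (fun x => psiCellR W Tm (x Nb) i0 j0 (fun i => x (R i)) (fun j => x (C j)) (fun k => x (Z k))) := by
  obtain ⟨e1, h1⟩ := psiHatR_cost
  refine ⟨?e, fun {m n X W Tm ι} hX hm hn hW hTm i0 j0 Nb R C Z => ?_⟩
  swap
  have hcard : Fintype.card (Fin n × Fin m) ≤ X ^ 2 := by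
    rw [Fintype.card_prod, Fintype.card_fin, Fintype.card_fin, sq]
    exact Nat.mul_le_mul hn hm
  have hM : cellM W ≤ X ^ 58 := by
    have h2 : W ^ 56 ≤ X ^ 56 := Nat.pow_le_pow_left hW 56
    have h3 : X ^ 58 = X * X * X ^ 56 := by ring
    have h4 : 0 < X ^ 56 := by positivity
    have h5 : 5 * X ^ 56 ≤ X * X * X ^ 56 := Nat.mul_le_mul (by nlinarith) le_rfl
    unfold cellM
    omega
  have h2c : P1 X 6 (fun _ : ι → ℝ => (2 : ℝ)) :=
    (P1.natLe (N := 2) (by omega)).congr fun _ => by norm_num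
  have hrQ : P1 X _ (fun _ : ι → ℝ => rQ W) :=
    (h2c.mul (P1.wPow (ι := ι) (p := 4) hW (by omega))).congr fun _ => rfl
  have hcellD : P1 X _ (fun _ : ι → ℝ => cellD W) :=
    ((h2c.mul hrQ).div (P1.nat (ι := ι) hM)).congr fun _ => rfl
  have hhalf : P1 X _ (fun _ : ι → ℝ => (1 / 2 : ℝ)) := P1.one.div h2c
  have hf : PC X (2 + _) (fun (x : ι → ℝ) (q : Fin n × Fin m) =>
      cellPtR W (fun k => x (Z k)) (fun _ => 1 / 2) q) :=
    PC.pi hcard fun q => ((hrQ.neg).add (hcellD.mul ((P1.var (Z q)).add hhalf)))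
  exact P1.bind hf (h1 (ι := ι ⊕ (Fin n × Fin m)) hX hm hn hW hTm i0 j0 (Sum.inl Nb)
    (fun i => Sum.inl (R i)) (fun j => Sum.inl (C j)) Sum.inr)

end Vale.Agent.Lib.P328.RAM
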