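import Vale.Agent.Lib.P328.RAM.RDefs

/-!
# P328: on natural margins, the functions of real wires are the functions of `Samp/Defs.lean`
-/

namespace Vale.Agent.Lib.P328.RAM

open Finset Vale.Agent.Lib.P328.Samp

variable {m n : ℕ}

/-- The loop with `T` rounds. -/
theorem ellLoop_spec (f : (Fin n → ℝ) → ℝ) (gr : (Fin n → ℝ) → Fin n → ℝ) (R0 y : ℝ) (T : ℕ) :
    ellLoop f gr R0 y T = (ellSeq gr R0 (min T ⌈y⌉₊), ellBest f gr R0 (min T ⌈y⌉₊)) := by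
  induction T with
  | zero => simp [ellLoop, ellSeq, ellBest]
  | succ k ih =>
    rw [ellLoop, ih, ellRound]
    by_cases h : (k : ℝ) < y
    · have hk : k < ⌈y⌉₊ := Nat.lt_ceil.2 h
      have h1 : min (k + 1) ⌈y⌉₊ = k + 1 := min_eq_left hk
      have h2 : min k ⌈y⌉₊ = k := min_eq_left hk.le
      simp only [h, if_true, h1, h2, ellSeq, ellBest]
      rfl
    · have hk : ⌈y⌉₊ ≤ k := not_lt.1 fun h' => h (Nat.lt_ceil.1 h')
      have h1 : min (k + 1) ⌈y⌉₊ = ⌈y⌉₊ := min_eq_right (hk.trans (Nat.le_succ k))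
      have h2 : min k ⌈y⌉₊ = ⌈y⌉₊ := min_eq_right hk
      simp only [h, if_false, h1, h2]

theorem ellIters_eq (W Nb : ℕ) : ellIters W Nb = ⌈ellItersR W (Nb : ℝ)⌉₊ := by
  rfl

theorem betaGate_eq {W Nb Tm : ℕ} (hT : ellIters W Nb ≤ Tm) (r : Fin m → ℕ) (c : Fin n → ℕ)
    (t : Fin n → Fin m → ℝ) :
    betaGate W Tm (Nb : ℝ) (fun i => (r i : ℝ)) (fun j => (c j : ℝ)) t = betaHat W Nb r c t := by
  unfold betaGate betaHat
  rw [ellLoop_spec]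
  have h : min Tm ⌈ellItersR W (Nb : ℝ)⌉₊ = ellIters W Nb := by
    rw [← ellIters_eq]
    exact min_eq_right hT
  rw [h]
  rfl

theorem logCapGate_eq {W Nb Tm : ℕ} (hT : ellIters W Nb ≤ Tm) (r : Fin m → ℕ) (c : Fin n → ℕ)
    (t : Fin n → Fin m → ℝ) :
    logCapGate W Tm (Nb : ℝ) (fun i => (r i : ℝ)) (fun j => (c j : ℝ)) t = logCapHat W Nb r c t := by
  unfold logCapGate logCapHat
  rw [betaGate_eq hT]
  rfl

theorem phiGate_eq {W Nb Tm : ℕ} (hT : ellIters W Nb ≤ Tm) (r : Fin m → ℕ) (c : Fin n → ℕ)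
    (t : Fin n → Fin m → ℝ) :
    phiGate W Tm (Nb : ℝ) (fun i => (r i : ℝ)) (fun j => (c j : ℝ)) t = phiHat W Nb r c t := by
  unfold phiGate phiHat
  rw [logCapGate_eq hT]
  rfl

theorem centreTabR_eq (r : Fin m → ℕ) (c : Fin n → ℕ) :
    centreTabR (fun i => (r i : ℝ)) (fun j => (c j : ℝ)) = centreTab r c := by
  rfl

theorem tMapR_eq (i0 : Fin m) (j0 : Fin n) (r : Fin m → ℕ) (c : Fin n → ℕ) :
    tMapR i0 j0 (fun i => (r i : ℝ)) (fun j => (c j : ℝ)) = tMap i0 j0 r c := by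
  rfl

theorem detTR_eq (i0 : Fin m) (j0 : Fin n) (r : Fin m → ℕ) (c : Fin n → ℕ) :
    detTR i0 j0 (fun i => (r i : ℝ)) (fun j => (c j : ℝ)) = detT i0 j0 r c := by
  rfl

theorem phiMinR_eq (r : Fin m → ℕ) : phiMinR (fun i => (r i : ℝ)) = phiMin r := by
  rfl

theorem psiHatR_eq {W Nb Tm : ℕ} (hT : ellIters W Nb ≤ Tm) (i0 : Fin m) (j0 : Fin n) (r : Fin m → ℕ)
    (c : Fin n → ℕ) :
    psiHatR W Tm (Nb : ℝ) i0 j0 (fun i => (r i : ℝ)) (fun j => (c j : ℝ)) = psiHat W Nb i0 j0 r c := by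
  funext y
  unfold psiHatR psiHat
  congr 1
  funext k
  unfold psiValR psiVal
  simp only [tMapR_eq, phiGate_eq hT]

theorem cellPtR_eq {ι : Type} (W : ℕ) (z : ι → Fin (cellM W)) (u : ι → ℝ) :
    cellPtR W (fun i => ((z i : ℕ) : ℝ)) u = cellPt W z u := by
  rfl

theorem psiCellR_eq {W Nb Tm : ℕ} (hT : ellIters W Nb ≤ Tm) (i0 : Fin m) (j0 : Fin n) (r : Fin m → ℕ)
    (c : Fin n → ℕ) (z : Fin n × Fin m → Fin (cellM W)) :
    psiCellR W Tm (Nb : ℝ) i0 j0 (fun i => (r i : ℝ)) (fun j => (c j : ℝ)) (fun i => ((z i : ℕ) : ℝ))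
      = psiCell W Nb i0 j0 r c z := by
  unfold psiCellR psiCell
  rw [psiHatR_eq hT, cellPtR_eq]

end Vale.Agent.Lib.P328.RAM
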