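import Vale.Agent.Lib.P328.RAM.RunCost
import Vale.Agent.Lib.P328.RAM.RSpec
import Vale.Agent.Lib.P328.RAM.RCostP

/-!
# P328: the Metropolis chain as a randomized map on wires (module C)

State: the labels `z i` of the cube, real wires. Random wires of one step: `ω (inl i)` moves the
coordinate `i`, `ω (inr 0)` is the lazy coin, `ω (inr 1)` decides acceptance.

`chainStepR` is the step; `Pr_chainStep`: its kernel on labels `z : ι → Fin M` is `gridP`;
`Pr_chainRun`: the law of `T` steps is the matrix power; `chainRunR_law`: for the potential `psiCellR`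
on natural margins this is `chainLaw`.

Proof of `Pr_chainStep`: for `z' ≠ z` the event is a box: `ω (inr 0) ∈ (1/2, ∞)`, `ω (inr 1) ≤ q`, and for
each `i` the set of `u` with `moveR p (z i) u = z' i`, of length `propStep p (z i) (z' i)` inside `[0,1]`
(`Pr_coord`), `q = exp (-a (ψ z' - ψ z))`, length in `[0,1]` is `min 1 q`. For `z' = z`: total mass one
(`Pr_total`), and the definition of `gridP` on the diagonal.
-/

namespace Vale.Agent.Lib.P328.RAM

open Finset MeasureTheory Vale.Agent.Lib.P328.Samp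

/-- One coordinate of a proposal. -/
noncomputable def moveR (p z u : ℝ) : ℝ := if u ≤ p then z - 1 else if 1 - p < u then z + 1 else z

/-- The random wires of one step. -/
abbrev ChainW (ι : Type) : Type := ι ⊕ Fin 2

/-- The label as real wires. -/
noncomputable def encZ {ι : Type} {M : ℕ} (z : ι → Fin M) : ι → ℝ := fun i => ((z i : ℕ) : ℝ)

theorem encZ_injective {ι : Type} {M : ℕ} : Function.Injective (encZ (ι := ι) (M := M)) := by
  intro z z' h
  funext i
  have h1 := congrFun h i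
  simp only [encZ] at h1
  exact Fin.ext (by exact_mod_cast h1)

/-- Independent conditions on single coordinates. -/
theorem Pr_coords {Ω : Type} [Fintype Ω] (A : Ω → Set ℝ) :
    Pr (fun ω : Ω → ℝ => ∀ a, ω a ∈ A a) = ∏ a, (volume (A a ∩ Set.Icc 0 1)).toReal := by
  have hset : {ω : Ω → ℝ | ω ∈ Cube Ω ∧ ∀ a, ω a ∈ A a}
      = Set.pi Set.univ (fun a => A a ∩ Set.Icc 0 1) := by
    ext ω
    simp only [Set.mem_ofPred_eq, Cube, Set.mem_pi, Set.mem_univ, true_implies, Set.mem_inter_iff,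
      Set.mem_Icc]
    constructor
    · rintro ⟨h1, h2⟩ a
      exact ⟨h2 a, h1 a⟩
    · intro h
      exact ⟨fun a => (h a).2, fun a => (h a).1⟩
  rw [Pr, hset, volume_pi_pi, ENNReal.toReal_prod]

theorem measurable_moveR (p z : ℝ) : Measurable (moveR p z) := by
  unfold moveR
  exact Measurable.ite (measurableSet_le measurable_id measurable_const) measurable_const
    (Measurable.ite (measurableSet_lt measurable_const measurable_id) measurable_const
      measurable_const)

theorem moveR_eq_iff (p u : ℝ) (a b : ℕ) :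
    moveR p (a : ℝ) u = (b : ℝ) ↔ (u ≤ p ∧ b + 1 = a) ∨ (p < u ∧ 1 - p < u ∧ a + 1 = b) ∨
      (p < u ∧ u ≤ 1 - p ∧ a = b) := by
  unfold moveR
  by_cases h1 : u ≤ p
  · simp only [h1, if_true, not_lt.2 h1, false_and, or_false, true_and]
    constructor
    · intro h
      have : ((b + 1 : ℕ) : ℝ) = a := by push_cast; linarith
      exact_mod_cast this
    · intro h
      have : ((b + 1 : ℕ) : ℝ) = a := by exact_mod_cast h
      push_cast at this
      linarith
  · have h1' : p < u := not_le.1 h1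
    simp only [h1, if_false, h1', true_and, false_and, false_or]
    by_cases h2 : 1 - p < u
    · simp only [h2, if_true, not_le.2 h2, true_and, false_and, or_false]
      constructor
      · intro h
        exact_mod_cast h
      · intro h
        exact_mod_cast h
    · simp only [h2, if_false, not_lt.1 h2, true_and, false_and, false_or]
      exact Nat.cast_inj

/-- The probability of a move in one coordinate. -/
theorem volume_move {p : ℝ} (hp0 : 0 ≤ p) (hp1 : p ≤ 1 / 2) {M : ℕ} (a b : Fin M) :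
    (volume ({u | moveR p ((a : ℕ) : ℝ) u = ((b : ℕ) : ℝ)} ∩ Set.Icc (0 : ℝ) 1)).toReal
      = propStep p a b := by
  have hiff := moveR_eq_iff p
  by_cases hab : a = b
  · subst hab
    have hset : {u | moveR p ((a : ℕ) : ℝ) u = ((a : ℕ) : ℝ)} ∩ Set.Icc (0 : ℝ) 1
        = Set.Ioc p (1 - p) := by
      ext u
      simp only [Set.mem_inter_iff, Set.mem_ofPred_eq, hiff, Set.mem_Icc, Set.mem_Ioc]
      constructor
      · rintro ⟨h | h | h, _⟩
        · omega
        · omega
        · exact ⟨h.1, h.2.1⟩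
      · rintro ⟨h1, h2⟩
        exact ⟨Or.inr (Or.inr ⟨h1, h2, by trivial⟩), by linarith, by linarith⟩
    rw [hset, Real.volume_Ioc, ENNReal.toReal_ofReal (by linarith)]
    simp only [propStep, if_true]
    ring
  · have hab' : (a : ℕ) ≠ b := fun h => hab (Fin.ext h)
    by_cases h1 : (a : ℕ) + 1 = b
    · have hset : {u | moveR p ((a : ℕ) : ℝ) u = ((b : ℕ) : ℝ)} ∩ Set.Icc (0 : ℝ) 1
          = Set.Ioc (1 - p) 1 := by
        ext u
        simp only [Set.mem_inter_iff, Set.mem_ofPred_eq, hiff, Set.mem_Icc, Set.mem_Ioc]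
        constructor
        · rintro ⟨h | h | h, h3⟩
          · omega
          · exact ⟨h.2.1, h3.2⟩
          · exact absurd h.2.2 hab'
        · rintro ⟨h3, h4⟩
          exact ⟨Or.inr (Or.inl ⟨by linarith, h3, h1⟩), by linarith, h4⟩
      rw [hset, Real.volume_Ioc, ENNReal.toReal_ofReal (by linarith)]
      simp only [propStep, hab, if_false, h1, true_or, if_true]
      ring
    · by_cases h2 : (b : ℕ) + 1 = a
      · have hset : {u | moveR p ((a : ℕ) : ℝ) u = ((b : ℕ) : ℝ)} ∩ Set.Icc (0 : ℝ) 1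
            = Set.Icc 0 p := by
          ext u
          simp only [Set.mem_inter_iff, Set.mem_ofPred_eq, hiff, Set.mem_Icc]
          constructor
          · rintro ⟨h | h | h, h3⟩
            · exact ⟨h3.1, h.1⟩
            · omega
            · exact absurd h.2.2 hab'
          · rintro ⟨h3, h4⟩
            exact ⟨Or.inl ⟨h4, h2⟩, h3, by linarith⟩
        rw [hset, Real.volume_Icc, ENNReal.toReal_ofReal (by linarith)]
        simp only [propStep, hab, if_false, h2, or_true, if_true]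
        ring
      · have hset : {u | moveR p ((a : ℕ) : ℝ) u = ((b : ℕ) : ℝ)} ∩ Set.Icc (0 : ℝ) 1 = ∅ := by
          ext u
          simp only [Set.mem_inter_iff, Set.mem_ofPred_eq, hiff, Set.mem_empty_iff_false, iff_false]
          rintro ⟨h | h | h, _⟩
          · exact h2 h.2
          · exact h1 h.2.2
          · exact hab' h.2.2
        rw [hset]
        simp [propStep, hab, h1, h2]

open Classical in
/-- One step of the chain with potential `ψ`, inverse temperature `a`, on the grid of `M` cubes. -/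
noncomputable def chainStepR {ι : Type} [Fintype ι] (p : ℝ) (M : ℕ) (a : ℝ) (ψ : (ι → ℝ) → ℝ) (z : ι → ℝ)
    (ω : ChainW ι → ℝ) : ι → ℝ :=
  let z' : ι → ℝ := fun i => moveR p (z i) (ω (Sum.inl i))
  if ω (Sum.inr 0) ≤ 1 / 2 then z
  else if ∀ i, 0 ≤ z' i ∧ z' i ≤ (M : ℝ) - 1 then
    if ω (Sum.inr 1) ≤ Real.exp (-a * (ψ z' - ψ z)) then z' else z
  else z

section Law

variable {ι : Type} [Fintype ι] [DecidableEq ι] {p a : ℝ} {M : ℕ} {ψ : (ι → ℝ) → ℝ}

/-- The next state is a label. -/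
theorem chainStepR_mem' (z : ι → Fin M) (ω : ChainW ι → ℝ) :
    ∃ z' : ι → Fin M, chainStepR p M a ψ (encZ z) ω = encZ z' := by
  classical
  have hlabel : ∀ (i : ι) (u : ℝ), 0 ≤ moveR p (encZ z i) u → moveR p (encZ z i) u ≤ (M : ℝ) - 1 →
      ∃ l : Fin M, moveR p (encZ z i) u = encZ (fun _ : Unit => l) () := by
    intro i u h0 h1
    have hzi := (z i).2
    unfold moveR at h0 h1 ⊢
    simp only [encZ] at h0 h1 ⊢
    split_ifs at h0 h1 ⊢ with h2 h3
    · have hpos : 0 < ((z i : ℕ)) := by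
        by_contra hz
        have hz0 : ((z i : ℕ)) = 0 := by omega
        rw [hz0] at h0
        norm_num at h0
      refine ⟨⟨(z i : ℕ) - 1, by omega⟩, ?_⟩
      simp only [Nat.cast_sub (Nat.succ_le_of_lt hpos)]
      norm_num
    · have hlt : (z i : ℕ) + 1 < M := by
        have hM1 : (1 : ℝ) ≤ M := by
          exact_mod_cast (by omega : 1 ≤ M)
        have : (((z i : ℕ) + 1 + 1 : ℕ) : ℝ) ≤ (M : ℝ) := by
          push_cast
          linarith
        have h5 : (z i : ℕ) + 1 + 1 ≤ M := by exact_mod_cast this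
        omega
      exact ⟨⟨(z i : ℕ) + 1, hlt⟩, by simp⟩
    · exact ⟨z i, rfl⟩
  unfold chainStepR
  simp only
  split_ifs with h1 h2 h3
  · exact ⟨z, rfl⟩
  · have hex : ∀ i, ∃ l : Fin M, moveR p (encZ z i) (ω (Sum.inl i)) = encZ (fun _ : Unit => l) () :=
      fun i => hlabel i _ (h2 i).1 (h2 i).2
    choose l hl using hex
    exact ⟨l, funext fun i => hl i⟩
  · exact ⟨z, rfl⟩
  · exact ⟨z, rfl⟩

/-- The next state is a label. -/
theorem chainStepR_mem (_ : 0 < M) (z : ι → Fin M) (ω : ChainW ι → ℝ) :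
    ∃ z' : ι → Fin M, chainStepR p M a ψ (encZ z) ω = encZ z' := chainStepR_mem' z ω

/-- The event of a move to another label. -/
theorem chainStepR_eq_iff {z z' : ι → Fin M} (hne : z' ≠ z) (ω : ChainW ι → ℝ) :
    chainStepR p M a ψ (encZ z) ω = encZ z' ↔
      1 / 2 < ω (Sum.inr 0) ∧ (∀ i, moveR p (encZ z i) (ω (Sum.inl i)) = encZ z' i) ∧
        ω (Sum.inr 1) ≤ Real.exp (-a * (ψ (encZ z') - ψ (encZ z))) := by
  classical
  have hne' : encZ z ≠ encZ z' := fun h => hne (encZ_injective h).symm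
  unfold chainStepR
  simp only
  constructor
  · intro h
    split_ifs at h with h1 h2 h3
    · exact absurd h hne'
    · have hy : (fun i => moveR p (encZ z i) (ω (Sum.inl i))) = encZ z' := h
      rw [hy] at h3
      exact ⟨not_le.1 h1, fun i => congrFun hy i, h3⟩
    · exact absurd h hne'
    · exact absurd h hne'
  · rintro ⟨h1, h2, h3⟩
    have hy : (fun i => moveR p (encZ z i) (ω (Sum.inl i))) = encZ z' := funext h2
    rw [if_neg (not_le.2 h1)]
    have hr : ∀ i, 0 ≤ moveR p (encZ z i) (ω (Sum.inl i)) ∧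
        moveR p (encZ z i) (ω (Sum.inl i)) ≤ (M : ℝ) - 1 := by
      intro i
      rw [h2 i]
      simp only [encZ]
      refine ⟨Nat.cast_nonneg _, ?_⟩
      have := (z' i).2
      have h5 : (((z' i : ℕ) + 1 : ℕ) : ℝ) ≤ (M : ℝ) := by exact_mod_cast this
      push_cast at h5
      linarith
    rw [if_pos hr, hy, if_pos h3]

/-- The fibre is measurable. -/
theorem measurableSet_box {z z' : ι → Fin M} (q : ℝ) :
    MeasurableSet {ω : ChainW ι → ℝ | 1 / 2 < ω (Sum.inr 0) ∧
      (∀ i, moveR p (encZ z i) (ω (Sum.inl i)) = encZ z' i) ∧ ω (Sum.inr 1) ≤ q} := by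
  have h1 : MeasurableSet {ω : ChainW ι → ℝ | 1 / 2 < ω (Sum.inr 0)} :=
    measurableSet_lt measurable_const (measurable_pi_apply _)
  have h3 : MeasurableSet {ω : ChainW ι → ℝ | ω (Sum.inr 1) ≤ q} :=
    measurableSet_le (measurable_pi_apply _) measurable_const
  have h2 : MeasurableSet {ω : ChainW ι → ℝ | ∀ i, moveR p (encZ z i) (ω (Sum.inl i)) = encZ z' i} := by
    have : {ω : ChainW ι → ℝ | ∀ i, moveR p (encZ z i) (ω (Sum.inl i)) = encZ z' i}
        = ⋂ i, (fun ω : ChainW ι → ℝ => ω (Sum.inl i)) ⁻¹' (moveR p (encZ z i) ⁻¹' {encZ z' i}) := by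
      ext ω; simp
    rw [this]
    exact MeasurableSet.iInter fun i =>
      (measurable_pi_apply _) ((measurable_moveR p _) (measurableSet_singleton _))
  exact h1.inter (h2.inter h3)

theorem measurableSet_fibre_ne {z z' : ι → Fin M} (hne : z' ≠ z) :
    MeasurableSet {ω : ChainW ι → ℝ | chainStepR p M a ψ (encZ z) ω = encZ z'} := by
  have : {ω : ChainW ι → ℝ | chainStepR p M a ψ (encZ z) ω = encZ z'}
      = {ω | 1 / 2 < ω (Sum.inr 0) ∧ (∀ i, moveR p (encZ z i) (ω (Sum.inl i)) = encZ z' i) ∧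
        ω (Sum.inr 1) ≤ Real.exp (-a * (ψ (encZ z') - ψ (encZ z)))} := by
    ext ω
    exact chainStepR_eq_iff hne ω
  rw [this]
  exact measurableSet_box _

/-- The kernel off the diagonal. -/
theorem Pr_chainStep_ne (hp0 : 0 ≤ p) (hp1 : p ≤ 1 / 2) {z z' : ι → Fin M} (hne : z' ≠ z) :
    Pr (fun ω => chainStepR p M a ψ (encZ z) ω = encZ z')
      = (1 / 2) * prop p z z' * min 1 (Real.exp (-a * (ψ (encZ z') - ψ (encZ z)))) := by
  classical
  set q := Real.exp (-a * (ψ (encZ z') - ψ (encZ z))) with hq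
  have hq0 : 0 < q := Real.exp_pos _
  -- the two blocks of wires
  have hE₁ : Pr (fun v : ι → ℝ => ∀ i, v i ∈ {u | moveR p ((z i : ℕ) : ℝ) u = ((z' i : ℕ) : ℝ)})
      = prop p z z' := by
    rw [Pr_coords]
    unfold prop
    exact Finset.prod_congr rfl fun i _ => volume_move hp0 hp1 (z i) (z' i)
  have hE₂ : Pr (fun w : Fin 2 → ℝ => ∀ b, w b ∈ (![Set.Ioi (1 / 2), Set.Iic q] : Fin 2 → Set ℝ) b)
      = (1 / 2) * min 1 q := by
    rw [Pr_coords, Fin.prod_univ_two]
    have h1 : Set.Ioi (1 / 2 : ℝ) ∩ Set.Icc 0 1 = Set.Ioc (1 / 2) 1 := by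
      ext u
      simp only [Set.mem_inter_iff, Set.mem_Ioi, Set.mem_Icc, Set.mem_Ioc]
      constructor
      · rintro ⟨h1, _, h3⟩; exact ⟨h1, h3⟩
      · rintro ⟨h1, h3⟩; exact ⟨h1, by linarith, h3⟩
    have h2 : Set.Iic q ∩ Set.Icc (0 : ℝ) 1 = Set.Icc 0 (min 1 q) := by
      ext u
      simp only [Set.mem_inter_iff, Set.mem_Iic, Set.mem_Icc, le_min_iff]
      tauto
    simp only [Matrix.cons_val_zero, Matrix.cons_val_one]
    rw [h1, h2, Real.volume_Ioc, Real.volume_Icc,
      ENNReal.toReal_ofReal (by norm_num),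
      ENNReal.toReal_ofReal (by
        have : 0 ≤ min 1 q := le_min (by norm_num) hq0.le
        linarith)]
    norm_num
  have hm1 : MeasurableSet {v : ι → ℝ | ∀ i, v i ∈ {u | moveR p ((z i : ℕ) : ℝ) u = ((z' i : ℕ) : ℝ)}} := by
    have : {v : ι → ℝ | ∀ i, v i ∈ {u | moveR p ((z i : ℕ) : ℝ) u = ((z' i : ℕ) : ℝ)}}
        = ⋂ i, (fun v : ι → ℝ => v i) ⁻¹' (moveR p ((z i : ℕ) : ℝ) ⁻¹' {((z' i : ℕ) : ℝ)}) := by
      ext v; simp
    rw [this]
    exact MeasurableSet.iInter fun i =>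
      (measurable_pi_apply _) ((measurable_moveR p _) (measurableSet_singleton _))
  have hm2 : MeasurableSet {w : Fin 2 → ℝ | ∀ b, w b ∈ (![Set.Ioi (1 / 2), Set.Iic q] : Fin 2 → Set ℝ) b} := by
    have : {w : Fin 2 → ℝ | ∀ b, w b ∈ (![Set.Ioi (1 / 2), Set.Iic q] : Fin 2 → Set ℝ) b}
        = Set.pi Set.univ (![Set.Ioi (1 / 2), Set.Iic q] : Fin 2 → Set ℝ) := by
      ext w; simp [Set.mem_pi]
    rw [this]
    refine MeasurableSet.univ_pi fun b => ?_
    fin_cases b
    · exact measurableSet_Ioi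
    · exact measurableSet_Iic
  have hprod := Pr_prod hm1 hm2
  rw [hE₁, hE₂] at hprod
  have hcongr : Pr (fun ω => chainStepR p M a ψ (encZ z) ω = encZ z')
      = Pr (fun ω : ι ⊕ Fin 2 → ℝ =>
        (∀ i, (fun a => ω (Sum.inl a)) i ∈ {u | moveR p ((z i : ℕ) : ℝ) u = ((z' i : ℕ) : ℝ)}) ∧
        ∀ b, (fun a => ω (Sum.inr a)) b ∈ (![Set.Ioi (1 / 2), Set.Iic q] : Fin 2 → Set ℝ) b) := by
    refine Pr_congr fun ω _ => ?_
    rw [chainStepR_eq_iff hne ω]
    simp only [Fin.forall_fin_two, Matrix.cons_val_zero, Matrix.cons_val_one, Set.mem_Ioi,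
      Set.mem_Iic, Set.mem_ofPred_eq, encZ, hq]
    tauto
  rw [hcongr, hprod]
  ring

/-- The kernel of a step is the Metropolis matrix. -/
theorem Pr_chainStep (hp0 : 0 ≤ p) (hp1 : p ≤ 1 / 2) (z z' : ι → Fin M) :
    Pr (fun ω => chainStepR p M a ψ (encZ z) ω = encZ z')
      = gridP p (fun y => Real.exp (-a * ψ (encZ y))) z z' := by
  classical
  have hdiv : ∀ z'' : ι → Fin M, Real.exp (-a * ψ (encZ z'')) / Real.exp (-a * ψ (encZ z))
      = Real.exp (-a * (ψ (encZ z'') - ψ (encZ z))) := by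
    intro z''
    rw [← Real.exp_sub]
    congr 1
    ring
  by_cases hzz : z = z'
  · subst hzz
    have hne_mem : ∀ z'' ∈ (Finset.univ.erase z : Finset (ι → Fin M)), z'' ≠ z :=
      fun z'' h => (Finset.mem_erase.1 h).1
    have hB : MeasurableSet {ω : ChainW ι → ℝ |
        ∃ z'' ∈ (Finset.univ.erase z : Finset (ι → Fin M)), chainStepR p M a ψ (encZ z) ω = encZ z''} := by
      have : {ω : ChainW ι → ℝ |
          ∃ z'' ∈ (Finset.univ.erase z : Finset (ι → Fin M)), chainStepR p M a ψ (encZ z) ω = encZ z''}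
          = ⋃ z'' ∈ (Finset.univ.erase z : Finset (ι → Fin M)),
            {ω : ChainW ι → ℝ | chainStepR p M a ψ (encZ z) ω = encZ z''} := by
        ext ω; simp
      rw [this]
      exact Finset.measurableSet_biUnion _ fun z'' h => measurableSet_fibre_ne (hne_mem z'' h)
    have h1 : Pr (fun ω => chainStepR p M a ψ (encZ z) ω = encZ z)
        = Pr (fun ω => ¬ ∃ z'' ∈ (Finset.univ.erase z : Finset (ι → Fin M)),
            chainStepR p M a ψ (encZ z) ω = encZ z'') := by
      refine Pr_congr fun ω _ => ?_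
      constructor
      · rintro h ⟨z'', hz'', h2⟩
        exact hne_mem z'' hz'' (encZ_injective (h2.symm.trans h))
      · intro h
        obtain ⟨y, hy⟩ := chainStepR_mem' (p := p) (a := a) (ψ := ψ) z ω
        by_cases hyz : y = z
        · rw [hy, hyz]
        · exact absurd ⟨y, Finset.mem_erase.2 ⟨hyz, Finset.mem_univ _⟩, hy⟩ h
    rw [h1, Pr_not hB, Pr_exists_finset]
    · simp only [gridP, if_true]
      congr 1
      refine Finset.sum_congr rfl fun z'' h => ?_
      rw [Pr_chainStep_ne hp0 hp1 (hne_mem z'' h), hdiv]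
    · intro z'' h
      exact measurableSet_fibre_ne (hne_mem z'' h)
    · intro i _ j _ hij ω h1 h2
      exact hij (encZ_injective (h1.symm.trans h2))
  · have hne : z' ≠ z := fun h => hzz h.symm
    rw [Pr_chainStep_ne hp0 hp1 hne]
    simp only [gridP, hzz, if_false]
    rw [hdiv]

/-- The step as a map on labels. -/
noncomputable def chainStepL (p : ℝ) (M : ℕ) (a : ℝ) (ψ : (ι → ℝ) → ℝ) (z : ι → Fin M)
    (ω : ChainW ι → ℝ) : ι → Fin M :=
  (chainStepR_mem' (p := p) (a := a) (ψ := ψ) z ω).choose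

theorem encZ_chainStepL (z : ι → Fin M) (ω : ChainW ι → ℝ) :
    encZ (chainStepL p M a ψ z ω) = chainStepR p M a ψ (encZ z) ω :=
  (chainStepR_mem' (p := p) (a := a) (ψ := ψ) z ω).choose_spec.symm

theorem encZ_runSeq {Ω : Type} (step : (ι → ℝ) → (Ω → ℝ) → ι → ℝ)
    (stepL : (ι → Fin M) → (Ω → ℝ) → ι → Fin M) (h : ∀ z ω, encZ (stepL z ω) = step (encZ z) ω)
    (z0 : ι → Fin M) (T : ℕ) (ω : Fin T × Ω → ℝ) :
    encZ (runSeq stepL z0 T ω) = runSeq step (encZ z0) T ω := by
  induction T with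
  | zero => rfl
  | succ T ih =>
    simp only [runSeq]
    rw [h, ih]

/-- The law after `T` steps, no condition on `ψ`. -/
theorem Pr_chainRun' (hp0 : 0 ≤ p) (hp1 : p ≤ 1 / 2) (T : ℕ) (z0 z : ι → Fin M) :
    Pr (fun ω => runSeq (chainStepR p M a ψ) (encZ z0) T ω = encZ z)
      = (gridP p (fun y => Real.exp (-a * ψ (encZ y))) ^ T) z0 z := by
  classical
  have hfib : ∀ z z' : ι → Fin M, {ω : ChainW ι → ℝ | chainStepL p M a ψ z ω = z'}
      = {ω | chainStepR p M a ψ (encZ z) ω = encZ z'} := by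
    intro z z'
    ext ω
    simp only [Set.mem_ofPred_eq, ← encZ_chainStepL]
    exact encZ_injective.eq_iff.symm
  have hmeas : ∀ z z' : ι → Fin M, MeasurableSet {ω : ChainW ι → ℝ | chainStepL p M a ψ z ω = z'} := by
    intro z z'
    by_cases h : z' = z
    · -- the complement of the other fibres
      have : {ω : ChainW ι → ℝ | chainStepL p M a ψ z ω = z'}
          = (⋃ z'' ∈ (Finset.univ.erase z' : Finset (ι → Fin M)),
              {ω : ChainW ι → ℝ | chainStepL p M a ψ z ω = z''})ᶜ := by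
        ext ω
        simp only [Set.mem_ofPred_eq, Set.mem_compl_iff, Set.mem_iUnion, Finset.mem_erase,
          Finset.mem_univ, and_true, exists_prop, not_exists, not_and]
        constructor
        · rintro h1 z'' h2 h3
          exact h2 (h3.symm.trans h1)
        · intro h1
          by_contra h2
          exact h1 _ h2 rfl
      rw [this]
      refine (Finset.measurableSet_biUnion _ fun z'' hz'' => ?_).compl
      rw [hfib]
      refine measurableSet_fibre_ne ?_
      rw [← h]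
      exact (Finset.mem_erase.1 hz'').1
    · rw [hfib]
      exact measurableSet_fibre_ne h
  have hstep : Measurable fun q : (ι → Fin M) × (ChainW ι → ℝ) => chainStepL p M a ψ q.1 q.2 := by
    refine measurable_from_prod_countable_right fun z => ?_
    exact measurable_to_countable' fun z' => hmeas z z'
  have hK : ∀ z z' : ι → Fin M, gridP p (fun y => Real.exp (-a * ψ (encZ y))) z z'
      = Pr fun ω => chainStepL p M a ψ z ω = z' := by
    intro z z'
    rw [← Pr_chainStep hp0 hp1]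
    refine Pr_congr fun ω _ => ?_
    rw [← encZ_chainStepL]
    exact encZ_injective.eq_iff
  have hmain := Pr_runSeq_pow (Z := ι → Fin M) id Function.injective_id (step := chainStepL p M a ψ)
    hstep (fun z ω _ => ⟨_, rfl⟩) hK T z0 z
  rw [← hmain]
  refine Pr_congr fun ω _ => ?_
  rw [← encZ_runSeq _ (chainStepL p M a ψ) encZ_chainStepL]
  exact encZ_injective.eq_iff

/-- The law after `T` steps. Here `ψ` is given on all of the wires so that the step is measurable. -/
theorem Pr_chainRun (hp0 : 0 ≤ p) (hp1 : p ≤ 1 / 2) (hM : 0 < M) (hψ : Measurable ψ) (T : ℕ)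
    (z0 z : ι → Fin M) :
    Pr (fun ω => runSeq (chainStepR p M a ψ) (encZ z0) T ω = encZ z)
      = (gridP p (fun y => Real.exp (-a * ψ (encZ y))) ^ T) z0 z := by
  exact Pr_chainRun' hp0 hp1 T z0 z

end Law

/-- The probability of a move in the chain of the algorithm. -/
noncomputable def chainProp (m n : ℕ) : ℝ := 1 / (4 * ((n : ℝ) * m))

section Inst

variable {m n : ℕ}

/-- The run of `chainT W` steps of the chain of the algorithm at inverse temperature `a`. -/
noncomputable def chainRunR (W Tm : ℕ) (a Nb : ℝ) (i0 : Fin m) (j0 : Fin n) (r : Fin m → ℝ) (c : Fin n → ℝ)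
    (ω : Fin (chainT W) × ChainW (Fin n × Fin m) → ℝ) : Fin n × Fin m → ℝ :=
  runSeq (chainStepR (chainProp m n) (cellM W) a (psiCellR W Tm Nb i0 j0 r c))
    (fun _ => 0) (chainT W) ω

/-- The law of the run is `chainLaw`. -/
theorem chainRunR_law {W Nb Tm : ℕ} (hT : ellIters W Nb ≤ Tm) (hm : 0 < m) (hn : 0 < n) (a : ℝ)
    (i0 : Fin m) (j0 : Fin n) (r : Fin m → ℕ) (c : Fin n → ℕ) (z : Fin n × Fin m → Fin (cellM W)) :
    Pr (fun ω => chainRunR W Tm a (Nb : ℝ) i0 j0 (fun i => (r i : ℝ)) (fun j => (c j : ℝ)) ω = encZ z)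
      = chainLaw W Nb i0 j0 r c a z := by
  have hnm : (1 : ℝ) ≤ (n : ℝ) * m := by
    have h1 : (1 : ℝ) ≤ n := by exact_mod_cast hn
    have h2 : (1 : ℝ) ≤ m := by exact_mod_cast hm
    nlinarith
  have hp0 : 0 ≤ chainProp m n := by
    unfold chainProp
    positivity
  have hp1 : chainProp m n ≤ 1 / 2 := by
    unfold chainProp
    rw [div_le_div_iff₀ (by linarith) (by norm_num)]
    linarith
  have hstart : (fun _ : Fin n × Fin m => (0 : ℝ)) = encZ (zStart _ W) := by
    funext i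
    simp [encZ, zStart]
  unfold chainRunR chainLaw
  rw [hstart, Pr_chainRun' hp0 hp1]
  have hfun : (fun y : Fin n × Fin m → Fin (cellM W) =>
      Real.exp (-a * psiCellR W Tm (Nb : ℝ) i0 j0 (fun i => (r i : ℝ)) (fun j => (c j : ℝ)) (encZ y)))
      = fun z' => Real.exp (-a * psiCell W Nb i0 j0 r c z') := by
    funext y
    have := psiCellR_eq hT i0 j0 r c y
    rw [← this]
    rfl
  rw [hfun]
  rfl

namespace ChainCost

variable {ι : Type} {X a b : ℕ} {u v : (ι → ℝ) → ℝ}

theorem num4 (hX : 1000 ≤ X) : P1 X 6 (fun _ : ι → ℝ => (4 : ℝ)) :=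
  (P1.natLe (N := 4) (by omega)).congr fun _ => by norm_num

theorem half (hX : 1000 ≤ X) : P1 X (0 + (6 + 1) + 2) (fun _ : ι → ℝ => (1 / 2 : ℝ)) :=
  (P1.one.div (P1.natLe (N := 2) (by omega))).congr fun _ => by norm_num

theorem chainProp_cost {m n : ℕ} (hX : 1000 ≤ X) (hm : m ≤ X) (hn : n ≤ X) :
    P1 X (0 + ((6 + (6 + 6 + 2) + 2) + 1) + 2) (fun _ : ι → ℝ => chainProp m n) := by
  unfold chainProp
  exact P1.one.div ((num4 hX).mul ((P1.natLe hn).mul (P1.natLe hm)))

theorem cellM_le {W : ℕ} (hX : 1000 ≤ X) (hW : W ≤ X) : cellM W ≤ X ^ 58 := by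
  unfold cellM
  have h1 : W ^ 56 ≤ X ^ 56 := Nat.pow_le_pow_left hW 56
  have h2 : 0 < X ^ 56 := pow_pos (by omega) 56
  have h3 : X ^ 58 = X ^ 56 * (X * X) := by ring
  have h4 : 1000 * 1000 ≤ X * X := Nat.mul_le_mul hX hX
  have h5 : X ^ 56 * (1000 * 1000) ≤ X ^ 56 * (X * X) := Nat.mul_le_mul_left _ h4
  omega

theorem chainT_le {W : ℕ} (hW : W ≤ X) : chainT W ≤ X ^ 150 := by
  unfold chainT
  exact Nat.pow_le_pow_left hW 150

theorem card_le {m n : ℕ} (hm : m ≤ X) (hn : n ≤ X) : Fintype.card (Fin n × Fin m) ≤ X ^ 2 := by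
  simp only [Fintype.card_prod, Fintype.card_fin]
  calc n * m ≤ X * X := Nat.mul_le_mul hn hm
    _ = X ^ 2 := by ring

/-- The exponent of a proposal. -/
def moveE (c a b : ℕ) : ℕ := 3 * (a + b + c) + 20

/-- One coordinate of a proposal. -/
theorem moveR_cost {p z w : (ι → ℝ) → ℝ} {c : ℕ} (hp : P1 X c p) (hz : P1 X a z) (hw : P1 X b w) :
    P1 X (moveE c a b) (fun x => moveR (p x) (z x) (w x)) := by
  unfold moveR
  exact (hw.ite hp (hz.sub P1.one) ((P1.one.sub hp).iteLt hw (hz.add P1.one) hz)).mono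
    (by unfold moveE; omega)

theorem ite_aux {κ : Type} (Z Z' : κ → ℝ) (l : κ) (A A' C C' B B1 B2 : Prop) [Decidable A]
    [Decidable A'] [Decidable C] [Decidable C'] [Decidable B] [Decidable B1] [Decidable B2]
    (hA : A ↔ A') (hC : C ↔ C') (hB : B ↔ B1 ∧ B2) :
    (if A then Z else if B then (if C then Z' else Z) else Z) l
      = if A' then Z l else if B1 then (if B2 then (if C' then Z' l else Z l) else Z l) else Z l := by
  by_cases h1 : A
  · rw [if_pos h1, if_pos (hA.mp h1)]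
  · rw [if_neg h1, if_neg (fun h => h1 (hA.mpr h))]
    by_cases h2 : B
    · rw [if_pos h2, if_pos (hB.mp h2).1, if_pos (hB.mp h2).2]
      by_cases h3 : C
      · rw [if_pos h3, if_pos (hC.mp h3)]
      · rw [if_neg h3, if_neg (fun h => h3 (hC.mpr h))]
    · rw [if_neg h2]
      by_cases h4 : B1
      · rw [if_pos h4, if_neg (fun h => h2 (hB.mpr ⟨h4, h⟩))]
      · rw [if_neg h4]

theorem chainStepR_cost : ∃ e, ∀ {m n X W Tm k K : ℕ} {ι : Type} (_ : 1000 ≤ X) (_ : m ≤ X) (_ : n ≤ X)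
    (_ : W ≤ X) (_ : Tm ≤ X ^ 4) (_ : k ≤ X ^ 40) (_ : K ≤ X ^ 40) (i0 : Fin m) (j0 : Fin n) (Nb : ι)
    (R : Fin m → ι) (C : Fin n → ι),
    PC X e (fun y : (ι ⊕ ((Fin n × Fin m) ⊕ ChainW (Fin n × Fin m))) → ℝ =>
      chainStepR (chainProp m n) (cellM W) ((k : ℝ) / K)
        (psiCellR W Tm (y (Sum.inl Nb)) i0 j0 (fun i => y (Sum.inl (R i)))
          (fun j => y (Sum.inl (C j))))
        (fun l => y (Sum.inr (Sum.inl l))) (fun a => y (Sum.inr (Sum.inr a)))) := by
  obtain ⟨eψ, hψ⟩ := psiCellR_cost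
  refine ⟨?e, fun {m n X W Tm k K ι} hX hm hn hW hTm hk hK i0 j0 Nb R C => ?_⟩
  swap
  classical
  set κ := Fin n × Fin m with hκ
  set Ω := ChainW κ with hΩ
  set Y := ι ⊕ (κ ⊕ Ω) with hY
  -- the proposal
  have hprop : PC X _ (fun (y : Y → ℝ) (l : κ) =>
      moveR (chainProp m n) (y (Sum.inr (Sum.inl l))) (y (Sum.inr (Sum.inr (Sum.inl l))))) :=
    PC.pi (card_le hm hn) fun l =>
      moveR_cost (chainProp_cost hX hm hn) (P1.var _) (P1.var _)
  -- after the proposal
  set Y' := Y ⊕ κ with hY'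
  have hψz : P1 X eψ (fun y : Y' → ℝ => psiCellR W Tm (y (Sum.inl (Sum.inl Nb))) i0 j0
      (fun i => y (Sum.inl (Sum.inl (R i)))) (fun j => y (Sum.inl (Sum.inl (C j))))
      (fun l => y (Sum.inl (Sum.inr (Sum.inl l))))) :=
    hψ hX hm hn hW hTm i0 j0 _ _ _ _
  have hψz' : P1 X eψ (fun y : Y' → ℝ => psiCellR W Tm (y (Sum.inl (Sum.inl Nb))) i0 j0
      (fun i => y (Sum.inl (Sum.inl (R i)))) (fun j => y (Sum.inl (Sum.inl (C j))))
      (fun l => y (Sum.inr l))) :=
    hψ hX hm hn hW hTm i0 j0 _ _ _ _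
  have ha : P1 X _ (fun _ : Y' → ℝ => (k : ℝ) / K) := (P1.nat hk).div (P1.nat hK)
  have hacc : P1 X _ (fun y : Y' → ℝ => Real.exp (-((k : ℝ) / K) *
      (psiCellR W Tm (y (Sum.inl (Sum.inl Nb))) i0 j0
        (fun i => y (Sum.inl (Sum.inl (R i)))) (fun j => y (Sum.inl (Sum.inl (C j))))
        (fun l => y (Sum.inr l))
      - psiCellR W Tm (y (Sum.inl (Sum.inl Nb))) i0 j0
        (fun i => y (Sum.inl (Sum.inl (R i)))) (fun j => y (Sum.inl (Sum.inl (C j))))
        (fun l => y (Sum.inl (Sum.inr (Sum.inl l))))))) :=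
    (ha.neg.mul (hψz'.sub hψz)).exp
  have hM1 : P1 X _ (fun _ : Y' → ℝ => ((cellM W : ℕ) : ℝ) - 1) :=
    (P1.nat (cellM_le hX hW)).sub P1.one
  have hcard : (univ : Finset κ).card ≤ X ^ 2 := by
    rw [Finset.card_univ]
    exact card_le hm hn
  have hfinal : ∀ l : κ, P1 X _ (fun y : Y' → ℝ =>
      if y (Sum.inl (Sum.inr (Sum.inr (Sum.inr 0)))) ≤ 1 / 2 then y (Sum.inl (Sum.inr (Sum.inl l)))
      else if ∀ i ∈ (univ : Finset κ), (0 : ℝ) ≤ y (Sum.inr i) then
        if ∀ i ∈ (univ : Finset κ), y (Sum.inr i) ≤ ((cellM W : ℕ) : ℝ) - 1 then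
          if y (Sum.inl (Sum.inr (Sum.inr (Sum.inr 1)))) ≤ Real.exp (-((k : ℝ) / K) *
            (psiCellR W Tm (y (Sum.inl (Sum.inl Nb))) i0 j0
              (fun i => y (Sum.inl (Sum.inl (R i)))) (fun j => y (Sum.inl (Sum.inl (C j))))
              (fun l => y (Sum.inr l))
            - psiCellR W Tm (y (Sum.inl (Sum.inl Nb))) i0 j0
              (fun i => y (Sum.inl (Sum.inl (R i)))) (fun j => y (Sum.inl (Sum.inl (C j))))
              (fun l => y (Sum.inl (Sum.inr (Sum.inl l))))))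
          then y (Sum.inr l) else y (Sum.inl (Sum.inr (Sum.inl l)))
        else y (Sum.inl (Sum.inr (Sum.inl l)))
      else y (Sum.inl (Sum.inr (Sum.inl l)))) := fun l =>
    (P1.var _).ite (half hX) (P1.var _)
      (P1.iteAll _ hcard (fun _ _ => P1.zero) (fun _ _ => P1.var _)
        (P1.iteAll _ hcard (fun _ _ => P1.var _) (fun _ _ => hM1)
          ((P1.var _).ite hacc (P1.var _) (P1.var _)) (P1.var _))
        (P1.var _))
  refine (PC.pi (card_le hm hn) fun l => P1.bind hprop (hfinal l)).congr fun y l => ?_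
  simp only [Sum.elim_inl, Sum.elim_inr]
  unfold chainStepR
  dsimp only
  refine ite_aux _ _ l _ _ _ _ _ _ _ Iff.rfl Iff.rfl ?_
  constructor
  · intro h
    exact ⟨fun i _ => (h i).1, fun i _ => (h i).2⟩
  · intro h i
    exact ⟨h.1 i (Finset.mem_univ i), h.2 i (Finset.mem_univ i)⟩

end ChainCost

/-- The run is a circuit: wires `Nb`, `R`, `C` and the random wires. The inverse temperature is
a constant `k / K` with natural numbers `k, K ≤ X ^ 40`. -/
theorem chainRunR_cost : ∃ e, ∀ {m n X W Tm k K : ℕ} {ι : Type} (_ : 1000 ≤ X) (_ : m ≤ X) (_ : n ≤ X)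
    (_ : W ≤ X) (_ : Tm ≤ X ^ 4) (_ : k ≤ X ^ 40) (_ : K ≤ X ^ 40) (i0 : Fin m) (j0 : Fin n) (Nb : ι)
    (R : Fin m → ι) (C : Fin n → ι) (Ωw : Fin (chainT W) × ChainW (Fin n × Fin m) → ι)
    (l : Fin n × Fin m),
    P1 X e (fun x => chainRunR W Tm ((k : ℝ) / K) (x Nb) i0 j0 (fun i => x (R i)) (fun j => x (C j))
      (fun a => x (Ωw a)) l) := by
  obtain ⟨e0, h0⟩ := ChainCost.chainStepR_cost
  refine ⟨?e, fun {m n X W Tm k K ι} hX hm hn hW hTm hk hK i0 j0 Nb R C Ωw l => ?_⟩
  swap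
  have hinit : PC X _ (fun (_ : ι → ℝ) (_ : Fin n × Fin m) => (0 : ℝ)) :=
    PC.pi (ChainCost.card_le hm hn) fun _ => P1.zero
  have hrun := PC.runSeq (P := ι) (κ := Fin n × Fin m) (Ω := ChainW (Fin n × Fin m))
    (stepF := fun y z w => chainStepR (chainProp m n) (cellM W) ((k : ℝ) / K)
      (psiCellR W Tm (y Nb) i0 j0 (fun i => y (R i)) (fun j => y (C j))) z w)
    (init := fun _ _ => 0) (T := chainT W) (d := 150) (h0 hX hm hn hW hTm hk hK i0 j0 Nb R C)
    hinit (ChainCost.chainT_le hW)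
  have hrun2 := hrun.rewire (ι := ι) (Sum.elim id Ωw)
  have hrun3 := hrun2.reout (μ := Unit) (fun _ => l)
  exact hrun3

end Inst

end Vale.Agent.Lib.P328.RAM
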