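import Mathlib

/-!
# P328: arithmetic circuits over the reals

`Cost f s`: the map `f` from real registers indexed by `ι` to real registers indexed by `κ` is computed
by a circuit with at most `s` gates. The gates are: the constant one, addition, negation,
multiplication, inversion, square root, exponential, logarithm, and the comparison
`if a ≤ b then u else v`. Copying and rearranging wires costs nothing.
-/

namespace Vale.Agent.Lib.P328.RAM

/-- `Cost f s`: the map `f` is computed by a circuit with at most `s` gates. -/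
inductive Cost : {ι κ : Type} → ((ι → ℝ) → κ → ℝ) → ℕ → Prop
  /-- Wires: every output is one of the inputs. -/
  | wire {ι κ : Type} (σ : κ → ι) : Cost (fun x k => x (σ k)) 0
  /-- Two circuits side by side on the same inputs. -/
  | pair {ι κ₁ κ₂ : Type} {f : (ι → ℝ) → κ₁ → ℝ} {g : (ι → ℝ) → κ₂ → ℝ} {s t : ℕ} :
      Cost f s → Cost g t → Cost (fun x => Sum.elim (f x) (g x)) (s + t)
  /-- One circuit after the other. -/
  | comp {ι κ μ : Type} {f : (ι → ℝ) → κ → ℝ} {g : (κ → ℝ) → μ → ℝ} {s t : ℕ} :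
      Cost f s → Cost g t → Cost (fun x => g (f x)) (s + t)
  /-- More gates are allowed than are used. -/
  | mono {ι κ : Type} {f : (ι → ℝ) → κ → ℝ} {s t : ℕ} : Cost f s → s ≤ t → Cost f t
  /-- The constant one. -/
  | one {ι : Type} : Cost (fun (_ : ι → ℝ) (_ : Unit) => (1 : ℝ)) 1
  /-- Addition. -/
  | add {ι : Type} (a b : ι) : Cost (fun (x : ι → ℝ) (_ : Unit) => x a + x b) 1
  /-- Negation. -/
  | neg {ι : Type} (a : ι) : Cost (fun (x : ι → ℝ) (_ : Unit) => -x a) 1
  /-- Multiplication. -/
  | mul {ι : Type} (a b : ι) : Cost (fun (x : ι → ℝ) (_ : Unit) => x a * x b) 1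
  /-- Inversion. -/
  | inv {ι : Type} (a : ι) : Cost (fun (x : ι → ℝ) (_ : Unit) => (x a)⁻¹) 1
  /-- Square root. -/
  | sqrt {ι : Type} (a : ι) : Cost (fun (x : ι → ℝ) (_ : Unit) => Real.sqrt (x a)) 1
  /-- Exponential. -/
  | exp {ι : Type} (a : ι) : Cost (fun (x : ι → ℝ) (_ : Unit) => Real.exp (x a)) 1
  /-- Logarithm. -/
  | log {ι : Type} (a : ι) : Cost (fun (x : ι → ℝ) (_ : Unit) => Real.log (x a)) 1
  /-- Comparison. -/
  | ite {ι : Type} (a b u v : ι) :
      Cost (fun (x : ι → ℝ) (_ : Unit) => if x a ≤ x b then x u else x v) 1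

namespace Cost

variable {ι κ μ ν : Type}

/-- Circuits compute measurable maps. -/
theorem measurable {f : (ι → ℝ) → κ → ℝ} {s : ℕ} (h : Cost f s) : Measurable f := by
  induction h with
  | wire σ => exact measurable_pi_iff.2 fun k => measurable_pi_apply (σ k)
  | pair _ _ hf hg =>
    refine measurable_pi_iff.2 fun k => ?_
    cases k with
    | inl k => exact (measurable_pi_apply k).comp hf
    | inr k => exact (measurable_pi_apply k).comp hg
  | comp _ _ hf hg => exact hg.comp hf
  | mono _ _ hf => exact hf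
  | one => exact measurable_const
  | add a b => exact measurable_pi_iff.2 fun _ => (measurable_pi_apply a).add (measurable_pi_apply b)
  | neg a => exact measurable_pi_iff.2 fun _ => (measurable_pi_apply a).neg
  | mul a b => exact measurable_pi_iff.2 fun _ => (measurable_pi_apply a).mul (measurable_pi_apply b)
  | inv a => exact measurable_pi_iff.2 fun _ => (measurable_pi_apply a).inv
  | sqrt a => exact measurable_pi_iff.2 fun _ => (measurable_pi_apply a).sqrt
  | exp a => exact measurable_pi_iff.2 fun _ => Real.measurable_exp.comp (measurable_pi_apply a)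
  | log a => exact measurable_pi_iff.2 fun _ => Real.measurable_log.comp (measurable_pi_apply a)
  | ite a b u v =>
    refine measurable_pi_iff.2 fun _ => ?_
    exact Measurable.ite (measurableSet_le (measurable_pi_apply a) (measurable_pi_apply b))
      (measurable_pi_apply u) (measurable_pi_apply v)

/-- Rewriting the map. -/
theorem congr {f g : (ι → ℝ) → κ → ℝ} {s : ℕ} (h : Cost f s) (e : ∀ x k, g x k = f x k) :
    Cost g s := by
  have : g = f := funext fun x => funext fun k => e x k
  rwa [this]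

/-- Keep the inputs and add the outputs of `f`, then apply `g`: a named intermediate result. -/
theorem bind {f : (ι → ℝ) → κ → ℝ} {g : ((ι ⊕ κ) → ℝ) → μ → ℝ} {s t : ℕ} (hf : Cost f s)
    (hg : Cost g t) : Cost (fun x => g (Sum.elim x (f x))) (s + t) := by
  have h0 : Cost (fun x : ι → ℝ => Sum.elim (fun i => x i) (f x)) (0 + s) :=
    pair (wire (fun i : ι => i)) hf
  have h1 := comp h0 hg
  have e : 0 + s + t = s + t := by omega
  rw [e] at h1
  exact h1

/-- Rename the inputs. -/
theorem rewire {f : (κ → ℝ) → μ → ℝ} {s : ℕ} (hf : Cost f s) (σ : κ → ι) :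
    Cost (fun x : ι → ℝ => f fun k => x (σ k)) s := by
  have h1 := comp (wire σ) hf
  rwa [zero_add] at h1

/-- Rename the outputs. -/
theorem reout {f : (ι → ℝ) → κ → ℝ} {s : ℕ} (hf : Cost f s) (σ : μ → κ) :
    Cost (fun x k => f x (σ k)) s := by
  have h1 := comp hf (wire σ)
  rwa [add_zero] at h1

/-- Repeat a step `T` times, state `κ`, with inputs `ι`. -/
theorem iterate {step : ((ι ⊕ κ) → ℝ) → κ → ℝ} {init : (ι → ℝ) → κ → ℝ} {s s0 : ℕ}
    (hstep : Cost step s) (hinit : Cost init s0) (T : ℕ) :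
    Cost (fun x => (fun st => step (Sum.elim x st))^[T] (init x)) (s0 + T * s) := by
  induction T with
  | zero => simpa using hinit
  | succ T ih =>
    have h := bind ih hstep
    have e : s0 + T * s + s = s0 + (T + 1) * s := by ring
    rw [e] at h
    refine h.congr fun x k => ?_
    rw [Function.iterate_succ_apply']

end Cost

/-- A real function with at most `s` gates. -/
def C1 {ι : Type} (f : (ι → ℝ) → ℝ) (s : ℕ) : Prop := Cost (fun x (_ : Unit) => f x) s

namespace C1

variable {ι κ : Type} {f g u v : (ι → ℝ) → ℝ} {s t p q : ℕ}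

theorem mono (h : C1 f s) (hs : s ≤ t) : C1 f t := Cost.mono h hs

theorem congr (h : C1 f s) (e : ∀ x, g x = f x) : C1 g s := Cost.congr h fun x _ => e x

theorem var (i : ι) : C1 (fun x => x i) 0 := Cost.wire (fun _ : Unit => i)

theorem one : C1 (fun _ : ι → ℝ => 1) 1 := Cost.one

private theorem lift2 {F : ℝ → ℝ → ℝ}
    (hgate : Cost (fun (x : (Unit ⊕ Unit) → ℝ) (_ : Unit) => F (x (Sum.inl ())) (x (Sum.inr ()))) 1)
    (hf : C1 f s) (hg : C1 g t) : C1 (fun x => F (f x) (g x)) (s + t + 1) :=
  Cost.comp (Cost.pair hf hg) hgate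

private theorem lift1 {F : ℝ → ℝ} (hgate : Cost (fun (x : Unit → ℝ) (_ : Unit) => F (x ())) 1)
    (hf : C1 f s) : C1 (fun x => F (f x)) (s + 1) :=
  Cost.comp hf hgate

theorem add (hf : C1 f s) (hg : C1 g t) : C1 (fun x => f x + g x) (s + t + 1) :=
  lift2 (Cost.add _ _) hf hg

theorem neg (hf : C1 f s) : C1 (fun x => -f x) (s + 1) := lift1 (Cost.neg _) hf

theorem sub (hf : C1 f s) (hg : C1 g t) : C1 (fun x => f x - g x) (s + (t + 1) + 1) :=
  (add hf (neg hg)).congr fun x => sub_eq_add_neg _ _

theorem mul (hf : C1 f s) (hg : C1 g t) : C1 (fun x => f x * g x) (s + t + 1) :=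
  lift2 (Cost.mul _ _) hf hg

theorem inv (hf : C1 f s) : C1 (fun x => (f x)⁻¹) (s + 1) := lift1 (Cost.inv _) hf

theorem div (hf : C1 f s) (hg : C1 g t) : C1 (fun x => f x / g x) (s + (t + 1) + 1) :=
  (mul hf (inv hg)).congr fun x => div_eq_mul_inv _ _

theorem sqrt (hf : C1 f s) : C1 (fun x => Real.sqrt (f x)) (s + 1) := lift1 (Cost.sqrt _) hf

theorem exp (hf : C1 f s) : C1 (fun x => Real.exp (f x)) (s + 1) := lift1 (Cost.exp _) hf

theorem log (hf : C1 f s) : C1 (fun x => Real.log (f x)) (s + 1) := lift1 (Cost.log _) hf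

/-- The comparison, any decidability instance. -/
theorem ite [inst : ∀ x, Decidable (f x ≤ g x)] (hf : C1 f s) (hg : C1 g t) (hu : C1 u p)
    (hv : C1 v q) : C1 (fun x => if f x ≤ g x then u x else v x) (s + t + (p + q) + 1) := by
  have h := Cost.comp (Cost.pair (Cost.pair hf hg) (Cost.pair hu hv))
    (Cost.ite (ι := (Unit ⊕ Unit) ⊕ (Unit ⊕ Unit)) (Sum.inl (Sum.inl ())) (Sum.inl (Sum.inr ()))
      (Sum.inr (Sum.inl ())) (Sum.inr (Sum.inr ())))
  refine Cost.congr h fun x _ => ?_
  by_cases hc : f x ≤ g x <;> simp [hc]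

/-- Strict comparison. -/
theorem iteLt [inst : ∀ x, Decidable (f x < g x)] (hf : C1 f s) (hg : C1 g t) (hu : C1 u p)
    (hv : C1 v q) : C1 (fun x => if f x < g x then u x else v x) (t + s + (q + p) + 1) := by
  classical
  refine (ite hg hf hv hu).congr fun x => ?_
  by_cases hc : f x < g x
  · simp [hc, not_le.2 hc]
  · simp [hc, not_lt.1 hc]

/-- `min`: both operands are computed once. -/
theorem min (hf : C1 f s) (hg : C1 g t) : C1 (fun x => Min.min (f x) (g x)) (s + t + 1) := by
  have h := Cost.comp (Cost.pair hf hg)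
    (Cost.ite (ι := Unit ⊕ Unit) (Sum.inl ()) (Sum.inr ()) (Sum.inl ()) (Sum.inr ()))
  refine Cost.congr h fun x _ => ?_
  by_cases hc : f x ≤ g x
  · simp [hc]
  · simp [hc, min_eq_right (not_le.1 hc).le]

/-- `max`: both operands are computed once. -/
theorem max (hf : C1 f s) (hg : C1 g t) : C1 (fun x => Max.max (f x) (g x)) (s + t + 1) := by
  have h := Cost.comp (Cost.pair hf hg)
    (Cost.ite (ι := Unit ⊕ Unit) (Sum.inl ()) (Sum.inr ()) (Sum.inr ()) (Sum.inl ()))
  refine Cost.congr h fun x _ => ?_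
  by_cases hc : f x ≤ g x
  · simp [hc]
  · simp [hc, max_eq_left (not_le.1 hc).le]

/-- Doubling: the operand is computed once. -/
theorem dbl (hf : C1 f s) : C1 (fun x => f x + f x) (s + 1) :=
  Cost.comp hf (Cost.add (ι := Unit) () ())

end C1

end Vale.Agent.Lib.P328.RAM
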