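import Vale.Agent.Lib.P328.RAM.TrialMeas
import Vale.Agent.Lib.P328.RAM.Chain

/-!
# P328: tools for the law of chain and trial (module D2)
-/

namespace Vale.Agent.Lib.P328.RAM

open Finset MeasureTheory Vale.Agent.Lib.P328.Cap Vale.Agent.Lib.P328.Fpras Vale.Agent.Lib.P328.Samp
open scoped ENNReal

namespace DownAux

open TrialMeas

variable {m n : ℕ}

/-- The cube is an order interval. -/
theorem cube_eq_Icc (Ω : Type) [Fintype Ω] : Cube Ω = Set.Icc (0 : Ω → ℝ) 1 := by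
  ext ω
  simp only [Cube, Set.mem_ofPred_eq, Set.mem_Icc, Pi.le_def, Pi.zero_apply, Pi.one_apply]
  exact forall_and

/-- The values of the run are labels. -/
theorem chainRun_mem (W Tm : ℕ) (a Nb : ℝ) (i0 : Fin m) (j0 : Fin n) (r : Fin m → ℝ) (c : Fin n → ℝ)
    (ω : Fin (chainT W) × ChainW (Fin n × Fin m) → ℝ) :
    chainRunR W Tm a Nb i0 j0 r c ω ∈ (univ : Finset (Fin n × Fin m → Fin (cellM W))).image encZ := by
  have hstart : (fun _ : Fin n × Fin m => (0 : ℝ)) = encZ (zStart _ W) := by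
    funext i
    simp [encZ, zStart]
  unfold chainRunR
  rw [hstart, ← encZ_runSeq _ _ (fun z ω => encZ_chainStepL z ω)]
  exact mem_image_of_mem _ (mem_univ _)

/-- The run is measurable. -/
theorem meas_chainRunR (W Tm : ℕ) (Nb : ℝ) (i0 : Fin m) (j0 : Fin n) (r : Fin m → ℝ) (c : Fin n → ℝ)
    (l : Fin n × Fin m) :
    Measurable fun ω => chainRunR W Tm 1 Nb i0 j0 r c ω l := by
  obtain ⟨e, he⟩ := chainRunR_cost
  set X := 1000 + m + n + W + Tm with hXdef
  have h4 : Tm ≤ X ^ 4 := le_trans (by omega : Tm ≤ X) (Nat.le_self_pow (by norm_num) X)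
  have h1 : 1 ≤ X ^ 40 := Nat.one_le_pow _ _ (by omega)
  have h := he (m := m) (n := n) (X := X) (W := W) (Tm := Tm) (k := 1) (K := 1)
    (ι := (Unit ⊕ (Fin m ⊕ Fin n)) ⊕ (Fin (chainT W) × ChainW (Fin n × Fin m)))
    (by omega) (by omega) (by omega) (by omega) h4 h1 h1 i0 j0 (Sum.inl (Sum.inl ()))
    (fun i => Sum.inl (Sum.inr (Sum.inl i))) (fun j => Sum.inl (Sum.inr (Sum.inr j))) Sum.inr l
  have e1 : ((1 : ℕ) : ℝ) / ((1 : ℕ) : ℝ) = 1 := by norm_num
  rw [e1] at h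
  refine (P1.measurable h (by omega)).comp
    (f := fun ω => Sum.elim (Sum.elim (fun _ => Nb) (Sum.elim r c)) ω) ?_
  refine measurable_pi_lambda _ fun q => ?_
  rcases q with q | k
  · exact measurable_const
  · exact measurable_pi_apply k

/-- The event of the trial at the matrix given by the point `u` of the cube `a`. -/
theorem meas_event {A : Type} [MeasurableSpace A] (W Tm Kb : ℕ) (Nb : ℝ) (P : Par) (i0 : Fin m)
    (j0 : Fin (n + 1)) (r : Fin m → ℝ) (c0 : ℝ) (c' : Fin n → ℝ) (c : Fin (n + 1) → ℝ)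
    (a : Fin (n + 1) × Fin m → ℝ) {u : A → Fin (n + 1) × Fin m → ℝ} {ω : A → TrialW m W → ℝ}
    (hu : ∀ k, Measurable fun q => u q k) (hω : ∀ k, Measurable fun q => ω q k) (y : Fin m → ℝ) :
    MeasurableSet {q | trialR W Tm Kb Nb P r c0 c' (tMapR i0 j0 r c (cellPtR W a (u q))) (ω q) = y} := by
  have hy : ∀ k, Measurable fun q => cellPtR W a (u q) k := by
    intro k
    unfold cellPtR
    exact ((measurable_const.add (hu k)).const_mul _).const_add _
  have ht : ∀ j i, Measurable fun q => tMapR i0 j0 r c (cellPtR W a (u q)) j i :=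
    fun j i => meas_tMapR i0 j0 r c hy j i
  have h : Measurable fun q => trialR W Tm Kb Nb P r c0 c' (tMapR i0 j0 r c (cellPtR W a (u q))) (ω q) :=
    measurable_pi_lambda _ fun l => meas_trialR W Tm Kb Nb P r c0 c' ht hω l
  exact h (measurableSet_singleton y)

/-- Integrals of close functions are close. -/
theorem lint_close {U X : Type} [MeasurableSpace U] (μ : Measure U) (hμ : μ Set.univ = 1) (S : Finset X)
    (f g : X → U → ℝ) (hf : ∀ x, Measurable (f x)) (hg : ∀ x, Measurable (g x))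
    (hf1 : ∀ x u, f x u ≤ 1) {δ : ℝ} (hδ : 0 ≤ δ)
    (hclose : ∀ u, ∑ x ∈ S, |f x u - g x u| ≤ δ) :
    ∑ x ∈ S, |(∫⁻ u, ENNReal.ofReal (f x u) ∂μ).toReal - (∫⁻ u, ENNReal.ofReal (g x u) ∂μ).toReal| ≤ δ := by
  set e : X → U → ℝ≥0∞ := fun x u => ENNReal.ofReal |f x u - g x u| with he
  have hem : ∀ x, Measurable (e x) := fun x => ((hf x).sub (hg x)).abs.ennreal_ofReal
  have hconst : ∀ c : ℝ≥0∞, ∫⁻ _, c ∂μ = c := by
    intro c
    rw [lintegral_const, hμ, mul_one]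
  have hsumE : ∑ x ∈ S, ∫⁻ u, e x u ∂μ ≤ ENNReal.ofReal δ := by
    rw [← lintegral_finsetSum _ fun x _ => hem x]
    calc ∫⁻ u, ∑ x ∈ S, e x u ∂μ ≤ ∫⁻ _, ENNReal.ofReal δ ∂μ := by
          refine lintegral_mono fun u => ?_
          simp only [he]
          rw [← ENNReal.ofReal_sum_of_nonneg fun x _ => abs_nonneg _]
          exact ENNReal.ofReal_le_ofReal (hclose u)
      _ = _ := hconst _
  have hEfin : ∀ x ∈ S, ∫⁻ u, e x u ∂μ ≠ ∞ := by
    intro x hx
    refine ne_top_of_le_ne_top ENNReal.ofReal_ne_top (le_trans ?_ hsumE)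
    exact Finset.single_le_sum (f := fun x => ∫⁻ u, e x u ∂μ) (fun _ _ => zero_le) hx
  have hAfin : ∀ x, ∫⁻ u, ENNReal.ofReal (f x u) ∂μ ≠ ∞ := by
    intro x
    refine ne_top_of_le_ne_top (b := 1) ENNReal.one_ne_top ?_
    calc ∫⁻ u, ENNReal.ofReal (f x u) ∂μ ≤ ∫⁻ _, 1 ∂μ := by
          refine lintegral_mono fun u => ?_
          have := ENNReal.ofReal_le_ofReal (hf1 x u)
          simpa using this
      _ = 1 := hconst _
  have hone : ∀ x ∈ S, |(∫⁻ u, ENNReal.ofReal (f x u) ∂μ).toReal - (∫⁻ u, ENNReal.ofReal (g x u) ∂μ).toReal|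
      ≤ (∫⁻ u, e x u ∂μ).toReal := by
    intro x hx
    have h1 : ∫⁻ u, ENNReal.ofReal (f x u) ∂μ
        ≤ ∫⁻ u, ENNReal.ofReal (g x u) ∂μ + ∫⁻ u, e x u ∂μ := by
      rw [← lintegral_add_right _ (hem x)]
      refine lintegral_mono fun u => ?_
      refine le_trans (ENNReal.ofReal_le_ofReal ?_) (ENNReal.ofReal_add_le)
      have := le_abs_self (f x u - g x u)
      linarith
    have h2 : ∫⁻ u, ENNReal.ofReal (g x u) ∂μ
        ≤ ∫⁻ u, ENNReal.ofReal (f x u) ∂μ + ∫⁻ u, e x u ∂μ := by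
      rw [← lintegral_add_right _ (hem x)]
      refine lintegral_mono fun u => ?_
      refine le_trans (ENNReal.ofReal_le_ofReal ?_) (ENNReal.ofReal_add_le)
      have := neg_abs_le (f x u - g x u)
      linarith
    have hBfin : ∫⁻ u, ENNReal.ofReal (g x u) ∂μ ≠ ∞ :=
      ne_top_of_le_ne_top (ENNReal.add_ne_top.2 ⟨hAfin x, hEfin x hx⟩) h2
    have h1' := ENNReal.toReal_mono (ENNReal.add_ne_top.2 ⟨hBfin, hEfin x hx⟩) h1
    have h2' := ENNReal.toReal_mono (ENNReal.add_ne_top.2 ⟨hAfin x, hEfin x hx⟩) h2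
    rw [ENNReal.toReal_add hBfin (hEfin x hx)] at h1'
    rw [ENNReal.toReal_add (hAfin x) (hEfin x hx)] at h2'
    rw [abs_le]
    constructor <;> linarith
  calc _ ≤ ∑ x ∈ S, (∫⁻ u, e x u ∂μ).toReal := Finset.sum_le_sum hone
    _ = (∑ x ∈ S, ∫⁻ u, e x u ∂μ).toReal := (ENNReal.toReal_sum hEfin).symm
    _ ≤ (ENNReal.ofReal δ).toReal := ENNReal.toReal_mono ENNReal.ofReal_ne_top hsumE
    _ = δ := ENNReal.toReal_ofReal hδ

end DownAux

end Vale.Agent.Lib.P328.RAM
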