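import Vale.Agent.Lib.P328.RAM.Trial
import Vale.Agent.Lib.P328.RAM.Chain
import Vale.Agent.Lib.P328.RAM.DownLaw
import Vale.Agent.Lib.P328.Samp.QHat
import Vale.Agent.Lib.P328.Samp.Anneal
import Vale.Agent.Lib.P328.Samp.QClose

/-!
# P328: the chain and the trial together (module D)

`downR`, for fixed `i0, j0`: run the chain at inverse temperature one to the cube `z`, take the point `u` of the
unit cube from the random wires, apply `trialR` to the matrix `tMapR (cellPtR z u)`.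
`downSelR`: the same with `i0 = iMax`, `j0 = jMax`, selected by comparisons, and `Nb` the total of `r`.

`Pr_downR`: by `Pr_bind` on the block of the chain (`chainRunR_law`) and `Pr_fubini` on `u` and the block of the trial.
`downSelR_close`: the law is close to `trialI`: `trialR_close` under the integral and the sum over `z`.
-/

namespace Vale.Agent.Lib.P328.RAM

open Finset MeasureTheory Vale.Agent.Lib.P328.Cap Vale.Agent.Lib.P328.Fpras Vale.Agent.Lib.P328.Samp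
open scoped ENNReal

variable {m n : ℕ}

/-- The random wires: chain, point of the unit cube, trial. -/
abbrev DownW (n m W : ℕ) : Type :=
  (Fin (chainT W) × ChainW (Fin (n + 1) × Fin m)) ⊕ ((Fin (n + 1) × Fin m) ⊕ TrialW m W)

/-- Chain and trial, with `i0`, `j0` fixed. -/
noncomputable def downR (W Tm Kb : ℕ) (Nb : ℝ) (P : Par) (i0 : Fin m) (j0 : Fin (n + 1)) (r : Fin m → ℝ) (c0 : ℝ)
    (c' : Fin n → ℝ) (ω : DownW n m W → ℝ) : Fin m → ℝ :=
  let c : Fin (n + 1) → ℝ := Fin.cons c0 c'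
  let z := chainRunR W Tm 1 Nb i0 j0 r c fun a => ω (Sum.inl a)
  let u : Fin (n + 1) × Fin m → ℝ := fun a => ω (Sum.inr (Sum.inl a))
  trialR W Tm Kb Nb P r c0 c' (tMapR i0 j0 r c (cellPtR W z u)) fun a => ω (Sum.inr (Sum.inr a))

open Classical in
/-- The first index where the largest entry is attained, as a real number. -/
noncomputable def argFirst {k : ℕ} (v : Fin k → ℝ) : ℝ :=
  (range (k + 1)).inf' ⟨0, by simp⟩ fun l =>
    if h : l < k then (if ∀ i', v i' ≤ v ⟨l, h⟩ then (l : ℝ) else k) else k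

open Classical in
/-- Chain and trial with the total `Nb = ∑ r`, and `i0`, `j0` the first largest row and column. -/
noncomputable def downSelR (W Tm Kb : ℕ) (P : Par) (r : Fin m → ℝ) (c0 : ℝ) (c' : Fin n → ℝ)
    (ω : DownW n m W → ℝ) : Fin m → ℝ := fun l =>
  ∑ i0 : Fin m, ∑ j0 : Fin (n + 1),
    if argFirst r = ((i0 : ℕ) : ℝ) then
      if argFirst (Fin.cons c0 c' : Fin (n + 1) → ℝ) = ((j0 : ℕ) : ℝ) then
        downR W Tm Kb (∑ i, r i) P i0 j0 r c0 c' ω l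
      else 0
    else 0

theorem firstIdx_le {k : ℕ} (p : Fin k → Prop) (h : ∃ i, p i) {i : Fin k} (hi : p i) :
    firstIdx p h ≤ i := by
  classical
  unfold firstIdx
  exact Finset.min'_le _ _ (by simp [hi])

theorem argFirst_iMax (hm : 0 < m) (r : Fin m → ℕ) :
    argFirst (fun i => (r i : ℝ)) = ((iMax hm r : ℕ) : ℝ) := by
  classical
  unfold argFirst
  apply le_antisymm
  · have hmem : ((iMax hm r : Fin m) : ℕ) ∈ range (m + 1) :=
      Finset.mem_range.2 (by have := (iMax hm r).2; omega)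
    refine (Finset.inf'_le _ hmem).trans ?_
    have hlt := (iMax hm r).2
    rw [dif_pos hlt, if_pos]
    intro i'
    have h := iMax_spec hm r i'
    simp only [Fin.eta]
    exact_mod_cast h
  · refine Finset.le_inf' _ _ fun l hl => ?_
    have hle : ((iMax hm r : Fin m) : ℝ) ≤ m := by exact_mod_cast (iMax hm r).2.le
    by_cases hlm : l < m
    · rw [dif_pos hlm]
      by_cases hc : ∀ i', (r i' : ℝ) ≤ r ⟨l, hlm⟩
      · rw [if_pos hc]
        have hc' : ∀ i', r i' ≤ r ⟨l, hlm⟩ := fun i' => by exact_mod_cast hc i'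
        have := firstIdx_le (fun i => ∀ i', r i' ≤ r i) (exists_largest hm r) hc'
        have h2 : ((iMax hm r : Fin m) : ℕ) ≤ l := this
        exact_mod_cast h2
      · rw [if_neg hc]
        exact hle
    · rw [dif_neg hlm]
      exact hle

theorem cons_cast (c0 : ℕ) (c' : Fin n → ℕ) :
    (Fin.cons (c0 : ℝ) (fun j => (c' j : ℝ)) : Fin (n + 1) → ℝ)
      = fun j => (((Fin.cons c0 c' : Fin (n + 1) → ℕ) j : ℕ) : ℝ) := by
  funext j
  refine Fin.cases ?_ (fun j => ?_) j <;> simp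

theorem downSelR_eq (W Tm Kb : ℕ) (P : Par) (hm : 0 < m) (r : Fin m → ℕ) (c0 : ℕ) (c' : Fin n → ℕ)
    (ω : DownW n m W → ℝ) :
    downSelR W Tm Kb P (fun i => (r i : ℝ)) (c0 : ℝ) (fun j => (c' j : ℝ)) ω
      = downR W Tm Kb ((∑ i, r i : ℕ) : ℝ) P (iMax hm r) (jMax (Nat.succ_pos n) (Fin.cons c0 c'))
          (fun i => (r i : ℝ)) (c0 : ℝ) (fun j => (c' j : ℝ)) ω := by
  classical
  funext l
  unfold downSelR
  have h1 : argFirst (fun i => (r i : ℝ)) = ((iMax hm r : ℕ) : ℝ) := argFirst_iMax hm r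
  have h2 : argFirst (Fin.cons (c0 : ℝ) (fun j => (c' j : ℝ)) : Fin (n + 1) → ℝ)
      = ((jMax (Nat.succ_pos n) (Fin.cons c0 c') : ℕ) : ℝ) := by
    rw [cons_cast]
    exact argFirst_iMax (Nat.succ_pos n) _
  rw [h1, h2]
  have hs : ((∑ i, r i : ℕ) : ℝ) = ∑ i, (r i : ℝ) := by push_cast; rfl
  rw [hs]
  have hi : ∀ i0 : Fin m, (((iMax hm r : ℕ) : ℝ) = ((i0 : ℕ) : ℝ)) ↔ i0 = iMax hm r := by
    intro i0
    rw [Nat.cast_inj, eq_comm, Fin.val_inj]
  have hj : ∀ j0 : Fin (n + 1), (((jMax (Nat.succ_pos n) (Fin.cons c0 c') : ℕ) : ℝ) = ((j0 : ℕ) : ℝ))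
      ↔ j0 = jMax (Nat.succ_pos n) (Fin.cons c0 c') := by
    intro j0
    rw [Nat.cast_inj, eq_comm, Fin.val_inj]
  simp only [hi, hj]
  rw [Finset.sum_eq_single (iMax hm r), Finset.sum_eq_single (jMax (Nat.succ_pos n) (Fin.cons c0 c'))]
  · simp
  · intro j0 _ hj0
    simp [hj0]
  · simp
  · intro i0 _ hi0
    simp [hi0]
  · simp

/-- Cube of a sum. -/
theorem cube_inr {Ω₁ Ω₂ : Type} {ω : (Ω₁ ⊕ Ω₂) → ℝ} (hω : ω ∈ Cube (Ω₁ ⊕ Ω₂)) :
    (fun a => ω (Sum.inr a)) ∈ Cube Ω₂ := fun a => hω _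

theorem cube_inl {Ω₁ Ω₂ : Type} {ω : (Ω₁ ⊕ Ω₂) → ℝ} (hω : ω ∈ Cube (Ω₁ ⊕ Ω₂)) :
    (fun a => ω (Sum.inl a)) ∈ Cube Ω₁ := fun a => hω _

theorem downSelR_mem {W Tm Kb Nb' : ℕ} (hS : SizeOK W Tm Kb Nb') (P : Par) (hm : 0 < m) {r : Fin m → ℕ}
    (hr : ∑ i, r i ≤ Nb') {c0 : ℕ} {c' : Fin n → ℕ} (ω : DownW n m W → ℝ) (hω : ω ∈ Cube (DownW n m W)) :
    downSelR W Tm Kb P (fun i => (r i : ℝ)) (c0 : ℝ) (fun j => (c' j : ℝ)) ω = (fun _ => -1)
      ∨ ∃ x ∈ lev r c0, downSelR W Tm Kb P (fun i => (r i : ℝ)) (c0 : ℝ) (fun j => (c' j : ℝ)) ω = encX x := by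
  rw [downSelR_eq W Tm Kb P hm r c0 c' ω]
  unfold downR
  exact trialR_mem hS hr P hr _ _ (cube_inr (cube_inr hω))

/-- The law of chain and trial. -/
theorem Pr_downR {W Tm Kb Nb Nb' : ℕ} (hS : SizeOK W Tm Kb Nb') (hNb : Nb ≤ Nb') (P : Par) (hm : 0 < m)
    (i0 : Fin m) (j0 : Fin (n + 1)) {r : Fin m → ℕ} (hr : ∑ i, r i ≤ Nb') {c0 : ℕ} {c' : Fin n → ℕ}
    (x : Fin m → ℕ) :
    Pr (fun ω => downR W Tm Kb (Nb : ℝ) P i0 j0 (fun i => (r i : ℝ)) (c0 : ℝ) (fun j => (c' j : ℝ)) ω = encX x)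
      = ∑ z, chainLaw W Nb i0 j0 r (Fin.cons c0 c') 1 z
        * (∫⁻ u in Set.Icc (0 : Fin (n + 1) × Fin m → ℝ) 1,
            ENNReal.ofReal (Pr fun ω => trialR W Tm Kb (Nb : ℝ) P (fun i => (r i : ℝ)) (c0 : ℝ)
              (fun j => (c' j : ℝ)) (tMap i0 j0 r (Fin.cons c0 c') (cellPt W z u)) ω = encX x)).toReal := by
  classical
  have hT : ellIters W Nb ≤ Tm := hS.T1 Nb hNb
  have hcons := cons_cast c0 c'
  -- the chain block and the rest
  set cR : Fin (n + 1) → ℝ := fun j => (((Fin.cons c0 c' : Fin (n + 1) → ℕ) j : ℕ) : ℝ) with hcR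
  set rR : Fin m → ℝ := fun i => (r i : ℝ) with hrR
  set cz : Fin n → ℝ := fun j => (c' j : ℝ) with hcz
  set X : (Fin (chainT W) × ChainW (Fin (n + 1) × Fin m) → ℝ) → Fin (n + 1) × Fin m → ℝ :=
    chainRunR W Tm 1 (Nb : ℝ) i0 j0 rR cR with hX
  set Y : (Fin (n + 1) × Fin m → ℝ) → ((Fin (n + 1) × Fin m) ⊕ TrialW m W → ℝ) → Prop :=
    fun a ω => trialR W Tm Kb (Nb : ℝ) P rR (c0 : ℝ) cz
      (tMapR i0 j0 rR cR (cellPtR W a fun k => ω (Sum.inl k))) (fun k => ω (Sum.inr k)) = encX x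
    with hY
  have hXm : Measurable X := measurable_pi_lambda _ fun l =>
    DownAux.meas_chainRunR W Tm (Nb : ℝ) i0 j0 rR cR l
  have hb := Pr_bind X ((univ : Finset (Fin (n + 1) × Fin m → Fin (cellM W))).image encZ)
    (fun ω _ => DownAux.chainRun_mem W Tm 1 (Nb : ℝ) i0 j0 rR cR ω)
    (fun a _ => hXm (measurableSet_singleton a)) Y
    (fun a _ => DownAux.meas_event W Tm Kb (Nb : ℝ) P i0 j0 rR (c0 : ℝ) cz cR a
      (u := fun ω : (Fin (n + 1) × Fin m) ⊕ TrialW m W → ℝ => fun k => ω (Sum.inl k))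
      (ω := fun ω k => ω (Sum.inr k))
      (fun k => measurable_pi_apply _) (fun k => measurable_pi_apply _) (encX x))
  have e0 : (fun ω => downR W Tm Kb (Nb : ℝ) P i0 j0 rR (c0 : ℝ) cz ω = encX x)
      = fun ω : DownW n m W → ℝ => Y (X fun a => ω (Sum.inl a)) fun a => ω (Sum.inr a) := by
    funext ω
    simp only [downR, hY, hX]
    rw [hcons]
  rw [e0, hb, sum_image (fun a _ b _ h => encZ_injective h)]
  refine sum_congr rfl fun z _ => ?_
  congr 1
  · exact chainRunR_law hT hm (Nat.succ_pos n) 1 i0 j0 r (Fin.cons c0 c') z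
  · -- the rest: Fubini
    have hE : MeasurableSet {p : (Fin (n + 1) × Fin m → ℝ) × (TrialW m W → ℝ) |
        trialR W Tm Kb (Nb : ℝ) P rR (c0 : ℝ) cz (tMapR i0 j0 rR cR (cellPtR W (encZ z) p.1)) p.2
          = encX x} :=
      DownAux.meas_event W Tm Kb (Nb : ℝ) P i0 j0 rR (c0 : ℝ) cz cR (encZ z)
        (u := fun p : (Fin (n + 1) × Fin m → ℝ) × (TrialW m W → ℝ) => p.1) (ω := fun p => p.2)
        (fun k => (measurable_pi_apply k).comp measurable_fst)
        (fun k => (measurable_pi_apply k).comp measurable_snd) (encX x)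
    have hf := Pr_fubini (E := fun (u : Fin (n + 1) × Fin m → ℝ) (ω : TrialW m W → ℝ) =>
      trialR W Tm Kb (Nb : ℝ) P rR (c0 : ℝ) cz (tMapR i0 j0 rR cR (cellPtR W (encZ z) u)) ω = encX x) hE
    rw [DownAux.cube_eq_Icc] at hf
    exact hf

/-- **The law of chain and trial is close to `trialI`.** -/
theorem downSelR_close {W Tm Kb Nb' : ℕ} (hS : SizeOK W Tm Kb Nb') (P : Par) (hPd : 0 ≤ P.d) (hm : 0 < m)
    {r : Fin m → ℕ} (hr : ∑ i, r i ≤ Nb') {c0 : ℕ} {c' : Fin n → ℕ} (hsum : ∑ i, r i = c0 + ∑ j, c' j) :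
    ∑ x ∈ lev r c0, |Pr (fun ω => downSelR W Tm Kb P (fun i => (r i : ℝ)) (c0 : ℝ) (fun j => (c' j : ℝ)) ω = encX x)
        - trialI W hm P r c0 c' x|
      ≤ ((m : ℝ) + 1) / (W : ℝ) ^ 29 := by
  classical
  set Nb : ℕ := ∑ i, r i with hNbdef
  set cc : Fin (n + 1) → ℕ := Fin.cons c0 c' with hcc
  set i0 := iMax hm r with hi0
  set j0 := jMax (Nat.succ_pos n) cc with hj0
  have hW0 : 0 < W := lt_of_lt_of_le (by norm_num) hS.W1
  set δ : ℝ := ((m : ℝ) + 1) / (W : ℝ) ^ 29 with hδ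
  have hδ0 : 0 ≤ δ := by positivity
  set L := chainLaw W Nb i0 j0 r cc 1 with hL
  obtain ⟨hL0, hL1⟩ := chainLaw_stoch W Nb i0 j0 r cc 1 hm (Nat.succ_pos n)
  set f : (Fin (n + 1) × Fin m → Fin (cellM W)) → (Fin m → ℕ) → (Fin (n + 1) × Fin m → ℝ) → ℝ :=
    fun z x u => Pr fun ω => trialR W Tm Kb (Nb : ℝ) P (fun i => (r i : ℝ)) (c0 : ℝ)
      (fun j => (c' j : ℝ)) (tMap i0 j0 r cc (cellPt W z u)) ω = encX x with hf
  set g : (Fin (n + 1) × Fin m → Fin (cellM W)) → (Fin m → ℕ) → (Fin (n + 1) × Fin m → ℝ) → ℝ :=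
    fun z x u => trialHat W Nb P r c0 c' (tMap i0 j0 r cc (cellPt W z u)) x with hg
  set μ : Measure (Fin (n + 1) × Fin m → ℝ) := volume.restrict (Set.Icc 0 1) with hμ
  have hμ1 : μ Set.univ = 1 := by
    rw [hμ, Measure.restrict_apply_univ, ← DownAux.cube_eq_Icc]
    exact volume_cube
  have hlaw : ∀ x, Pr (fun ω => downSelR W Tm Kb P (fun i => (r i : ℝ)) (c0 : ℝ) (fun j => (c' j : ℝ)) ω = encX x)
      = ∑ z, L z * (∫⁻ u, ENNReal.ofReal (f z x u) ∂μ).toReal := by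
    intro x
    have e : (fun ω => downSelR W Tm Kb P (fun i => (r i : ℝ)) (c0 : ℝ) (fun j => (c' j : ℝ)) ω = encX x)
        = fun ω => downR W Tm Kb (Nb : ℝ) P i0 j0 (fun i => (r i : ℝ)) (c0 : ℝ) (fun j => (c' j : ℝ)) ω
          = encX x := by
      funext ω
      rw [downSelR_eq W Tm Kb P hm r c0 c' ω]
    rw [e]
    exact Pr_downR hS hr P hm i0 j0 hr x
  have hI : ∀ x, trialI W hm P r c0 c' x = ∑ z, L z * (∫⁻ u, ENNReal.ofReal (g z x u) ∂μ).toReal :=
    fun x => rfl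
  have hnode : ∀ z, ∑ x ∈ lev r c0, |(∫⁻ u, ENNReal.ofReal (f z x u) ∂μ).toReal
      - (∫⁻ u, ENNReal.ofReal (g z x u) ∂μ).toReal| ≤ δ := by
    intro z
    have htm : Measurable fun u : Fin (n + 1) × Fin m → ℝ => tMap i0 j0 r cc (cellPt W z u) := by
      refine measurable_pi_lambda _ fun j => measurable_pi_lambda _ fun i => ?_
      have hy : ∀ k, Measurable fun u : Fin (n + 1) × Fin m → ℝ => cellPt W z u k := fun k => by
        unfold cellPt
        exact (((measurable_pi_apply k).const_add _).const_mul _).const_add _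
      exact TrialMeas.meas_tMapR i0 j0 (fun i => (r i : ℝ)) (fun j => (cc j : ℝ)) hy j i
    refine DownAux.lint_close μ hμ1 (lev r c0) (f z) (g z) (fun x => ?_) (fun x => ?_)
      (fun x u => Pr_le_one _) hδ0 (fun u => ?_)
    · refine TrialMeas.measurable_Pr_section ?_
      have hE := DownAux.meas_event W Tm Kb (Nb : ℝ) P i0 j0 (fun i => (r i : ℝ)) (c0 : ℝ)
        (fun j => (c' j : ℝ)) (fun j => (cc j : ℝ)) (encZ z)
        (u := fun p : (Fin (n + 1) × Fin m → ℝ) × (TrialW m W → ℝ) => p.1) (ω := fun p => p.2)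
        (fun k => (measurable_pi_apply k).comp measurable_fst)
        (fun k => (measurable_pi_apply k).comp measurable_snd) (encX x)
      exact hE
    · exact (q_measurable_trialHat hW0 Nb P r c0 c' x).comp htm
    · exact trialR_close hS hr P hPd hm hr hsum _
  calc ∑ x ∈ lev r c0, |Pr (fun ω => downSelR W Tm Kb P (fun i => (r i : ℝ)) (c0 : ℝ)
          (fun j => (c' j : ℝ)) ω = encX x) - trialI W hm P r c0 c' x|
      ≤ ∑ x ∈ lev r c0, ∑ z, L z * |(∫⁻ u, ENNReal.ofReal (f z x u) ∂μ).toReal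
          - (∫⁻ u, ENNReal.ofReal (g z x u) ∂μ).toReal| := by
        refine sum_le_sum fun x _ => ?_
        rw [hlaw, hI, ← sum_sub_distrib]
        refine le_trans (abs_sum_le_sum_abs _ _) (sum_le_sum fun z _ => ?_)
        rw [← mul_sub, abs_mul, abs_of_nonneg (hL0 z)]
    _ = ∑ z, L z * ∑ x ∈ lev r c0, |(∫⁻ u, ENNReal.ofReal (f z x u) ∂μ).toReal
          - (∫⁻ u, ENNReal.ofReal (g z x u) ∂μ).toReal| := by
        rw [sum_comm]
        refine sum_congr rfl fun z _ => ?_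
        rw [mul_sum]
    _ ≤ ∑ z, L z * δ := sum_le_sum fun z _ => mul_le_mul_of_nonneg_left (hnode z) (hL0 z)
    _ = δ := by
        rw [← sum_mul, hL1, one_mul]

namespace DownCost

variable {ι : Type} {X : ℕ}

/-- The first largest index is a circuit. -/
theorem argFirst_cost {a k : ℕ} (hX : 1000 ≤ X) (hk : k ≤ X) {v : Fin k → (ι → ℝ) → ℝ}
    (hv : ∀ i, P1 X a (v i)) :
    P1 X ((0 + (a + a + 0 + 3 + 3 + 1 + 3) + 6 + 6 + 3) + 2 + 1) (fun x => argFirst (fun i => v i x)) := by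
  classical
  unfold argFirst
  have hN : k + 1 ≤ X ^ 2 := by nlinarith
  have hc : (univ : Finset (Fin k)).card ≤ X ^ 1 := by simpa using hk
  refine P1.infRange (d := 2) (Nat.succ_pos k) hN fun l hl => ?_
  by_cases h : l < k
  · simp only [h, dif_pos]
    refine (P1.iteAll (F := fun i' x => v i' x) (G := fun _ x => v ⟨l, h⟩ x) (d := 1) univ hc
      (fun i _ => hv i) (fun _ _ => hv ⟨l, h⟩) (P1.natLe (N := l) (by omega)) (P1.natLe hk)).congr fun x => ?_
    by_cases hc' : ∀ i', v i' x ≤ v ⟨l, h⟩ x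
    · rw [if_pos hc', if_pos (fun i _ => hc' i)]
    · rw [if_neg hc', if_neg (fun h' => hc' fun i => h' i (mem_univ i))]
  · simp only [h, dif_neg, not_false_iff]
    exact (P1.natLe hk).mono (by omega)

theorem cellM_le {W : ℕ} (hX : 1000 ≤ X) (hW : W ≤ X) : cellM W ≤ X ^ 58 := ChainCost.cellM_le hX hW

theorem rQ_cost (hX : 1000 ≤ X) {W : ℕ} (hW : W ≤ X) : P1 X 18 (fun _ : ι → ℝ => rQ W) :=
  (((P1.natLe (N := 2) (by omega)).congr (fun _ => by norm_num) : P1 X 6 (fun _ : ι → ℝ => (2:ℝ))).mul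
    (P1.wPow (ι := ι) (p := 4) hW (by omega))).congr fun _ => rfl

theorem cellD_cost (hX : 1000 ≤ X) {W : ℕ} (hW : W ≤ X) : P1 X 92 (fun _ : ι → ℝ => cellD W) :=
  ((((P1.natLe (N := 2) (by omega)).congr (fun _ => by norm_num) : P1 X 6 (fun _ : ι → ℝ => (2:ℝ))).mul
    (rQ_cost hX hW)).div (P1.nat (ι := ι) (cellM_le hX hW))).congr fun _ => rfl

/-- Chain and trial for fixed `i0`, `j0`, with a wire for the total. -/
theorem downR_cost : ∃ e, ∀ {m n X W Tm Kb B : ℕ} {ι : Type} (_ : 1000 ≤ X) (_ : m ≤ X) (_ : n + 1 ≤ X)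
    (_ : W ≤ X) (_ : Tm ≤ X ^ 4) (_ : Kb ≤ X) (_ : B ≤ X) (P : Par) (_ : P.d = 1 / (B : ℝ) ^ 26)
    (_ : P.cs = B ^ 28) (Nb : ι) (R : Fin m → ι) (C0 : ι) (C' : Fin n → ι) (Ωw : DownW n m W → ι)
    (i0 : Fin m) (j0 : Fin (n + 1)) (l : Fin m),
    P1 X e (fun x => downR W Tm Kb (x Nb) P i0 j0 (fun i => x (R i)) (x C0) (fun j => x (C' j))
      (fun a => x (Ωw a)) l) := by
  obtain ⟨e1, hch⟩ := chainRunR_cost
  obtain ⟨e2, htm⟩ := tMapR_cost
  obtain ⟨e3, htr⟩ := trialR_cost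
  refine ⟨?e, fun {m n X W Tm Kb B ι} hX hm hn hW hTm hKb hB P hd hcs Nb R C0 C' Ωw i0 j0 l => ?_⟩
  swap
  set Cw : Fin (n + 1) → ι := Fin.cons C0 C' with hCw
  have hCons : ∀ x : ι → ℝ, (Fin.cons (x C0) (fun j => x (C' j)) : Fin (n + 1) → ℝ) = fun j => x (Cw j) :=
    fun x => (TrialCost.cons_wires C0 C' x).symm
  have hcardQ : Fintype.card (Fin (n + 1) × Fin m) ≤ X ^ 2 := ChainCost.card_le hm hn
  have h1 : (1 : ℕ) ≤ X ^ 40 := Nat.one_le_pow _ _ (by omega)
  have e11 : (((1 : ℕ) : ℝ) / ((1 : ℕ) : ℝ)) = 1 := by norm_num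
  -- the chain
  have hz : PC X (2 + e1) (fun (x : ι → ℝ) (q : Fin (n + 1) × Fin m) =>
      chainRunR W Tm 1 (x Nb) i0 j0 (fun i => x (R i)) (fun j => x (Cw j))
        (fun a => x (Ωw (Sum.inl a))) q) :=
    PC.pi hcardQ fun q => (hch hX hm hn hW hTm h1 h1 i0 j0 Nb R Cw (fun a => Ωw (Sum.inl a)) q).congr
      fun x => by rw [e11]
  -- the point of the small cube
  have hpt : PC X (2 + _) (fun (y : (ι ⊕ (Fin (n + 1) × Fin m)) → ℝ) (q : Fin (n + 1) × Fin m) =>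
      cellPtR W (fun k => y (Sum.inr k)) (fun k => y (Sum.inl (Ωw (Sum.inr (Sum.inl k))))) q) :=
    PC.pi hcardQ fun q => (rQ_cost hX hW).neg.add
      ((cellD_cost hX hW).mul ((P1.var _).add (P1.var _)))
  -- the matrix
  have htv : PC X (2 + e2) (fun (y : ((ι ⊕ (Fin (n + 1) × Fin m)) ⊕ (Fin (n + 1) × Fin m)) → ℝ)
      (q : Fin (n + 1) × Fin m) =>
      tMapR i0 j0 (fun i => y (Sum.inl (Sum.inl (R i)))) (fun j => y (Sum.inl (Sum.inl (Cw j))))
        (fun k => y (Sum.inr k)) q.1 q.2) :=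
    PC.pi hcardQ fun q => htm hX hm hn i0 j0 _ _ _ q.1 q.2
  -- the trial
  have htrial := htr hX hm hn hW hTm hKb hB P hd hcs
    (ι := ((ι ⊕ (Fin (n + 1) × Fin m)) ⊕ (Fin (n + 1) × Fin m)) ⊕ (Fin (n + 1) × Fin m))
    (Sum.inl (Sum.inl (Sum.inl Nb))) (fun i => Sum.inl (Sum.inl (Sum.inl (R i))))
    (Sum.inl (Sum.inl (Sum.inl C0))) (fun j => Sum.inl (Sum.inl (Sum.inl (C' j))))
    (fun j i => Sum.inr (j, i)) (fun a => Sum.inl (Sum.inl (Sum.inl (Ωw (Sum.inr (Sum.inr a)))))) l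
  refine (P1.bind hz (P1.bind hpt (P1.bind htv htrial))).congr fun x => ?_
  unfold downR
  dsimp only
  rw [hCons]
  rfl

end DownCost

/-- A circuit, in the margins, the column and the random wires. -/
theorem downSelR_cost : ∃ e, ∀ {m n X W Tm Kb B : ℕ} {ι : Type} (_ : 1000 ≤ X) (_ : m ≤ X) (_ : n + 1 ≤ X)
    (_ : W ≤ X) (_ : Tm ≤ X ^ 4) (_ : Kb ≤ X) (_ : B ≤ X) (P : Par) (_ : P.d = 1 / (B : ℝ) ^ 26)
    (_ : P.cs = B ^ 28) (R : Fin m → ι) (C0 : ι) (C' : Fin n → ι) (Ωw : DownW n m W → ι) (l : Fin m),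
    P1 X e (fun x => downSelR W Tm Kb P (fun i => x (R i)) (x C0) (fun j => x (C' j)) (fun a => x (Ωw a)) l) := by
  classical
  obtain ⟨e1, hd1⟩ := DownCost.downR_cost
  refine ⟨?e, fun {m n X W Tm Kb B ι} hX hm hn hW hTm hKb hB P hd hcs R C0 C' Ωw l => ?_⟩
  swap
  set Cw : Fin (n + 1) → ι := Fin.cons C0 C' with hCw
  have hCons : ∀ x : ι → ℝ, (Fin.cons (x C0) (fun j => x (C' j)) : Fin (n + 1) → ℝ) = fun j => x (Cw j) :=
    fun x => (TrialCost.cons_wires C0 C' x).symm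
  have hNb : PC X (0 + 1 + 6) (fun (x : ι → ℝ) (_ : Unit) => ∑ i, x (R i)) :=
    (P1.sumFin hm fun i => P1.var (R i) : P1 X (0 + 1 + 6) (fun x : ι → ℝ => ∑ i, x (R i)))
  have hdown : ∀ (i0 : Fin m) (j0 : Fin (n + 1)), P1 X _ (fun x =>
      downR W Tm Kb (∑ i, x (R i)) P i0 j0 (fun i => x (R i)) (x C0) (fun j => x (C' j))
        (fun a => x (Ωw a)) l) := fun i0 j0 =>
    P1.bind hNb (hd1 hX hm hn hW hTm hKb hB P hd hcs (Sum.inr ()) (fun i => Sum.inl (R i)) (Sum.inl C0)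
      (fun j => Sum.inl (C' j)) (fun a => Sum.inl (Ωw a)) i0 j0 l)
  have hA := DownCost.argFirst_cost (a := 0) (v := fun i (x : ι → ℝ) => x (R i)) hX hm fun i => P1.var (R i)
  have hB' := DownCost.argFirst_cost (a := 0) (v := fun j (x : ι → ℝ) => x (Cw j)) hX hn fun j => P1.var (Cw j)
  have hcast : ∀ {K : ℕ} (hK : K ≤ X) (k : Fin K), P1 (ι := ι) X 6 (fun _ => ((k : ℕ) : ℝ)) :=
    fun hK k => P1.natLe (k.2.le.trans hK)
  refine (P1.sumFin hm fun i0 => P1.sumFin hn fun j0 =>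
    P1.iteEq hA (hcast hm i0) (P1.iteEq hB' (hcast hn j0) (hdown i0 j0) P1.zero) P1.zero).congr fun x => ?_
  unfold downSelR
  rw [hCons]

/-! Versions of `Pr_downR`, `downSelR_close` for parameters given by `B` (helper62), the
measurability of a trial comes from `trialR_cost`. -/

/-! ### Measurability of the blocks -/

theorem measurableSet_runSeq_chain {ι : Type} [Fintype ι] [DecidableEq ι] {p a : ℝ} {M : ℕ}
    {ψ : (ι → ℝ) → ℝ} (T : ℕ) (z0 z : ι → Fin M) :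
    MeasurableSet {ω | runSeq (chainStepR p M a ψ) (encZ z0) T ω = encZ z} := by
  classical
  have hfib : ∀ z z' : ι → Fin M, {ω : ChainW ι → ℝ | chainStepL p M a ψ z ω = z'}
      = {ω | chainStepR p M a ψ (encZ z) ω = encZ z'} := by
    intro z z'
    ext ω
    simp only [Set.mem_ofPred_eq, ← encZ_chainStepL]
    exact encZ_injective.eq_iff.symm
  have hmeas : ∀ z z' : ι → Fin M, MeasurableSet {ω : ChainW ι → ℝ | chainStepL p M a ψ z ω = z'} := by
    intro z z'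
    by_cases h : z' = z
    · have : {ω : ChainW ι → ℝ | chainStepL p M a ψ z ω = z'}
          = (⋃ z'' ∈ (Finset.univ.erase z' : Finset (ι → Fin M)),
              {ω : ChainW ι → ℝ | chainStepL p M a ψ z ω = z''})ᶜ := by
        ext ω
        simp only [Set.mem_ofPred_eq, Set.mem_compl_iff, Set.mem_iUnion, Finset.mem_erase,
          Finset.mem_univ, and_true, exists_prop, not_exists, not_and]
        constructor
        · rintro h1 z'' h2 h3
          exact h2 (h3.symm.trans h1)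
        · intro h1
          by_contra h2
          exact h1 _ h2 rfl
      rw [this]
      refine (Finset.measurableSet_biUnion _ fun z'' hz'' => ?_).compl
      rw [hfib]
      refine measurableSet_fibre_ne ?_
      rw [← h]
      exact (Finset.mem_erase.1 hz'').1
    · rw [hfib]
      exact measurableSet_fibre_ne h
  have hstep : Measurable fun q : (ι → Fin M) × (ChainW ι → ℝ) => chainStepL p M a ψ q.1 q.2 := by
    refine measurable_from_prod_countable_right fun z => ?_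
    exact measurable_to_countable' fun z' => hmeas z z'
  have hrun := measurable_runSeq hstep z0 T
  have hset : {ω | runSeq (chainStepR p M a ψ) (encZ z0) T ω = encZ z}
      = runSeq (chainStepL p M a ψ) z0 T ⁻¹' {z} := by
    ext ω
    simp only [Set.mem_ofPred_eq, Set.mem_preimage, Set.mem_singleton_iff]
    rw [← encZ_runSeq _ (chainStepL p M a ψ) encZ_chainStepL]
    exact encZ_injective.eq_iff
  rw [hset]
  exact hrun (measurableSet_singleton z)

theorem runSeq_chain_mem {ι : Type} [Fintype ι] [DecidableEq ι] {p a : ℝ} {M : ℕ}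
    {ψ : (ι → ℝ) → ℝ} (T : ℕ) (z0 : ι → Fin M) (ω : Fin T × ChainW ι → ℝ) :
    runSeq (chainStepR p M a ψ) (encZ z0) T ω ∈ (Finset.univ : Finset (ι → Fin M)).image encZ := by
  rw [← encZ_runSeq _ (chainStepL p M a ψ) encZ_chainStepL]
  exact Finset.mem_image_of_mem _ (Finset.mem_univ _)

/-- A trial as a map on the matrix and the random wires is measurable. -/
theorem measurable_trialR_joint (W Tm Kb : ℕ) (Nb : ℝ) (P : Par) {B : ℕ} (hd : P.d = 1 / (B : ℝ) ^ 26)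
    (hcs : P.cs = B ^ 28) (r : Fin m → ℝ) (c0 : ℝ) (c' : Fin n → ℝ) :
    Measurable (fun p : (Fin (n + 1) → Fin m → ℝ) × (TrialW m W → ℝ) =>
      trialR W Tm Kb Nb P r c0 c' p.1 p.2) := by
  obtain ⟨e, he⟩ := trialR_cost
  refine measurable_pi_iff.2 fun l => ?_
  set X : ℕ := 1000 + m + n + 1 + W + Tm + Kb + B with hX
  have hX1 : 2 ≤ X := by omega
  have hTm : Tm ≤ X ^ 4 := by
    have : X ^ 1 ≤ X ^ 4 := Nat.pow_le_pow_right (by omega) (by norm_num)
    rw [pow_one] at this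
    omega
  let ι : Type := (Unit ⊕ (Fin m ⊕ (Unit ⊕ Fin n))) ⊕ ((Fin (n + 1) × Fin m) ⊕ TrialW m W)
  have h := he (m := m) (n := n) (X := X) (W := W) (Tm := Tm) (Kb := Kb) (B := B) (ι := ι)
    (by omega) (by omega) (by omega) (by omega) hTm (by omega) (by omega) P hd hcs
    (Sum.inl (Sum.inl ())) (fun i => Sum.inl (Sum.inr (Sum.inl i)))
    (Sum.inl (Sum.inr (Sum.inr (Sum.inl ())))) (fun j => Sum.inl (Sum.inr (Sum.inr (Sum.inr j))))
    (fun j i => Sum.inr (Sum.inl (j, i))) (fun a => Sum.inr (Sum.inr a)) l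
  have hm1 := (measurable_pi_apply ()).comp (Cost.measurable (h hX1))
  let g : (Fin (n + 1) → Fin m → ℝ) × (TrialW m W → ℝ) → ι → ℝ := fun p =>
    Sum.elim (Sum.elim (fun _ => Nb) (Sum.elim r (Sum.elim (fun _ => c0) c')))
      (Sum.elim (fun q => p.1 q.1 q.2) p.2)
  have hg : Measurable g := by
    refine measurable_pi_iff.2 fun a => ?_
    rcases a with (a | a | a | a) | (a | a)
    · exact measurable_const
    · exact measurable_const
    · exact measurable_const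
    · exact measurable_const
    · show Measurable fun p : (Fin (n + 1) → Fin m → ℝ) × (TrialW m W → ℝ) => p.1 a.1 a.2
      exact (measurable_pi_apply a.2).comp ((measurable_pi_apply a.1).comp measurable_fst)
    · show Measurable fun p : (Fin (n + 1) → Fin m → ℝ) × (TrialW m W → ℝ) => p.2 a
      exact (measurable_pi_apply a).comp measurable_snd
  exact hm1.comp hg

theorem measurableSet_trialR_eq (W Tm Kb : ℕ) (Nb : ℝ) (P : Par) {B : ℕ} (hd : P.d = 1 / (B : ℝ) ^ 26)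
    (hcs : P.cs = B ^ 28) (r : Fin m → ℝ) (c0 : ℝ) (c' : Fin n → ℝ) (v : Fin m → ℝ) :
    MeasurableSet {p : (Fin (n + 1) → Fin m → ℝ) × (TrialW m W → ℝ) |
      trialR W Tm Kb Nb P r c0 c' p.1 p.2 = v} :=
  (measurable_trialR_joint W Tm Kb Nb P hd hcs r c0 c') (measurableSet_singleton v)

/-- The unit cube is an interval of functions. -/
theorem cube_eq_Icc (Ω : Type) [Fintype Ω] : Cube Ω = Set.Icc (0 : Ω → ℝ) 1 := by
  ext ω
  simp only [Cube, Set.mem_ofPred_eq, Set.mem_Icc, Pi.le_def, Pi.zero_apply, Pi.one_apply]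
  constructor
  · intro h
    exact ⟨fun a => (h a).1, fun a => (h a).2⟩
  · rintro ⟨h1, h2⟩
    exact fun a => ⟨h1 a, h2 a⟩

/-- The law of chain and trial. -/
theorem Pr_downR_B {W Tm Kb Nb Nb' : ℕ} (hS : SizeOK W Tm Kb Nb') (hNb : Nb ≤ Nb') (P : Par)
    {B : ℕ} (hd : P.d = 1 / (B : ℝ) ^ 26) (hcs : P.cs = B ^ 28) (hm : 0 < m)
    (i0 : Fin m) (j0 : Fin (n + 1)) {r : Fin m → ℕ} {c0 : ℕ} {c' : Fin n → ℕ}
    (x : Fin m → ℕ) :
    Pr (fun ω => downR W Tm Kb (Nb : ℝ) P i0 j0 (fun i => (r i : ℝ)) (c0 : ℝ) (fun j => (c' j : ℝ)) ω = encX x)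
      = ∑ z, chainLaw W Nb i0 j0 r (Fin.cons c0 c') 1 z
        * (∫⁻ u in Set.Icc (0 : Fin (n + 1) × Fin m → ℝ) 1,
            ENNReal.ofReal (Pr fun ω => trialR W Tm Kb (Nb : ℝ) P (fun i => (r i : ℝ)) (c0 : ℝ)
              (fun j => (c' j : ℝ)) (tMap i0 j0 r (Fin.cons c0 c') (cellPt W z u)) ω = encX x)).toReal := by
  classical
  set cc : Fin (n + 1) → ℕ := Fin.cons c0 c' with hcc
  have hcast : (Fin.cons (c0 : ℝ) (fun j => (c' j : ℝ)) : Fin (n + 1) → ℝ) = fun j => ((cc j : ℕ) : ℝ) :=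
    cons_cast c0 c'
  have hT := hS.T1 Nb hNb
  let X : (Fin (chainT W) × ChainW (Fin (n + 1) × Fin m) → ℝ) → (Fin (n + 1) × Fin m → ℝ) :=
    chainRunR W Tm 1 (Nb : ℝ) i0 j0 (fun i => (r i : ℝ)) (fun j => ((cc j : ℕ) : ℝ))
  let Y : (Fin (n + 1) × Fin m → ℝ) → (((Fin (n + 1) × Fin m) ⊕ TrialW m W) → ℝ) → Prop := fun a ω₂ =>
    trialR W Tm Kb (Nb : ℝ) P (fun i => (r i : ℝ)) (c0 : ℝ) (fun j => (c' j : ℝ))
      (tMapR i0 j0 (fun i => (r i : ℝ)) (fun j => ((cc j : ℕ) : ℝ)) (cellPtR W a fun u => ω₂ (Sum.inl u)))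
      (fun b => ω₂ (Sum.inr b)) = encX x
  have hstart : (fun _ : Fin (n + 1) × Fin m => (0 : ℝ)) = encZ (zStart _ W) := by
    funext i
    simp [encZ, zStart]
  have hX0 : ∀ z : Fin (n + 1) × Fin m → Fin (cellM W), MeasurableSet {ω | X ω = encZ z} := by
    intro z
    show MeasurableSet {ω | chainRunR W Tm 1 (Nb : ℝ) i0 j0 (fun i => (r i : ℝ))
      (fun j => ((cc j : ℕ) : ℝ)) ω = encZ z}
    unfold chainRunR
    rw [hstart]
    exact measurableSet_runSeq_chain _ _ _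
  have hXmem : ∀ ω, X ω ∈ (Finset.univ : Finset (Fin (n + 1) × Fin m → Fin (cellM W))).image encZ := by
    intro ω
    show chainRunR W Tm 1 (Nb : ℝ) i0 j0 (fun i => (r i : ℝ)) (fun j => ((cc j : ℕ) : ℝ)) ω ∈ _
    unfold chainRunR
    rw [hstart]
    exact runSeq_chain_mem _ _ _
  have hY : ∀ z : Fin (n + 1) × Fin m → Fin (cellM W), MeasurableSet {ω₂ | Y (encZ z) ω₂} := by
    intro z
    have hmap : Measurable (fun ω₂ : ((Fin (n + 1) × Fin m) ⊕ TrialW m W) → ℝ =>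
        ((tMap i0 j0 r cc (cellPt W z fun u => ω₂ (Sum.inl u)),
          fun b => ω₂ (Sum.inr b)) : (Fin (n + 1) → Fin m → ℝ) × (TrialW m W → ℝ))) := by
      refine Measurable.prodMk ?_ measurable_inr_part
      exact (continuous_tMap i0 j0 r cc).measurable.comp
        ((q_measurable_cellPt W z).comp measurable_inl_part)
    exact hmap (measurableSet_trialR_eq W Tm Kb (Nb : ℝ) P hd hcs (fun i => (r i : ℝ)) (c0 : ℝ)
      (fun j => (c' j : ℝ)) (encX x))
  have e : (fun ω => downR W Tm Kb (Nb : ℝ) P i0 j0 (fun i => (r i : ℝ)) (c0 : ℝ)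
        (fun j => (c' j : ℝ)) ω = encX x)
      = fun ω => Y (X fun a => ω (Sum.inl a)) fun a => ω (Sum.inr a) := by
    funext ω
    simp only [downR, hcast]
    rfl
  rw [e, Pr_bind X _ (fun ω _ => hXmem ω)
    (fun a ha => by
      obtain ⟨z, _, rfl⟩ := Finset.mem_image.1 ha
      exact hX0 z) Y
    (fun a ha => by
      obtain ⟨z, _, rfl⟩ := Finset.mem_image.1 ha
      exact hY z),
    Finset.sum_image (fun _ _ _ _ h => encZ_injective h)]
  refine Finset.sum_congr rfl fun z _ => ?_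
  congr 1
  · exact chainRunR_law hT hm (Nat.succ_pos n) 1 i0 j0 r cc z
  · have hE : MeasurableSet {p : (Fin (n + 1) × Fin m → ℝ) × (TrialW m W → ℝ) |
        trialR W Tm Kb (Nb : ℝ) P (fun i => (r i : ℝ)) (c0 : ℝ) (fun j => (c' j : ℝ))
          (tMap i0 j0 r cc (cellPt W z p.1)) p.2 = encX x} := by
      have hmap : Measurable (fun p : (Fin (n + 1) × Fin m → ℝ) × (TrialW m W → ℝ) =>
          ((tMap i0 j0 r cc (cellPt W z p.1), p.2) : (Fin (n + 1) → Fin m → ℝ) × (TrialW m W → ℝ))) :=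
        ((continuous_tMap i0 j0 r cc).measurable.comp
          ((q_measurable_cellPt W z).comp measurable_fst)).prodMk measurable_snd
      exact hmap (measurableSet_trialR_eq W Tm Kb (Nb : ℝ) P hd hcs (fun i => (r i : ℝ)) (c0 : ℝ)
        (fun j => (c' j : ℝ)) (encX x))
    have h := Pr_fubini (Ω₁ := Fin (n + 1) × Fin m) (Ω₂ := TrialW m W)
      (E := fun u ω => trialR W Tm Kb (Nb : ℝ) P (fun i => (r i : ℝ)) (c0 : ℝ) (fun j => (c' j : ℝ))
        (tMap i0 j0 r cc (cellPt W z u)) ω = encX x) hE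
    rw [cube_eq_Icc] at h
    exact h

/-- An abstract bound: the sum of the differences of two families of integrals. -/
theorem sum_abs_lintegral_le {α β : Type} [MeasurableSpace α] (μ : Measure α) [IsProbabilityMeasure μ]
    (s : Finset β) (F G : β → α → ℝ) (hF : ∀ x ∈ s, Measurable (F x)) (hG : ∀ x ∈ s, Measurable (G x))
    (hF0 : ∀ x ∈ s, ∀ u, 0 ≤ F x u) (hF1 : ∀ x ∈ s, ∀ u, F x u ≤ 1) (hG1 : ∀ x ∈ s, ∀ u, G x u ≤ 1)
    {δ : ℝ} (h : ∀ u, ∑ x ∈ s, |F x u - G x u| ≤ δ) :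
    ∑ x ∈ s, |(∫⁻ u, ENNReal.ofReal (F x u) ∂μ).toReal - (∫⁻ u, ENNReal.ofReal (G x u) ∂μ).toReal| ≤ δ := by
  classical
  let G' : β → α → ℝ := fun x u => max (G x u) 0
  have hG'm : ∀ x ∈ s, Measurable (G' x) := fun x hx => (hG x hx).max measurable_const
  have hG'0 : ∀ x u, 0 ≤ G' x u := fun x u => le_max_right _ _
  have hG'1 : ∀ x ∈ s, ∀ u, G' x u ≤ 1 := fun x hx u => max_le (hG1 x hx u) zero_le_one
  have hof : ∀ x u, ENNReal.ofReal (G x u) = ENNReal.ofReal (G' x u) := by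
    intro x u
    rcases le_total (G x u) 0 with h0 | h0
    · have : G' x u = 0 := max_eq_right h0
      rw [this, ENNReal.ofReal_of_nonpos h0, ENNReal.ofReal_zero]
    · have : G' x u = G x u := max_eq_left h0
      rw [this]
  have hbd : ∀ x ∈ s, Integrable (F x) μ := fun x hx =>
    Integrable.of_bound (hF x hx).aestronglyMeasurable 1 (Filter.Eventually.of_forall fun u => by
      rw [Real.norm_eq_abs, abs_of_nonneg (hF0 x hx u)]
      exact hF1 x hx u)
  have hbd' : ∀ x ∈ s, Integrable (G' x) μ := fun x hx =>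
    Integrable.of_bound (hG'm x hx).aestronglyMeasurable 1 (Filter.Eventually.of_forall fun u => by
      rw [Real.norm_eq_abs, abs_of_nonneg (hG'0 x u)]
      exact hG'1 x hx u)
  have hone : ∀ x ∈ s, |(∫⁻ u, ENNReal.ofReal (F x u) ∂μ).toReal - (∫⁻ u, ENNReal.ofReal (G x u) ∂μ).toReal|
      ≤ ∫ u, |F x u - G' x u| ∂μ := by
    intro x hx
    have e1 : (∫⁻ u, ENNReal.ofReal (F x u) ∂μ).toReal = ∫ u, F x u ∂μ :=
      (integral_eq_lintegral_of_nonneg_ae (Filter.Eventually.of_forall (hF0 x hx))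
        (hF x hx).aestronglyMeasurable).symm
    have e2 : (∫⁻ u, ENNReal.ofReal (G x u) ∂μ).toReal = ∫ u, G' x u ∂μ := by
      simp_rw [hof]
      exact (integral_eq_lintegral_of_nonneg_ae (Filter.Eventually.of_forall (hG'0 x))
        (hG'm x hx).aestronglyMeasurable).symm
    rw [e1, e2, ← integral_sub (hbd x hx) (hbd' x hx)]
    exact abs_integral_le_integral_abs
  have hint : ∀ x ∈ s, Integrable (fun u => |F x u - G' x u|) μ := fun x hx =>
    ((hbd x hx).sub (hbd' x hx)).abs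
  have hpt : ∀ u, ∑ x ∈ s, |F x u - G' x u| ≤ δ := by
    intro u
    refine le_trans (Finset.sum_le_sum fun x hx => ?_) (h u)
    have h0 := hF0 x hx u
    rcases le_total (G x u) 0 with h1 | h1
    · have : G' x u = 0 := max_eq_right h1
      rw [this, sub_zero, abs_of_nonneg h0, abs_of_nonneg (by linarith)]
      linarith
    · have : G' x u = G x u := max_eq_left h1
      rw [this]
  calc _ ≤ ∑ x ∈ s, ∫ u, |F x u - G' x u| ∂μ := Finset.sum_le_sum hone
    _ = ∫ u, ∑ x ∈ s, |F x u - G' x u| ∂μ := (integral_finsetSum s hint).symm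
    _ ≤ ∫ _, δ ∂μ := integral_mono (integrable_finsetSum s hint) (integrable_const δ) hpt
    _ = δ := by simp

/-- A probability depending on the matrix is measurable. -/
theorem measurable_Pr_trial (W Tm Kb : ℕ) (Nb : ℝ) (P : Par) {B : ℕ} (hd : P.d = 1 / (B : ℝ) ^ 26)
    (hcs : P.cs = B ^ 28) (r : Fin m → ℝ) (c0 : ℝ) (c' : Fin n → ℝ) (v : Fin m → ℝ) :
    Measurable (fun t : Fin (n + 1) → Fin m → ℝ =>
      Pr (fun ω : TrialW m W → ℝ => trialR W Tm Kb Nb P r c0 c' t ω = v)) := by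
  have hs : MeasurableSet {p : (Fin (n + 1) → Fin m → ℝ) × (TrialW m W → ℝ) |
      p.2 ∈ Cube (TrialW m W) ∧ trialR W Tm Kb Nb P r c0 c' p.1 p.2 = v} :=
    (measurable_snd measurableSet_cube).inter (measurableSet_trialR_eq W Tm Kb Nb P hd hcs r c0 c' v)
  exact (measurable_measure_prodMk_left (ν := (volume : Measure (TrialW m W → ℝ))) hs).ennreal_toReal

/-- **The law of chain and trial is close to `trialI`.** -/
theorem downSelR_close_B {W Tm Kb Nb' : ℕ} (hS : SizeOK W Tm Kb Nb') (P : Par) (hPd : 0 ≤ P.d)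
    {B : ℕ} (hd : P.d = 1 / (B : ℝ) ^ 26) (hcs : P.cs = B ^ 28) (hm : 0 < m)
    {r : Fin m → ℕ} (hr : ∑ i, r i ≤ Nb') {c0 : ℕ} {c' : Fin n → ℕ} (hsum : ∑ i, r i = c0 + ∑ j, c' j) :
    ∑ x ∈ lev r c0, |Pr (fun ω => downSelR W Tm Kb P (fun i => (r i : ℝ)) (c0 : ℝ) (fun j => (c' j : ℝ)) ω = encX x)
        - trialI W hm P r c0 c' x|
      ≤ ((m : ℝ) + 1) / (W : ℝ) ^ 29 := by
  classical
  have hW0 : 0 < W := by
    have := hS.W1
    omega
  set Nb : ℕ := ∑ i, r i with hNbdef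
  set cc : Fin (n + 1) → ℕ := Fin.cons c0 c' with hcc
  set i0 := iMax hm r with hi0
  set j0 := jMax (Nat.succ_pos n) cc with hj0
  set δ : ℝ := ((m : ℝ) + 1) / (W : ℝ) ^ 29 with hδ
  have hδ0 : 0 ≤ δ := by positivity
  set I : Set (Fin (n + 1) × Fin m → ℝ) := Set.Icc 0 1 with hI
  have hvol : volume I = 1 := by
    rw [hI, Real.volume_Icc_pi]
    simp
  have : IsProbabilityMeasure (volume.restrict I) :=
    ⟨by rw [Measure.restrict_apply_univ, hvol]⟩
  set f : (Fin (n + 1) × Fin m → Fin (cellM W)) → (Fin (n + 1) × Fin m → ℝ) →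
    (Fin (n + 1) → Fin m → ℝ) := fun z u => tMap i0 j0 r cc (cellPt W z u) with hf
  have hfm : ∀ z, Measurable (f z) := fun z =>
    (continuous_tMap i0 j0 r cc).measurable.comp (q_measurable_cellPt W z)
  have hT := hS.T1 Nb hr
  have hkey : ∀ z, ∑ x ∈ lev r c0,
      |(∫⁻ u in I, ENNReal.ofReal (Pr fun ω => trialR W Tm Kb (Nb : ℝ) P (fun i => (r i : ℝ)) (c0 : ℝ)
          (fun j => (c' j : ℝ)) (f z u) ω = encX x)).toReal
        - (∫⁻ u in I, ENNReal.ofReal (trialHat W Nb P r c0 c' (f z u) x)).toReal| ≤ δ := by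
    intro z
    refine sum_abs_lintegral_le (volume.restrict I) (lev r c0)
      (fun x u => Pr fun ω => trialR W Tm Kb (Nb : ℝ) P (fun i => (r i : ℝ)) (c0 : ℝ)
          (fun j => (c' j : ℝ)) (f z u) ω = encX x)
      (fun x u => trialHat W Nb P r c0 c' (f z u) x) ?_ ?_ ?_ ?_ ?_ ?_
    · intro x _
      exact (measurable_Pr_trial W Tm Kb (Nb : ℝ) P hd hcs _ _ _ _).comp (hfm z)
    · intro x _
      exact (q_measurable_trialHat hW0 Nb P r c0 c' x).comp (hfm z)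
    · intro x _ u
      exact Pr_nonneg _
    · intro x _ u
      exact Pr_le_one _
    · intro x hx u
      have h1 : ENNReal.ofReal (trialHat W Nb P r c0 c' (f z u) x) ≤ 1 :=
        (Finset.single_le_sum (f := fun x => ENNReal.ofReal (trialHat W Nb P r c0 c' (f z u) x))
          (fun _ _ => zero_le) hx).trans (q_H_sum_le hW0 _)
      exact ENNReal.ofReal_le_one.1 h1
    · intro u
      exact trialR_close hS hr P hPd hm hr hsum (f z u)
  have hL0 : ∀ z, 0 ≤ chainLaw W Nb i0 j0 r cc 1 z := by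
    intro z
    rw [← chainRunR_law hT hm (Nat.succ_pos n) 1 i0 j0 r cc z]
    exact Pr_nonneg _
  have hLsum := q_chainLaw_sum W Nb i0 j0 r cc 1
  have hdown : ∀ x, Pr (fun ω => downSelR W Tm Kb P (fun i => (r i : ℝ)) (c0 : ℝ)
        (fun j => (c' j : ℝ)) ω = encX x)
      = ∑ z, chainLaw W Nb i0 j0 r cc 1 z
        * (∫⁻ u in I, ENNReal.ofReal (Pr fun ω => trialR W Tm Kb (Nb : ℝ) P (fun i => (r i : ℝ)) (c0 : ℝ)
              (fun j => (c' j : ℝ)) (f z u) ω = encX x)).toReal := by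
    intro x
    have e : (fun ω => downSelR W Tm Kb P (fun i => (r i : ℝ)) (c0 : ℝ)
        (fun j => (c' j : ℝ)) ω = encX x)
        = fun ω => downR W Tm Kb (Nb : ℝ) P i0 j0 (fun i => (r i : ℝ)) (c0 : ℝ)
          (fun j => (c' j : ℝ)) ω = encX x := by
      funext ω
      rw [downSelR_eq W Tm Kb P hm r c0 c' ω]
    rw [e]
    exact Pr_downR_B hS hr P hd hcs hm i0 j0 x
  have hI' : ∀ x, trialI W hm P r c0 c' x = ∑ z, chainLaw W Nb i0 j0 r cc 1 z
      * (∫⁻ u in I, ENNReal.ofReal (trialHat W Nb P r c0 c' (f z u) x)).toReal := fun x => rfl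
  calc ∑ x ∈ lev r c0, |Pr (fun ω => downSelR W Tm Kb P (fun i => (r i : ℝ)) (c0 : ℝ)
          (fun j => (c' j : ℝ)) ω = encX x) - trialI W hm P r c0 c' x|
      ≤ ∑ x ∈ lev r c0, ∑ z, chainLaw W Nb i0 j0 r cc 1 z *
          |(∫⁻ u in I, ENNReal.ofReal (Pr fun ω => trialR W Tm Kb (Nb : ℝ) P (fun i => (r i : ℝ)) (c0 : ℝ)
              (fun j => (c' j : ℝ)) (f z u) ω = encX x)).toReal
            - (∫⁻ u in I, ENNReal.ofReal (trialHat W Nb P r c0 c' (f z u) x)).toReal| := by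
        refine Finset.sum_le_sum fun x _ => ?_
        rw [hdown x, hI' x, ← Finset.sum_sub_distrib]
        refine (Finset.abs_sum_le_sum_abs _ _).trans (Finset.sum_le_sum fun z _ => ?_)
        rw [← mul_sub, abs_mul, abs_of_nonneg (hL0 z)]
    _ = ∑ z, chainLaw W Nb i0 j0 r cc 1 z * ∑ x ∈ lev r c0,
          |(∫⁻ u in I, ENNReal.ofReal (Pr fun ω => trialR W Tm Kb (Nb : ℝ) P (fun i => (r i : ℝ)) (c0 : ℝ)
              (fun j => (c' j : ℝ)) (f z u) ω = encX x)).toReal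
            - (∫⁻ u in I, ENNReal.ofReal (trialHat W Nb P r c0 c' (f z u) x)).toReal| := by
        rw [Finset.sum_comm]
        refine Finset.sum_congr rfl fun z _ => ?_
        rw [Finset.mul_sum]
    _ ≤ ∑ z, chainLaw W Nb i0 j0 r cc 1 z * δ :=
        Finset.sum_le_sum fun z _ => mul_le_mul_of_nonneg_left (hkey z) (hL0 z)
    _ = δ := by rw [← Finset.sum_mul, hLsum, one_mul]

end Vale.Agent.Lib.P328.RAM
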