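import Vale.Agent.Lib.P328.RAM.RunCost
import Vale.Agent.Lib.P328.Fpras.Binom

/-!
# P328: factorials and binomial weights by circuits (module S)

No factorial gate: `logFactHat W n` is the exact sum of logarithms for `n ≤ N0 = W ^ 30` and for larger `n`
the Stirling main term, with the constant taken from `N0` (so that no constant `π` is needed):
`log N0! + main n - main N0`, `main n = n log n - n + (log n) / 2`.

`logFactHat_close`: for natural `n`, `|logFactHat W n - log n!| ≤ 1 / N0`. Proof: `n ≤ N0` exact. For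
`n > N0`: `log n! - main n = log (stirlingSeq n) + (log 2) / 2`, so the error is
`log (stirlingSeq N0) - log (stirlingSeq n)`, which is between `0` and
`∑_{k ≥ N0} 1 / (12 k (k + 1)) ≤ 1 / N0` by `Stirling.log_stirlingSeq_sdiff_le`, telescoping.

`bwHat W R p y` is `bw R p y` up to the factor `exp θ`, `|θ| ≤ 3 / N0`.
-/

namespace Vale.Agent.Lib.P328.RAM

open Finset Vale.Agent.Lib.P328.Cap Vale.Agent.Lib.P328.Fpras

/-- The size up to which factorials are computed exactly. -/
def factN0 (W : ℕ) : ℕ := W ^ 30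

/-- The main term of Stirling's formula. -/
noncomputable def stirMain (n : ℝ) : ℝ := n * Real.log n - n + Real.log n / 2

/-- The computed logarithm of the factorial of `n`. -/
noncomputable def logFactHat (W : ℕ) (n : ℝ) : ℝ :=
  ∑ l ∈ range (factN0 W), (if (l : ℝ) + 1 ≤ n then Real.log ((l : ℝ) + 1) else 0)
    + if (factN0 W : ℝ) < n then stirMain n - stirMain (factN0 W) else 0

/-- The computed binomial weight. -/
noncomputable def bwHat (W : ℕ) (R p y : ℝ) : ℝ :=
  if 1 ≤ p then (if y = R then 1 else 0)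
  else Real.exp (logFactHat W R - logFactHat W y - logFactHat W (R - y)
    + y * Real.log p + (R - y) * Real.log (1 - p))

namespace FactAux

/-- The exact sum of logarithms. -/
lemma sum_log_eq (N n : ℕ) (hn : n ≤ N) :
    ∑ l ∈ range N, (if (l : ℝ) + 1 ≤ (n : ℝ) then Real.log ((l : ℝ) + 1) else 0)
      = Real.log (n.factorial : ℝ) := by
  induction n with
  | zero =>
    simp only [Nat.factorial_zero, Nat.cast_one, Real.log_one]
    apply Finset.sum_eq_zero
    intro l _
    rw [if_neg]
    have : (0 : ℝ) ≤ (l : ℝ) := Nat.cast_nonneg l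
    push_cast
    linarith
  | succ n ih =>
    have ih' := ih (by omega)
    rw [Nat.factorial_succ]
    push_cast
    rw [Real.log_mul (by positivity) (by positivity), ← ih']
    have hmem : n ∈ range N := Finset.mem_range.2 (by omega)
    rw [← Finset.add_sum_erase _ _ hmem, ← Finset.add_sum_erase (range N)
      (fun l : ℕ => if (l : ℝ) + 1 ≤ (n : ℝ) then Real.log ((l : ℝ) + 1) else 0) hmem]
    have h1 : ((n : ℝ) + 1 ≤ (n : ℝ) + 1) := le_rfl
    have h2 : ¬ ((n : ℝ) + 1 ≤ (n : ℝ)) := by linarith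
    rw [if_pos h1, if_neg h2, zero_add]
    congr 1
    apply Finset.sum_congr rfl
    intro l hl
    have hne : l ≠ n := (Finset.mem_erase.1 hl).1
    by_cases hlt : l < n
    · have h3 : (l : ℝ) + 1 ≤ (n : ℝ) := by exact_mod_cast hlt
      have h4 : (l : ℝ) + 1 ≤ (n : ℝ) + 1 := by linarith
      rw [if_pos h3, if_pos h4]
    · have h5 : n + 1 < l + 1 := by omega
      have h6 : ¬ ((l : ℝ) + 1 ≤ (n : ℝ) + 1) := by
        rw [not_le]
        exact_mod_cast h5
      have h7 : ¬ ((l : ℝ) + 1 ≤ (n : ℝ)) := by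
        intro h
        apply h6
        linarith
      rw [if_neg h6, if_neg h7]

/-- The Stirling telescoping. -/
lemma stirling_tele {N : ℕ} (hN : 1 ≤ N) {n : ℕ} (hn : N ≤ n) :
    0 ≤ Real.log (Stirling.stirlingSeq N) - Real.log (Stirling.stirlingSeq n) ∧
    Real.log (Stirling.stirlingSeq N) - Real.log (Stirling.stirlingSeq n)
      ≤ 1 / (12 * (N : ℝ)) - 1 / (12 * (n : ℝ)) := by
  induction n, hn using Nat.le_induction with
  | base =>
    simp
  | succ n hn ih =>
    have hn1 : 1 ≤ n := le_trans hN hn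
    have h1 : Real.log (Stirling.stirlingSeq (n + 1)) ≤ Real.log (Stirling.stirlingSeq n) := by
      obtain ⟨k, rfl⟩ : ∃ k, n = k + 1 := ⟨n - 1, by omega⟩
      exact Stirling.log_stirlingSeq'_antitone (Nat.le_succ k)
    have h2 := Stirling.log_stirlingSeq_sdiff_le n
    have hn0 : (0 : ℝ) < (n : ℝ) := by exact_mod_cast hn1
    have e : 1 / (12 * (n : ℝ) * ((n : ℝ) + 1)) = 1 / (12 * (n : ℝ)) - 1 / (12 * ((n : ℝ) + 1)) := by
      field_simp
      ring
    rw [e] at h2
    constructor
    · linarith [ih.1]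
    · push_cast
      linarith [ih.2]

/-- The value of `log n!` in terms of the Stirling sequence. -/
lemma log_fact_eq {n : ℕ} (hn : 1 ≤ n) :
    Real.log (n.factorial : ℝ)
      = Real.log (Stirling.stirlingSeq n) + stirMain n + Real.log 2 / 2 := by
  have h := Stirling.log_stirlingSeq_formula n
  have hn0 : (0 : ℝ) < (n : ℝ) := by exact_mod_cast hn
  have e1 : Real.log (2 * (n : ℝ)) = Real.log 2 + Real.log n :=
    Real.log_mul (by norm_num) hn0.ne'
  have e2 : Real.log ((n : ℝ) / Real.exp 1) = Real.log n - 1 := by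
    rw [Real.log_div hn0.ne' (Real.exp_pos 1).ne', Real.log_exp]
  rw [e1, e2] at h
  unfold stirMain
  rw [h]
  ring

end FactAux

open FactAux in
theorem logFactHat_close {W : ℕ} (hW : 2 ≤ W) (n : ℕ) :
    |logFactHat W n - Real.log (n.factorial : ℝ)| ≤ 1 / (factN0 W : ℝ) := by
  have hN1 : 1 ≤ factN0 W := Nat.one_le_pow _ _ (by omega)
  have hN0 : (0 : ℝ) < (factN0 W : ℝ) := by exact_mod_cast hN1
  unfold logFactHat
  by_cases hn : n ≤ factN0 W
  · rw [sum_log_eq _ _ hn]
    have : ¬ ((factN0 W : ℝ) < (n : ℝ)) := by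
      rw [not_lt]
      exact_mod_cast hn
    rw [if_neg this]
    simp only [add_zero, sub_self, abs_zero]
    positivity
  · have hn' : factN0 W ≤ n := by omega
    have hlt : (factN0 W : ℝ) < (n : ℝ) := by
      have : factN0 W < n := by omega
      exact_mod_cast this
    have e1 : ∑ l ∈ range (factN0 W), (if (l : ℝ) + 1 ≤ (n : ℝ) then Real.log ((l : ℝ) + 1) else 0)
        = Real.log ((factN0 W).factorial : ℝ) := by
      rw [← sum_log_eq (factN0 W) (factN0 W) le_rfl]
      apply Finset.sum_congr rfl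
      intro l hl
      have hl' : l + 1 ≤ factN0 W := Finset.mem_range.1 hl
      have h1 : (l : ℝ) + 1 ≤ (factN0 W : ℝ) := by exact_mod_cast hl'
      rw [if_pos h1, if_pos (by linarith)]
    rw [e1, if_pos hlt, log_fact_eq hN1, log_fact_eq (le_trans hN1 hn')]
    obtain ⟨h1, h2⟩ := stirling_tele hN1 hn'
    have e2 : Real.log (Stirling.stirlingSeq (factN0 W)) + stirMain (factN0 W) + Real.log 2 / 2
        + (stirMain n - stirMain (factN0 W))
        - (Real.log (Stirling.stirlingSeq n) + stirMain n + Real.log 2 / 2)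
        = Real.log (Stirling.stirlingSeq (factN0 W)) - Real.log (Stirling.stirlingSeq n) := by
      ring
    rw [e2, abs_of_nonneg h1]
    have hn0 : (0 : ℝ) < (n : ℝ) := lt_trans hN0 hlt
    have h3 : 0 < 1 / (12 * (n : ℝ)) := by positivity
    have h4 : 1 / (12 * (factN0 W : ℝ)) ≤ 1 / (factN0 W : ℝ) := by
      apply one_div_le_one_div_of_le hN0
      linarith
    linarith

/-- The computed weight is the true weight up to a small factor. -/
theorem bwHat_close {W : ℕ} (hW : 2 ≤ W) {R y : ℕ} (hy : y ≤ R) {p : ℝ} (h0 : 0 < p) (h1 : p ≤ 1) :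
    ∃ θ : ℝ, |θ| ≤ 3 / (factN0 W : ℝ) ∧ bwHat W R p y = bw R p y * Real.exp θ := by
  have hN1 : 1 ≤ factN0 W := Nat.one_le_pow _ _ (by omega)
  have hN0 : (0 : ℝ) < (factN0 W : ℝ) := by exact_mod_cast hN1
  unfold bwHat
  by_cases hp : 1 ≤ p
  · have hp1 : p = 1 := le_antisymm h1 hp
    subst hp1
    refine ⟨0, by simp; positivity, ?_⟩
    rw [if_pos le_rfl, Real.exp_zero, mul_one]
    unfold bw
    by_cases hyR : y = R
    · subst hyR
      simp
    · have hlt : 0 < R - y := by omega
      have : ¬ ((y : ℝ) = (R : ℝ)) := by exact_mod_cast hyR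
      rw [if_neg this]
      simp [zero_pow hlt.ne']
  · have hp' : p < 1 := not_le.1 hp
    have hq : 0 < 1 - p := by linarith
    set θ := (logFactHat W R - Real.log (R.factorial : ℝ))
      - (logFactHat W y - Real.log (y.factorial : ℝ))
      - (logFactHat W ((R - y : ℕ) : ℝ) - Real.log ((R - y).factorial : ℝ)) with hθ
    refine ⟨θ, ?_, ?_⟩
    · have h3 := logFactHat_close hW R
      have h4 := logFactHat_close hW y
      have h5 := logFactHat_close hW (R - y)
      have e : 3 / (factN0 W : ℝ) = 1 / (factN0 W : ℝ) + 1 / (factN0 W : ℝ) + 1 / (factN0 W : ℝ) := by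
        ring
      rw [e, hθ]
      refine le_trans (abs_sub _ _) (add_le_add (le_trans (abs_sub _ _) (add_le_add h3 h4)) h5)
    · rw [if_neg hp]
      have e0 : (R : ℝ) - (y : ℝ) = ((R - y : ℕ) : ℝ) := (Nat.cast_sub hy).symm
      rw [e0]
      have hfR : (0 : ℝ) < (R.factorial : ℝ) := by exact_mod_cast R.factorial_pos
      have hfy : (0 : ℝ) < (y.factorial : ℝ) := by exact_mod_cast y.factorial_pos
      have hfz : (0 : ℝ) < ((R - y).factorial : ℝ) := by exact_mod_cast (R - y).factorial_pos
      have hbw : bw R p y = Real.exp (Real.log (R.factorial : ℝ) - Real.log (y.factorial : ℝ)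
          - Real.log ((R - y).factorial : ℝ) + (y : ℝ) * Real.log p
          + ((R - y : ℕ) : ℝ) * Real.log (1 - p)) := by
        unfold bw
        rw [Nat.cast_choose ℝ hy, Real.exp_add, Real.exp_add, Real.exp_sub, Real.exp_sub,
          Real.exp_log hfR, Real.exp_log hfy, Real.exp_log hfz, Real.exp_nat_mul, Real.exp_log h0,
          Real.exp_nat_mul, Real.exp_log hq]
        field_simp
      rw [hbw, ← Real.exp_add]
      congr 1
      rw [hθ]
      ring

namespace FactAux

theorem two_cost {X : ℕ} {ι : Type} (h : 1000 ≤ X) : P1 (ι := ι) X 6 (fun _ => (2 : ℝ)) :=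
  (P1.natLe (N := 2) (by omega)).congr fun _ => by norm_num

theorem stirMain_cost {X : ℕ} {ι : Type} (h : 1000 ≤ X) {a : ℕ} {f : (ι → ℝ) → ℝ} (hf : P1 X a f) :
    P1 X ((a + (a + 1) + 2) + (a + 1) + 2 + ((a + 1) + (6 + 1) + 2) + 2)
      (fun x => stirMain (f x)) := by
  unfold stirMain
  exact ((hf.mul hf.log).sub hf).add (hf.log.div (two_cost h))

end FactAux

open FactAux in
theorem logFactHat_cost : ∃ e, ∀ {X W : ℕ} {ι : Type} (_ : 1000 ≤ X) (_ : W ≤ X) (N : ι),
    P1 X e (fun x => logFactHat W (x N)) := by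
  refine ⟨?e, fun {X W ι} h1000 hW N => ?_⟩
  swap
  have hN : factN0 W ≤ X ^ 30 := Nat.pow_le_pow_left hW 30
  have hl : ∀ l ∈ range (factN0 W), l ≤ X ^ 30 := fun l hl =>
    le_trans (le_of_lt (Finset.mem_range.1 hl)) hN
  unfold logFactHat
  exact (P1.sum (d := 30) (range (factN0 W)) (by simpa using hN) fun l hl' =>
    P1.ite ((P1.nat (hl l hl')).add P1.one) (P1.var N)
      (P1.log ((P1.nat (hl l hl')).add P1.one)) P1.zero).add
    (P1.iteLt (P1.nat hN) (P1.var N)
      ((stirMain_cost h1000 (P1.var N)).sub (stirMain_cost h1000 (P1.nat hN))) P1.zero)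

theorem bwHat_cost : ∃ e, ∀ {X W : ℕ} {ι : Type} (_ : 1000 ≤ X) (_ : W ≤ X) (R p y : ι),
    P1 X e (fun x => bwHat W (x R) (x p) (x y)) := by
  obtain ⟨e, he⟩ := logFactHat_cost
  refine ⟨?e2, fun {X W ι} h1000 hW R p y => ?_⟩
  swap
  have hdiff := P1.comp (show PC X _ (fun (x : ι → ℝ) (_ : Unit) => x R - x y) from
    (P1.var R).sub (P1.var y)) (he h1000 hW (ι := Unit) ())
  unfold bwHat
  exact P1.ite P1.one (P1.var p) (P1.iteEq (P1.var y) (P1.var R) P1.one P1.zero)
    (P1.exp ((((((he h1000 hW R).sub (he h1000 hW y)).sub hdiff).add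
      ((P1.var y).mul (P1.log (P1.var p))))).add
      (((P1.var R).sub (P1.var y)).mul (P1.log (P1.one.sub (P1.var p))))))

end Vale.Agent.Lib.P328.RAM
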