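import Vale.Agent.Lib.P328.RAM.Poly

/-!
# P328: laws of circuits with uniform random inputs

`Pr E` is the probability of the event `E` when the random wires `Ω` are independent and uniform on
`[0, 1]`. The results: independent blocks of wires (`Pr_prod`, `Pr_bind`), `T` steps of a randomized
map with fresh wires in each step (`runSeq`, `Pr_runSeq`), and `R` independent runs (`Pr_blocks`).
-/

namespace Vale.Agent.Lib.P328.RAM

open Finset MeasureTheory

variable {Ω Ω₁ Ω₂ : Type} [Fintype Ω] [Fintype Ω₁] [Fintype Ω₂]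

/-- The unit cube. -/
def Cube (Ω : Type) : Set (Ω → ℝ) := {ω | ∀ a, 0 ≤ ω a ∧ ω a ≤ 1}

/-- The probability of `E`, for independent uniform draws from `[0, 1]`. -/
noncomputable def Pr (E : (Ω → ℝ) → Prop) : ℝ := (volume {ω | ω ∈ Cube Ω ∧ E ω}).toReal

theorem measurableSet_cube : MeasurableSet (Cube Ω) := by
  have h : Cube Ω = Set.pi Set.univ (fun _ => Set.Icc (0 : ℝ) 1) := by
    ext ω; simp only [Cube, Set.mem_ofPred_eq, Set.mem_pi, Set.mem_univ, true_implies, Set.mem_Icc]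
  rw [h]
  exact MeasurableSet.univ_pi fun _ => measurableSet_Icc

theorem volume_cube : volume (Cube Ω) = 1 := by
  have h : Cube Ω = Set.pi Set.univ (fun _ => Set.Icc (0 : ℝ) 1) := by
    ext ω; simp only [Cube, Set.mem_ofPred_eq, Set.mem_pi, Set.mem_univ, true_implies, Set.mem_Icc]
  rw [h, volume_pi_pi]
  simp

/-- The uniform law as a probability measure. -/
noncomputable def muC (Ω : Type) [Fintype Ω] : Measure (Ω → ℝ) := volume.restrict (Cube Ω)

instance : IsProbabilityMeasure (muC Ω) := by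
  refine ⟨?_⟩
  rw [muC, Measure.restrict_apply_univ, volume_cube]

theorem Pr_eq_muC (E : (Ω → ℝ) → Prop) : Pr E = (muC Ω {ω | E ω}).toReal := by
  unfold Pr muC
  rw [Measure.restrict_apply' measurableSet_cube]
  congr 2
  ext ω
  simp [and_comm]

theorem Pr_nonneg (E : (Ω → ℝ) → Prop) : 0 ≤ Pr E := ENNReal.toReal_nonneg

theorem Pr_le_one (E : (Ω → ℝ) → Prop) : Pr E ≤ 1 := by
  rw [Pr_eq_muC]
  have h : muC Ω {ω | E ω} ≤ 1 := prob_le_one
  simpa using ENNReal.toReal_mono ENNReal.one_ne_top h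

theorem Pr_true : Pr (fun _ : Ω → ℝ => True) = 1 := by
  rw [Pr_eq_muC]
  have : {ω : Ω → ℝ | True} = Set.univ := rfl
  rw [this, measure_univ]
  simp

/-- Only the points of the cube count. -/
theorem Pr_congr {E E' : (Ω → ℝ) → Prop} (h : ∀ ω ∈ Cube Ω, (E ω ↔ E' ω)) : Pr E = Pr E' := by
  unfold Pr
  congr 2
  ext ω
  constructor
  · rintro ⟨h1, h2⟩; exact ⟨h1, (h ω h1).1 h2⟩
  · rintro ⟨h1, h2⟩; exact ⟨h1, (h ω h1).2 h2⟩

theorem Pr_mono {E E' : (Ω → ℝ) → Prop} (h : ∀ ω ∈ Cube Ω, E ω → E' ω) : Pr E ≤ Pr E' := by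
  rw [Pr, Pr]
  refine ENNReal.toReal_mono ?_ (measure_mono ?_)
  · refine ne_top_of_le_ne_top (b := (1 : ENNReal)) ENNReal.one_ne_top ?_
    rw [← volume_cube (Ω := Ω)]
    exact measure_mono fun ω hω => hω.1
  · rintro ω ⟨h1, h2⟩
    exact ⟨h1, h ω h1 h2⟩

/-- The complement. -/
theorem Pr_not {E : (Ω → ℝ) → Prop} (hE : MeasurableSet {ω | E ω}) :
    Pr (fun ω => ¬ E ω) = 1 - Pr E := by
  rw [Pr_eq_muC, Pr_eq_muC]
  have h : {ω : Ω → ℝ | ¬ E ω} = {ω | E ω}ᶜ := rfl
  rw [h, prob_compl_eq_one_sub hE, ENNReal.toReal_sub_of_le prob_le_one ENNReal.one_ne_top]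
  simp

/-- A finite disjoint union, in general form. -/
theorem Pr_exists_finset {β : Type} (s : Finset β) (A : β → (Ω → ℝ) → Prop)
    (hm : ∀ i ∈ s, MeasurableSet {ω | A i ω})
    (hd : ∀ i ∈ s, ∀ j ∈ s, i ≠ j → ∀ ω, A i ω → ¬ A j ω) :
    Pr (fun ω => ∃ i ∈ s, A i ω) = ∑ i ∈ s, Pr (A i) := by
  classical
  simp_rw [Pr_eq_muC]
  have h : {ω | ∃ i ∈ s, A i ω} = ⋃ i ∈ s, {ω | A i ω} := by
    ext ω; simp
  rw [h, measure_biUnion_finset _ hm, ENNReal.toReal_sum]
  · intro i _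
    exact measure_ne_top _ _
  · intro i hi j hj hij
    refine Set.disjoint_left.2 fun ω h1 h2 => hd i hi j hj hij ω h1 h2

theorem Pr_false : Pr (fun _ : Ω → ℝ => False) = 0 := by
  simp [Pr]

/-- A finite disjoint union. -/
theorem Pr_sum_fiber {α : Type} (X : (Ω → ℝ) → α) (S : Finset α)
    (hX : ∀ y ∈ S, MeasurableSet {ω | X ω = y}) (F : α → Prop) [DecidablePred F] :
    Pr (fun ω => X ω ∈ S ∧ F (X ω)) = ∑ y ∈ S.filter F, Pr (fun ω => X ω = y) := by
  have h := Pr_exists_finset (S.filter F) (fun y ω => X ω = y)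
    (fun y hy => hX y (Finset.mem_of_mem_filter y hy))
    (fun i _ j _ hij ω h1 h2 => hij (h1.symm.trans h2))
  rw [← h]
  refine Pr_congr fun ω _ => ?_
  constructor
  · rintro ⟨h1, h2⟩
    exact ⟨X ω, Finset.mem_filter.2 ⟨h1, h2⟩, rfl⟩
  · rintro ⟨y, hy, rfl⟩
    exact Finset.mem_filter.1 hy

/-- The total mass of a discrete random variable. -/
theorem Pr_total {α : Type} (X : (Ω → ℝ) → α) (S : Finset α)
    (hX : ∀ y ∈ S, MeasurableSet {ω | X ω = y}) (hS : ∀ ω ∈ Cube Ω, X ω ∈ S) :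
    ∑ y ∈ S, Pr (fun ω => X ω = y) = 1 := by
  have h := Pr_sum_fiber X S hX (fun _ => True)
  rw [Finset.filter_true_of_mem (fun _ _ => trivial)] at h
  rw [← h, ← Pr_true (Ω := Ω)]
  refine Pr_congr fun ω hω => ?_
  simp [hS ω hω]

/-- One coordinate is uniform. -/
theorem Pr_le_coord (a : Ω) {p : ℝ} (h0 : 0 ≤ p) (h1 : p ≤ 1) : Pr (fun ω => ω a ≤ p) = p := by
  classical
  have h : {ω : Ω → ℝ | ω ∈ Cube Ω ∧ ω a ≤ p}
      = Set.pi Set.univ (fun b => if b = a then Set.Icc (0 : ℝ) p else Set.Icc (0 : ℝ) 1) := by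
    ext ω
    simp only [Set.mem_ofPred_eq, Cube, Set.mem_pi, Set.mem_univ, true_implies]
    constructor
    · rintro ⟨h1, h2⟩ b
      by_cases hb : b = a
      · subst hb; simpa using ⟨(h1 b).1, h2⟩
      · simpa [hb] using h1 b
    · intro h
      refine ⟨fun b => ?_, ?_⟩
      · by_cases hb : b = a
        · subst hb
          have := h b
          simp only [if_true, Set.mem_Icc] at this
          exact ⟨this.1, this.2.trans h1⟩
        · simpa [hb] using h b
      · have := h a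
        simp only [if_true, Set.mem_Icc] at this
        exact this.2
  rw [Pr, h, volume_pi_pi]
  have h2 : ∀ b : Ω, volume (if b = a then Set.Icc (0 : ℝ) p else Set.Icc (0 : ℝ) 1)
      = if b = a then ENNReal.ofReal p else 1 := by
    intro b
    by_cases hb : b = a <;> simp [hb]
  simp_rw [h2]
  rw [Finset.prod_ite_eq' Finset.univ a]
  simp [ENNReal.toReal_ofReal h0]

/-- A box: independent conditions on the coordinates, each an interval `(l a, u a]`, inside `[0, 1]`. -/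
theorem Pr_box (l u : Ω → ℝ) (h0 : ∀ a, 0 ≤ l a) (h1 : ∀ a, l a ≤ u a) (h2 : ∀ a, u a ≤ 1) :
    Pr (fun ω => ∀ a, l a < ω a ∧ ω a ≤ u a) = ∏ a, (u a - l a) := by
  have h : {ω : Ω → ℝ | ω ∈ Cube Ω ∧ ∀ a, l a < ω a ∧ ω a ≤ u a}
      = Set.pi Set.univ (fun a => Set.Ioc (l a) (u a)) := by
    ext ω
    simp only [Set.mem_ofPred_eq, Cube, Set.mem_pi, Set.mem_univ, true_implies, Set.mem_Ioc]
    constructor
    · rintro ⟨_, h2⟩; exact h2
    · intro h3
      refine ⟨fun a => ⟨(h0 a).trans (h3 a).1.le, (h3 a).2.trans (h2 a)⟩, h3⟩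
  rw [Pr, h, volume_pi_pi, ENNReal.toReal_prod]
  refine Finset.prod_congr rfl fun a _ => ?_
  rw [Real.volume_Ioc, ENNReal.toReal_ofReal (sub_nonneg.2 (h1 a))]

/-- Independent blocks of wires. -/
theorem Pr_prod {E₁ : (Ω₁ → ℝ) → Prop} {E₂ : (Ω₂ → ℝ) → Prop} (h₁ : MeasurableSet {ω | E₁ ω})
    (h₂ : MeasurableSet {ω | E₂ ω}) :
    Pr (fun ω : (Ω₁ ⊕ Ω₂) → ℝ => E₁ (fun a => ω (Sum.inl a)) ∧ E₂ (fun a => ω (Sum.inr a)))
      = Pr E₁ * Pr E₂ := by
  have hp := volume_measurePreserving_sumPiEquivProdPi (fun _ : Ω₁ ⊕ Ω₂ => ℝ)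
  have hset : {ω : Ω₁ ⊕ Ω₂ → ℝ | ω ∈ Cube (Ω₁ ⊕ Ω₂) ∧
        (E₁ (fun a => ω (Sum.inl a)) ∧ E₂ (fun a => ω (Sum.inr a)))}
      = (MeasurableEquiv.sumPiEquivProdPi (fun _ : Ω₁ ⊕ Ω₂ => ℝ)) ⁻¹'
        ({ω | ω ∈ Cube Ω₁ ∧ E₁ ω} ×ˢ {ω | ω ∈ Cube Ω₂ ∧ E₂ ω}) := by
    ext ω
    simp only [Set.mem_ofPred_eq, Set.mem_preimage, Set.mem_prod, MeasurableEquiv.coe_sumPiEquivProdPi,
      Equiv.sumPiEquivProdPi_apply, Cube, Sum.forall]
    tauto
  rw [Pr, hset, hp.measure_preimage_equiv, Measure.volume_eq_prod, Measure.prod_prod,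
    ENNReal.toReal_mul]
  rfl

theorem measurable_inl_part : Measurable (fun ω : Ω₁ ⊕ Ω₂ → ℝ => fun a => ω (Sum.inl a)) :=
  measurable_pi_lambda _ fun a => measurable_pi_apply _

theorem measurable_inr_part : Measurable (fun ω : Ω₁ ⊕ Ω₂ → ℝ => fun a => ω (Sum.inr a)) :=
  measurable_pi_lambda _ fun a => measurable_pi_apply _

/-- A discrete random variable `X` on the first block chooses an event `Y a` on the second block. -/
theorem Pr_bind {α : Type} (X : (Ω₁ → ℝ) → α) (S : Finset α) (hS : ∀ ω ∈ Cube Ω₁, X ω ∈ S)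
    (hX : ∀ a ∈ S, MeasurableSet {ω | X ω = a}) (Y : α → (Ω₂ → ℝ) → Prop)
    (hY : ∀ a ∈ S, MeasurableSet {ω | Y a ω}) :
    Pr (fun ω : (Ω₁ ⊕ Ω₂) → ℝ => Y (X fun a => ω (Sum.inl a)) fun a => ω (Sum.inr a))
      = ∑ a ∈ S, Pr (fun ω => X ω = a) * Pr (Y a) := by
  have hmeas : ∀ a ∈ S, MeasurableSet {ω : Ω₁ ⊕ Ω₂ → ℝ |
      X (fun b => ω (Sum.inl b)) = a ∧ Y a (fun b => ω (Sum.inr b))} := by
    intro a ha
    exact (measurable_inl_part (hX a ha)).inter (measurable_inr_part (hY a ha))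
  have h := Pr_exists_finset S (fun a (ω : Ω₁ ⊕ Ω₂ → ℝ) =>
      X (fun b => ω (Sum.inl b)) = a ∧ Y a (fun b => ω (Sum.inr b))) hmeas
    (fun i _ j _ hij ω h1 h2 => hij (h1.1.symm.trans h2.1))
  have h2 : Pr (fun ω : (Ω₁ ⊕ Ω₂) → ℝ => Y (X fun a => ω (Sum.inl a)) fun a => ω (Sum.inr a))
      = Pr (fun ω : (Ω₁ ⊕ Ω₂) → ℝ => ∃ a ∈ S,
        X (fun b => ω (Sum.inl b)) = a ∧ Y a (fun b => ω (Sum.inr b))) := by
    refine Pr_congr fun ω hω => ?_
    have hω1 : (fun b => ω (Sum.inl b)) ∈ Cube Ω₁ := fun b => hω (Sum.inl b)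
    constructor
    · intro hy
      exact ⟨_, hS _ hω1, rfl, hy⟩
    · rintro ⟨a, _, rfl, hy⟩
      exact hy
  rw [h2, h]
  refine Finset.sum_congr rfl fun a ha => ?_
  exact Pr_prod (hX a ha) (hY a ha)

/-- Integrating out the second block: a uniform point `u` of a cube, then an event depending on it. -/
theorem Pr_fubini {E : (Ω₁ → ℝ) → (Ω₂ → ℝ) → Prop}
    (hE : MeasurableSet {p : (Ω₁ → ℝ) × (Ω₂ → ℝ) | E p.1 p.2}) :
    Pr (fun ω : (Ω₁ ⊕ Ω₂) → ℝ => E (fun a => ω (Sum.inl a)) fun a => ω (Sum.inr a))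
      = (∫⁻ u in Cube Ω₁, ENNReal.ofReal (Pr (E u))).toReal := by
  have hp := volume_measurePreserving_sumPiEquivProdPi (fun _ : Ω₁ ⊕ Ω₂ => ℝ)
  set F : Set ((Ω₁ → ℝ) × (Ω₂ → ℝ)) := {p | p.1 ∈ Cube Ω₁ ∧ p.2 ∈ Cube Ω₂ ∧ E p.1 p.2} with hF
  have hFm : MeasurableSet F :=
    (measurable_fst measurableSet_cube).inter ((measurable_snd measurableSet_cube).inter hE)
  have hset : {ω : Ω₁ ⊕ Ω₂ → ℝ | ω ∈ Cube (Ω₁ ⊕ Ω₂) ∧
        E (fun a => ω (Sum.inl a)) (fun a => ω (Sum.inr a))}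
      = (MeasurableEquiv.sumPiEquivProdPi (fun _ : Ω₁ ⊕ Ω₂ => ℝ)) ⁻¹' F := by
    ext ω
    simp only [Set.mem_ofPred_eq, Set.mem_preimage, MeasurableEquiv.coe_sumPiEquivProdPi,
      Equiv.sumPiEquivProdPi_apply, Cube, Sum.forall, hF]
    tauto
  rw [Pr, hset, hp.measure_preimage_equiv, Measure.volume_eq_prod, Measure.prod_apply hFm,
    ← lintegral_indicator measurableSet_cube]
  congr 1
  refine lintegral_congr fun u => ?_
  by_cases hu : u ∈ Cube Ω₁
  · rw [Set.indicator_of_mem hu, Pr, ENNReal.ofReal_toReal]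
    · congr 1
      ext v
      simp [hF, hu]
    · refine ne_top_of_le_ne_top (b := (1 : ENNReal)) ENNReal.one_ne_top ?_
      rw [← volume_cube (Ω := Ω₂)]
      exact measure_mono fun ω hω => hω.1
  · rw [Set.indicator_of_notMem hu]
    have : Prod.mk u ⁻¹' F = ∅ := by
      ext v
      simp [hF, hu]
    rw [this, measure_empty]

/-- Reindexing the wires. -/
theorem Pr_reindex (e : Ω₁ ≃ Ω₂) (E : (Ω₂ → ℝ) → Prop) :
    Pr (fun ω : Ω₁ → ℝ => E fun b => ω (e.symm b)) = Pr E := by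
  have hp := volume_measurePreserving_piCongrLeft (fun _ : Ω₂ => ℝ) e
  have hformula : ∀ (ω : Ω₁ → ℝ), (MeasurableEquiv.piCongrLeft (fun _ : Ω₂ => ℝ) e) ω
      = fun b => ω (e.symm b) := by
    intro ω
    funext b
    obtain ⟨a, rfl⟩ := e.surjective b
    have := Equiv.piCongrLeft_apply_apply (fun _ : Ω₂ => ℝ) e ω a
    simpa [MeasurableEquiv.coe_piCongrLeft] using this
  have hset : {ω : Ω₁ → ℝ | ω ∈ Cube Ω₁ ∧ E fun b => ω (e.symm b)}
      = (MeasurableEquiv.piCongrLeft (fun _ : Ω₂ => ℝ) e) ⁻¹' {ω | ω ∈ Cube Ω₂ ∧ E ω} := by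
    ext ω
    simp only [Set.mem_ofPred_eq, Set.mem_preimage, hformula, Cube]
    constructor
    · rintro ⟨h1, h2⟩
      exact ⟨fun b => h1 (e.symm b), h2⟩
    · rintro ⟨h1, h2⟩
      refine ⟨fun a => ?_, h2⟩
      have := h1 (e a)
      simpa using this
  rw [Pr, hset, hp.measure_preimage_equiv]
  rfl

/-! ### Steps of a randomized map -/

/-- `T` steps of the randomized map `step` from `x0`, with the fresh wires `ω (t, ·)` in step `t`. -/
def runSeq {α : Type} (step : α → (Ω → ℝ) → α) (x0 : α) : (T : ℕ) → (Fin T × Ω → ℝ) → α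
  | 0, _ => x0
  | T + 1, ω => step (runSeq step x0 T fun p => ω (p.1.castSucc, p.2)) fun a => ω (Fin.last T, a)

section Run

variable {α : Type} [MeasurableSpace α] [MeasurableSingletonClass α]

theorem measurable_runSeq {step : α → (Ω → ℝ) → α} (hstep : Measurable fun p : α × (Ω → ℝ) => step p.1 p.2)
    (x0 : α) (T : ℕ) : Measurable (runSeq step x0 T) := by
  induction T with
  | zero => exact measurable_const
  | succ T ih =>
    have h1 : Measurable (fun ω : Fin (T + 1) × Ω → ℝ =>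
        fun p : Fin T × Ω => ω (p.1.castSucc, p.2)) :=
      measurable_pi_lambda _ fun p => measurable_pi_apply _
    have h2 : Measurable (fun ω : Fin (T + 1) × Ω → ℝ => fun a : Ω => ω (Fin.last T, a)) :=
      measurable_pi_lambda _ fun a => measurable_pi_apply _
    exact hstep.comp ((ih.comp h1).prodMk h2)

/-- All values stay in the finite set `S`. -/
theorem runSeq_mem {step : α → (Ω → ℝ) → α} {S : Finset α} {x0 : α} (h0 : x0 ∈ S)
    (hS : ∀ x ∈ S, ∀ ω ∈ Cube Ω, step x ω ∈ S) (T : ℕ) :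
    ∀ ω ∈ Cube (Fin T × Ω), runSeq step x0 T ω ∈ S := by
  induction T with
  | zero => intro ω _; exact h0
  | succ T ih =>
    intro ω hω
    refine hS _ (ih _ fun p => hω _) _ fun a => hω _

/-- The wires of `T + 1` steps: the wires of `T` steps and those of the last step. -/
def stepEquiv (T : ℕ) (Ω : Type) : ((Fin T × Ω) ⊕ Ω) ≃ (Fin (T + 1) × Ω) where
  toFun := Sum.elim (fun p => (p.1.castSucc, p.2)) (fun a => (Fin.last T, a))
  invFun p := if h : p.1.val < T then Sum.inl (⟨p.1.val, h⟩, p.2) else Sum.inr p.2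
  left_inv := by
    rintro (⟨t, a⟩ | a)
    · simp
    · simp
  right_inv := by
    rintro ⟨t, a⟩
    by_cases h : t.val < T
    · simp [h]
    · have ht : t = Fin.last T := by
        apply Fin.ext
        have := t.2
        simp only [Fin.val_last]
        omega
      subst ht
      simp

/-- The law after `T + 1` steps. -/
theorem Pr_runSeq {step : α → (Ω → ℝ) → α} (hstep : Measurable fun p : α × (Ω → ℝ) => step p.1 p.2)
    {S : Finset α} {x0 : α} (h0 : x0 ∈ S) (hS : ∀ x ∈ S, ∀ ω ∈ Cube Ω, step x ω ∈ S) (T : ℕ) (y : α) :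
    Pr (fun ω => runSeq step x0 (T + 1) ω = y)
      = ∑ x ∈ S, Pr (fun ω => runSeq step x0 T ω = x) * Pr (fun ω => step x ω = y) := by
  classical
  have hm := measurable_runSeq hstep x0 T
  have hstep_x : ∀ x : α, Measurable (fun ω : Ω → ℝ => step x ω) := fun x =>
    hstep.comp (measurable_const.prodMk measurable_id)
  have h := Pr_reindex (stepEquiv T Ω) (fun ω => runSeq step x0 (T + 1) ω = y)
  rw [← h]
  have hb := Pr_bind (Ω₁ := Fin T × Ω) (Ω₂ := Ω) (runSeq step x0 T) S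
    (fun ω hω => runSeq_mem h0 hS T ω hω)
    (fun a _ => hm (measurableSet_singleton a))
    (fun x ω => step x ω = y)
    (fun a _ => (hstep_x a) (measurableSet_singleton y))
  rw [← hb]
  have h1 : ∀ p : Fin T × Ω, (stepEquiv T Ω).symm (p.1.castSucc, p.2) = Sum.inl p :=
    fun p => (stepEquiv T Ω).symm_apply_apply (Sum.inl p)
  have h2 : ∀ a : Ω, (stepEquiv T Ω).symm (Fin.last T, a) = Sum.inr a :=
    fun a => (stepEquiv T Ω).symm_apply_apply (Sum.inr a)
  refine Pr_congr fun ω _ => ?_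
  simp only [runSeq, h1, h2]

/-- The law after no step. -/
theorem Pr_runSeq_zero [DecidableEq α] (step : α → (Ω → ℝ) → α) (x0 y : α) :
    Pr (fun ω => runSeq step x0 0 ω = y) = if y = x0 then 1 else 0 := by
  by_cases h : y = x0
  · subst h
    simp only [if_true]
    rw [← Pr_true (Ω := Fin 0 × Ω)]
    exact Pr_congr fun ω _ => by simp [runSeq]
  · simp only [h, if_false]
    rw [← Pr_false (Ω := Fin 0 × Ω)]
    refine Pr_congr fun ω _ => ?_
    simp only [runSeq, iff_false]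
    exact fun h' => h h'.symm

/-- The law of `T` steps on a finite set is the power of the matrix of one step. -/
theorem Pr_runSeq_pow {Z : Type} [Fintype Z] [DecidableEq Z] (enc : Z → α) (henc : Function.Injective enc)
    {step : α → (Ω → ℝ) → α} (hstep : Measurable fun p : α × (Ω → ℝ) => step p.1 p.2)
    (hS : ∀ z, ∀ ω ∈ Cube Ω, ∃ z', step (enc z) ω = enc z') {K : Matrix Z Z ℝ}
    (hK : ∀ z z', K z z' = Pr fun ω => step (enc z) ω = enc z') (T : ℕ) (z0 z : Z) :
    Pr (fun ω => runSeq step (enc z0) T ω = enc z) = (K ^ T) z0 z := by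
  classical
  induction T generalizing z with
  | zero =>
    rw [Pr_runSeq_zero, pow_zero, Matrix.one_apply]
    by_cases hz : z = z0
    · subst hz; simp
    · have h1 : enc z ≠ enc z0 := fun h => hz (henc h)
      have h2 : z0 ≠ z := fun h => hz h.symm
      simp [h1, h2]
  | succ T ih =>
    have hSimg : ∀ x ∈ Finset.univ.image enc, ∀ ω ∈ Cube Ω, step x ω ∈ Finset.univ.image enc := by
      intro x hx ω hω
      obtain ⟨w, -, rfl⟩ := Finset.mem_image.1 hx
      obtain ⟨z', hz'⟩ := hS w ω hω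
      rw [hz']
      exact Finset.mem_image_of_mem _ (Finset.mem_univ _)
    rw [Pr_runSeq hstep (Finset.mem_image_of_mem enc (Finset.mem_univ z0)) hSimg T,
      Finset.sum_image (fun a _ b _ h => henc h), pow_succ, Matrix.mul_apply]
    refine Finset.sum_congr rfl fun w _ => ?_
    rw [ih w, hK w z]

end Run

/-! ### Independent runs -/

/-- Currying the wires preserves the volume. -/
theorem measurePreserving_curry (I Ω : Type) [Fintype I] [Fintype Ω] :
    MeasurePreserving (MeasurableEquiv.curry I Ω ℝ) volume volume := by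
  have h : MeasurePreserving (MeasurableEquiv.curry I Ω ℝ).symm volume volume := by
    refine ⟨(MeasurableEquiv.curry I Ω ℝ).symm.measurable, ?_⟩
    refine (Measure.pi_eq fun s hs => ?_).symm
    rw [MeasurableEquiv.map_apply]
    have hset : (MeasurableEquiv.curry I Ω ℝ).symm ⁻¹' (Set.pi Set.univ s)
        = Set.pi Set.univ (fun i => Set.pi Set.univ (fun j => s (i, j))) := by
      ext ω
      simp only [MeasurableEquiv.coe_curry_symm, Set.mem_preimage, Set.mem_pi, Set.mem_univ,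
        true_implies, Prod.forall, Function.uncurry_apply_pair]
    rw [hset, volume_pi_pi]
    simp_rw [volume_pi_pi]
    rw [Fintype.prod_prod_type]
  exact h.symm

/-- Independent blocks of wires indexed by `I`: the product formula. -/
theorem Pr_pi {I : Type} [Fintype I] (F : I → (Ω → ℝ) → Prop) :
    Pr (fun ω : I × Ω → ℝ => ∀ i, F i fun a => ω (i, a)) = ∏ i, Pr (F i) := by
  have hset : {ω : I × Ω → ℝ | ω ∈ Cube (I × Ω) ∧ ∀ i, F i fun a => ω (i, a)}
      = (MeasurableEquiv.curry I Ω ℝ) ⁻¹'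
        (Set.pi Set.univ (fun i => {v | v ∈ Cube Ω ∧ F i v})) := by
    ext ω
    simp only [Set.mem_ofPred_eq, MeasurableEquiv.coe_curry, Set.mem_preimage, Set.mem_pi,
      Set.mem_univ, true_implies, Cube, Prod.forall, Function.curry_apply]
    constructor
    · rintro ⟨h1, h2⟩ i
      exact ⟨fun a => h1 i a, h2 i⟩
    · intro h
      exact ⟨fun i a => (h i).1 a, fun i => (h i).2⟩
  rw [Pr, hset, (measurePreserving_curry I Ω).measure_preimage_equiv, volume_pi_pi,
    ENNReal.toReal_prod]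
  rfl

/-- The law of independent discrete random variables, one for each block of wires, evaluated on any
event `E`. -/
theorem Pr_blocks {I : Type} [Fintype I] [DecidableEq I] {α : Type} [DecidableEq α] (X : I → (Ω → ℝ) → α)
    (S : I → Finset α) (hS : ∀ i, ∀ ω ∈ Cube Ω, X i ω ∈ S i)
    (hX : ∀ i, ∀ y ∈ S i, MeasurableSet {ω | X i ω = y}) (E : (I → α) → Prop) [DecidablePred E] :
    Pr (fun ω : I × Ω → ℝ => E fun i => X i fun a => ω (i, a))
      = ∑ y ∈ Fintype.piFinset S, (∏ i, Pr (fun ω => X i ω = y i)) * if E y then 1 else 0 := by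
  classical
  have hm : ∀ y ∈ (Fintype.piFinset S).filter E, MeasurableSet {ω : I × Ω → ℝ |
      ∀ i, X i (fun a => ω (i, a)) = y i} := by
    intro y hy
    have hyS := Fintype.mem_piFinset.1 (Finset.mem_filter.1 hy).1
    have h : {ω : I × Ω → ℝ | ∀ i, X i (fun a => ω (i, a)) = y i}
        = ⋂ i, (fun ω : I × Ω → ℝ => fun a => ω (i, a)) ⁻¹' {ω | X i ω = y i} := by
      ext ω; simp
    rw [h]
    refine MeasurableSet.iInter fun i => ?_
    have hmeas : Measurable (fun ω : I × Ω → ℝ => fun a => ω (i, a)) :=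
      measurable_pi_lambda _ fun a => measurable_pi_apply _
    exact hmeas (hX i (y i) (hyS i))
  have h := Pr_exists_finset ((Fintype.piFinset S).filter E)
    (fun y (ω : I × Ω → ℝ) => ∀ i, X i (fun a => ω (i, a)) = y i) hm
    (fun y _ y' _ hyy ω h1 h2 => hyy (funext fun i => (h1 i).symm.trans (h2 i)))
  have h2 : Pr (fun ω : I × Ω → ℝ => E fun i => X i fun a => ω (i, a))
      = Pr (fun ω : I × Ω → ℝ => ∃ y ∈ (Fintype.piFinset S).filter E,
          ∀ i, X i (fun a => ω (i, a)) = y i) := by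
    refine Pr_congr fun ω hω => ?_
    constructor
    · intro hE
      refine ⟨fun i => X i fun a => ω (i, a), Finset.mem_filter.2 ⟨?_, hE⟩, fun i => rfl⟩
      exact Fintype.mem_piFinset.2 fun i => hS i _ fun a => hω (i, a)
    · rintro ⟨y, hy, hyy⟩
      have : (fun i => X i fun a => ω (i, a)) = y := funext hyy
      rw [this]
      exact (Finset.mem_filter.1 hy).2
  rw [h2, h, Finset.sum_filter]
  refine Finset.sum_congr rfl fun y _ => ?_
  by_cases hE : E y
  · simp only [hE, if_true, mul_one]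
    exact Pr_pi (fun i ω => X i ω = y i)
  · simp [hE]

end Vale.Agent.Lib.P328.RAM
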