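import Vale.Agent.Lib.P328.RAM.Cost

/-!
# P328: circuits of size a power of a size parameter

`PC X e f`: for `X ≥ 2`, the map `f` has a circuit with at most `X ^ e` gates. `P1 X e f` is the same
for a real function. The closure rules below let the exponent be found by unification: one proves
`∃ e, ∀ parameters, P1 X e f` by `refine ⟨_, fun ... => ?_⟩` followed by a term built from the rules,
which mirrors the formula of `f`. Inputs are given by wire maps `R : Fin m → ι`.
-/

namespace Vale.Agent.Lib.P328.RAM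

open Finset

/-- For `X ≥ 2`: the map has a circuit with at most `X ^ e` gates. -/
def PC {ι κ : Type} (X e : ℕ) (f : (ι → ℝ) → κ → ℝ) : Prop := 2 ≤ X → Cost f (X ^ e)

/-- For `X ≥ 2`: the function has a circuit with at most `X ^ e` gates. -/
def P1 {ι : Type} (X e : ℕ) (f : (ι → ℝ) → ℝ) : Prop := 2 ≤ X → C1 f (X ^ e)

section Arith

variable {X : ℕ}

theorem pow_pos' (hX : 2 ≤ X) (e : ℕ) : 0 < X ^ e := pow_pos (by omega) e

theorem pow_mono' (hX : 2 ≤ X) {a b : ℕ} (h : a ≤ b) : X ^ a ≤ X ^ b :=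
  Nat.pow_le_pow_right (by omega) h

/-- The basic estimate for two costs. -/
theorem add_le_pow (hX : 2 ≤ X) (a b : ℕ) : X ^ a + X ^ b + 1 ≤ X ^ (a + b + 2) := by
  have h1 := pow_mono' hX (Nat.le_add_right a b)
  have h2 := pow_mono' hX (Nat.le_add_left b a)
  have h3 := pow_pos' hX (a + b)
  have h4 : X ^ (a + b + 2) = X ^ (a + b) * (X * X) := by ring
  have h5 : 2 * 2 ≤ X * X := Nat.mul_le_mul hX hX
  have h6 : X ^ (a + b) * (2 * 2) ≤ X ^ (a + b) * (X * X) := Nat.mul_le_mul_left _ h5
  omega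

theorem one_add_le_pow (hX : 2 ≤ X) (a : ℕ) : X ^ a + 1 ≤ X ^ (a + 1) := by
  have h3 := pow_pos' hX a
  have h4 : X ^ (a + 1) = X ^ a * X := by ring
  have h6 : X ^ a * 2 ≤ X ^ a * X := Nat.mul_le_mul_left _ hX
  omega

theorem four_le_pow (hX : 2 ≤ X) (a b c d : ℕ) :
    X ^ a + X ^ b + (X ^ c + X ^ d) + 1 ≤ X ^ (a + b + c + d + 3) := by
  have h1 : X ^ a ≤ X ^ (a + b + c + d) := pow_mono' hX (by omega)
  have h2 : X ^ b ≤ X ^ (a + b + c + d) := pow_mono' hX (by omega)
  have h3 : X ^ c ≤ X ^ (a + b + c + d) := pow_mono' hX (by omega)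
  have h4 : X ^ d ≤ X ^ (a + b + c + d) := pow_mono' hX (by omega)
  have h5 := pow_pos' hX (a + b + c + d)
  have e : X ^ (a + b + c + d + 3) = X ^ (a + b + c + d) * (X * X * X) := by ring
  have h6 : 2 * 2 * 2 ≤ X * X * X := Nat.mul_le_mul (Nat.mul_le_mul hX hX) hX
  have h7 : X ^ (a + b + c + d) * (2 * 2 * 2) ≤ X ^ (a + b + c + d) * (X * X * X) :=
    Nat.mul_le_mul_left _ h6
  omega

/-- The cost of a loop. -/
theorem loop_le_pow (hX : 2 ≤ X) {T d : ℕ} (hT : T ≤ X ^ d) (a b : ℕ) :
    X ^ a + T * X ^ b ≤ X ^ (a + b + d + 1) := by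
  have h1 : T * X ^ b ≤ X ^ d * X ^ b := Nat.mul_le_mul_right _ hT
  have e : X ^ d * X ^ b = X ^ (d + b) := by ring
  have h2 := add_le_pow hX a (d + b)
  have h3 : X ^ (a + (d + b) + 2) = X ^ (a + b + d + 1) * X := by ring
  rw [e] at h1
  have h4 : X ^ a ≤ X ^ (a + b + d) := pow_mono' hX (by omega)
  have h5 : X ^ (d + b) ≤ X ^ (a + b + d) := pow_mono' hX (by omega)
  have h6 : X ^ (a + b + d + 1) = X ^ (a + b + d) * X := by ring
  have h7 : X ^ (a + b + d) * 2 ≤ X ^ (a + b + d) * X := Nat.mul_le_mul_left _ hX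
  omega

end Arith

namespace PC

variable {ι κ μ : Type} {X a b : ℕ}

theorem congr {f g : (ι → ℝ) → κ → ℝ} (h : PC X a f) (e : ∀ x k, g x k = f x k) : PC X a g :=
  fun hX => (h hX).congr e

theorem mono {f : (ι → ℝ) → κ → ℝ} (h : PC X a f) (hab : a ≤ b) : PC X b f :=
  fun hX => (h hX).mono (pow_mono' hX hab)

theorem wire (σ : κ → ι) : PC (ι := ι) (κ := κ) X 0 (fun x k => x (σ k)) :=
  fun _ => (Cost.wire σ).mono (Nat.zero_le _)

/-- Keep the inputs, add the outputs of `f`, then apply `g`. -/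
theorem bind {f : (ι → ℝ) → κ → ℝ} {g : ((ι ⊕ κ) → ℝ) → μ → ℝ} (hf : PC X a f) (hg : PC X b g) :
    PC X (a + b + 2) (fun x => g (Sum.elim x (f x))) := fun hX =>
  ((hf hX).bind (hg hX)).mono ((Nat.le_add_right _ 1).trans (add_le_pow hX a b))

/-- Composition. -/
theorem comp {f : (ι → ℝ) → κ → ℝ} {g : (κ → ℝ) → μ → ℝ} (hf : PC X a f) (hg : PC X b g) :
    PC X (a + b + 2) (fun x => g (f x)) := fun hX =>
  (Cost.comp (hf hX) (hg hX)).mono ((Nat.le_add_right _ 1).trans (add_le_pow hX a b))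

/-- Rename the inputs. -/
theorem rewire {f : (κ → ℝ) → μ → ℝ} (hf : PC X a f) (σ : κ → ι) :
    PC X a (fun x : ι → ℝ => f fun k => x (σ k)) := fun hX => (hf hX).rewire σ

/-- Rename the outputs. -/
theorem reout {f : (ι → ℝ) → κ → ℝ} (hf : PC X a f) (σ : μ → κ) :
    PC X a (fun x k => f x (σ k)) := fun hX => (hf hX).reout σ

/-- Repeat a step `T` times, `T ≤ X ^ d`. -/
theorem iterate {step : ((ι ⊕ κ) → ℝ) → κ → ℝ} {init : (ι → ℝ) → κ → ℝ} {T d : ℕ}
    (hstep : PC X a step) (hinit : PC X b init) (hT : T ≤ X ^ d) :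
    PC X (b + a + d + 1) (fun x => (fun st => step (Sum.elim x st))^[T] (init x)) := fun hX =>
  ((hstep hX).iterate (hinit hX) T).mono (loop_le_pow hX hT b a)

/-- Two circuits side by side. -/
theorem pair {κ' : Type} {f : (ι → ℝ) → κ → ℝ} {g : (ι → ℝ) → κ' → ℝ} (hf : PC X a f) (hg : PC X b g) :
    PC X (a + b + 2) (fun x => Sum.elim (f x) (g x)) := fun hX =>
  ((hf hX).pair (hg hX)).mono ((Nat.le_add_right _ 1).trans (add_le_pow hX a b))

end PC

namespace P1

variable {ι κ α : Type} {X a b c d : ℕ} {f g u v : (ι → ℝ) → ℝ}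

theorem congr (h : P1 X a f) (e : ∀ x, g x = f x) : P1 X a g := fun hX => (h hX).congr e

theorem mono (h : P1 X a f) (hab : a ≤ b) : P1 X b f :=
  fun hX => (h hX).mono (pow_mono' hX hab)

theorem var (i : ι) : P1 X 0 (fun x => x i) := fun _ => (C1.var i).mono (Nat.zero_le _)

theorem one : P1 X 0 (fun _ : ι → ℝ => 1) := fun _ => C1.one.mono (by simp)

theorem add (hf : P1 X a f) (hg : P1 X b g) : P1 X (a + b + 2) (fun x => f x + g x) := fun hX =>
  ((hf hX).add (hg hX)).mono (add_le_pow hX a b)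

theorem mul (hf : P1 X a f) (hg : P1 X b g) : P1 X (a + b + 2) (fun x => f x * g x) := fun hX =>
  ((hf hX).mul (hg hX)).mono (add_le_pow hX a b)

theorem neg (hf : P1 X a f) : P1 X (a + 1) (fun x => -f x) := fun hX =>
  ((hf hX).neg).mono (one_add_le_pow hX a)

theorem inv (hf : P1 X a f) : P1 X (a + 1) (fun x => (f x)⁻¹) := fun hX =>
  ((hf hX).inv).mono (one_add_le_pow hX a)

theorem sqrt (hf : P1 X a f) : P1 X (a + 1) (fun x => Real.sqrt (f x)) := fun hX =>
  ((hf hX).sqrt).mono (one_add_le_pow hX a)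

theorem exp (hf : P1 X a f) : P1 X (a + 1) (fun x => Real.exp (f x)) := fun hX =>
  ((hf hX).exp).mono (one_add_le_pow hX a)

theorem log (hf : P1 X a f) : P1 X (a + 1) (fun x => Real.log (f x)) := fun hX =>
  ((hf hX).log).mono (one_add_le_pow hX a)

theorem sub (hf : P1 X a f) (hg : P1 X b g) : P1 X (a + (b + 1) + 2) (fun x => f x - g x) :=
  (hf.add hg.neg).congr fun _ => sub_eq_add_neg _ _

theorem div (hf : P1 X a f) (hg : P1 X b g) : P1 X (a + (b + 1) + 2) (fun x => f x / g x) :=
  (hf.mul hg.inv).congr fun _ => div_eq_mul_inv _ _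

/-- The comparison `if f x ≤ g x then u x else v x`, any decidability instance. -/
theorem ite {p q : ℕ} [∀ x, Decidable (f x ≤ g x)] (hf : P1 X a f) (hg : P1 X b g) (hu : P1 X p u)
    (hv : P1 X q v) : P1 X (a + b + p + q + 3) (fun x => if f x ≤ g x then u x else v x) := fun hX =>
  (C1.ite (hf hX) (hg hX) (hu hX) (hv hX)).mono (four_le_pow hX a b p q)

/-- The strict comparison. -/
theorem iteLt {p q : ℕ} [∀ x, Decidable (f x < g x)] (hf : P1 X a f) (hg : P1 X b g) (hu : P1 X p u)
    (hv : P1 X q v) : P1 X (b + a + q + p + 3) (fun x => if f x < g x then u x else v x) := fun hX =>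
  (C1.iteLt (hf hX) (hg hX) (hu hX) (hv hX)).mono (four_le_pow hX b a q p)

/-- `min`. -/
theorem min (hf : P1 X a f) (hg : P1 X b g) : P1 X (a + b + 2) (fun x => Min.min (f x) (g x)) :=
  fun hX => ((hf hX).min (hg hX)).mono (add_le_pow hX a b)

/-- `max`. -/
theorem max (hf : P1 X a f) (hg : P1 X b g) : P1 X (a + b + 2) (fun x => Max.max (f x) (g x)) :=
  fun hX => ((hf hX).max (hg hX)).mono (add_le_pow hX a b)

/-- The equality test. -/
theorem iteEq {p q : ℕ} [∀ x, Decidable (f x = g x)] (hf : P1 X a f) (hg : P1 X b g)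
    (hu : P1 X p u) (hv : P1 X q v) :
    P1 X (a + b + (b + a + p + q + 3) + q + 3) (fun x => if f x = g x then u x else v x) :=
  (ite hf hg (ite hg hf hu hv) hv).congr fun x => by
    by_cases h : f x = g x
    · simp [h]
    · rcases lt_or_gt_of_ne h with h' | h'
      · simp [h, h'.le, not_le.2 h']
      · simp [h, not_le.2 h']

/-- The constant zero. -/
theorem zero : P1 X 3 (fun _ : ι → ℝ => 0) :=
  ((one (X := X) (ι := ι)).add one.neg).congr fun _ => by simp

/-- A sum over a finset with at most `X ^ d` elements. -/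
theorem sum {F : α → (ι → ℝ) → ℝ} (s : Finset α) (hs : s.card ≤ X ^ d) (h : ∀ k ∈ s, P1 X a (F k)) :
    P1 X (a + d + 6) (fun x => ∑ k ∈ s, F k x) := fun hX => by
  classical
  have key : ∀ s : Finset α, (∀ k ∈ s, P1 X a (F k)) →
      C1 (fun x => ∑ k ∈ s, F k x) (X ^ 3 + s.card * (X ^ a + 1)) := by
    intro s
    induction s using Finset.induction_on with
    | empty =>
      intro _
      exact ((zero (X := X) (ι := ι)) hX).mono (by simp)
    | insert k s hk ih =>
      intro hs'
      have h1 := ih fun k' hk' => hs' k' (Finset.mem_insert_of_mem hk')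
      have h2 := hs' k (Finset.mem_insert_self k s) hX
      refine ((h2.add h1).mono ?_).congr fun x => Finset.sum_insert hk
      rw [Finset.card_insert_of_notMem hk]
      have e : X ^ 3 + (s.card + 1) * (X ^ a + 1) = X ^ 3 + s.card * (X ^ a + 1) + (X ^ a + 1) := by
        ring
      rw [e]
      omega
  refine ((key s h).mono ?_)
  have h1 : s.card * (X ^ a + 1) ≤ X ^ d * X ^ (a + 1) :=
    Nat.mul_le_mul hs (one_add_le_pow hX a)
  have e : X ^ d * X ^ (a + 1) = X ^ (d + a + 1) := by ring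
  rw [e] at h1
  have h2 := add_le_pow hX 3 (d + a + 1)
  have e2 : 3 + (d + a + 1) + 2 = a + d + 6 := by ring
  rw [e2] at h2
  omega

/-- A product over a finset with at most `X ^ d` elements. -/
theorem prod {F : α → (ι → ℝ) → ℝ} (s : Finset α) (hs : s.card ≤ X ^ d) (h : ∀ k ∈ s, P1 X a (F k)) :
    P1 X (a + d + 3) (fun x => ∏ k ∈ s, F k x) := fun hX => by
  classical
  have key : ∀ s : Finset α, (∀ k ∈ s, P1 X a (F k)) →
      C1 (fun x => ∏ k ∈ s, F k x) (1 + s.card * (X ^ a + 1)) := by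
    intro s
    induction s using Finset.induction_on with
    | empty =>
      intro _
      refine (C1.one.mono (by simp)).congr fun x => ?_
      simp
    | insert k s hk ih =>
      intro hs'
      have h1 := ih fun k' hk' => hs' k' (Finset.mem_insert_of_mem hk')
      have h2 := hs' k (Finset.mem_insert_self k s) hX
      refine ((h2.mul h1).mono ?_).congr fun x => Finset.prod_insert hk
      rw [Finset.card_insert_of_notMem hk]
      have e : 1 + (s.card + 1) * (X ^ a + 1) = 1 + s.card * (X ^ a + 1) + (X ^ a + 1) := by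
        ring
      rw [e]
      omega
  refine ((key s h).mono ?_)
  have h1 : s.card * (X ^ a + 1) ≤ X ^ d * X ^ (a + 1) :=
    Nat.mul_le_mul hs (one_add_le_pow hX a)
  have e : X ^ d * X ^ (a + 1) = X ^ (d + a + 1) := by ring
  rw [e] at h1
  have h2 := one_add_le_pow hX (d + a + 1)
  have h3 : X ^ (d + a + 1 + 1) ≤ X ^ (a + d + 3) := pow_mono' hX (by omega)
  omega

/-- A sum over `Fin m`, `m ≤ X`. -/
theorem sumFin {m : ℕ} {F : Fin m → (ι → ℝ) → ℝ} (hm : m ≤ X) (h : ∀ k, P1 X a (F k)) :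
    P1 X (a + 1 + 6) (fun x => ∑ k, F k x) :=
  sum (d := 1) univ (by simpa using hm) fun k _ => h k

/-- A product over `Fin m`, `m ≤ X`. -/
theorem prodFin {m : ℕ} {F : Fin m → (ι → ℝ) → ℝ} (hm : m ≤ X) (h : ∀ k, P1 X a (F k)) :
    P1 X (a + 1 + 3) (fun x => ∏ k, F k x) :=
  prod (d := 1) univ (by simpa using hm) fun k _ => h k

/-- A natural number as a constant, by its binary digits. -/
theorem C1_nat (N : ℕ) : C1 (fun _ : ι → ℝ => (N : ℝ)) (8 * Nat.log 2 N + 8) := by
  induction N using Nat.strong_induction_on with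
  | _ N ih =>
    by_cases hN : N < 2
    · interval_cases N
      · have h0 : C1 (fun _ : ι → ℝ => (1 : ℝ) + -1) (1 + (1 + 1) + 1) := C1.one.add C1.one.neg
        exact (h0.mono (by norm_num)).congr fun x => by simp
      · exact (C1.one.mono (by norm_num)).congr fun x => by simp
    · have hq : N / 2 < N := Nat.div_lt_self (by omega) (by norm_num)
      have h1 := ih (N / 2) hq
      have hlog : Nat.log 2 N = Nat.log 2 (N / 2) + 1 := by
        rw [Nat.log_of_one_lt_of_le (by norm_num) (by omega)]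
      have hN2 : (N : ℝ) = ((N / 2 : ℕ) : ℝ) + ((N / 2 : ℕ) : ℝ) + ((N % 2 : ℕ) : ℝ) := by
        have h := Nat.div_add_mod N 2
        have h' : ((2 * (N / 2) + N % 2 : ℕ) : ℝ) = (N : ℝ) := by exact_mod_cast h
        rw [← h']
        push_cast
        ring
      rcases Nat.mod_two_eq_zero_or_one N with h2 | h2
      · rw [h2] at hN2
        have h3 := h1.dbl
        rw [hlog]
        refine (h3.mono ?_).congr fun x => ?_
        · omega
        · rw [hN2]
          simp
      · rw [h2] at hN2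
        have h3 := (h1.dbl).add (C1.one (ι := ι))
        rw [hlog]
        refine (h3.mono ?_).congr fun x => ?_
        · omega
        · rw [hN2]
          simp

/-- A natural number at most `X ^ d` as a constant. -/
theorem nat {N : ℕ} (hN : N ≤ X ^ d) : P1 X (d + 5) (fun _ : ι → ℝ => (N : ℝ)) := fun hX => by
  refine (C1_nat N).mono ?_
  have h1 : N ≤ 2 ^ (X * d) := by
    refine hN.trans ?_
    rw [pow_mul]
    exact Nat.pow_le_pow_left (Nat.lt_two_pow_self).le d
  have h2 : Nat.log 2 N ≤ X * d := by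
    have := Nat.log_mono_right (b := 2) h1
    rwa [Nat.log_pow (by norm_num)] at this
  have h3 : d ≤ X ^ d := (Nat.lt_pow_self (by omega)).le
  have h4 : X * d ≤ X ^ (d + 1) := by
    calc X * d ≤ X * X ^ d := Nat.mul_le_mul_left _ h3
      _ = X ^ (d + 1) := by ring
  have h5 : 2 * 2 * 2 ≤ X * X * X := Nat.mul_le_mul (Nat.mul_le_mul hX hX) hX
  have e1 : X ^ (d + 4) = X ^ (d + 1) * (X * X * X) := by ring
  have h6 : X ^ (d + 1) * (2 * 2 * 2) ≤ X ^ (d + 1) * (X * X * X) := Nat.mul_le_mul_left _ h5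
  have h7 := pow_pos' hX (d + 1)
  have e2 : X ^ (d + 5) = X ^ (d + 4) * X := by ring
  have h8 : X ^ (d + 4) * 2 ≤ X ^ (d + 4) * X := Nat.mul_le_mul_left _ hX
  have h9 : 0 < X ^ (d + 4) := pow_pos' hX _
  omega

/-- A natural number at most `X` as a constant. -/
theorem natLe {N : ℕ} (hN : N ≤ X) : P1 X 6 (fun _ : ι → ℝ => (N : ℝ)) :=
  nat (d := 1) (by simpa using hN)

/-- A power with a constant exponent `k ≤ X ^ d`. -/
theorem pow {k : ℕ} (hf : P1 X a f) (hk : k ≤ X ^ d) :
    P1 X (a + d + 3) (fun x => f x ^ k) :=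
  (prod (F := fun _ => f) (range k) (by simpa using hk) fun _ _ => hf).congr fun x => by simp

/-- `if ∀ k ∈ s, F k x ≤ G k x then u x else v x`, any decidability instance. -/
theorem iteAll {F G : α → (ι → ℝ) → ℝ} {p q : ℕ} (s : Finset α) (hs : s.card ≤ X ^ d)
    (hF : ∀ k ∈ s, P1 X a (F k)) (hG : ∀ k ∈ s, P1 X b (G k)) (hu : P1 X p u) (hv : P1 X q v)
    [∀ x, Decidable (∀ k ∈ s, F k x ≤ G k x)] :
    P1 X (0 + (a + b + 0 + 3 + 3 + d + 3) + p + q + 3)
      (fun x => if ∀ k ∈ s, F k x ≤ G k x then u x else v x) := by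
  classical
  have h1 : P1 X (a + b + 0 + 3 + 3 + d + 3)
      (fun x => ∏ k ∈ s, if F k x ≤ G k x then (1 : ℝ) else 0) :=
    prod s hs fun k hk => ite (hF k hk) (hG k hk) one zero
  refine (ite one h1 hu hv).congr fun x => ?_
  by_cases hc : ∀ k ∈ s, F k x ≤ G k x
  · have h2 : ∏ k ∈ s, (if F k x ≤ G k x then (1 : ℝ) else 0) = 1 :=
      Finset.prod_eq_one fun k hk => by simp [hc k hk]
    rw [if_pos hc, h2, if_pos le_rfl]
  · have hc' := hc
    simp only [not_forall, not_le] at hc'
    obtain ⟨k, hk, hlt⟩ := hc'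
    have h2 : ∏ k ∈ s, (if F k x ≤ G k x then (1 : ℝ) else 0) = 0 :=
      Finset.prod_eq_zero hk (by simp [not_le.2 hlt])
    rw [if_neg hc, h2, if_neg (by norm_num)]

/-- The smallest of `F 0, ..., F (N - 1)`, with `N ≤ X ^ d`. -/
theorem infRange {F : ℕ → (ι → ℝ) → ℝ} {N : ℕ} (hN0 : 0 < N) (hN : N ≤ X ^ d)
    (h : ∀ k, k < N → P1 X a (F k)) :
    P1 X (a + d + 1)
      (fun x => (range N).inf' (nonempty_range_iff.2 (by omega)) fun k => F k x) := fun hX => by
  have key : ∀ n, (hn : 0 < n) → n ≤ N → C1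
      (fun x => (range n).inf' (nonempty_range_iff.2 (by omega)) fun k => F k x)
      (n * (X ^ a + 1)) := by
    intro n
    induction n with
    | zero => intro h0; omega
    | succ n ih =>
      intro _ hnN
      rcases Nat.eq_zero_or_pos n with h0 | h0
      · subst h0
        refine (((h 0 (by omega)) hX).mono (by omega)).congr fun x => by simp
      · have h1 := ih h0 (by omega)
        have h2 := (h n (by omega)) hX
        have h3 := h1.min h2
        refine (h3.mono ?_).congr fun x => ?_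
        · have e : (n + 1) * (X ^ a + 1) = n * (X ^ a + 1) + X ^ a + 1 := by ring
          omega
        · have hne : (range n).Nonempty := nonempty_range_iff.2 (by omega)
          simp only [Finset.range_add_one]
          rw [Finset.inf'_insert]
          rw [min_comm]
  have h1 := key N hN0 le_rfl
  refine h1.mono ?_
  calc N * (X ^ a + 1) ≤ X ^ d * X ^ (a + 1) := Nat.mul_le_mul hN (one_add_le_pow hX a)
    _ = X ^ (a + d + 1) := by ring

/-- Selecting the value `F k x` for the `k` with `key x = k`. Outside the range of keys the value is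
zero. -/
theorem select {K : ℕ} {key : (ι → ℝ) → ℝ} {F : Fin K → (ι → ℝ) → ℝ} (hK : K ≤ X) (hkey : P1 X b key)
    (h : ∀ k, P1 X a (F k)) [∀ x (k : Fin K), Decidable (key x = ((k : ℕ) : ℝ))] :
    P1 X (2 * b + a + 40) (fun x => ∑ k : Fin K, if key x = ((k : ℕ) : ℝ) then F k x else 0) :=
  (sumFin hK fun k => iteEq hkey (nat (d := 1) (N := (k : ℕ)) (by simpa using k.2.le.trans hK))
    (h k) zero).mono (by omega)

/-- The value of the selection. -/
theorem select_eq {K : ℕ} {key : ℝ} {F : Fin K → ℝ} [∀ k : Fin K, Decidable (key = ((k : ℕ) : ℝ))]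
    (k0 : Fin K) (hk : key = ((k0 : ℕ) : ℝ)) :
    (∑ k : Fin K, if key = ((k : ℕ) : ℝ) then F k else 0) = F k0 := by
  rw [Finset.sum_eq_single k0]
  · rw [if_pos hk]
  · intro k _ hne
    rw [if_neg]
    rw [hk]
    intro h
    exact hne (Fin.ext (by exact_mod_cast h.symm))
  · simp

end P1

namespace PC

variable {ι κ : Type} {X a d : ℕ}

/-- A family of circuits, one for each output. -/
theorem _root_.Vale.Agent.Lib.P328.RAM.Cost.pi [Fintype κ] {f : (ι → ℝ) → κ → ℝ} {s : ℕ}
    (h : ∀ k, C1 (fun x => f x k) s) : Cost f (Fintype.card κ * s) := by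
  have key : ∀ n : ℕ, ∀ g : (ι → ℝ) → Fin n → ℝ, (∀ k, C1 (fun x => g x k) s) → Cost g (n * s) := by
    intro n
    induction n with
    | zero =>
      intro g _
      have h0 := Cost.wire (ι := ι) (κ := Fin 0) (fun k => k.elim0)
      exact (h0.mono (by simp)).congr fun x k => k.elim0
    | succ n ih =>
      intro g hg
      have h1 := ih (fun x k => g x k.castSucc) fun k => hg k.castSucc
      have h2 := Cost.pair h1 (hg (Fin.last n))
      have h3 := h2.reout (μ := Fin (n + 1))
        (fun k => Fin.lastCases (Sum.inr ()) (fun l => Sum.inl l) k)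
      refine (h3.mono (by ring_nf; omega)).congr fun x k => ?_
      induction k using Fin.lastCases with
      | last => simp
      | cast l => simp
  have e := Fintype.equivFin κ
  have h1 := key _ (fun x k => f x (e.symm k)) fun k => h (e.symm k)
  have h2 := h1.reout (μ := κ) e
  exact h2.congr fun x k => by simp

/-- A family of functions with at most `X ^ d` outputs. -/
theorem pi [Fintype κ] {f : (ι → ℝ) → κ → ℝ} (hκ : Fintype.card κ ≤ X ^ d)
    (h : ∀ k, P1 X a (fun x => f x k)) : PC X (d + a) f := fun hX =>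
  (Cost.pi fun k => h k hX).mono (by
    calc Fintype.card κ * X ^ a ≤ X ^ d * X ^ a := Nat.mul_le_mul_right _ hκ
      _ = X ^ (d + a) := by ring)

end PC

namespace P1

variable {ι κ : Type} {X a b : ℕ}

/-- A real function of the outputs of a circuit. -/
theorem comp {f : (ι → ℝ) → κ → ℝ} {g : (κ → ℝ) → ℝ} (hf : PC X a f) (hg : P1 X b g) :
    P1 X (a + b + 2) (fun x => g (f x)) := fun hX =>
  (Cost.comp (hf hX) (hg hX)).mono ((Nat.le_add_right _ 1).trans (add_le_pow hX a b))

/-- A real function of the inputs and of the outputs of a circuit: a shared intermediate result. -/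
theorem bind {f : (ι → ℝ) → κ → ℝ} {g : ((ι ⊕ κ) → ℝ) → ℝ} (hf : PC X a f) (hg : P1 X b g) :
    P1 X (a + b + 2) (fun x => g (Sum.elim x (f x))) := fun hX =>
  ((hf hX).bind (hg hX)).mono ((Nat.le_add_right _ 1).trans (add_le_pow hX a b))

/-- Rename the inputs. -/
theorem rewire {g : (κ → ℝ) → ℝ} (hg : P1 X b g) (σ : κ → ι) :
    P1 X b (fun x : ι → ℝ => g fun k => x (σ k)) := fun hX => Cost.rewire (hg hX) σ

end P1

/-- A loop whose step may depend on the round `k`: the state after `T` rounds. -/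
def loopI {ι κ : Type} (step : ℕ → (ι → ℝ) → (κ → ℝ) → κ → ℝ) (init : (ι → ℝ) → κ → ℝ) (x : ι → ℝ) :
    ℕ → κ → ℝ
  | 0 => init x
  | k + 1 => step k x (loopI step init x k)

theorem Cost.loopI {ι κ : Type} {step : ℕ → (ι → ℝ) → (κ → ℝ) → κ → ℝ} {init : (ι → ℝ) → κ → ℝ}
    {s s0 T : ℕ}
    (hstep : ∀ k, k < T → Cost (fun y : (ι ⊕ κ) → ℝ => step k (fun i => y (Sum.inl i))
      fun j => y (Sum.inr j)) s) (hinit : Cost init s0) :
    Cost (fun x => RAM.loopI step init x T) (s0 + T * s) := by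
  induction T with
  | zero => simpa [RAM.loopI] using hinit
  | succ T ih =>
    have h := (ih fun k hk => hstep k (by omega)).bind (hstep T (by omega))
    have e : s0 + T * s + s = s0 + (T + 1) * s := by ring
    rw [e] at h
    refine h.congr fun x k => ?_
    rfl

/-- A loop of `T ≤ X ^ d` rounds with a step that may depend on the round. -/
theorem PC.loopI {ι κ : Type} {X a b d T : ℕ} {step : ℕ → (ι → ℝ) → (κ → ℝ) → κ → ℝ}
    {init : (ι → ℝ) → κ → ℝ}
    (hstep : ∀ k, k < T → PC X a (fun y : (ι ⊕ κ) → ℝ => step k (fun i => y (Sum.inl i))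
      fun j => y (Sum.inr j))) (hinit : PC X b init) (hT : T ≤ X ^ d) :
    PC X (b + a + d + 1) (fun x => RAM.loopI step init x T) := fun hX =>
  (Cost.loopI (fun k hk => hstep k hk hX) (hinit hX)).mono (loop_le_pow hX hT b a)

end Vale.Agent.Lib.P328.RAM
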