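import Vale.Agent.Lib.P328.RAM.RDefs

/-!
# P328: the functions of real wires are circuits of polynomial size

Style: `∃ e, ∀ parameters, P1 X e (function of wires)`. Inputs are wire maps into any index type `ι`.
Compute an exponent by unification:

`refine ⟨?e, fun hX hm hn hW R C T B => ?_⟩; swap; unfold capGR;`
`exact (P1.sumFin hm fun i => (P1.var _).mul (P1.log (P1.sumFin hn fun j => (P1.var _).mul (P1.exp (P1.var _))))).sub (P1.sumFin hn fun j => (P1.var _).mul (P1.var _))`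

`X` bounds all parameters, `1000 ≤ X`, so that numerals up to `1000` are at most `X` (`P1.natLe`).
Rounds: `Tm ≤ X ^ 4`. If an intermediate vector is used many times in a loop, use `PC.iterate`; inside
one round no sharing is needed (a constant number of nested copies costs only a constant in `e`).
-/

namespace Vale.Agent.Lib.P328.RAM

open Finset Vale.Agent.Lib.P328.Samp

variable {m n : ℕ}

theorem capG_cost : ∃ e, ∀ {m n X : ℕ} {ι : Type} (_ : m ≤ X) (_ : n ≤ X) (R : Fin m → ι)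
    (C : Fin n → ι) (T : Fin n → Fin m → ι) (B : Fin n → ι),
    P1 X e (fun x => capGR (fun i => x (R i)) (fun j => x (C j)) (fun j i => x (T j i))
      (fun j => x (B j))) := by
  refine ⟨?e, fun hm hn R C T B => ?_⟩
  swap
  unfold capGR
  exact (P1.sumFin hm fun i => (P1.var _).mul (P1.log (P1.sumFin hn fun j =>
    (P1.var _).mul (P1.exp (P1.var _))))).sub (P1.sumFin hn fun j => (P1.var _).mul (P1.var _))

theorem capGrad_cost : ∃ e, ∀ {m n X : ℕ} {ι : Type} (_ : m ≤ X) (_ : n ≤ X) (R : Fin m → ι)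
    (C : Fin n → ι) (T : Fin n → Fin m → ι) (B : Fin n → ι) (j : Fin n),
    P1 X e (fun x => capGradR (fun i => x (R i)) (fun j => x (C j)) (fun j i => x (T j i))
      (fun j => x (B j)) j) := by
  refine ⟨?e, fun hm hn R C T B j => ?_⟩
  swap
  unfold capGradR
  exact (P1.sumFin hm fun i => (P1.var _).mul (((P1.var _).mul (P1.exp (P1.var _))).div
    (P1.sumFin hn fun l => (P1.var _).mul (P1.exp (P1.var _))))).sub (P1.var _)

namespace EllCost

/-- The state wires: centre, factor, best point. -/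
abbrev Kap (n : ℕ) : Type := Fin n ⊕ (Fin n × Fin n) ⊕ Fin n

/-- A state as values on wires. -/
noncomputable def enc (st : Ell n × (Fin n → ℝ)) : Kap n → ℝ :=
  Sum.elim st.1.a (Sum.elim (fun p => st.1.W p.1 p.2) st.2)

/-- The state with given values on wires. -/
noncomputable def dec (v : Kap n → ℝ) : Ell n × (Fin n → ℝ) :=
  (⟨fun j => v (Sum.inl j), fun i j => v (Sum.inr (Sum.inl (i, j)))⟩,
    fun j => v (Sum.inr (Sum.inr j)))

lemma dec_enc (st : Ell n × (Fin n → ℝ)) : dec (enc st) = st := by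
  obtain ⟨⟨a, W⟩, b⟩ := st
  rfl

/-- `Wᵀ g`. -/
noncomputable def hF (W : Fin n → Fin n → ℝ) (g : Fin n → ℝ) (j : Fin n) : ℝ := ∑ i, W i j * g i

/-- `h ⬝ᵥ h`. -/
noncomputable def hhF (W : Fin n → Fin n → ℝ) (g : Fin n → ℝ) : ℝ := ∑ l, hF W g l * hF W g l

/-- The unit vector. -/
noncomputable def uF (W : Fin n → Fin n → ℝ) (g : Fin n → ℝ) (j : Fin n) : ℝ :=
  (Real.sqrt (hhF W g))⁻¹ * hF W g j

/-- `n + 1`. -/
noncomputable def dF (n : ℕ) : ℝ := (n : ℝ) + 1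

/-- The first scale. -/
noncomputable def s1F (n : ℕ) : ℝ := dF n / Real.sqrt (dF n ^ 2 - 1)

/-- The second scale. -/
noncomputable def s2F (n : ℕ) : ℝ := dF n / (dF n + 1)

/-- The new centre. -/
noncomputable def a1F (a : Fin n → ℝ) (W : Fin n → Fin n → ℝ) (g : Fin n → ℝ) (j : Fin n) : ℝ :=
  if hhF W g ≤ 0 then a j else a j - (dF n + 1)⁻¹ * ∑ l, W j l * uF W g l

/-- The new factor. -/
noncomputable def w1F (W : Fin n → Fin n → ℝ) (g : Fin n → ℝ) (i j : Fin n) : ℝ :=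
  if hhF W g ≤ 0 then W i j
  else s1F n * W i j + (s2F n - s1F n) * ((∑ l, W i l * uF W g l) * uF W g j)

lemma mulVec_eq (W : Matrix (Fin n) (Fin n) ℝ) (g : Fin n → ℝ) :
    W.transpose.mulVec g = hF W g := by
  funext j
  simp [Matrix.mulVec, dotProduct, hF]

lemma zero_iff (W : Matrix (Fin n) (Fin n) ℝ) (g : Fin n → ℝ) :
    W.transpose.mulVec g = 0 ↔ hhF W g ≤ 0 := by
  rw [mulVec_eq]
  unfold hhF
  constructor
  · intro h
    simp [h]
  · intro h
    have h0 : ∀ l ∈ (univ : Finset (Fin n)), hF W g l * hF W g l = 0 :=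
      (Finset.sum_eq_zero_iff_of_nonneg (fun l _ => mul_self_nonneg _)).1
        (le_antisymm h (Finset.sum_nonneg fun l _ => mul_self_nonneg _))
    funext l
    simpa using h0 l (mem_univ l)

lemma cut_a (S : Ell n) (g : Fin n → ℝ) : (S.cut g).a = a1F S.a S.W g := by
  funext j
  unfold Ell.cut a1F
  by_cases h : hhF S.W g ≤ 0
  · rw [if_pos ((zero_iff _ _).2 h), if_pos h]
  · rw [if_neg (mt (zero_iff _ _).1 h), if_neg h]
    simp only [Pi.sub_apply, Pi.smul_apply, smul_eq_mul, mulVec_eq]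
    congr 2

lemma cut_W (S : Ell n) (g : Fin n → ℝ) (i j : Fin n) : (S.cut g).W i j = w1F S.W g i j := by
  unfold Ell.cut w1F
  by_cases h : hhF S.W g ≤ 0
  · rw [if_pos ((zero_iff _ _).2 h), if_pos h]
  · rw [if_neg (mt (zero_iff _ _).1 h), if_neg h]
    simp only [mulVec_eq]
    rw [Matrix.mul_add, Matrix.mul_smul, Matrix.mul_one, Matrix.mul_smul, Matrix.add_apply,
      Matrix.smul_apply, Matrix.smul_apply, Matrix.mul_apply, smul_eq_mul, smul_eq_mul]
    congr 2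
    rw [Finset.sum_mul]
    apply Finset.sum_congr rfl
    intro l _
    rw [Matrix.vecMulVec_apply]
    have e1 : ∀ t, ((Real.sqrt (hF S.W g ⬝ᵥ hF S.W g))⁻¹ • hF S.W g) t = uF S.W g t := fun t => rfl
    rw [e1, e1]
    ring

/-- The value of a round on wires. -/
lemma enc_round (f : (Fin n → ℝ) → ℝ) (gr : (Fin n → ℝ) → Fin n → ℝ) (y : ℝ) (k : ℕ)
    (v : Kap n → ℝ) (q : Kap n) :
    enc (ellRound f gr y k (dec v)) q =
      if (k : ℝ) < y then
        Sum.elim (a1F (fun j => v (Sum.inl j)) (fun i j => v (Sum.inr (Sum.inl (i, j))))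
            (gr fun j => v (Sum.inl j)))
          (Sum.elim (fun p => w1F (fun i j => v (Sum.inr (Sum.inl (i, j))))
              (gr fun j => v (Sum.inl j)) p.1 p.2)
            (fun j => if f (a1F (fun j => v (Sum.inl j)) (fun i j => v (Sum.inr (Sum.inl (i, j))))
                  (gr fun j => v (Sum.inl j))) < f (fun j => v (Sum.inr (Sum.inr j)))
              then a1F (fun j => v (Sum.inl j)) (fun i j => v (Sum.inr (Sum.inl (i, j))))
                  (gr fun j => v (Sum.inl j)) j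
              else v (Sum.inr (Sum.inr j)))) q
      else v q := by
  unfold ellRound
  by_cases hk : (k : ℝ) < y
  · rw [if_pos hk, if_pos hk]
    rcases q with j | p | j
    · show ((dec v).1.cut (gr (dec v).1.a)).a j = _
      rw [cut_a]
      rfl
    · show ((dec v).1.cut (gr (dec v).1.a)).W p.1 p.2 = _
      rw [cut_W]
      rfl
    · show (if f ((dec v).1.cut (gr (dec v).1.a)).a < f (dec v).2
        then ((dec v).1.cut (gr (dec v).1.a)).a else (dec v).2) j = _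
      rw [cut_a]
      by_cases hc : f (a1F (dec v).1.a (dec v).1.W (gr (dec v).1.a)) < f (dec v).2
      · rw [if_pos hc]
        exact (if_pos hc).symm
      · rw [if_neg hc]
        exact (if_neg hc).symm
  · rw [if_neg hk, if_neg hk]
    rcases q with j | p | j <;> rfl

/-! ### The costs of the formulas -/

theorem hF_cost (b : ℕ) : ∃ e, ∀ {n X : ℕ} {ι : Type} (_ : n ≤ X) (W : Fin n → Fin n → ι)
    (G : Fin n → (ι → ℝ) → ℝ) (_ : ∀ i, P1 X b (G i)) (j : Fin n),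
    P1 X e (fun z => hF (fun i j => z (W i j)) (fun i => G i z) j) := by
  refine ⟨?e, fun hn W G hG j => ?_⟩
  swap
  unfold hF
  exact P1.sumFin hn fun i => (P1.var _).mul (hG i)

theorem hhF_cost (b : ℕ) : ∃ e, ∀ {n X : ℕ} {ι : Type} (_ : n ≤ X) (W : Fin n → Fin n → ι)
    (G : Fin n → (ι → ℝ) → ℝ) (_ : ∀ i, P1 X b (G i)),
    P1 X e (fun z => hhF (fun i j => z (W i j)) (fun i => G i z)) := by
  obtain ⟨e0, h0⟩ := hF_cost b
  refine ⟨?e, fun hn W G hG => ?_⟩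
  swap
  unfold hhF
  exact P1.sumFin hn fun l => (h0 hn W G hG l).mul (h0 hn W G hG l)

theorem uF_cost (b : ℕ) : ∃ e, ∀ {n X : ℕ} {ι : Type} (_ : n ≤ X) (W : Fin n → Fin n → ι)
    (G : Fin n → (ι → ℝ) → ℝ) (_ : ∀ i, P1 X b (G i)) (j : Fin n),
    P1 X e (fun z => uF (fun i j => z (W i j)) (fun i => G i z) j) := by
  obtain ⟨e0, h0⟩ := hF_cost b
  obtain ⟨e1, h1⟩ := hhF_cost b
  refine ⟨?e, fun hn W G hG j => ?_⟩
  swap
  unfold uF
  exact ((h1 hn W G hG).sqrt.inv).mul (h0 hn W G hG j)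

theorem sumU_cost (b : ℕ) : ∃ e, ∀ {n X : ℕ} {ι : Type} (_ : n ≤ X) (W : Fin n → Fin n → ι)
    (G : Fin n → (ι → ℝ) → ℝ) (_ : ∀ i, P1 X b (G i)) (j : Fin n),
    P1 X e (fun z => ∑ l, z (W j l) * uF (fun i j => z (W i j)) (fun i => G i z) l) := by
  obtain ⟨e0, h0⟩ := uF_cost b
  refine ⟨?e, fun hn W G hG j => ?_⟩
  swap
  exact P1.sumFin hn fun l => (P1.var _).mul (h0 hn W G hG l)

theorem dF_cost : ∃ e, ∀ {n X : ℕ} {ι : Type} (_ : n ≤ X),
    P1 (ι := ι) X e (fun _ => dF n) := by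
  refine ⟨?e, fun hn => ?_⟩
  swap
  unfold dF
  exact (P1.natLe hn).add P1.one

theorem s1F_cost : ∃ e, ∀ {n X : ℕ} {ι : Type} (_ : 2 ≤ X) (_ : n ≤ X),
    P1 (ι := ι) X e (fun _ => s1F n) := by
  obtain ⟨e0, h0⟩ := dF_cost
  refine ⟨?e, fun h2 hn => ?_⟩
  swap
  unfold s1F
  exact (h0 hn).div (((h0 hn).pow (d := 1) (k := 2) (by simpa using h2)).sub P1.one).sqrt

theorem s2F_cost : ∃ e, ∀ {n X : ℕ} {ι : Type} (_ : n ≤ X),
    P1 (ι := ι) X e (fun _ => s2F n) := by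
  obtain ⟨e0, h0⟩ := dF_cost
  refine ⟨?e, fun hn => ?_⟩
  swap
  unfold s2F
  exact (h0 hn).div ((h0 hn).add P1.one)

theorem a1F_cost (b : ℕ) : ∃ e, ∀ {n X : ℕ} {ι : Type} (_ : n ≤ X) (A : Fin n → ι)
    (W : Fin n → Fin n → ι) (G : Fin n → (ι → ℝ) → ℝ) (_ : ∀ i, P1 X b (G i)) (j : Fin n),
    P1 X e (fun z => a1F (fun j => z (A j)) (fun i j => z (W i j)) (fun i => G i z) j) := by
  obtain ⟨e0, h0⟩ := hhF_cost b
  obtain ⟨e1, h1⟩ := sumU_cost b
  obtain ⟨e2, h2⟩ := dF_cost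
  refine ⟨?e, fun hn A W G hG j => ?_⟩
  swap
  unfold a1F
  exact P1.ite (h0 hn W G hG) P1.zero (P1.var _)
    ((P1.var _).sub (((h2 hn).add P1.one).inv.mul (h1 hn W G hG j)))

theorem w1F_cost (b : ℕ) : ∃ e, ∀ {n X : ℕ} {ι : Type} (_ : 2 ≤ X) (_ : n ≤ X)
    (W : Fin n → Fin n → ι) (G : Fin n → (ι → ℝ) → ℝ) (_ : ∀ i, P1 X b (G i)) (i j : Fin n),
    P1 X e (fun z => w1F (fun i j => z (W i j)) (fun i => G i z) i j) := by
  obtain ⟨e0, h0⟩ := hhF_cost b
  obtain ⟨e1, h1⟩ := sumU_cost b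
  obtain ⟨e2, h2⟩ := uF_cost b
  obtain ⟨e3, h3⟩ := s1F_cost
  obtain ⟨e4, h4⟩ := s2F_cost
  refine ⟨?e, fun hX hn W G hG i j => ?_⟩
  swap
  unfold w1F
  exact P1.ite (h0 hn W G hG) P1.zero (P1.var _)
    (((h3 hX hn).mul (P1.var _)).add
      (((h4 hn).sub (h3 hX hn)).mul ((h1 hn W G hG i).mul (h2 hn W G hG j))))

/-- A step of the loop as a circuit. -/
theorem step_cost (a b c d : ℕ) : ∃ e, ∀ {n X : ℕ} {ι : Type} (_ : 1000 ≤ X) (_ : n ≤ X)
    (f : (ι → ℝ) → (Fin n → ℝ) → ℝ) (gr : (ι → ℝ) → (Fin n → ℝ) → Fin n → ℝ)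
    (y : (ι → ℝ) → ℝ)
    (_ : P1 X a (fun z : (ι ⊕ Fin n) → ℝ => f (fun i => z (Sum.inl i)) fun j => z (Sum.inr j)))
    (_ : ∀ j, P1 X b (fun z : (ι ⊕ Fin n) → ℝ =>
      gr (fun i => z (Sum.inl i)) (fun j => z (Sum.inr j)) j))
    (_ : P1 X c y) (k : ℕ) (_ : k ≤ X ^ d),
    PC X e (fun z : (ι ⊕ Kap n) → ℝ => enc (ellRound (f fun i => z (Sum.inl i))
      (gr fun i => z (Sum.inl i)) (y fun i => z (Sum.inl i)) k (dec fun q => z (Sum.inr q)))) := by
  obtain ⟨e1, h1⟩ := a1F_cost b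
  obtain ⟨e2, h2⟩ := w1F_cost b
  refine ⟨3 + (c + d + 2 * e1 + e2 + 2 * a + 100), fun {n X ι} h1000 hn f gr y hf hg hy k hk => ?_⟩
  have hX : 2 ≤ X := by omega
  have hcard : Fintype.card (Kap n) ≤ X ^ 3 := by
    simp only [Fintype.card_sum, Fintype.card_prod, Fintype.card_fin]
    have : n * n ≤ X * X := Nat.mul_le_mul hn hn
    have e3 : X ^ 3 = X * X * X := by ring
    rw [e3]
    nlinarith
  have hG : ∀ i, P1 X b (fun z : (ι ⊕ Kap n) → ℝ =>
      gr (fun i => z (Sum.inl i)) (fun j => z (Sum.inr (Sum.inl j))) i) := fun i =>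
    P1.rewire (hg i) (Sum.elim Sum.inl (fun j => Sum.inr (Sum.inl j)))
  have hA := h1 hn (fun j => (Sum.inr (Sum.inl j) : ι ⊕ Kap n))
    (fun i j => (Sum.inr (Sum.inr (Sum.inl (i, j))) : ι ⊕ Kap n)) _ hG
  have hW := h2 hX hn (fun i j => (Sum.inr (Sum.inr (Sum.inl (i, j))) : ι ⊕ Kap n)) _ hG
  have hy' : P1 X c (fun z : (ι ⊕ Kap n) → ℝ => y fun i => z (Sum.inl i)) :=
    P1.rewire hy Sum.inl
  have hk' : P1 (ι := ι ⊕ Kap n) X (d + 5) (fun _ => (k : ℝ)) := P1.nat hk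
  have hfA := P1.comp (PC.pair (PC.wire (X := X) (κ := ι) (ι := ι ⊕ Kap n) Sum.inl)
    (PC.pi (d := 1) (by simpa using hn) hA)) hf
  have hfB : P1 X a (fun z : (ι ⊕ Kap n) → ℝ =>
      f (fun i => z (Sum.inl i)) (fun j => z (Sum.inr (Sum.inr (Sum.inr j))))) :=
    P1.rewire hf (Sum.elim Sum.inl (fun j => Sum.inr (Sum.inr (Sum.inr j))))
  have out1 := fun j => P1.iteLt hk' hy' (hA j) (P1.var (Sum.inr (Sum.inl j)))
  have out2 := fun (p : Fin n × Fin n) => P1.iteLt hk' hy' (hW p.1 p.2)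
    (P1.var (Sum.inr (Sum.inr (Sum.inl (p.1, p.2)))))
  have out3 := fun j => P1.iteLt hk' hy' (P1.iteLt hfA hfB (hA j)
    (P1.var (Sum.inr (Sum.inr (Sum.inr j))))) (P1.var (Sum.inr (Sum.inr (Sum.inr j))))
  refine PC.pi hcard fun q => ?_
  rcases q with j | p | j
  · refine ((out1 j).mono ?_).congr fun z => ?_
    · omega
    · rw [enc_round]
      rfl
  · refine ((out2 p).mono ?_).congr fun z => ?_
    · omega
    · rw [enc_round]
      rfl
  · refine ((out3 j).mono ?_).congr fun z => ?_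
    · omega
    · rw [enc_round]
      rfl

/-- The loop with a round index. -/
theorem Cost_iterIdx {ι κ : Type} {st : ℕ → (ι → ℝ) → κ → ℝ} {step : ℕ → ((ι ⊕ κ) → ℝ) → κ → ℝ}
    {s s0 Tm : ℕ} (h0 : Cost (st 0) s0) (hstep : ∀ k, k < Tm → Cost (step k) s)
    (hs : ∀ k x, st (k + 1) x = step k (Sum.elim x (st k x))) :
    ∀ T, T ≤ Tm → Cost (st T) (s0 + T * s) := by
  intro T
  induction T with
  | zero =>
    intro _
    simpa using h0
  | succ T ih =>
    intro hT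
    have h := Cost.bind (ih (by omega)) (hstep T (by omega))
    have e : s0 + T * s + s = s0 + (T + 1) * s := by ring
    rw [e] at h
    exact h.congr fun x k => by rw [hs]

/-- The first state as a circuit. -/
theorem init_cost (c : ℕ) : ∃ e, ∀ {n X : ℕ} {ι : Type} (_ : 1000 ≤ X) (_ : n ≤ X)
    (f : (ι → ℝ) → (Fin n → ℝ) → ℝ) (gr : (ι → ℝ) → (Fin n → ℝ) → Fin n → ℝ)
    (R0 y : (ι → ℝ) → ℝ) (_ : P1 X c R0),
    PC X e (fun x => enc (ellLoop (f x) (gr x) (R0 x) (y x) 0)) := by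
  refine ⟨3 + (c + 3), fun {n X ι} h1000 hn f gr R0 y hR => ?_⟩
  have hcard : Fintype.card (Kap n) ≤ X ^ 3 := by
    simp only [Fintype.card_sum, Fintype.card_prod, Fintype.card_fin]
    have : n * n ≤ X * X := Nat.mul_le_mul hn hn
    have e3 : X ^ 3 = X * X * X := by ring
    rw [e3]
    nlinarith
  refine PC.pi hcard fun q => ?_
  rcases q with j | p | j
  · refine ((P1.zero (X := X) (ι := ι)).mono (by omega)).congr fun x => ?_
    rfl
  · by_cases h : p.1 = p.2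
    · refine (hR.mono (by omega)).congr fun x => ?_
      show (R0 x • (1 : Matrix (Fin n) (Fin n) ℝ)) p.1 p.2 = R0 x
      simp [h]
    · refine ((P1.zero (X := X) (ι := ι)).mono (by omega)).congr fun x => ?_
      show (R0 x • (1 : Matrix (Fin n) (Fin n) ℝ)) p.1 p.2 = 0
      simp [h]
  · refine ((P1.zero (X := X) (ι := ι)).mono (by omega)).congr fun x => ?_
    rfl

end EllCost

open EllCost in
/-- The ellipsoid loop. The state on wires: centre, factor, best point. `f` and `gr` are circuits in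
the inputs and the point. -/
theorem ellLoop_cost (a b c d : ℕ) : ∃ e, ∀ {n X Tm : ℕ} {ι : Type} (_ : 1000 ≤ X) (_ : n ≤ X)
    (_ : Tm ≤ X ^ d) (f : (ι → ℝ) → (Fin n → ℝ) → ℝ) (gr : (ι → ℝ) → (Fin n → ℝ) → Fin n → ℝ)
    (R0 y : (ι → ℝ) → ℝ)
    (_ : P1 X a (fun z : (ι ⊕ Fin n) → ℝ => f (fun i => z (Sum.inl i)) fun j => z (Sum.inr j)))
    (_ : ∀ j, P1 X b (fun z : (ι ⊕ Fin n) → ℝ => gr (fun i => z (Sum.inl i)) (fun j => z (Sum.inr j)) j))
    (_ : P1 X c R0) (_ : P1 X c y) (j : Fin n),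
    P1 X e (fun x => (ellLoop (f x) (gr x) (R0 x) (y x) Tm).2 j) := by
  obtain ⟨es, hs⟩ := step_cost a b c d
  obtain ⟨e0, h0⟩ := init_cost c
  refine ⟨e0 + es + d + 1, fun {n X Tm ι} h1000 hn hT f gr R0 y hf hg hR hy j hX => ?_⟩
  have hst := Cost_iterIdx (ι := ι) (κ := Kap n) (Tm := Tm)
    (st := fun T x => enc (ellLoop (f x) (gr x) (R0 x) (y x) T))
    (step := fun k z => enc (ellRound (f fun i => z (Sum.inl i))
      (gr fun i => z (Sum.inl i)) (y fun i => z (Sum.inl i)) k (dec fun q => z (Sum.inr q))))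
    (s := X ^ es) (s0 := X ^ e0)
    (h0 h1000 hn f gr R0 y hR hX)
    (fun k hk => hs h1000 hn f gr y hf hg hy k (by omega) hX)
    (by
      intro k x
      show enc (ellLoop (f x) (gr x) (R0 x) (y x) (k + 1)) = enc (ellRound (f x) (gr x) (y x) k
        (dec (enc (ellLoop (f x) (gr x) (R0 x) (y x) k))))
      rw [dec_enc]
      rfl) Tm le_rfl
  have h1 := (hst.reout (μ := Unit) (fun _ => Sum.inr (Sum.inr j))).mono (loop_le_pow hX hT e0 es)
  exact h1

theorem ellRadR_cost : ∃ e, ∀ {n X W : ℕ} {ι : Type} (_ : 1000 ≤ X) (_ : n ≤ X) (_ : W ≤ X) (Nb : ι),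
    P1 X e (fun x => ellRadR n W (x Nb)) := by
  refine ⟨?e, fun {n X W ι} h1000 hn hW Nb => ?_⟩
  swap
  have h2 : P1 (ι := ι) X 6 (fun _ => (2 : ℝ)) :=
    (P1.natLe (N := 2) (by omega)).congr fun _ => by norm_num
  unfold ellRadR
  exact ((P1.natLe hn).add P1.one).mul
    (((h2.mul (P1.log ((P1.var _).add h2))).add (P1.natLe hW)).add P1.one)

theorem ellItersR_cost : ∃ e, ∀ {X W : ℕ} {ι : Type} (_ : 1000 ≤ X) (_ : W ≤ X) (Nb : ι),
    P1 X e (fun x => ellItersR W (x Nb)) := by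
  refine ⟨?e, fun {X W ι} h1000 hW Nb => ?_⟩
  swap
  have h2 : P1 (ι := ι) X 6 (fun _ => (2 : ℝ)) :=
    (P1.natLe (N := 2) (by omega)).congr fun _ => by norm_num
  unfold ellItersR
  exact ((P1.natLe hW).pow (d := 1) (k := 2) (by simp; omega)).mul
    ((P1.log ((P1.var _).add h2)).add (P1.natLe hW))

theorem betaGate_cost : ∃ e, ∀ {m n X W Tm : ℕ} {ι : Type} (_ : 1000 ≤ X) (_ : m ≤ X) (_ : n ≤ X)
    (_ : W ≤ X) (_ : Tm ≤ X ^ 4) (Nb : ι) (R : Fin m → ι) (C : Fin n → ι) (T : Fin n → Fin m → ι)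
    (j : Fin n),
    P1 X e (fun x => betaGate W Tm (x Nb) (fun i => x (R i)) (fun j => x (C j)) (fun j i => x (T j i)) j) := by
  obtain ⟨a, ha⟩ := capG_cost
  obtain ⟨b, hb⟩ := capGrad_cost
  obtain ⟨c1, hc1⟩ := ellRadR_cost
  obtain ⟨c2, hc2⟩ := ellItersR_cost
  obtain ⟨e, he⟩ := ellLoop_cost a b (c1 + c2) 4
  refine ⟨e, fun {m n X W Tm ι} h1000 hm hn hW hT Nb R C T j => ?_⟩
  exact he h1000 hn hT
    (fun x β => capGR (fun i => x (R i)) (fun j => x (C j)) (fun j i => x (T j i)) β)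
    (fun x β => capGradR (fun i => x (R i)) (fun j => x (C j)) (fun j i => x (T j i)) β)
    (fun x => ellRadR n W (x Nb)) (fun x => ellItersR W (x Nb))
    (ha hm hn (fun i => Sum.inl (R i)) (fun j => Sum.inl (C j)) (fun j i => Sum.inl (T j i))
      (fun j => Sum.inr j))
    (fun j => hb hm hn (fun i => Sum.inl (R i)) (fun j => Sum.inl (C j))
      (fun j i => Sum.inl (T j i)) (fun j => Sum.inr j) j)
    ((hc1 h1000 hn hW Nb).mono (by omega)) ((hc2 h1000 hW Nb).mono (by omega)) j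

theorem logCapGate_cost : ∃ e, ∀ {m n X W Tm : ℕ} {ι : Type} (_ : 1000 ≤ X) (_ : m ≤ X) (_ : n ≤ X)
    (_ : W ≤ X) (_ : Tm ≤ X ^ 4) (Nb : ι) (R : Fin m → ι) (C : Fin n → ι) (T : Fin n → Fin m → ι),
    P1 X e (fun x => logCapGate W Tm (x Nb) (fun i => x (R i)) (fun j => x (C j)) (fun j i => x (T j i))) := by
  obtain ⟨a, ha⟩ := capG_cost
  obtain ⟨b, hb⟩ := betaGate_cost
  refine ⟨1 + b + a + 2, fun {m n X W Tm ι} h1000 hm hn hW hT Nb R C T => ?_⟩
  have h1 : PC X (1 + b) (fun (x : ι → ℝ) (j : Fin n) =>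
      betaGate W Tm (x Nb) (fun i => x (R i)) (fun j => x (C j)) (fun j i => x (T j i)) j) :=
    PC.pi (by simpa using hn) (fun j => hb h1000 hm hn hW hT Nb R C T j)
  exact P1.bind h1 (ha hm hn (fun i => Sum.inl (R i)) (fun j => Sum.inl (C j))
    (fun j i => Sum.inl (T j i)) (fun j => Sum.inr j))

theorem phiGate_cost : ∃ e, ∀ {m n X W Tm : ℕ} {ι : Type} (_ : 1000 ≤ X) (_ : m ≤ X) (_ : n ≤ X)
    (_ : W ≤ X) (_ : Tm ≤ X ^ 4) (Nb : ι) (R : Fin m → ι) (C : Fin n → ι) (T : Fin n → Fin m → ι),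
    P1 X e (fun x => phiGate W Tm (x Nb) (fun i => x (R i)) (fun j => x (C j)) (fun j i => x (T j i))) := by
  obtain ⟨a, ha⟩ := logCapGate_cost
  refine ⟨?e, fun {m n X W Tm ι} h1000 hm hn hW hT Nb R C T => ?_⟩
  swap
  unfold phiGate phiMinR
  exact ((P1.sumFin hn fun j => P1.sumFin hm fun i => P1.var _).sub
    (ha h1000 hm hn hW hT Nb R C T)).sub
    (P1.sumFin hm fun i => (P1.var _).sub ((P1.var _).mul (P1.log (P1.var _))))

end Vale.Agent.Lib.P328.RAM
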