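import Vale.Agent.Lib.P328.Samp.Defs
import Vale.Agent.Lib.P328.RAM.Law

/-!
# P328: the potential of the algorithm as a function of real wires

The definitions of `Samp/Defs.lean` take natural margins. Here the same formulas with real arguments,
so that they are functions of wires: `capGR`, `capGradR`, `ellGate` (the ellipsoid loop with a fixed
number `Tm` of rounds, of which the first `⌈y⌉₊` are active), `betaGate`, `logCapGate`, `phiGate`,
`cornerTabR`, `centreTabR`, `tFreeR`, `tColR`, `tMapR`, `detTR`, `psiValR`, `psiHatR`, `psiCellR`.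
In `RSpec.lean`: on natural margins these are the functions of `Samp/Defs.lean`.
In `RCost.lean`: these are circuits.
-/

namespace Vale.Agent.Lib.P328.RAM

open Finset Vale.Agent.Lib.P328.Samp

variable {m n : ℕ}

/-- `capG` with real margins. -/
noncomputable def capGR (r : Fin m → ℝ) (c : Fin n → ℝ) (t : Fin n → Fin m → ℝ) (β : Fin n → ℝ) : ℝ :=
  ∑ i, r i * Real.log (∑ j, t j i * Real.exp (β j)) - ∑ j, c j * β j

/-- `capGrad` with real margins. -/
noncomputable def capGradR (r : Fin m → ℝ) (c : Fin n → ℝ) (t : Fin n → Fin m → ℝ) (β : Fin n → ℝ)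
    (j : Fin n) : ℝ :=
  ∑ i, r i * (t j i * Real.exp (β j) / ∑ l, t l i * Real.exp (β l)) - c j

/-- `ellRad` with the real wire `Nb`. -/
noncomputable def ellRadR (n W : ℕ) (Nb : ℝ) : ℝ :=
  ((n : ℝ) + 1) * (2 * Real.log (Nb + 2) + W + 1)

/-- The real number whose ceiling is `ellIters`. -/
noncomputable def ellItersR (W : ℕ) (Nb : ℝ) : ℝ := (W : ℝ) ^ 2 * (Real.log (Nb + 2) + W)

/-- One round of the ellipsoid loop, the state is an ellipsoid and the best point so far. Round `k` is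
active if `k < y`. -/
noncomputable def ellRound (f : (Fin n → ℝ) → ℝ) (gr : (Fin n → ℝ) → Fin n → ℝ) (y : ℝ) (k : ℕ)
    (st : Ell n × (Fin n → ℝ)) : Ell n × (Fin n → ℝ) :=
  if (k : ℝ) < y then
    let E' := st.1.cut (gr st.1.a)
    (E', if f E'.a < f st.2 then E'.a else st.2)
  else st

/-- The state after `T` rounds. -/
noncomputable def ellLoop (f : (Fin n → ℝ) → ℝ) (gr : (Fin n → ℝ) → Fin n → ℝ) (R0 y : ℝ) :
    ℕ → Ell n × (Fin n → ℝ)
  | 0 => (⟨0, R0 • (1 : Matrix (Fin n) (Fin n) ℝ)⟩, 0)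
  | k + 1 => ellRound f gr y k (ellLoop f gr R0 y k)

/-- The point found by the ellipsoid method in `Tm` rounds at most. -/
noncomputable def betaGate (W Tm : ℕ) (Nb : ℝ) (r : Fin m → ℝ) (c : Fin n → ℝ)
    (t : Fin n → Fin m → ℝ) : Fin n → ℝ :=
  (ellLoop (capGR r c t) (capGradR r c t) (ellRadR n W Nb) (ellItersR W Nb) Tm).2

/-- `logCapHat` with real wires. -/
noncomputable def logCapGate (W Tm : ℕ) (Nb : ℝ) (r : Fin m → ℝ) (c : Fin n → ℝ)
    (t : Fin n → Fin m → ℝ) : ℝ :=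
  capGR r c t (betaGate W Tm Nb r c t)

/-- `phiMin` with real wires. -/
noncomputable def phiMinR (r : Fin m → ℝ) : ℝ := ∑ i, (r i - r i * Real.log (r i))

/-- `phiHat` with real wires. -/
noncomputable def phiGate (W Tm : ℕ) (Nb : ℝ) (r : Fin m → ℝ) (c : Fin n → ℝ)
    (t : Fin n → Fin m → ℝ) : ℝ :=
  ∑ j, ∑ i, t j i - logCapGate W Tm Nb r c t - phiMinR r

/-- `cornerTab` with real margins. -/
noncomputable def cornerTabR (r : Fin m → ℝ) (c : Fin n → ℝ) (j' : Fin n) (i' : Fin m) (j : Fin n)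
    (i : Fin m) : ℝ :=
  let u : ℝ := min (r i') (c j')
  (if j = j' ∧ i = i' then u else 0)
    + (r i - if i = i' then u else 0) * (c j - if j = j' then u else 0)
      / ((∑ l, r l) - u)

/-- `centreTab` with real margins. -/
noncomputable def centreTabR (r : Fin m → ℝ) (c : Fin n → ℝ) (j : Fin n) (i : Fin m) : ℝ :=
  (∑ j', ∑ i', cornerTabR r c j' i' j i) / ((n : ℝ) * m)

/-- `scS` with a real argument. -/
noncomputable def scSR (m n : ℕ) (x : ℝ) : ℝ := (1 + Real.sqrt x) / (16 * ((n : ℝ) * m) ^ 2)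

/-- `scF` with real margins. -/
noncomputable def scFR (r : Fin m → ℝ) (c : Fin n → ℝ) (j : Fin n) (i : Fin m) : ℝ :=
  (min (r i) (c j) + 1) / (2 * ((n : ℝ) * m) ^ 2)

/-- `tFree` with real margins. -/
noncomputable def tFreeR (r : Fin m → ℝ) (c : Fin n → ℝ) (y : Fin n × Fin m → ℝ) (j : Fin n)
    (i : Fin m) : ℝ :=
  centreTabR r c j i + 1 + scFR r c j i * y (j, i)

/-- `tCol` with real margins. -/
noncomputable def tColR (i0 : Fin m) (r : Fin m → ℝ) (c : Fin n → ℝ) (y : Fin n × Fin m → ℝ)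
    (j : Fin n) : ℝ :=
  c j + m + scSR m n (c j) * y (j, i0) - ∑ i' ∈ univ.erase i0, tFreeR r c y j i'

/-- `tMap` with real margins. -/
noncomputable def tMapR (i0 : Fin m) (j0 : Fin n) (r : Fin m → ℝ) (c : Fin n → ℝ)
    (y : Fin n × Fin m → ℝ) : Fin n → Fin m → ℝ := fun j i =>
  if j = j0 then
    if i = i0 then
      r i0 + n + scSR m n (r i0) * y (j0, i0) - ∑ j' ∈ univ.erase j0, tColR i0 r c y j'
    else
      r i + n + scSR m n (r i) * y (j0, i) - ∑ j' ∈ univ.erase j0, tFreeR r c y j' i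
  else
    if i = i0 then tColR i0 r c y j else tFreeR r c y j i

/-- `detT` with real margins. -/
noncomputable def detTR (i0 : Fin m) (j0 : Fin n) (r : Fin m → ℝ) (c : Fin n → ℝ) : ℝ :=
  (∏ j ∈ univ.erase j0, ∏ i ∈ univ.erase i0, scFR r c j i)
    * (∏ j ∈ univ.erase j0, scSR m n (c j)) * ∏ i, scSR m n (r i)

open Classical in
/-- `psiVal` with real wires. -/
noncomputable def psiValR (W Tm : ℕ) (Nb : ℝ) (i0 : Fin m) (j0 : Fin n) (r : Fin m → ℝ) (c : Fin n → ℝ)
    (y : Fin n × Fin m → ℝ) (k : ℕ) : ℝ :=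
  let s : ℝ := 1 + (k : ℝ) / (W : ℝ) ^ 53
  let t := tMapR i0 j0 r c (s⁻¹ • y)
  if ∀ j i, cutK W ≤ t j i then s * phiGate W Tm Nb r c t + (W : ℝ) ^ 27 * (s - 1) else (W : ℝ) ^ 32

/-- `psiHat` with real wires. -/
noncomputable def psiHatR (W Tm : ℕ) (Nb : ℝ) (i0 : Fin m) (j0 : Fin n) (r : Fin m → ℝ) (c : Fin n → ℝ)
    (y : Fin n × Fin m → ℝ) : ℝ :=
  (range (8 * W ^ 57 + 1)).inf' ⟨0, by simp⟩ (psiValR W Tm Nb i0 j0 r c y)

/-- The point of a cube with the real label `z`. -/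
noncomputable def cellPtR {ι : Type} (W : ℕ) (z : ι → ℝ) (u : ι → ℝ) (i : ι) : ℝ :=
  -rQ W + cellD W * (z i + u i)

/-- `psiCell` with real wires. -/
noncomputable def psiCellR (W Tm : ℕ) (Nb : ℝ) (i0 : Fin m) (j0 : Fin n) (r : Fin m → ℝ) (c : Fin n → ℝ)
    (z : Fin n × Fin m → ℝ) : ℝ :=
  psiHatR W Tm Nb i0 j0 r c (cellPtR W z fun _ => 1 / 2)

end Vale.Agent.Lib.P328.RAM
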