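import Vale.Agent.Lib.P328.RAM.Law

/-!
# P328: `T` steps of a randomized map with fresh wires are a circuit
-/

namespace Vale.Agent.Lib.P328.RAM

variable {P κ Ω : Type} [Fintype Ω]

/-- `T` steps with fresh wires in each step. -/
theorem Cost.runSeq {stepF : (P → ℝ) → (κ → ℝ) → (Ω → ℝ) → κ → ℝ} {init : (P → ℝ) → κ → ℝ} {s s0 : ℕ}
    (hstep : Cost (fun y : (P ⊕ (κ ⊕ Ω)) → ℝ => stepF (fun p => y (Sum.inl p))
      (fun k => y (Sum.inr (Sum.inl k))) fun a => y (Sum.inr (Sum.inr a))) s)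
    (hinit : Cost init s0) (T : ℕ) :
    Cost (fun x : (P ⊕ (Fin T × Ω)) → ℝ => RAM.runSeq (stepF fun p => x (Sum.inl p))
      (init fun p => x (Sum.inl p)) T fun a => x (Sum.inr a)) (s0 + T * s) := by
  induction T with
  | zero =>
    have h := hinit.rewire (ι := P ⊕ (Fin 0 × Ω)) Sum.inl
    simpa [RAM.runSeq] using h
  | succ T ih =>
    have h1 := ih.rewire (ι := P ⊕ (Fin (T + 1) × Ω))
      (Sum.elim Sum.inl fun q => Sum.inr (q.1.castSucc, q.2))
    have h2 := hstep.rewire (ι := (P ⊕ (Fin (T + 1) × Ω)) ⊕ κ)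
      (Sum.elim (fun p => Sum.inl (Sum.inl p))
        (Sum.elim Sum.inr fun a => Sum.inl (Sum.inr (Fin.last T, a))))
    have h3 := h1.bind h2
    have e : s0 + T * s + s = s0 + (T + 1) * s := by ring
    rw [e] at h3
    refine h3.congr fun x k => ?_
    rfl

/-- `T ≤ X ^ d` steps with fresh wires in each step. -/
theorem PC.runSeq {X a b d T : ℕ} {stepF : (P → ℝ) → (κ → ℝ) → (Ω → ℝ) → κ → ℝ} {init : (P → ℝ) → κ → ℝ}
    (hstep : PC X a (fun y : (P ⊕ (κ ⊕ Ω)) → ℝ => stepF (fun p => y (Sum.inl p))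
      (fun k => y (Sum.inr (Sum.inl k))) fun a => y (Sum.inr (Sum.inr a))))
    (hinit : PC X b init) (hT : T ≤ X ^ d) :
    PC X (b + a + d + 1) (fun x : (P ⊕ (Fin T × Ω)) → ℝ => RAM.runSeq (stepF fun p => x (Sum.inl p))
      (init fun p => x (Sum.inl p)) T fun a => x (Sum.inr a)) := fun hX =>
  (Cost.runSeq (hstep hX) (hinit hX) T).mono (loop_le_pow hX hT b a)

end Vale.Agent.Lib.P328.RAM
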