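import Vale.Agent.Lib.P328.RAM.WalkS
import Vale.Agent.Lib.P328.Fpras.Robust

/-!
# P328: the second stage as a circuit (module N)

`R` independent runs of `T` steps of `walkStepR` from the root, and the numbers of runs that end at a leaf and
at the root.

`walkKer_markov`: `walkKer` is a Markov kernel on the nodes (`walkStepR_mem`, `Pr_total`, measurability from `walkStepR_cost`).
`Pr_runStates`: the law of one run is `lawT` (`Pr_runSeq`), the runs are independent (`Pr_blocks`): any event of the counts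
has the probability `runProb`.
`walkQ_close_sharp`: the bound of the proof of `walkQ_close` before its last line.
`runs_close`: `fpras_robust` for the kernel `walkKer`, which is within `1 / B ^ 22` of `algWalk`: `walkKer_close`,
`walkQ_close_sharp`, `q_final_num`-style numerics, for `Bpar ≤ W`, and `(m + 2) / W ^ 29` small.
-/

namespace Vale.Agent.Lib.P328.RAM

open Finset MeasureTheory Vale.Agent.Lib.P328.Cap Vale.Agent.Lib.P328.Fpras Vale.Agent.Lib.P328.Samp

variable {m k : ℕ}

/-- The final states of the runs. -/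
noncomputable def runStates (W Tm Kb T R : ℕ) (P : Par) (hm : 0 < m) (r : Fin m → ℝ) (L : Fin k → ℝ)
    (ω : Fin R × (Fin T × StepW k m W) → ℝ) (b : Fin R) : NodeW k m → ℝ :=
  runSeq (walkStepR W Tm Kb P hm r L) (fun _ => 0) T fun a => ω (b, a)

open Classical in
/-- The number of runs that end at the depth `d`. -/
noncomputable def depthCount {R : ℕ} (st : Fin R → NodeW k m → ℝ) (d : ℝ) : ℝ :=
  ∑ b, if st b (Sum.inl ()) = d then 1 else 0

namespace RunsAux

open Finset MeasureTheory Vale.Agent.Lib.P328.Cap Vale.Agent.Lib.P328.Fpras Vale.Agent.Lib.P328.Samp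

variable {m k : ℕ}

/-- Measurability of one step, for the parameters of a run. -/
theorem measurable_step {W Tm Kb B : ℕ} {P : Par} (hPd : P.d = 1 / (B : ℝ) ^ 26) (hPcs : P.cs = B ^ 28)
    (hm : 0 < m) (r : Fin m → ℝ) (L : Fin k → ℝ) :
    Measurable fun p : (NodeW k m → ℝ) × (StepW k m W → ℝ) => walkStepR W Tm Kb P hm r L p.1 p.2 := by
  classical
  obtain ⟨e, he⟩ := walkStepR_cost
  set X : ℕ := 1000 + m + (k + 1) + W + Tm + Kb + B with hX
  have hX1 : 1000 ≤ X := by omega
  have hTm : Tm ≤ X ^ 4 := by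
    have h1 : Tm ≤ X := by omega
    exact h1.trans (Nat.le_self_pow (by norm_num) X)
  refine measurable_pi_lambda _ fun a => ?_
  have h := he (m := m) (k := k) (X := X) (W := W) (Tm := Tm) (Kb := Kb) (B := B)
    (ι := (Fin m ⊕ Fin k) ⊕ (NodeW k m ⊕ StepW k m W)) hX1 (by omega) (by omega) (by omega) hTm (by omega)
    (by omega) P hPd hPcs hm (fun i => Sum.inl (Sum.inl i)) (fun j => Sum.inl (Sum.inr j))
    (fun b => Sum.inr (Sum.inl b)) (fun b => Sum.inr (Sum.inr b)) a (by omega)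
  have h2 := Cost.measurable h
  have h3 : Measurable fun x : ((Fin m ⊕ Fin k) ⊕ (NodeW k m ⊕ StepW k m W)) → ℝ =>
      walkStepR W Tm Kb P hm (fun i => x (Sum.inl (Sum.inl i))) (fun j => x (Sum.inl (Sum.inr j)))
        (fun b => x (Sum.inr (Sum.inl b))) (fun b => x (Sum.inr (Sum.inr b))) a :=
    (measurable_pi_apply ()).comp h2
  have h4 : Measurable fun p : (NodeW k m → ℝ) × (StepW k m W → ℝ) =>
      (Sum.elim (Sum.elim r L) (Sum.elim p.1 p.2) : ((Fin m ⊕ Fin k) ⊕ (NodeW k m ⊕ StepW k m W)) → ℝ) := by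
    refine measurable_pi_lambda _ fun q => ?_
    rcases q with (i | j) | (b | b)
    · exact measurable_const
    · exact measurable_const
    · exact (measurable_pi_apply b).comp measurable_fst
    · exact (measurable_pi_apply b).comp measurable_snd
  exact h3.comp h4

theorem encNode_nil' : encNode (m := m) k [] = fun _ => 0 := by
  funext a
  rcases a with _ | ⟨l, i⟩
  · simp [encNode]
  · simp [encNode]

section

variable {r : Fin m → ℕ} {c : List ℕ}

/-- The sharper form of `walkQ_close`. -/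
theorem walkQ_close_sharp' (hm : 0 < m) (hc : c.Pairwise (· ≤ ·)) (hpos : ∀ y ∈ c, 0 < y)
    (hsum : ∑ i, r i = c.sum) {ε : ℝ} (hε0 : 0 < ε) (hε1 : ε ≤ 1) {W : ℕ}
    (hWB : Bpar m c.length (rhoP m c.length) ε ≤ W) {v : List (Fin m → ℕ)}
    (hv : v ∈ nodes (kids r c) c.length) :
    ∑ w ∈ nodes (kids r c) c.length,
      |walkQ W hm (parOf m c.length (rhoP m c.length) ε) r c v w
        - algWalk (parOf m c.length (rhoP m c.length) ε) (solW W) r c v w|
      ≤ 2 * ((1 / 8) * (20 / (W : ℝ) ^ 24 + (2 / (W : ℝ) ^ 30 + 2 * (2 / (W : ℝ) ^ 25)))) := by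
  set P := parOf m c.length (rhoP m c.length) ε with hP
  have h1 := q_walk_close (S := kids r c) (D := c.length) (fun v h => kids_empty r c v h)
    (downQ W hm P r c) (downAt P (solW W) r c) (upAt P r c) hv
  refine h1.trans ?_
  cases hd : c.drop v.length with
  | nil =>
    rw [kids_nil hd]
    simp only [Finset.sum_empty, mul_zero]
    positivity
  | cons c0 l =>
    obtain ⟨h2, h3, -, h4⟩ := inner_facts hc hpos hsum hv hd
    rw [kids_inner hd]
    have hbd := node_bounds rhoP_one rhoP_mono_right hbound_rhoP (r := r) (c := c) hpos hsum hv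
    have hAv := hbd.1
    rw [Aat_inner hd] at hAv
    have hI := Ihat_ne_zero_of_Aval hAv
    have hk : l.length + 1 ≤ c.length := by
      have h5 := congrArg List.length hd
      simp only [List.length_drop, List.length_cons] at h5
      omega
    have hWO : WOK m (l.length + 1) W := q_WOK_of_B hε0 hε1 hWB hk
    have h6 := q_node_main (P := P) hm h2 h3 h4 hI hWO
    have h7 : ∑ x ∈ lev (res r v) c0, |downQ W hm P r c v x - downAt P (solW W) r c v x|
        = (1 / 8) * ∑ x ∈ lev (res r v) c0, |trialI W hm P (res r v) c0 l.get x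
          - (trialM P (res r v) c0 l.get (solW W (res r v) c0 l) x).toReal| := by
      rw [Finset.mul_sum]
      refine Finset.sum_congr rfl fun x _ => ?_
      rw [q_downQ_inner hd, downAt_inner hd, ← mul_sub, abs_mul]
      norm_num
    rw [h7]
    have h8 : (0 : ℝ) ≤ 1 / 8 := by norm_num
    nlinarith [mul_le_mul_of_nonneg_left h6 h8]

section

variable {W Tm Kb Nb' B : ℕ} {P : Par}

/-- The step from a node. -/
theorem step_mem (hS : SizeOK W Tm Kb Nb') (hm : 0 < m) (hc : ∀ y ∈ c, 0 < y)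
    (hsum : ∑ i, r i = c.sum) (hNb : ∑ i, r i ≤ Nb') :
    ∀ x ∈ (nodes (kids r c) c.length).image (encNode c.length), ∀ ω ∈ Cube (StepW c.length m W),
      walkStepR W Tm Kb P hm (fun i => (r i : ℝ)) (wireL c) x ω
        ∈ (nodes (kids r c) c.length).image (encNode c.length) := by
  classical
  intro x hx ω hω
  obtain ⟨v, hv, rfl⟩ := Finset.mem_image.1 hx
  obtain ⟨w, hw, h⟩ := walkStepR_mem hS hm hc hsum hNb hv ω hω
  rw [h]
  exact Finset.mem_image_of_mem _ hw

/-- The kernel of a step is a Markov kernel on the nodes. -/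
theorem walkKer_markov' (hPd : P.d = 1 / (B : ℝ) ^ 26) (hPcs : P.cs = B ^ 28)
    (hS : SizeOK W Tm Kb Nb') (hm : 0 < m) (hc : ∀ y ∈ c, 0 < y)
    (hsum : ∑ i, r i = c.sum) (hNb : ∑ i, r i ≤ Nb') {v : List (Fin m → ℕ)}
    (hv : v ∈ nodes (kids r c) c.length) :
    (∀ w, 0 ≤ walkKer W Tm Kb P hm r c v w)
      ∧ ∑ w ∈ nodes (kids r c) c.length, walkKer W Tm Kb P hm r c v w = 1 := by
  classical
  refine ⟨fun w => Pr_nonneg _, ?_⟩
  have hmeas := measurable_step (W := W) (Tm := Tm) (Kb := Kb) hPd hPcs hm (fun i => (r i : ℝ)) (wireL c)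
  have hX : Measurable fun ω => walkStepR W Tm Kb P hm (fun i => (r i : ℝ)) (wireL c)
      (encNode c.length v) ω :=
    hmeas.comp (f := fun ω => (encNode c.length v, ω)) (measurable_const.prodMk measurable_id)
  have h := Pr_total (fun ω => walkStepR W Tm Kb P hm (fun i => (r i : ℝ)) (wireL c)
      (encNode c.length v) ω) ((nodes (kids r c) c.length).image (encNode c.length))
      (fun y _ => hX (measurableSet_singleton y))
      (fun ω hω => step_mem hS hm hc hsum hNb _ (Finset.mem_image_of_mem _ hv) ω hω)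
  rw [Finset.sum_image] at h
  · exact h
  · intro a ha b hb hab
    exact encNode_injective hc (Finset.mem_coe.1 ha) (Finset.mem_coe.1 hb) hab

/-- The law of one run. -/
theorem Pr_run (hPd : P.d = 1 / (B : ℝ) ^ 26) (hPcs : P.cs = B ^ 28)
    (hS : SizeOK W Tm Kb Nb') (hm : 0 < m) (hc : ∀ y ∈ c, 0 < y)
    (hsum : ∑ i, r i = c.sum) (hNb : ∑ i, r i ≤ Nb') (T : ℕ) {w : List (Fin m → ℕ)}
    (hw : w ∈ nodes (kids r c) c.length) :
    Pr (fun ω : Fin T × StepW c.length m W → ℝ =>
        runSeq (walkStepR W Tm Kb P hm (fun i => (r i : ℝ)) (wireL c)) (fun _ => 0) T ω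
          = encNode c.length w)
      = lawT (nodes (kids r c) c.length) (walkKer W Tm Kb P hm r c) T w := by
  classical
  have hnil : ([] : List (Fin m → ℕ)) ∈ nodes (kids r c) c.length := nil_mem_nodes
  induction T generalizing w with
  | zero =>
    rw [Pr_runSeq_zero]
    simp only [lawT]
    by_cases h : w = []
    · subst h
      simp [encNode_nil']
    · have h2 : encNode (m := m) c.length w ≠ fun _ => 0 := by
        intro h3
        rw [← encNode_nil' (m := m) (k := c.length)] at h3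
        exact h (encNode_injective hc hw hnil h3)
      simp [h, h2]
  | succ T ih =>
    have hmeas := measurable_step (W := W) (Tm := Tm) (Kb := Kb) hPd hPcs hm (fun i => (r i : ℝ)) (wireL c)
    have h0 : (fun _ => 0) ∈ (nodes (kids r c) c.length).image (encNode (m := m) c.length) := by
      rw [← encNode_nil' (m := m) (k := c.length)]
      exact Finset.mem_image_of_mem _ hnil
    rw [Pr_runSeq hmeas h0 (step_mem hS hm hc hsum hNb) T (encNode c.length w), Finset.sum_image]
    · simp only [lawT]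
      refine Finset.sum_congr rfl fun v hv => ?_
      rw [ih hv]
      rfl
    · intro a ha b hb hab
      exact encNode_injective hc (Finset.mem_coe.1 ha) (Finset.mem_coe.1 hb) hab

theorem depthCount_top {R : ℕ} {ys : Fin R → List (Fin m → ℕ)}
    (hy : ys ∈ Fintype.piFinset fun _ : Fin R => nodes (kids r c) c.length) :
    depthCount (fun b => encNode c.length (ys b)) (c.length : ℝ)
      = (countIn (lvl (kids r c) c.length) ys : ℝ) := by
  classical
  unfold depthCount countIn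
  rw [Finset.card_filter]
  push_cast
  refine Finset.sum_congr rfl fun b _ => ?_
  have hb := mem_nodes.1 (Fintype.mem_piFinset.1 hy b)
  have h1 : encNode (m := m) c.length (ys b) (Sum.inl ()) = ((ys b).length : ℝ) := rfl
  refine if_congr ?_ rfl rfl
  show encNode (m := m) c.length (ys b) (Sum.inl ()) = _ ↔ _
  rw [h1, Nat.cast_inj]
  constructor
  · intro h
    have := hb.2
    rwa [h] at this
  · exact mem_lvl_length

theorem depthCount_root {R : ℕ} (ys : Fin R → List (Fin m → ℕ)) :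
    depthCount (fun b => encNode c.length (ys b)) 0
      = (countIn {[]} ys : ℝ) := by
  classical
  unfold depthCount countIn
  rw [Finset.card_filter]
  push_cast
  refine Finset.sum_congr rfl fun b _ => ?_
  have h1 : encNode (m := m) c.length (ys b) (Sum.inl ()) = ((ys b).length : ℝ) := rfl
  refine if_congr ?_ rfl rfl
  show encNode (m := m) c.length (ys b) (Sum.inl ()) = _ ↔ _
  rw [h1, Nat.cast_eq_zero, List.length_eq_zero_iff, Finset.mem_singleton]

open Classical in
/-- The probability of an event of the two counts is `runProb`. -/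
theorem Pr_runStates' {T R : ℕ} (hPd : P.d = 1 / (B : ℝ) ^ 26) (hPcs : P.cs = B ^ 28)
    (hS : SizeOK W Tm Kb Nb') (hm : 0 < m) (hc : ∀ y ∈ c, 0 < y)
    (hsum : ∑ i, r i = c.sum) (hNb : ∑ i, r i ≤ Nb') (G : ℝ → ℝ → Prop) :
    Pr (fun ω : Fin R × (Fin T × StepW c.length m W) → ℝ =>
        G (depthCount (runStates W Tm Kb T R P hm (fun i => (r i : ℝ)) (wireL c) ω) (c.length : ℝ))
          (depthCount (runStates W Tm Kb T R P hm (fun i => (r i : ℝ)) (wireL c) ω) 0))
      = runProb (nodes (kids r c) c.length) (lawT (nodes (kids r c) c.length) (walkKer W Tm Kb P hm r c) T) R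
          fun y => G (countIn (lvl (kids r c) c.length) y : ℝ) (countIn {[]} y : ℝ) := by
  have hmeas := measurable_step (W := W) (Tm := Tm) (Kb := Kb) hPd hPcs hm (fun i => (r i : ℝ)) (wireL c)
  have hnil : ([] : List (Fin m → ℕ)) ∈ nodes (kids r c) c.length := nil_mem_nodes
  have h0 : (fun _ => 0) ∈ (nodes (kids r c) c.length).image (encNode (m := m) c.length) := by
    rw [← encNode_nil' (m := m) (k := c.length)]
    exact Finset.mem_image_of_mem _ hnil
  have hb := Pr_blocks (I := Fin R) (Ω := Fin T × StepW c.length m W) (α := NodeW c.length m → ℝ)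
    (fun _ => runSeq (walkStepR W Tm Kb P hm (fun i => (r i : ℝ)) (wireL c)) (fun _ => 0) T)
    (fun _ => (nodes (kids r c) c.length).image (encNode (m := m) c.length))
    (fun _ ω hω => runSeq_mem h0 (step_mem hS hm hc hsum hNb) T ω hω)
    (fun _ y _ => (measurable_runSeq hmeas _ T) (measurableSet_singleton y))
    (fun st => G (depthCount st (c.length : ℝ)) (depthCount st 0))
  refine Eq.trans hb ?_
  unfold runProb
  rw [Fintype.piFinset_image, Finset.sum_image]
  · refine Finset.sum_congr rfl fun ys hys => ?_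
    congr 1
    · refine Finset.prod_congr rfl fun b _ => ?_
      exact Pr_run hPd hPcs hS hm hc hsum hNb T (Fintype.mem_piFinset.1 hys b)
    · rw [depthCount_top hys, depthCount_root]
  · intro a ha b hb' hab
    funext i
    exact encNode_injective hc (Fintype.mem_piFinset.1 (Finset.mem_coe.1 ha) i)
      (Fintype.mem_piFinset.1 (Finset.mem_coe.1 hb') i) (congrFun hab i)

theorem num_runs {W : ℕ} {B : ℝ} {m : ℕ} (hB : 10 ^ 8 ≤ B) (hmB : (m : ℝ) + 1 ≤ B) (hBW : B ≤ W) :
    ((m : ℝ) + 2) / (W : ℝ) ^ 29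
        + 2 * ((1 / 8) * (20 / (W : ℝ) ^ 24 + (2 / (W : ℝ) ^ 30 + 2 * (2 / (W : ℝ) ^ 25))))
      ≤ 1 / B ^ 22 := by
  have hW8 : (10 : ℝ) ^ 8 ≤ W := hB.trans hBW
  have hW1 : (1 : ℝ) ≤ W := by linarith [show (1 : ℝ) ≤ 10 ^ 8 by norm_num]
  have hW0 : (0 : ℝ) < W := by linarith
  have hB0 : 0 < B := by linarith [show (0 : ℝ) < 10 ^ 8 by norm_num]
  have h1 : 1 / (W : ℝ) ^ 30 ≤ 1 / (W : ℝ) ^ 24 :=
    one_div_le_one_div_of_le (by positivity) (pow_le_pow_right₀ hW1 (by norm_num))
  have h2 : 1 / (W : ℝ) ^ 25 ≤ 1 / (W : ℝ) ^ 24 :=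
    one_div_le_one_div_of_le (by positivity) (pow_le_pow_right₀ hW1 (by norm_num))
  have h3 : 8 / (W : ℝ) ^ 24 ≤ 1 / (W : ℝ) ^ 22 := by
    rw [div_le_div_iff₀ (by positivity) (by positivity)]
    have h4 : (W : ℝ) ^ 24 = (W : ℝ) ^ 22 * (W : ℝ) ^ 2 := by ring
    rw [h4]
    have h5 : (8 : ℝ) ≤ (W : ℝ) ^ 2 := by nlinarith [show (8 : ℝ) ≤ 10 ^ 8 by norm_num]
    have h6 : (0 : ℝ) ≤ (W : ℝ) ^ 22 := by positivity
    nlinarith
  have h4 : 1 / (W : ℝ) ^ 22 ≤ 1 / B ^ 22 :=
    one_div_le_one_div_of_le (by positivity) (pow_le_pow_left₀ hB0.le hBW 22)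
  refine le_trans ?_ (h3.trans h4)
  have hm2 : ((m : ℝ) + 2) / (W : ℝ) ^ 29 ≤ 1 / (W : ℝ) ^ 24 := by
    rw [div_le_div_iff₀ (by positivity) (by positivity)]
    have e : (W : ℝ) ^ 29 = (W : ℝ) ^ 24 * (W : ℝ) ^ 5 := by ring
    rw [e]
    have h5 : (m : ℝ) + 2 ≤ (W : ℝ) ^ 5 := by
      have h6 : (m : ℝ) + 2 ≤ (W : ℝ) * 2 := by linarith
      have h7 : (W : ℝ) * 2 ≤ (W : ℝ) ^ 5 := by
        have h8 : (2 : ℝ) ≤ (W : ℝ) ^ 4 := by
          have : (W : ℝ) ≤ (W : ℝ) ^ 4 := le_self_pow₀ hW1 (by norm_num)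
          linarith [show (2 : ℝ) ≤ 10 ^ 8 by norm_num]
        calc (W : ℝ) * 2 ≤ (W : ℝ) * (W : ℝ) ^ 4 := by gcongr
          _ = (W : ℝ) ^ 5 := by ring
      linarith
    have h6 : (0 : ℝ) ≤ (W : ℝ) ^ 24 := by positivity
    nlinarith
  have e1 : 20 / (W : ℝ) ^ 24 = 20 * (1 / (W : ℝ) ^ 24) := by ring
  have e2 : 2 / (W : ℝ) ^ 30 = 2 * (1 / (W : ℝ) ^ 30) := by ring
  have e3 : 2 / (W : ℝ) ^ 25 = 2 * (1 / (W : ℝ) ^ 25) := by ring
  have e4 : 8 / (W : ℝ) ^ 24 = 8 * (1 / (W : ℝ) ^ 24) := by ring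
  rw [e1, e2, e3, e4]
  have h0 : 0 < 1 / (W : ℝ) ^ 24 := by positivity
  nlinarith

/-- **The second stage.** -/
theorem runs_close' {ε δ : ℝ} (hPd : (parOf m c.length (rhoP m c.length) ε).d = 1 / (B : ℝ) ^ 26)
    (hPcs : (parOf m c.length (rhoP m c.length) ε).cs = B ^ 28)
    (hS : SizeOK W Tm Kb Nb') (hm : 0 < m) (hc : c.Pairwise (· ≤ ·))
    (hpos : ∀ y ∈ c, 0 < y) (hsum : ∑ i, r i = c.sum) (hNb : ∑ i, r i ≤ Nb') (hε0 : 0 < ε) (hε1 : ε ≤ 1)
    (hδ0 : 0 < δ) (hδ1 : δ ≤ 1) (hWB : Bpar m c.length (rhoP m c.length) ε ≤ W) {Ahat : ℝ}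
    (hAhat : |Ahat - Aval r c.get| ≤ ε / 4 * Aval r c.get) :
    1 - δ ≤ Pr (fun ω : Fin (runsOf m c.length (rhoP m c.length) ε δ)
          × (Fin (stepsOf m c.length (rhoP m c.length) ε) × StepW c.length m W) → ℝ =>
        (1 - ε) * ((tabs r c.get).card : ℝ)
            ≤ Ahat * depthCount (runStates W Tm Kb _ _ (parOf m c.length (rhoP m c.length) ε) hm
                (fun i => (r i : ℝ)) (wireL c) ω) (c.length : ℝ)
              / depthCount (runStates W Tm Kb _ _ (parOf m c.length (rhoP m c.length) ε) hm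
                (fun i => (r i : ℝ)) (wireL c) ω) 0
          ∧ Ahat * depthCount (runStates W Tm Kb _ _ (parOf m c.length (rhoP m c.length) ε) hm
                (fun i => (r i : ℝ)) (wireL c) ω) (c.length : ℝ)
              / depthCount (runStates W Tm Kb _ _ (parOf m c.length (rhoP m c.length) ε) hm
                (fun i => (r i : ℝ)) (wireL c) ω) 0
            ≤ (1 + ε) * ((tabs r c.get).card : ℝ)) := by
  classical
  set P := parOf m c.length (rhoP m c.length) ε with hP
  have hcpos : ∀ y ∈ c, 0 < y := hpos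
  have hOK := parOK (m := m) (n := c.length) hm (rhoP_one m c.length) hε0 hε1
  have hrate : ∀ v ∈ nodes (kids r c) c.length, rateAt P r c v ≤ 1 := fun v hv =>
    (rateAt_bounds hOK hc hpos hsum hv).2.trans (by norm_num)
  have hPd0 : 0 ≤ P.d := by
    rw [hPd]; positivity
  obtain ⟨hB8, hmB, -, -, -⟩ := B_facts (m := m) (n := c.length) (rhoP_one m c.length) hε0 hε1
  have hQ : ∀ v ∈ nodes (kids r c) c.length, ∑ w ∈ nodes (kids r c) c.length,
      |walkKer W Tm Kb P hm r c v w - algWalk P (solW W) r c v w|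
        ≤ 1 / Bpar m c.length (rhoP m c.length) ε ^ 22 := by
    intro v hv
    have h1 := walkKer_close hS hPd0 hm hpos hsum hNb hrate hv
    have h2 := walkQ_close_sharp' hm hc hpos hsum hε0 hε1 hWB hv
    refine le_trans ?_ (num_runs hB8 hmB hWB)
    refine le_trans (Finset.sum_le_sum fun w _ => abs_sub_le _ (walkQ W hm P r c v w) _) ?_
    rw [Finset.sum_add_distrib]
    exact add_le_add h1 h2
  have hmain := fpras_robust rhoP_one rhoP_mono_right hbound_rhoP hm r c hc hpos hsum hε0 hε1 hδ0 hδ1 hAhat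
    (solW_isSolver W) (Q := walkKer W Tm Kb P hm r c)
    (fun v hv => (walkKer_markov' hPd hPcs hS hm hpos hsum hNb hv).1)
    (fun v hv => (walkKer_markov' hPd hPcs hS hm hpos hsum hNb hv).2) hQ
  refine hmain.trans (le_of_eq ?_)
  have h := Pr_runStates' (T := stepsOf m c.length (rhoP m c.length) ε)
    (R := runsOf m c.length (rhoP m c.length) ε δ) hPd hPcs hS hm hpos hsum hNb
    (fun a b => (1 - ε) * ((tabs r c.get).card : ℝ) ≤ Ahat * a / b
      ∧ Ahat * a / b ≤ (1 + ε) * ((tabs r c.get).card : ℝ))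
  refine Eq.trans ?_ h.symm
  congr

end

end

end RunsAux

theorem encNode_nil : encNode (m := m) k [] = fun _ => 0 := RunsAux.encNode_nil'

section

variable {r : Fin m → ℕ} {c : List ℕ}

/-- The sharper form of `walkQ_close`. -/
theorem walkQ_close_sharp (hm : 0 < m) (hc : c.Pairwise (· ≤ ·)) (hpos : ∀ y ∈ c, 0 < y)
    (hsum : ∑ i, r i = c.sum) {ε : ℝ} (hε0 : 0 < ε) (hε1 : ε ≤ 1) {W : ℕ}
    (hWB : Bpar m c.length (rhoP m c.length) ε ≤ W) {v : List (Fin m → ℕ)}
    (hv : v ∈ nodes (kids r c) c.length) :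
    ∑ w ∈ nodes (kids r c) c.length,
      |walkQ W hm (parOf m c.length (rhoP m c.length) ε) r c v w
        - algWalk (parOf m c.length (rhoP m c.length) ε) (solW W) r c v w|
      ≤ 2 * ((1 / 8) * (20 / (W : ℝ) ^ 24 + (2 / (W : ℝ) ^ 30 + 2 * (2 / (W : ℝ) ^ 25)))) :=
  RunsAux.walkQ_close_sharp' hm hc hpos hsum hε0 hε1 hWB hv

/-- The kernel of a step is a Markov kernel on the nodes, for the parameters of a run (`P.d`, `P.cs` as
for `walkStepR_cost`: this gives the measurability). -/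
theorem walkKer_markov {W Tm Kb Nb' B : ℕ} {P : Par} (hPd : P.d = 1 / (B : ℝ) ^ 26) (hPcs : P.cs = B ^ 28)
    (hS : SizeOK W Tm Kb Nb') (hm : 0 < m) (hc : ∀ y ∈ c, 0 < y)
    (hsum : ∑ i, r i = c.sum) (hNb : ∑ i, r i ≤ Nb') {v : List (Fin m → ℕ)}
    (hv : v ∈ nodes (kids r c) c.length) :
    (∀ w, 0 ≤ walkKer W Tm Kb P hm r c v w)
      ∧ ∑ w ∈ nodes (kids r c) c.length, walkKer W Tm Kb P hm r c v w = 1 :=
  RunsAux.walkKer_markov' hPd hPcs hS hm hc hsum hNb hv

open Classical in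
/-- The probability of an event of the two counts is `runProb`. -/
theorem Pr_runStates {W Tm Kb Nb' T R B : ℕ} {P : Par} (hPd : P.d = 1 / (B : ℝ) ^ 26) (hPcs : P.cs = B ^ 28)
    (hS : SizeOK W Tm Kb Nb') (hm : 0 < m) (hc : ∀ y ∈ c, 0 < y)
    (hsum : ∑ i, r i = c.sum) (hNb : ∑ i, r i ≤ Nb') (G : ℝ → ℝ → Prop) :
    Pr (fun ω : Fin R × (Fin T × StepW c.length m W) → ℝ =>
        G (depthCount (runStates W Tm Kb T R P hm (fun i => (r i : ℝ)) (wireL c) ω) (c.length : ℝ))
          (depthCount (runStates W Tm Kb T R P hm (fun i => (r i : ℝ)) (wireL c) ω) 0))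
      = runProb (nodes (kids r c) c.length) (lawT (nodes (kids r c) c.length) (walkKer W Tm Kb P hm r c) T) R
          fun y => G (countIn (lvl (kids r c) c.length) y : ℝ) (countIn {[]} y : ℝ) :=
  RunsAux.Pr_runStates' hPd hPcs hS hm hc hsum hNb G

/-- **The second stage.** The parameters of the run are given by a natural number `B`. -/
theorem runs_close {W Tm Kb Nb' B : ℕ} {ε δ : ℝ}
    (hPd : (parOf m c.length (rhoP m c.length) ε).d = 1 / (B : ℝ) ^ 26)
    (hPcs : (parOf m c.length (rhoP m c.length) ε).cs = B ^ 28)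
    (hS : SizeOK W Tm Kb Nb') (hm : 0 < m) (hc : c.Pairwise (· ≤ ·))
    (hpos : ∀ y ∈ c, 0 < y) (hsum : ∑ i, r i = c.sum) (hNb : ∑ i, r i ≤ Nb') (hε0 : 0 < ε) (hε1 : ε ≤ 1)
    (hδ0 : 0 < δ) (hδ1 : δ ≤ 1) (hWB : Bpar m c.length (rhoP m c.length) ε ≤ W) {Ahat : ℝ}
    (hAhat : |Ahat - Aval r c.get| ≤ ε / 4 * Aval r c.get) :
    1 - δ ≤ Pr (fun ω : Fin (runsOf m c.length (rhoP m c.length) ε δ)
          × (Fin (stepsOf m c.length (rhoP m c.length) ε) × StepW c.length m W) → ℝ =>
        (1 - ε) * ((tabs r c.get).card : ℝ)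
            ≤ Ahat * depthCount (runStates W Tm Kb _ _ (parOf m c.length (rhoP m c.length) ε) hm
                (fun i => (r i : ℝ)) (wireL c) ω) (c.length : ℝ)
              / depthCount (runStates W Tm Kb _ _ (parOf m c.length (rhoP m c.length) ε) hm
                (fun i => (r i : ℝ)) (wireL c) ω) 0
          ∧ Ahat * depthCount (runStates W Tm Kb _ _ (parOf m c.length (rhoP m c.length) ε) hm
                (fun i => (r i : ℝ)) (wireL c) ω) (c.length : ℝ)
              / depthCount (runStates W Tm Kb _ _ (parOf m c.length (rhoP m c.length) ε) hm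
                (fun i => (r i : ℝ)) (wireL c) ω) 0
            ≤ (1 + ε) * ((tabs r c.get).card : ℝ)) :=
  RunsAux.runs_close' hPd hPcs hS hm hc hpos hsum hNb hε0 hε1 hδ0 hδ1 hWB hAhat

/-- The final state of a run is a circuit, `T ≤ X ^ 20`. -/
theorem runStates_cost : ∃ e, ∀ {m k X W Tm Kb B T R : ℕ} {ι : Type} (_ : 1000 ≤ X) (_ : m ≤ X) (_ : k + 1 ≤ X)
    (_ : W ≤ X) (_ : Tm ≤ X ^ 4) (_ : Kb ≤ X) (_ : B ≤ X) (_ : T ≤ X ^ 20) (_ : R ≤ X ^ 4) (P : Par)
    (_ : P.d = 1 / (B : ℝ) ^ 26) (_ : P.cs = B ^ 28) (hm : 0 < m) (Rw : Fin m → ι) (L : Fin k → ι)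
    (Ωw : Fin R × (Fin T × StepW k m W) → ι) (Dw : ι),
    P1 X e (fun x => depthCount (runStates W Tm Kb T R P hm (fun i => x (Rw i)) (fun j => x (L j))
      fun a => x (Ωw a)) (x Dw)) := by
  classical
  obtain ⟨e0, h0⟩ := walkStepR_cost
  refine ⟨?e, fun {m k X W Tm Kb B T R ι} hX hm' hk hW hTm hKb hB hT hR P hd hcs hm Rw L Ωw Dw => ?_⟩
  swap
  have hcard : Fintype.card (NodeW k m) ≤ X ^ 2 := by
    simp only [Fintype.card_sum, Fintype.card_unit, Fintype.card_prod, Fintype.card_fin]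
    nlinarith
  have hstep : PC X (2 + e0) (fun y : (ι ⊕ (NodeW k m ⊕ StepW k m W)) → ℝ =>
      walkStepR W Tm Kb P hm (fun i => y (Sum.inl (Rw i))) (fun j => y (Sum.inl (L j)))
        (fun a => y (Sum.inr (Sum.inl a))) fun a => y (Sum.inr (Sum.inr a))) :=
    PC.pi hcard fun a => h0 hX hm' hk hW hTm hKb hB P hd hcs hm _ _ _ _ a
  have hinit : PC X (2 + 3) (fun (_ : ι → ℝ) (_ : NodeW k m) => (0 : ℝ)) :=
    PC.pi hcard fun _ => P1.zero
  have hrun := PC.runSeq (P := ι) (κ := NodeW k m) (Ω := StepW k m W)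
    (stepF := fun y z w => walkStepR W Tm Kb P hm (fun i => y (Rw i)) (fun j => y (L j)) z w)
    (init := fun _ _ => 0) (T := T) (d := 20) hstep hinit hT
  have hb : ∀ b : Fin R, P1 X _ (fun x : ι → ℝ =>
      runStates W Tm Kb T R P hm (fun i => x (Rw i)) (fun j => x (L j)) (fun a => x (Ωw a)) b (Sum.inl ())) :=
    fun b => (hrun.rewire (ι := ι) (Sum.elim id fun a => Ωw (b, a))).reout (μ := Unit) (fun _ => Sum.inl ())
  have hcardR : (Finset.univ : Finset (Fin R)).card ≤ X ^ 4 := by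
    simpa using hR
  exact (P1.sum (F := fun (b : Fin R) (x : ι → ℝ) =>
      if runStates W Tm Kb T R P hm (fun i => x (Rw i)) (fun j => x (L j)) (fun a => x (Ωw a)) b (Sum.inl ()) = x Dw
      then 1 else 0) Finset.univ hcardR
    fun b _ => P1.iteEq (hb b) (P1.var Dw) P1.one P1.zero).congr fun x => rfl

end

end Vale.Agent.Lib.P328.RAM
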