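import Vale.Agent.Lib.P328.RAM.RunCost
import Vale.Agent.Lib.P328.Fpras.SortCols

/-!
# P328: sorting wires (module O)

`rankW c j` is the number of wires before `j` in the order by value, ties by index. `sortWires c l` is the
value of the wire with rank `l`. On natural wires, the last `k` outputs are `sortedCols c`, where `k`
is the number of positive wires `numPos c`.
Proof: `rankW` is a bijection (a strict total order on the pairs `(c j, j)`), so `l ↦ sortWires c l` is monotone and
a permutation of `c`. Filter the positive ones: a sorted permutation of `(List.ofFn c).filter (0 < ·)`; sorted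
permutations are equal (`List.eq_of_perm_of_sorted`, `sortedCols_perm`).
-/

namespace Vale.Agent.Lib.P328.RAM

open Finset Vale.Agent.Lib.P328.Cap Vale.Agent.Lib.P328.Fpras

variable {n : ℕ}

/-- The rank of a wire. -/
noncomputable def rankW (c : Fin n → ℝ) (j : Fin n) : ℝ :=
  ∑ i : Fin n, if c i < c j then 1 else if c i = c j ∧ i < j then 1 else 0

/-- The value with rank `l`. -/
noncomputable def sortWires (c : Fin n → ℝ) (l : Fin n) : ℝ :=
  ∑ j : Fin n, if rankW c j = ((l : ℕ) : ℝ) then c j else 0

/-- The number of positive wires. -/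
noncomputable def numPos (c : Fin n → ℝ) : ℝ := ∑ j : Fin n, if 0 < c j then 1 else 0

namespace SortWAux

/-- The lexicographic key of a wire. -/
noncomputable def key (c : Fin n → ℝ) (j : Fin n) : ℝ ×ₗ Fin n := toLex (c j, j)

/-- The sorting permutation. -/
noncomputable def perm (c : Fin n → ℝ) : Equiv.Perm (Fin n) := Tuple.sort (key c)

theorem key_injective (c : Fin n → ℝ) : Function.Injective (key c) := by
  intro i j h
  have h2 : (c i, i) = (c j, j) := toLex.injective h
  exact (Prod.mk.inj h2).2

theorem key_perm_strictMono (c : Fin n → ℝ) : StrictMono (key c ∘ perm c) :=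
  (Tuple.monotone_sort (key c)).strictMono_of_injective
    ((key_injective c).comp (Equiv.injective _))

theorem key_lt_iff (c : Fin n → ℝ) (i j : Fin n) :
    key c i < key c j ↔ (c i < c j ∨ (c i = c j ∧ i < j)) := by
  unfold key
  rw [Prod.Lex.toLex_lt_toLex]

theorem rankW_eq (c : Fin n → ℝ) (j : Fin n) :
    rankW c j = ∑ i : Fin n, if key c i < key c j then (1 : ℝ) else 0 := by
  unfold rankW
  refine Finset.sum_congr rfl fun i _ => ?_
  by_cases h1 : c i < c j
  · rw [if_pos h1, if_pos ((key_lt_iff c i j).2 (Or.inl h1))]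
  · rw [if_neg h1]
    by_cases h2 : c i = c j ∧ i < j
    · rw [if_pos h2, if_pos ((key_lt_iff c i j).2 (Or.inr h2))]
    · rw [if_neg h2, if_neg]
      intro h3
      rcases (key_lt_iff c i j).1 h3 with h4 | h4
      · exact h1 h4
      · exact h2 h4

theorem rankW_perm (c : Fin n → ℝ) (l : Fin n) : rankW c (perm c l) = ((l : ℕ) : ℝ) := by
  rw [rankW_eq]
  rw [← Equiv.sum_comp (perm c)]
  have h : ∀ k : Fin n, (if key c (perm c k) < key c (perm c l) then (1 : ℝ) else 0)
      = if k < l then (1 : ℝ) else 0 := by
    intro k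
    have := (key_perm_strictMono c).lt_iff_lt (a := k) (b := l)
    simp only [Function.comp_apply] at this
    simp only [this]
  simp only [h]
  rw [Finset.sum_boole]
  have h2 : (Finset.univ.filter (fun k : Fin n => k < l)) = Finset.Iio l := by
    ext k
    simp
  rw [h2, Fin.card_Iio]

theorem sortWires_eq (c : Fin n → ℝ) (l : Fin n) : sortWires c l = c (perm c l) := by
  unfold sortWires
  rw [Finset.sum_eq_single (perm c l)]
  · rw [if_pos (rankW_perm c l)]
  · intro j _ hne
    rw [if_neg]
    intro h
    apply hne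
    have h1 : j = perm c ((perm c).symm j) := by simp
    rw [h1] at h
    rw [rankW_perm] at h
    have h2 : ((perm c).symm j : ℕ) = (l : ℕ) := by exact_mod_cast h
    have h3 : (perm c).symm j = l := Fin.ext h2
    rw [← h3]
    simp
  · simp

theorem perm_mono (c : Fin n → ℝ) {k l : Fin n} (h : k ≤ l) : c (perm c k) ≤ c (perm c l) := by
  have h1 := (key_perm_strictMono c).monotone h
  simp only [Function.comp_apply] at h1
  unfold key at h1
  rw [Prod.Lex.toLex_le_toLex] at h1
  rcases h1 with h2 | h2
  · exact h2.le
  · exact h2.1.le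

theorem length_filter_ofFn : ∀ {n : ℕ} (c : Fin n → ℕ),
    (((List.ofFn c).filter (0 < ·)).length : ℝ) = ∑ j : Fin n, if 0 < c j then (1 : ℝ) else 0 := by
  intro n
  induction n with
  | zero => intro c; simp
  | succ n ih =>
    intro c
    rw [List.ofFn_succ, Fin.sum_univ_succ, List.filter_cons]
    have := ih (fun j => c j.succ)
    by_cases h : 0 < c 0
    · simp only [h, decide_true, if_true, List.length_cons]
      push_cast
      rw [this]
      ring
    · simp only [h, decide_false, if_false, zero_add, Bool.false_eq_true]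
      exact this

/-- In a sorted list, the positive entries are the last ones. -/
theorem filter_eq_drop : ∀ l : List ℕ, l.Pairwise (· ≤ ·) →
    l.filter (0 < ·) = l.drop (l.length - (l.filter (0 < ·)).length) := by
  intro l
  induction l with
  | nil => intro _; simp
  | cons a t ih =>
    intro hs
    rw [List.pairwise_cons] at hs
    by_cases ha : 0 < a
    · have hall : ∀ b ∈ t, 0 < b := fun b hb => lt_of_lt_of_le ha (hs.1 b hb)
      have hf : t.filter (0 < ·) = t := List.filter_eq_self.2 (by simpa using hall)
      have hf2 : (a :: t).filter (0 < ·) = a :: t := by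
        rw [List.filter_cons]
        simp [ha, hf]
      rw [hf2]
      simp
    · have hf2 : (a :: t).filter (0 < ·) = t.filter (0 < ·) := by
        rw [List.filter_cons]
        simp [ha]
      rw [hf2]
      have hle : (t.filter (0 < ·)).length ≤ t.length := List.length_filter_le _ _
      have e : (a :: t).length - (t.filter (0 < ·)).length
          = (t.length - (t.filter (0 < ·)).length) + 1 := by
        simp only [List.length_cons]
        omega
      rw [e, List.drop_succ_cons]
      exact ih hs.2

/-- The sorted natural wires as a function. -/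
noncomputable def gw (c : Fin n → ℕ) (l : Fin n) : ℕ :=
  c (perm (fun j => (c j : ℝ)) l)

theorem gw_mono (c : Fin n → ℕ) {k l : Fin n} (h : k ≤ l) : gw c k ≤ gw c l := by
  have := perm_mono (fun j => (c j : ℝ)) h
  exact_mod_cast this

theorem ofFn_gw_pairwise (c : Fin n → ℕ) : (List.ofFn (gw c)).Pairwise (· ≤ ·) := by
  rw [List.pairwise_ofFn]
  intro i j h
  exact gw_mono c h.le

theorem ofFn_gw_perm (c : Fin n → ℕ) : (List.ofFn (gw c)).Perm (List.ofFn c) :=
  Equiv.Perm.ofFn_comp_perm (perm (fun j => (c j : ℝ))) c

theorem sortedCols_eq (c : Fin n → ℕ) : sortedCols c = (List.ofFn (gw c)).filter (0 < ·) := by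
  have h1 : (sortedCols c).Perm ((List.ofFn (gw c)).filter (0 < ·)) :=
    (sortedCols_perm c).trans ((ofFn_gw_perm c).filter _).symm
  have h2 : (sortedCols c).Pairwise (· ≤ ·) := List.pairwise_insertionSort _ _
  have h3 : ((List.ofFn (gw c)).filter (0 < ·)).Pairwise (· ≤ ·) :=
    (ofFn_gw_pairwise c).filter _
  exact h1.eq_of_pairwise' h2 h3

end SortWAux

open SortWAux

theorem numPos_eq (c : Fin n → ℕ) : numPos (fun j => (c j : ℝ)) = ((sortedCols c).length : ℝ) := by
  rw [(sortedCols_perm c).length_eq, length_filter_ofFn]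
  unfold numPos
  refine Finset.sum_congr rfl fun j _ => ?_
  simp only [Nat.cast_pos]

/-- The last outputs are the sorted positive columns. -/
theorem sortWires_spec (c : Fin n → ℕ) (j : Fin (sortedCols c).length) (hj : n - (sortedCols c).length + j < n) :
    sortWires (fun j => (c j : ℝ)) ⟨n - (sortedCols c).length + j, hj⟩ = ((sortedCols c).get j : ℝ) := by
  rw [sortWires_eq]
  have hd := filter_eq_drop (List.ofFn (gw c)) (ofFn_gw_pairwise c)
  rw [← sortedCols_eq, List.length_ofFn] at hd
  have hget : (sortedCols c).get j = gw c ⟨n - (sortedCols c).length + j, hj⟩ := by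
    have h1 : (sortedCols c)[(j : ℕ)] = gw c ⟨n - (sortedCols c).length + j, hj⟩ := by
      have h2 : (sortedCols c)[(j : ℕ)]
          = ((List.ofFn (gw c)).drop (n - (sortedCols c).length))[(j : ℕ)]'(by
              rw [← hd]; exact j.2) := by
        congr 1
      rw [h2, List.getElem_drop, List.getElem_ofFn]
    exact h1
  rw [hget]
  rfl

theorem numPos_cost : ∃ e, ∀ {n X : ℕ} {ι : Type} (_ : 1000 ≤ X) (_ : n ≤ X) (C : Fin n → ι),
    P1 X e (fun x => numPos fun j => x (C j)) := by
  refine ⟨?e, fun {n X ι} _ hn C => ?_⟩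
  swap
  exact P1.sumFin hn fun j => P1.iteLt P1.zero (P1.var (C j)) P1.one P1.zero

theorem rankW_cost : ∃ e, ∀ {n X : ℕ} {ι : Type} (_ : 1000 ≤ X) (_ : n ≤ X) (C : Fin n → ι) (j : Fin n),
    P1 X e (fun x => rankW (fun j => x (C j)) j) := by
  refine ⟨21 + 1 + 6, fun {n X ι} hX hn C j => ?_⟩
  have hb : ∀ i : Fin n, (if i < j then 1 else 0) ≤ X := by
    intro i
    split_ifs <;> omega
  have hi : ∀ i : Fin n, P1 X 21 (fun x : ι → ℝ => if x (C i) < x (C j) then 1
      else if x (C i) = x (C j) ∧ i < j then 1 else 0) := by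
    intro i
    refine ((P1.iteLt (P1.var (C i)) (P1.var (C j)) P1.one
      (P1.iteEq (P1.var (C i)) (P1.var (C j)) (P1.natLe (hb i)) P1.zero)).mono (by norm_num)).congr
        fun x => ?_
    by_cases h1 : x (C i) < x (C j)
    · simp only [h1, if_true]
    · simp only [h1, if_false]
      by_cases h2 : x (C i) = x (C j)
      · by_cases h3 : i < j <;> simp [h2, h3]
      · simp [h2]
  unfold rankW
  exact P1.sumFin hn hi

theorem sortWires_cost : ∃ e, ∀ {n X : ℕ} {ι : Type} (_ : 1000 ≤ X) (_ : n ≤ X) (C : Fin n → ι) (l : Fin n),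
    P1 X e (fun x => sortWires (fun j => x (C j)) l) := by
  obtain ⟨a, ha⟩ := rankW_cost
  refine ⟨?e, fun {n X ι} hX hn C l => ?_⟩
  swap
  unfold sortWires
  exact P1.sumFin hn fun j => P1.iteEq (ha hX hn C j) (P1.natLe (l.2.le.trans hn)) (P1.var (C j)) P1.zero

end Vale.Agent.Lib.P328.RAM
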