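import Vale.Agent.Lib.P328.RAM.Runs
import Vale.Agent.Lib.P328.RAM.AnnealS
import Vale.Agent.Lib.P328.RAM.SortW

/-!
# P328: the whole algorithm as a circuit (module Top)

`ε = 1 / N`, `δ`, all parameters are natural numbers given by `Wk m k N`, the size parameter for `k` positive columns.
`finalK`: for `k ≥ 1` columns: the first stage times the quotient of the counts of the second stage, with sorted wires.
`finalF`: the selection of `finalK` for the number of positive wires.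
-/

namespace Vale.Agent.Lib.P328.RAM

open Finset MeasureTheory Vale.Agent.Lib.P328.Cap Vale.Agent.Lib.P328.Fpras Vale.Agent.Lib.P328.Samp

/-- The size parameter for `k` columns, `ε = 1 / N`. -/
def Wk (m k N : ℕ) : ℕ := 10 ^ 26 * (k + 1) ^ 37 * (m + 1) ^ 17 * N

/-- The parameters of a run for `k` columns. -/
noncomputable def Pk (m k N : ℕ) : Par := parOf m k (rhoP m k) (1 / (N : ℝ))

/-- The rounds of the ellipsoid method, for totals below `2 ^ K`. -/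
def Tmk (W K : ℕ) : ℕ := W ^ 2 * (K + 2 + W)

/-- The bits of the integer parts. -/
def Kbk (W K : ℕ) : ℕ := K + W + 4

/-- The number of steps of a run. -/
noncomputable def Tk (m k N : ℕ) : ℕ := stepsOf m k (rhoP m k) (1 / (N : ℝ))

/-- The number of runs. -/
noncomputable def Rk (m k N : ℕ) (δ : ℝ) : ℕ := runsOf m k (rhoP m k) (1 / (N : ℝ)) (δ / 2)

/-- The number of samples at each level. -/
noncomputable def Sk (m k N : ℕ) (δ : ℝ) : ℕ := annealS (Wk m k N) (δ / 2)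

/-- The random wires of one run of the algorithm for `k` columns. -/
abbrev FinalW (m k N : ℕ) (δ : ℝ) : Type :=
  AnnealW k m (Wk m k N) (annealK (Wk m k N)) (Sk m k N δ)
    ⊕ (Fin (Rk m k N δ) × (Fin (Tk m k N) × StepW k m (Wk m k N)))

/-- The algorithm for `k` columns with sorted wires `L`. -/
noncomputable def finalK (m k N K : ℕ) (δ : ℝ) (hm : 0 < m) (r : Fin m → ℝ) (L : Fin k → ℝ)
    (ω : FinalW m k N δ → ℝ) : ℝ :=
  annealSelR (Wk m k N) (Tmk (Wk m k N) K) (annealK (Wk m k N)) (Sk m k N δ) r L (fun a => ω (Sum.inl a))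
    * depthCount (runStates (Wk m k N) (Tmk (Wk m k N) K) (Kbk (Wk m k N) K) _ _ (Pk m k N) hm r L
        fun a => ω (Sum.inr a)) (k : ℝ)
    / depthCount (runStates (Wk m k N) (Tmk (Wk m k N) K) (Kbk (Wk m k N) K) _ _ (Pk m k N) hm r L
        fun a => ω (Sum.inr a)) 0

/-- All random wires. -/
abbrev AllW (m n N : ℕ) (δ : ℝ) : Type := Σ k : Fin (n + 1), FinalW m k N δ

open Classical in
/-- The algorithm. -/
noncomputable def finalF (m n N K : ℕ) (δ : ℝ) (hm : 0 < m) (r : Fin m → ℝ) (c : Fin n → ℝ)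
    (ω : AllW m n N δ → ℝ) : ℝ :=
  ∑ k : Fin (n + 1), if numPos c = ((k : ℕ) : ℝ) then
    (if (k : ℕ) = 0 then 1
     else finalK m k N K δ hm r (fun j => sortWires c ⟨n - k + j, by omega⟩) fun a => ω ⟨k, a⟩)
    else 0

/-- Two independent stages. -/
theorem Pr_two_stage {Ω₁ Ω₂ : Type} [Fintype Ω₁] [Fintype Ω₂] {A : (Ω₁ → ℝ) → Prop}
    {E : (Ω₁ → ℝ) → (Ω₂ → ℝ) → Prop} {δ₁ δ₂ : ℝ} (hδ₁ : δ₁ ≤ 1) (hδ₂ : δ₂ ≤ 1)
    (hA : MeasurableSet {ω | A ω}) (h1 : 1 - δ₁ ≤ Pr A) (h2 : ∀ u ∈ Cube Ω₁, A u → 1 - δ₂ ≤ Pr (E u))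
    (hE : MeasurableSet {p : (Ω₁ → ℝ) × (Ω₂ → ℝ) | E p.1 p.2}) :
    (1 - δ₁) * (1 - δ₂) ≤ Pr (fun ω : (Ω₁ ⊕ Ω₂) → ℝ => E (fun a => ω (Sum.inl a)) fun a => ω (Sum.inr a)) := by
  rw [Pr_fubini hE]
  have hset : MeasurableSet {ω : Ω₁ → ℝ | ω ∈ Cube Ω₁ ∧ A ω} := measurableSet_cube.inter hA
  have hvol : volume {ω : Ω₁ → ℝ | ω ∈ Cube Ω₁ ∧ A ω} ≠ ⊤ := by
    have : volume {ω : Ω₁ → ℝ | ω ∈ Cube Ω₁ ∧ A ω} ≤ volume (Cube Ω₁) :=
      measure_mono fun ω hω => hω.1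
    rw [volume_cube] at this
    exact ne_top_of_le_ne_top ENNReal.one_ne_top this
  have hfin : (∫⁻ u in Cube Ω₁, ENNReal.ofReal (Pr (E u))) ≠ ⊤ := by
    have h1' : (∫⁻ u in Cube Ω₁, ENNReal.ofReal (Pr (E u))) ≤ ∫⁻ _u in Cube Ω₁, 1 :=
      setLIntegral_mono' measurableSet_cube fun u _ => by
        rw [← ENNReal.ofReal_one]
        exact ENNReal.ofReal_le_ofReal (Pr_le_one _)
    rw [setLIntegral_const, one_mul, volume_cube] at h1'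
    exact ne_top_of_le_ne_top ENNReal.one_ne_top h1'
  rw [← ENNReal.ofReal_le_iff_le_toReal hfin]
  have h0₁ : 0 ≤ 1 - δ₁ := by linarith
  have h0₂ : 0 ≤ 1 - δ₂ := by linarith
  calc ENNReal.ofReal ((1 - δ₁) * (1 - δ₂))
      = ENNReal.ofReal (1 - δ₂) * ENNReal.ofReal (1 - δ₁) := by
        rw [mul_comm, ENNReal.ofReal_mul h0₂]
    _ ≤ ENNReal.ofReal (1 - δ₂) * volume {ω : Ω₁ → ℝ | ω ∈ Cube Ω₁ ∧ A ω} := by
        gcongr
        have : ENNReal.ofReal (Pr A) = volume {ω : Ω₁ → ℝ | ω ∈ Cube Ω₁ ∧ A ω} :=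
          ENNReal.ofReal_toReal hvol
        rw [← this]
        exact ENNReal.ofReal_le_ofReal h1
    _ = ∫⁻ _u in {ω : Ω₁ → ℝ | ω ∈ Cube Ω₁ ∧ A ω}, ENNReal.ofReal (1 - δ₂) := by
        rw [setLIntegral_const]
    _ ≤ ∫⁻ u in {ω : Ω₁ → ℝ | ω ∈ Cube Ω₁ ∧ A ω}, ENNReal.ofReal (Pr (E u)) :=
        setLIntegral_mono' hset fun u hu => ENNReal.ofReal_le_ofReal (h2 u hu.1 hu.2)
    _ ≤ ∫⁻ u in Cube Ω₁, ENNReal.ofReal (Pr (E u)) :=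
        lintegral_mono_set fun ω hω => hω.1

namespace TopAux

theorem log_le_of_le_two_pow {N' K : ℕ} (hN' : N' ≤ 2 ^ K) : Real.log ((N' : ℝ) + 2) ≤ (K : ℝ) + 2 := by
  have h1 : ((N' : ℝ) + 2) ≤ Real.exp ((K : ℝ) + 2) := by
    have h2 : ((N' : ℝ)) ≤ (2 : ℝ) ^ K := by exact_mod_cast hN'
    have h3 : (2 : ℝ) ^ K ≤ Real.exp 1 ^ K :=
      pow_le_pow_left₀ (by norm_num) (by linarith [Real.add_one_le_exp (1 : ℝ)]) K
    have h4 : Real.exp 1 ^ K = Real.exp (K : ℝ) := by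
      rw [← Real.exp_nat_mul]
      simp
    have h5 : Real.exp ((K : ℝ) + 2) = Real.exp (K : ℝ) * Real.exp 2 := Real.exp_add _ _
    have h6 : (3 : ℝ) ≤ Real.exp 2 := by linarith [Real.add_one_le_exp (2 : ℝ)]
    have h7 : (1 : ℝ) ≤ Real.exp (K : ℝ) := Real.one_le_exp (by positivity)
    rw [h5]
    nlinarith
  have hpos : (0 : ℝ) < (N' : ℝ) + 2 := by positivity
  calc Real.log ((N' : ℝ) + 2) ≤ Real.log (Real.exp ((K : ℝ) + 2)) :=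
        Real.log_le_log hpos h1
    _ = _ := Real.log_exp _

theorem sizeOK_aux {W K : ℕ} (hW : 10 ^ 26 ≤ W) : SizeOK W (Tmk W K) (Kbk W K) (2 ^ K) := by
  refine ⟨?_, ?_, ?_⟩
  · omega
  · intro N' hN'
    unfold ellIters Tmk
    apply Nat.ceil_le.mpr
    push_cast
    have hlog := log_le_of_le_two_pow hN'
    have hW0 : (0 : ℝ) ≤ (W : ℝ) ^ 2 := by positivity
    exact mul_le_mul_of_nonneg_left (by linarith) hW0
  · unfold Kbk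
    have hW2 : W + 1 ≤ 2 ^ W := Nat.lt_two_pow_self
    have e : 2 ^ (K + W + 4) = 2 ^ K * 2 ^ W * 16 := by
      rw [pow_add, pow_add]
      norm_num
    rw [e]
    have hK : 1 ≤ 2 ^ K := Nat.one_le_two_pow
    generalize 2 ^ K = a at *
    generalize 2 ^ W = b at *
    nlinarith

theorem wok_aux {a b : ℝ} (ha : 0 ≤ a) (hb : 0 ≤ b) {N : ℝ} (hN : 1 ≤ N) :
    (10 : ℝ) ^ 6 * (a * b + 1) ^ 2 ≤ 10 ^ 26 * (a + 1) ^ 37 * (b + 1) ^ 17 * N := by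
  have h0 : a * b + 1 ≤ (a + 1) * (b + 1) := by nlinarith
  have ha1 : (1 : ℝ) ≤ a + 1 := by linarith
  have hb1 : (1 : ℝ) ≤ b + 1 := by linarith
  obtain ⟨p, hp⟩ : ∃ p, p = a + 1 := ⟨_, rfl⟩
  obtain ⟨q, hq⟩ : ∃ q, q = b + 1 := ⟨_, rfl⟩
  rw [← hp, ← hq] at h0 ⊢
  rw [← hp] at ha1
  rw [← hq] at hb1
  have h1 : (a * b + 1) ^ 2 ≤ (p * q) ^ 2 := pow_le_pow_left₀ (by positivity) h0 2
  have h2 : (p * q) ^ 2 ≤ p ^ 37 * q ^ 17 := by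
    rw [mul_pow]
    exact mul_le_mul (pow_le_pow_right₀ ha1 (by norm_num)) (pow_le_pow_right₀ hb1 (by norm_num))
      (by positivity) (by positivity)
  have h3 : (0 : ℝ) ≤ p ^ 37 * q ^ 17 := by positivity
  have h4 : (10 : ℝ) ^ 6 * (a * b + 1) ^ 2 ≤ 10 ^ 26 * (p ^ 37 * q ^ 17) := by
    have : (0 : ℝ) ≤ (a * b + 1) ^ 2 := by positivity
    have h5 : (10 : ℝ) ^ 6 ≤ 10 ^ 26 := by norm_num
    calc (10 : ℝ) ^ 6 * (a * b + 1) ^ 2 ≤ 10 ^ 26 * (a * b + 1) ^ 2 :=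
          mul_le_mul_of_nonneg_right h5 this
      _ ≤ _ := mul_le_mul_of_nonneg_left (h1.trans h2) (by norm_num)
  have h6 : (0 : ℝ) ≤ 10 ^ 26 * (p ^ 37 * q ^ 17) := by positivity
  have h7 : 10 ^ 26 * (p ^ 37 * q ^ 17) * 1 ≤ 10 ^ 26 * (p ^ 37 * q ^ 17) * N :=
    mul_le_mul_of_nonneg_left hN h6
  have e : (10 : ℝ) ^ 26 * p ^ 37 * q ^ 17 * N = 10 ^ 26 * (p ^ 37 * q ^ 17) * N := by
    rw [mul_assoc ((10 : ℝ) ^ 26)]
  rw [e]
  linarith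

theorem sizeX_aux {W X K c : ℕ} {L : ℝ} (hWX : W + K + c + 1000 ≤ X) (hL : L ≤ (c : ℝ)) (hL0 : 0 ≤ L) :
    W ^ 2 * (K + 2 + W) ≤ X ^ 4 ∧ K + W + 4 ≤ X ∧ W ^ 20 ≤ X ^ 20 ∧ ⌈(W : ℝ) ^ 2 * L⌉₊ ≤ X ^ 4
      ∧ W ^ 34 ≤ X ^ 40 ∧ ⌈(W : ℝ) ^ 74 * (L + W)⌉₊ ≤ X ^ 80 := by
  have hX1 : 1 ≤ X := by omega
  have hX1r : (1 : ℝ) ≤ (X : ℝ) := by exact_mod_cast hX1
  have hWX' : W ≤ X := by omega
  have hWr : (W : ℝ) ≤ (X : ℝ) := by exact_mod_cast hWX'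
  have hLX : L + W ≤ (X : ℝ) := by
    have h2 : W + c ≤ X := by omega
    have h3 : ((W + c : ℕ) : ℝ) ≤ (X : ℝ) := by exact_mod_cast h2
    push_cast at h3
    linarith
  have hLX' : L ≤ (X : ℝ) := by
    have : (0 : ℝ) ≤ W := Nat.cast_nonneg _
    linarith
  refine ⟨?_, by omega, Nat.pow_le_pow_left hWX' 20, ?_, ?_, ?_⟩
  · have h1 : W ^ 2 ≤ X ^ 2 := Nat.pow_le_pow_left hWX' 2
    have h2 : K + 2 + W ≤ X := by omega
    calc W ^ 2 * (K + 2 + W) ≤ X ^ 2 * X := Nat.mul_le_mul h1 h2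
      _ = X ^ 3 := (pow_succ X 2).symm
      _ ≤ X ^ 4 := Nat.pow_le_pow_right hX1 (by norm_num)
  · apply Nat.ceil_le.mpr
    push_cast
    have h1 : (W : ℝ) ^ 2 * L ≤ (X : ℝ) ^ 2 * (X : ℝ) :=
      mul_le_mul (pow_le_pow_left₀ (Nat.cast_nonneg _) hWr 2) hLX' hL0 (by positivity)
    calc (W : ℝ) ^ 2 * L ≤ (X : ℝ) ^ 2 * (X : ℝ) := h1
      _ = (X : ℝ) ^ 3 := (pow_succ (X : ℝ) 2).symm
      _ ≤ (X : ℝ) ^ 4 := pow_le_pow_right₀ hX1r (by norm_num)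
  · calc W ^ 34 ≤ X ^ 34 := Nat.pow_le_pow_left hWX' 34
      _ ≤ X ^ 40 := Nat.pow_le_pow_right hX1 (by norm_num)
  · apply Nat.ceil_le.mpr
    push_cast
    have h0 : 0 ≤ L + W := by
      have : (0 : ℝ) ≤ W := Nat.cast_nonneg _
      linarith
    have h1 : (W : ℝ) ^ 74 * (L + W) ≤ (X : ℝ) ^ 74 * (X : ℝ) :=
      mul_le_mul (pow_le_pow_left₀ (Nat.cast_nonneg _) hWr 74) hLX h0 (by positivity)
    calc (W : ℝ) ^ 74 * (L + W) ≤ (X : ℝ) ^ 74 * (X : ℝ) := h1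
      _ = (X : ℝ) ^ 75 := (pow_succ (X : ℝ) 74).symm
      _ ≤ (X : ℝ) ^ 80 := pow_le_pow_right₀ hX1r (by norm_num)

theorem pow_aux {a b A : ℝ} (ha : 0 ≤ a) (hb : 0 ≤ b) (haA : a ≤ A) (hbA : b ≤ A) :
    a ^ 37 * b ^ 17 ≤ A ^ 54 := by
  have h : A ^ 37 * A ^ 17 = A ^ 54 := (pow_add A 37 17).symm
  rw [← h]
  exact mul_le_mul (pow_le_pow_left₀ ha haA 37) (pow_le_pow_left₀ hb hbA 17) (by positivity)
    (pow_nonneg (ha.trans haA) 37)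

theorem size_le_aux {A B E D w k c s : ℝ} (hA : 3 ≤ A) (hB : 2 ≤ B) (hE : 1 ≤ E) (hD : 2 ≤ D)
    (hw : w ≤ 2 * 10 ^ 26 * (A ^ 54 * E)) (hk : k ≤ B) (hc : c ≤ D + 2) (hs : s ≤ A) :
    w + k + c + s + 1000 ≤ (A * B * E * D) ^ 82 := by
  obtain ⟨P, hP⟩ : ∃ P, P = A ^ 54 := ⟨_, rfl⟩
  have hP1 : 1 ≤ P := by rw [hP]; exact one_le_pow₀ (by linarith)
  have hPA : A ≤ P := by rw [hP]; exact le_self_pow₀ (by linarith) (by norm_num)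
  obtain ⟨Q, hQ⟩ : ∃ Q, Q = B * E * D := ⟨_, rfl⟩
  have hQ4 : 4 ≤ Q := by
    have h1 : (2 : ℝ) * 1 ≤ B * E := mul_le_mul hB hE (by norm_num) (by positivity)
    have h2 : (2 : ℝ) * 1 * 2 ≤ B * E * D := mul_le_mul h1 hD (by norm_num) (by positivity)
    rw [hQ]
    linarith
  have hQB : B ≤ Q := by
    have h2 : (1 : ℝ) ≤ E * D := by nlinarith
    rw [hQ, mul_assoc]
    nlinarith
  have hQD : D ≤ Q := by
    have h2 : (1 : ℝ) ≤ B * E := by nlinarith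
    rw [hQ]
    nlinarith
  have hQE : E ≤ Q := by
    have h2 : (1 : ℝ) ≤ B * D := by nlinarith
    have e : B * E * D = E * (B * D) := by ring
    rw [hQ, e]
    nlinarith
  obtain ⟨Z, hZ⟩ : ∃ Z, Z = P * Q := ⟨_, rfl⟩
  have hZ1 : 1 ≤ Z := by rw [hZ]; nlinarith
  have hZE : P * E ≤ Z := by
    rw [hZ]
    exact mul_le_mul_of_nonneg_left hQE (by linarith)
  have hZQ : Q ≤ Z := by rw [hZ]; nlinarith
  have hZP : P ≤ Z := by rw [hZ]; nlinarith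
  have hsum : w + k + c + s + 1000 ≤ 2 * 10 ^ 27 * Z := by
    rw [← hP] at hw
    have h1 : w ≤ 2 * 10 ^ 26 * Z :=
      hw.trans (mul_le_mul_of_nonneg_left hZE (by norm_num))
    have h2 : k ≤ Z := by linarith
    have h3 : c ≤ 3 * Z := by linarith
    have h4 : s ≤ Z := by linarith
    norm_num at h1 ⊢
    linarith
  obtain ⟨Y, hY⟩ : ∃ Y, Y = A * B * E * D := ⟨_, rfl⟩
  have hY12 : 12 ≤ Y := by
    have h1 : (3 : ℝ) * 2 ≤ A * B := mul_le_mul hA hB (by norm_num) (by linarith)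
    have h2 : (3 : ℝ) * 2 * 1 ≤ A * B * E := mul_le_mul h1 hE (by norm_num) (by positivity)
    have h3 : (3 : ℝ) * 2 * 1 * 2 ≤ A * B * E * D := mul_le_mul h2 hD (by norm_num) (by positivity)
    rw [hY]
    linarith
  have hYQ : Y = A * Q := by rw [hY, hQ]; ring
  have hZY : Z ≤ Y ^ 54 := by
    have h1 : Q ≤ Q ^ 54 := le_self_pow₀ (by linarith) (by norm_num)
    have e : Y ^ 54 = A ^ 54 * Q ^ 54 := by rw [hYQ, mul_pow]
    rw [e, ← hP, hZ]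
    exact mul_le_mul_of_nonneg_left h1 (by linarith)
  have h28 : (2 : ℝ) * 10 ^ 27 ≤ Y ^ 28 := by
    calc (2 : ℝ) * 10 ^ 27 ≤ 12 ^ 28 := by norm_num
      _ ≤ Y ^ 28 := pow_le_pow_left₀ (by norm_num) hY12 28
  rw [← hY]
  calc w + k + c + s + 1000 ≤ 2 * 10 ^ 27 * Z := hsum
    _ ≤ Y ^ 28 * Y ^ 54 := mul_le_mul h28 hZY (by linarith) (by positivity)
    _ = Y ^ 82 := (pow_add Y 28 54).symm

theorem Wk_cast (m k N : ℕ) :
    ((Wk m k N : ℕ) : ℝ) = (10 : ℝ) ^ 26 * ((k : ℝ) + 1) ^ 37 * ((m : ℝ) + 1) ^ 17 * (N : ℝ) := by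
  unfold Wk
  rw [Nat.cast_mul, Nat.cast_mul, Nat.cast_mul, Nat.cast_pow, Nat.cast_pow, Nat.cast_pow,
    Nat.cast_add, Nat.cast_add, Nat.cast_one, Nat.cast_ofNat]

theorem Wk_le {m n N : ℕ} {E : ℝ} (hN : (N : ℝ) ≤ 2 * E) :
    ((Wk m n N : ℕ) : ℝ) ≤ 2 * 10 ^ 26 * (((m : ℝ) + n + 2) ^ 54 * E) := by
  have hn0 : (0 : ℝ) ≤ n := Nat.cast_nonneg _
  have hm0 : (0 : ℝ) ≤ m := Nat.cast_nonneg _
  have hp := pow_aux (a := (n : ℝ) + 1) (b := (m : ℝ) + 1) (A := (m : ℝ) + n + 2)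
    (by linarith) (by linarith) (by linarith) (by linarith)
  rw [Wk_cast]
  obtain ⟨u, hu⟩ : ∃ u, u = ((n : ℝ) + 1) ^ 37 * ((m : ℝ) + 1) ^ 17 := ⟨_, rfl⟩
  obtain ⟨v, hv⟩ : ∃ v, v = ((m : ℝ) + n + 2) ^ 54 := ⟨_, rfl⟩
  have hu0 : 0 ≤ u := by rw [hu]; positivity
  rw [← hu, ← hv] at hp
  rw [← hv]
  have e1 : (10 : ℝ) ^ 26 * ((n : ℝ) + 1) ^ 37 * ((m : ℝ) + 1) ^ 17 * (N : ℝ) = 10 ^ 26 * (u * N) := by
    rw [hu]
    ring
  have e2 : (2 : ℝ) * 10 ^ 26 * (v * E) = 10 ^ 26 * (v * (2 * E)) := by ring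
  rw [e1, e2]
  have hN0 : (0 : ℝ) ≤ N := Nat.cast_nonneg _
  exact mul_le_mul_of_nonneg_left (mul_le_mul hp hN hN0 (hu0.trans hp)) (by norm_num)

end TopAux

/-- Facts on the parameters. -/
theorem Wk_facts (m k : ℕ) {N : ℕ} (hN : 0 < N) :
    Bpar m k (rhoP m k) (1 / (N : ℝ)) = (Wk m k N : ℝ)
      ∧ (Pk m k N).d = 1 / (Wk m k N : ℝ) ^ 26 ∧ (Pk m k N).cs = Wk m k N ^ 28
      ∧ Tk m k N = Wk m k N ^ 20 := by
  have hN' : (N : ℝ) ≠ 0 := by exact_mod_cast hN.ne'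
  have hB : Bpar m k (rhoP m k) (1 / (N : ℝ)) = (Wk m k N : ℝ) := by
    unfold Bpar rhoP Wk
    push_cast
    field_simp
    ring
  refine ⟨hB, ?_, ?_, ?_⟩
  · show 1 / Bpar m k (rhoP m k) (1 / (N : ℝ)) ^ 26 = _
    rw [hB]
  · show ⌈Bpar m k (rhoP m k) (1 / (N : ℝ)) ^ 28⌉₊ = _
    rw [hB]
    exact_mod_cast Nat.ceil_natCast (Wk m k N ^ 28)
  · unfold Tk stepsOf
    rw [hB]
    exact_mod_cast Nat.ceil_natCast (Wk m k N ^ 20)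

theorem size_facts (m k K : ℕ) {N : ℕ} (hN : 0 < N) :
    SizeOK (Wk m k N) (Tmk (Wk m k N) K) (Kbk (Wk m k N) K) (2 ^ K)
      ∧ WOK m k (Wk m k N) := by
  have hW1 : 10 ^ 26 ≤ Wk m k N := by
    unfold Wk
    have h1 : 1 ≤ (k + 1) ^ 37 := Nat.one_le_pow _ _ (by omega)
    have h2 : 1 ≤ (m + 1) ^ 17 := Nat.one_le_pow _ _ (by omega)
    have h3 : 1 ≤ (k + 1) ^ 37 * (m + 1) ^ 17 * N := Nat.succ_le_of_lt
      (Nat.mul_pos (Nat.mul_pos (by omega) (by omega)) hN)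
    have h4 := Nat.mul_le_mul_left (10 ^ 26) h3
    rw [mul_one] at h4
    refine h4.trans (le_of_eq ?_)
    rw [mul_assoc, mul_assoc, mul_assoc]
  refine ⟨TopAux.sizeOK_aux hW1, ?_⟩
  show (10 : ℝ) ^ 6 * ((k : ℝ) * m + 1) ^ 2 ≤ ((Wk m k N : ℕ) : ℝ)
  have hN1 : (1 : ℝ) ≤ N := by exact_mod_cast hN
  have := TopAux.wok_aux (a := (k : ℝ)) (b := (m : ℝ)) (Nat.cast_nonneg _) (Nat.cast_nonneg _) hN1
  rw [TopAux.Wk_cast]
  exact this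

/-- The size parameter of the whole circuit. -/
noncomputable def sizeX (m n N K : ℕ) (δ : ℝ) : ℕ := Wk m n N + K + ⌈Real.log (8 / δ)⌉₊ + m + n + 1000

/-- The bounds of the counts by the size parameter. -/
theorem sizeX_facts {m n k N K : ℕ} {δ : ℝ} (hk : k ≤ n) (hN : 0 < N) (hδ0 : 0 < δ) (hδ1 : δ ≤ 1) :
    Wk m k N ≤ sizeX m n N K δ ∧ Tmk (Wk m k N) K ≤ sizeX m n N K δ ^ 4
      ∧ Kbk (Wk m k N) K ≤ sizeX m n N K δ ∧ Tk m k N ≤ sizeX m n N K δ ^ 20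
      ∧ Rk m k N δ ≤ sizeX m n N K δ ^ 4 ∧ annealK (Wk m k N) ≤ sizeX m n N K δ ^ 40
      ∧ Sk m k N δ ≤ sizeX m n N K δ ^ 80 := by
  have hWk : Wk m k N ≤ Wk m n N := by
    unfold Wk
    gcongr
  have hWX : Wk m k N + K + ⌈Real.log (8 / δ)⌉₊ + 1000 ≤ sizeX m n N K δ := by
    unfold sizeX
    omega
  have hlog0 : 0 ≤ Real.log (8 / δ) := by
    apply Real.log_nonneg
    rw [le_div_iff₀ hδ0]
    linarith
  have hB : Bpar m k (rhoP m k) (1 / (N : ℝ)) = (Wk m k N : ℝ) := (Wk_facts m k hN).1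
  have hd : 4 / (δ / 2) = 8 / δ := by
    field_simp
    norm_num
  obtain ⟨h1, h2, h3, h4, h5, h6⟩ := TopAux.sizeX_aux hWX (Nat.le_ceil (Real.log (8 / δ))) hlog0
  have hle : Wk m k N ≤ sizeX m n N K δ := by omega
  refine ⟨hle, h1, h2, ?_, ?_, h5, ?_⟩
  · rw [(Wk_facts m k hN).2.2.2]
    exact h3
  · unfold Rk runsOf
    rw [hB, hd]
    exact h4
  · unfold Sk annealS
    rw [hd]
    exact h6

/-- The algorithm for `k` columns, the sorted wires given by `sortWires`. -/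
theorem finalK_cost : ∃ e, ∀ {m n N K : ℕ} {δ : ℝ} (hm : 0 < m) (_ : 0 < N) (_ : 0 < δ) (_ : δ ≤ 1)
    (k : Fin (n + 1)), P1 (sizeX m n N K δ) e (fun x : ((Fin m ⊕ Fin n) ⊕ AllW m n N δ) → ℝ =>
      finalK m k N K δ hm (fun i => x (Sum.inl (Sum.inl i)))
        (fun j => sortWires (fun j => x (Sum.inl (Sum.inr j))) ⟨n - k + j, by omega⟩)
        fun a => x (Sum.inr ⟨k, a⟩)) := by
  obtain ⟨ea, hanneal⟩ := annealSelR_cost
  obtain ⟨er, hrun⟩ := runStates_cost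
  obtain ⟨es, hsort⟩ := sortWires_cost
  refine ⟨?e, fun {m n N K δ} hm hN hδ0 hδ1 k => ?_⟩
  swap
  have hX : 1000 ≤ sizeX m n N K δ := by unfold sizeX; omega
  have hmX : m ≤ sizeX m n N K δ := by unfold sizeX; omega
  have hnX : n ≤ sizeX m n N K δ := by unfold sizeX; omega
  have hn1X : n + 1 ≤ sizeX m n N K δ := by unfold sizeX; omega
  have hkn : (k : ℕ) ≤ n := Nat.le_of_lt_succ k.2
  obtain ⟨hW, hTm, hKb, hT, hR, hKa, hS⟩ := sizeX_facts (m := m) (K := K) (N := N) hkn hN hδ0 hδ1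
  obtain ⟨-, hd, hcs, -⟩ := Wk_facts m k hN
  have hk1 : (k : ℕ) + 1 ≤ sizeX m n N K δ := by omega
  have hL : PC (sizeX m n N K δ) (1 + es) (fun (x : ((Fin m ⊕ Fin n) ⊕ AllW m n N δ) → ℝ) (j : Fin k) =>
      sortWires (fun j => x (Sum.inl (Sum.inr j))) ⟨n - k + j, by omega⟩) :=
    PC.pi (d := 1) (by simpa using (show (k : ℕ) ≤ sizeX m n N K δ by omega)) fun j =>
      hsort hX hnX _ _
  have hk0 : PC (sizeX m n N K δ) 6 (fun (_ : (((Fin m ⊕ Fin n) ⊕ AllW m n N δ) ⊕ Fin k) → ℝ) (_ : Unit) =>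
      ((k : ℕ) : ℝ)) := (P1.natLe (by omega) :
        P1 (sizeX m n N K δ) 6 (fun (_ : (((Fin m ⊕ Fin n) ⊕ AllW m n N δ) ⊕ Fin k) → ℝ) => ((k : ℕ) : ℝ)))
  have h0 : PC (sizeX m n N K δ) 3 (fun (_ : ((((Fin m ⊕ Fin n) ⊕ AllW m n N δ) ⊕ Fin k) ⊕ Unit) → ℝ) (_ : Unit) =>
      (0 : ℝ)) := (P1.zero :
        P1 (sizeX m n N K δ) 3 (fun (_ : ((((Fin m ⊕ Fin n) ⊕ AllW m n N δ) ⊕ Fin k) ⊕ Unit) → ℝ) => (0 : ℝ)))
  have hA := hanneal (ι := ((((Fin m ⊕ Fin n) ⊕ AllW m n N δ) ⊕ Fin k) ⊕ Unit) ⊕ Unit) hX hmX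
    (show (k : ℕ) ≤ sizeX m n N K δ by omega) hW hTm hKa hS
    (fun i => Sum.inl (Sum.inl (Sum.inl (Sum.inl (Sum.inl i)))))
    (fun j => Sum.inl (Sum.inl (Sum.inr j)))
    (fun a => Sum.inl (Sum.inl (Sum.inl (Sum.inr ⟨k, Sum.inl a⟩))))
  have hR1 := hrun (ι := ((((Fin m ⊕ Fin n) ⊕ AllW m n N δ) ⊕ Fin k) ⊕ Unit) ⊕ Unit) hX hmX hk1 hW hTm hKb hW hT hR
    (Pk m k N) hd hcs hm
    (fun i => Sum.inl (Sum.inl (Sum.inl (Sum.inl (Sum.inl i)))))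
    (fun j => Sum.inl (Sum.inl (Sum.inr j)))
    (fun a => Sum.inl (Sum.inl (Sum.inl (Sum.inr ⟨k, Sum.inr a⟩))))
    (Sum.inl (Sum.inr ()))
  have hR2 := hrun (ι := ((((Fin m ⊕ Fin n) ⊕ AllW m n N δ) ⊕ Fin k) ⊕ Unit) ⊕ Unit) hX hmX hk1 hW hTm hKb hW hT hR
    (Pk m k N) hd hcs hm
    (fun i => Sum.inl (Sum.inl (Sum.inl (Sum.inl (Sum.inl i)))))
    (fun j => Sum.inl (Sum.inl (Sum.inr j)))
    (fun a => Sum.inl (Sum.inl (Sum.inl (Sum.inr ⟨k, Sum.inr a⟩))))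
    (Sum.inr ())
  exact P1.bind hL (P1.bind hk0 (P1.bind h0 ((hA.mul hR1).div hR2)))

/-- The circuit of the algorithm. -/
theorem finalF_cost : ∃ e, ∀ {m n N K : ℕ} {δ : ℝ} (hm : 0 < m) (_ : 0 < N) (_ : 0 < δ) (_ : δ ≤ 1),
    P1 (sizeX m n N K δ) e (fun x : ((Fin m ⊕ Fin n) ⊕ AllW m n N δ) → ℝ =>
      finalF m n N K δ hm (fun i => x (Sum.inl (Sum.inl i))) (fun j => x (Sum.inl (Sum.inr j)))
        fun a => x (Sum.inr a)) := by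
  classical
  obtain ⟨ef, hfin⟩ := finalK_cost
  obtain ⟨en, hnum⟩ := numPos_cost
  refine ⟨2 * en + (0 + ef) + 40, fun {m n N K δ} hm hN hδ0 hδ1 => ?_⟩
  have hX : 1000 ≤ sizeX m n N K δ := by unfold sizeX; omega
  have hnX : n ≤ sizeX m n N K δ := by unfold sizeX; omega
  have hn1X : n + 1 ≤ sizeX m n N K δ := by unfold sizeX; omega
  have hX2 : 2 ≤ sizeX m n N K δ := by omega
  have hv := hnum (ι := (Fin m ⊕ Fin n) ⊕ AllW m n N δ) hX hnX (fun j => Sum.inl (Sum.inr j))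
  have hs := P1.select (K := n + 1) (key := fun x : ((Fin m ⊕ Fin n) ⊕ AllW m n N δ) → ℝ =>
      numPos fun j => x (Sum.inl (Sum.inr j)))
    (F := fun k x => if (k : ℕ) = 0 then 1 else finalK m k N K δ hm (fun i => x (Sum.inl (Sum.inl i)))
        (fun j => sortWires (fun j => x (Sum.inl (Sum.inr j))) ⟨n - k + j, by omega⟩)
        fun a => x (Sum.inr ⟨k, a⟩))
    hn1X hv (fun k => TrialCost.ite_const hX2 P1.one (hfin hm hN hδ0 hδ1 k))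
  have h2 : ∀ x : ((Fin m ⊕ Fin n) ⊕ AllW m n N δ) → ℝ, finalF m n N K δ hm (fun i => x (Sum.inl (Sum.inl i))) (fun j => x (Sum.inl (Sum.inr j)))
        (fun a => x (Sum.inr a)) = ∑ k : Fin (n + 1), if (numPos fun j => x (Sum.inl (Sum.inr j))) = ((k : ℕ) : ℝ) then
        (if (k : ℕ) = 0 then 1 else finalK m k N K δ hm (fun i => x (Sum.inl (Sum.inl i)))
        (fun j => sortWires (fun j => x (Sum.inl (Sum.inr j))) ⟨n - k + j, by omega⟩)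
        fun a => x (Sum.inr ⟨k, a⟩)) else 0 := by
    intro x
    unfold finalF
    refine Finset.sum_congr rfl fun k _ => ?_
    by_cases h1 : (numPos fun j => x (Sum.inl (Sum.inr j))) = ((k : ℕ) : ℝ)
    · rw [if_pos h1]
    · rw [if_neg h1]
  have h3 := hs.congr h2
  exact h3

/-- The size parameter is polynomial in the size of the input. -/
theorem sizeX_le {m n K : ℕ} {ε δ : ℝ} (hm : 0 < m) (hε0 : 0 < ε) (hε1 : ε ≤ 1) (hδ0 : 0 < δ) (hδ1 : δ ≤ 1) :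
    (sizeX m n ⌈1 / ε⌉₊ K δ : ℝ)
      ≤ (((m : ℝ) + n + 2) * ((K : ℝ) + 2) * (1 / ε) * (Real.log (1 / δ) + 2)) ^ 82 := by
  have hm1 : (1 : ℝ) ≤ m := by exact_mod_cast hm
  have hn0 : (0 : ℝ) ≤ n := Nat.cast_nonneg _
  have hK0 : (0 : ℝ) ≤ K := Nat.cast_nonneg _
  have hE1 : 1 ≤ 1 / ε := by
    rw [le_div_iff₀ hε0]
    linarith
  have hlogδ : 0 ≤ Real.log (1 / δ) := by
    apply Real.log_nonneg
    rw [le_div_iff₀ hδ0]
    linarith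
  have hN : ((⌈1 / ε⌉₊ : ℕ) : ℝ) ≤ 2 * (1 / ε) := by
    have := Nat.ceil_lt_add_one (by linarith : (0 : ℝ) ≤ 1 / ε)
    linarith
  have hlog8 : Real.log (8 / δ) ≤ Real.log (1 / δ) + 3 := by
    have h1 : 8 / δ = 8 * (1 / δ) := by ring
    rw [h1, Real.log_mul (by norm_num) (by positivity)]
    have h3 : Real.log 8 = 3 * Real.log 2 := by
      rw [show (8 : ℝ) = 2 ^ 3 by norm_num, Real.log_pow]
      norm_num
    have h4 := Real.log_two_lt_d9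
    rw [h3]
    linarith
  have hc : ((⌈Real.log (8 / δ)⌉₊ : ℕ) : ℝ) ≤ (Real.log (1 / δ) + 2) + 2 := by
    have h0 : 0 ≤ Real.log (8 / δ) := by
      apply Real.log_nonneg
      rw [le_div_iff₀ hδ0]
      linarith
    have := Nat.ceil_lt_add_one h0
    linarith
  have a1 : (3 : ℝ) ≤ (m : ℝ) + n + 2 := by linarith
  have a2 : (2 : ℝ) ≤ (K : ℝ) + 2 := by linarith
  have a3 : (2 : ℝ) ≤ Real.log (1 / δ) + 2 := by linarith
  have a4 : (K : ℝ) ≤ (K : ℝ) + 2 := by linarith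
  have a5 : (m : ℝ) + n ≤ (m : ℝ) + n + 2 := by linarith
  have hsz : (sizeX m n ⌈1 / ε⌉₊ K δ : ℝ) = ((Wk m n ⌈1 / ε⌉₊ : ℕ) : ℝ) + (K : ℝ)
      + ((⌈Real.log (8 / δ)⌉₊ : ℕ) : ℝ) + ((m : ℝ) + n) + 1000 := by
    unfold sizeX
    rw [Nat.cast_add, Nat.cast_add, Nat.cast_add, Nat.cast_add, Nat.cast_add, Nat.cast_ofNat]
    ring
  rw [hsz]
  exact TopAux.size_le_aux a1 a2 hE1 a3 (TopAux.Wk_le hN) a4 hc a5

end Vale.Agent.Lib.P328.RAM
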