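import Vale.Agent.Lib.P328.RAM.Top

/-!
# P328: the correctness of the circuit of `Top.lean`
-/

namespace Vale.Agent.Lib.P328.RAM

open Finset MeasureTheory Vale.Agent.Lib.P328.Cap Vale.Agent.Lib.P328.Fpras Vale.Agent.Lib.P328.Samp

theorem measurable_of_P1 {ι : Type} {X e : ℕ} (hX : 2 ≤ X) {f : (ι → ℝ) → ℝ} (h : P1 X e f) : Measurable f := by
  have h1 := (h hX).measurable
  exact (measurable_pi_apply ()).comp h1

theorem measurable_elim {ι Ω : Type} (a : ι → ℝ) :
    Measurable fun ω : Ω → ℝ => (Sum.elim a ω : ι ⊕ Ω → ℝ) := by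
  refine measurable_pi_iff.2 fun k => ?_
  cases k with
  | inl i => exact measurable_const
  | inr b => exact measurable_pi_apply b

theorem two_N_le_Wk (m k : ℕ) {N : ℕ} (_hN : 0 < N) : 2 * N ≤ Wk m k N := by
  unfold Wk
  have h1 : 1 ≤ (k + 1) ^ 37 := Nat.one_le_pow _ _ (by omega)
  have h2 : 1 ≤ (m + 1) ^ 17 := Nat.one_le_pow _ _ (by omega)
  have h3 : 2 ≤ 10 ^ 26 * (k + 1) ^ 37 * (m + 1) ^ 17 := by
    calc 2 ≤ 10 ^ 26 * 1 * 1 := by norm_num
      _ ≤ _ := Nat.mul_le_mul (Nat.mul_le_mul le_rfl h1) h2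
  exact Nat.mul_le_mul_right N h3

/-- The first stage is measurable. -/
theorem measurable_annealSelR {m k N K : ℕ} {δ : ℝ} (hδ0 : 0 < δ) (hδ1 : δ ≤ 1) (hN : 0 < N)
    (a : Fin m → ℝ) (L : Fin k → ℝ) :
    Measurable (annealSelR (Wk m k N) (Tmk (Wk m k N) K) (annealK (Wk m k N)) (Sk m k N δ) a L) := by
  obtain ⟨e, hc⟩ := annealSelR_cost
  obtain ⟨h1, h2, h3, h4, h5, h6, h7⟩ :=
    sizeX_facts (m := m) (n := k) (k := k) (N := N) (K := K) le_rfl hN hδ0 hδ1
  have hX1 : 1000 ≤ sizeX m k N K δ := by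
    unfold sizeX; omega
  have hXm : m ≤ sizeX m k N K δ := by
    unfold sizeX; omega
  have hXk : k ≤ sizeX m k N K δ := by
    unfold sizeX; omega
  have h := hc (ι := (Fin m ⊕ Fin k) ⊕ AnnealW k m (Wk m k N) (annealK (Wk m k N)) (Sk m k N δ))
    hX1 hXm hXk h1 h2 h6 h7 (fun i => Sum.inl (Sum.inl i)) (fun j => Sum.inl (Sum.inr j)) Sum.inr
  have h8 := measurable_of_P1 (le_trans (by norm_num) hX1) h
  have h9 := h8.comp
    (measurable_elim (Ω := AnnealW k m (Wk m k N) (annealK (Wk m k N)) (Sk m k N δ)) (Sum.elim a L))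
  have e : annealSelR (Wk m k N) (Tmk (Wk m k N) K) (annealK (Wk m k N)) (Sk m k N δ) a L
      = ((fun x => annealSelR (Wk m k N) (Tmk (Wk m k N) K) (annealK (Wk m k N)) (Sk m k N δ)
          (fun i => x (Sum.inl (Sum.inl i))) (fun j => x (Sum.inl (Sum.inr j)))
          fun a => x (Sum.inr a)) ∘ fun ω => Sum.elim (Sum.elim a L) ω) := by
    funext ω
    simp only [Function.comp, Sum.elim_inl, Sum.elim_inr]
  rw [e]
  exact h9

/-- The counts are measurable. -/
theorem measurable_depthCount {m k N K : ℕ} {δ : ℝ} (hm : 0 < m) (hδ0 : 0 < δ) (hδ1 : δ ≤ 1)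
    (hN : 0 < N) (a : Fin m → ℝ) (L : Fin k → ℝ) (d : ℝ) :
    Measurable (fun ω : Fin (Rk m k N δ) × (Fin (Tk m k N) × StepW k m (Wk m k N)) → ℝ =>
      depthCount (runStates (Wk m k N) (Tmk (Wk m k N) K) (Kbk (Wk m k N) K) _ _ (Pk m k N) hm a L ω) d) := by
  obtain ⟨e, hc⟩ := runStates_cost
  obtain ⟨h1, h2, h3, h4, h5, h6, h7⟩ :=
    sizeX_facts (m := m) (n := k) (k := k) (N := N) (K := K) le_rfl hN hδ0 hδ1
  obtain ⟨hB, hPd, hPc, hTk⟩ := Wk_facts m k hN
  have hX1 : 1000 ≤ sizeX m k N K δ := by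
    unfold sizeX; omega
  have hXm : m ≤ sizeX m k N K δ := by
    unfold sizeX; omega
  have hXk : k + 1 ≤ sizeX m k N K δ := by
    unfold sizeX; omega
  have h := hc (ι := ((Fin m ⊕ Fin k) ⊕ Unit) ⊕
      (Fin (Rk m k N δ) × (Fin (Tk m k N) × StepW k m (Wk m k N))))
    hX1 hXm hXk h1 h2 h3 h1 h4 h5 (Pk m k N) hPd hPc hm (fun i => Sum.inl (Sum.inl (Sum.inl i)))
    (fun j => Sum.inl (Sum.inl (Sum.inr j))) Sum.inr (Sum.inl (Sum.inr ()))
  have h8 := measurable_of_P1 (le_trans (by norm_num) hX1) h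
  have h9 := h8.comp (measurable_elim
    (Ω := Fin (Rk m k N δ) × (Fin (Tk m k N) × StepW k m (Wk m k N)))
    (Sum.elim (Sum.elim a L) fun _ : Unit => d))
  simp only [Function.comp_def, Sum.elim_inl, Sum.elim_inr] at h9
  exact h9

/-- The algorithm for the sorted list `cl` of positive columns, `ε = 1 / N`. -/
theorem finalK_good {m N K : ℕ} {δ : ℝ} (hm : 0 < m) (hN : 0 < N) (hδ0 : 0 < δ) (hδ1 : δ ≤ 1) {r : Fin m → ℕ}
    {cl : List ℕ} (hs : cl.Pairwise (· ≤ ·)) (hpos : ∀ y ∈ cl, 0 < y) (hk : 0 < cl.length)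
    (hsum : ∑ i, r i = cl.sum) (hK : ∑ i, r i < 2 ^ K) :
    1 - δ ≤ Pr (fun ω : FinalW m cl.length N δ → ℝ =>
      (1 - 1 / (N : ℝ)) * ((tabs r cl.get).card : ℝ)
          ≤ finalK m cl.length N K δ hm (fun i => (r i : ℝ)) (wireL cl) ω
        ∧ finalK m cl.length N K δ hm (fun i => (r i : ℝ)) (wireL cl) ω
          ≤ (1 + 1 / (N : ℝ)) * ((tabs r cl.get).card : ℝ)) := by
  classical
  have hNr : (1 : ℝ) ≤ N := by exact_mod_cast hN
  have hN0 : (0 : ℝ) < N := by linarith
  have hε0 : 0 < 1 / (N : ℝ) := by positivity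
  have hε1 : 1 / (N : ℝ) ≤ 1 := by
    rw [div_le_one hN0]
    exact hNr
  obtain ⟨hB, hPd, hPc, hTk⟩ := Wk_facts m cl.length hN
  obtain ⟨hS, hWOK⟩ := size_facts m cl.length K hN
  have hNb : ∑ i, r i ≤ 2 ^ K := hK.le
  have hδ2 : 0 < δ / 2 := by positivity
  have hδ3 : δ / 2 ≤ 1 := by linarith
  have hgets : ∑ j, cl.get j = cl.sum := by
    have := List.sum_ofFn (f := cl.get)
    rw [List.ofFn_get] at this
    exact this.symm
  -- the first stage
  have h2W : 2 / (Wk m cl.length N : ℝ) ≤ 1 / (N : ℝ) := by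
    have h1 : ((2 * N : ℕ) : ℝ) ≤ (Wk m cl.length N : ℝ) := by exact_mod_cast two_N_le_Wk m cl.length hN
    push_cast at h1
    have h3 : (0 : ℝ) < Wk m cl.length N := by linarith
    rw [div_le_div_iff₀ h3 hN0]
    linarith
  have hA := annealSel_close (W := Wk m cl.length N) (Tm := Tmk (Wk m cl.length N) K) (Nb' := 2 ^ K) hm hk (r := r) (c := cl.get)
    (fun j => hpos _ (List.get_mem _ _)) (hsum.trans hgets.symm) hNb hS.T1 hWOK h2W hε1 hδ2 hδ3
  have hAm := measurable_annealSelR (m := m) (k := cl.length) (N := N) (K := K) (δ := δ) hδ0 hδ1 hN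
    (fun i => (r i : ℝ)) (wireL cl)
  have hD1 := measurable_depthCount (m := m) (k := cl.length) (N := N) (K := K) (δ := δ) hm hδ0 hδ1 hN
    (fun i => (r i : ℝ)) (wireL cl) (cl.length : ℝ)
  have hD0 := measurable_depthCount (m := m) (k := cl.length) (N := N) (K := K) (δ := δ) hm hδ0 hδ1 hN
    (fun i => (r i : ℝ)) (wireL cl) 0
  have key := Pr_two_stage (Ω₁ := AnnealW cl.length m (Wk m cl.length N) (annealK (Wk m cl.length N)) (Sk m cl.length N δ))
    (Ω₂ := Fin (Rk m cl.length N δ) × (Fin (Tk m cl.length N) × StepW cl.length m (Wk m cl.length N)))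
    (A := fun ω => |annealSelR (Wk m cl.length N) (Tmk (Wk m cl.length N) K) (annealK (Wk m cl.length N))
        (Sk m cl.length N δ) (fun i => (r i : ℝ)) (wireL cl) ω - Aval r cl.get| ≤ (1 / (N : ℝ)) / 4 * Aval r cl.get)
    (E := fun u v =>
      (1 - 1 / (N : ℝ)) * ((tabs r cl.get).card : ℝ)
          ≤ annealSelR (Wk m cl.length N) (Tmk (Wk m cl.length N) K) (annealK (Wk m cl.length N))
              (Sk m cl.length N δ) (fun i => (r i : ℝ)) (wireL cl) u
            * depthCount (runStates (Wk m cl.length N) (Tmk (Wk m cl.length N) K) (Kbk (Wk m cl.length N) K) _ _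
                (Pk m cl.length N) hm (fun i => (r i : ℝ)) (wireL cl) v) (cl.length : ℝ)
            / depthCount (runStates (Wk m cl.length N) (Tmk (Wk m cl.length N) K) (Kbk (Wk m cl.length N) K) _ _
                (Pk m cl.length N) hm (fun i => (r i : ℝ)) (wireL cl) v) 0
        ∧ annealSelR (Wk m cl.length N) (Tmk (Wk m cl.length N) K) (annealK (Wk m cl.length N))
              (Sk m cl.length N δ) (fun i => (r i : ℝ)) (wireL cl) u
            * depthCount (runStates (Wk m cl.length N) (Tmk (Wk m cl.length N) K) (Kbk (Wk m cl.length N) K) _ _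
                (Pk m cl.length N) hm (fun i => (r i : ℝ)) (wireL cl) v) (cl.length : ℝ)
            / depthCount (runStates (Wk m cl.length N) (Tmk (Wk m cl.length N) K) (Kbk (Wk m cl.length N) K) _ _
                (Pk m cl.length N) hm (fun i => (r i : ℝ)) (wireL cl) v) 0
          ≤ (1 + 1 / (N : ℝ)) * ((tabs r cl.get).card : ℝ))
    (δ₁ := δ / 2) (δ₂ := δ / 2) (by linarith) (by linarith) ?_ hA ?_ ?_
  · have h6 : 1 - δ ≤ (1 - δ / 2) * (1 - δ / 2) := by nlinarith [sq_nonneg δ]
    exact h6.trans key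
  · exact measurableSet_le (hAm.sub measurable_const).abs measurable_const
  · intro u _ hu
    exact runs_close hPd hPc hS hm hs hpos hsum hNb hε0 hε1 hδ2 hδ3 (le_of_eq hB) hu
  · have hF : Measurable fun p : (AnnealW cl.length m (Wk m cl.length N) (annealK (Wk m cl.length N)) (Sk m cl.length N δ) → ℝ)
        × (Fin (Rk m cl.length N δ) × (Fin (Tk m cl.length N) × StepW cl.length m (Wk m cl.length N)) → ℝ) =>
        annealSelR (Wk m cl.length N) (Tmk (Wk m cl.length N) K) (annealK (Wk m cl.length N))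
              (Sk m cl.length N δ) (fun i => (r i : ℝ)) (wireL cl) p.1
            * depthCount (runStates (Wk m cl.length N) (Tmk (Wk m cl.length N) K) (Kbk (Wk m cl.length N) K) _ _
                (Pk m cl.length N) hm (fun i => (r i : ℝ)) (wireL cl) p.2) (cl.length : ℝ)
            / depthCount (runStates (Wk m cl.length N) (Tmk (Wk m cl.length N) K) (Kbk (Wk m cl.length N) K) _ _
                (Pk m cl.length N) hm (fun i => (r i : ℝ)) (wireL cl) p.2) 0 :=
      ((hAm.comp measurable_fst).mul (hD1.comp measurable_snd)).div (hD0.comp measurable_snd)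
    exact (measurableSet_le measurable_const hF).inter (measurableSet_le hF measurable_const)

/-- No columns. -/
theorem tabs_card_empty {m : ℕ} {r : Fin m → ℕ} (hr : ∑ i, r i = 0) (c : Fin 0 → ℕ) :
    (tabs r c).card = 1 := by
  have h0 : ∀ i, r i = 0 := fun i => by
    have := Finset.sum_eq_zero_iff.1 hr i (Finset.mem_univ i)
    exact this
  rw [Finset.card_eq_one]
  refine ⟨fun j => j.elim0, ?_⟩
  ext T
  simp only [tabs, Finset.mem_filter, Fintype.mem_piFinset, Finset.mem_singleton]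
  constructor
  · intro _
    funext j
    exact j.elim0
  · intro _
    refine ⟨fun j => j.elim0, fun j => j.elim0, fun i => ?_⟩
    simp [h0 i]

/-- The algorithm for all margins, `ε = 1 / N`. -/
theorem finalF_good {m n N K : ℕ} {δ : ℝ} (hm : 0 < m) (hN : 0 < N) (hδ0 : 0 < δ) (hδ1 : δ ≤ 1) {r : Fin m → ℕ}
    {c : Fin n → ℕ} (hsum : ∑ i, r i = ∑ j, c j) (hK : ∑ i, r i < 2 ^ K) :
    1 - δ ≤ Pr (fun ω : AllW m n N δ → ℝ =>
      (1 - 1 / (N : ℝ)) * ((tabs r c).card : ℝ)
          ≤ finalF m n N K δ hm (fun i => (r i : ℝ)) (fun j => (c j : ℝ)) ω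
        ∧ finalF m n N K δ hm (fun i => (r i : ℝ)) (fun j => (c j : ℝ)) ω
          ≤ (1 + 1 / (N : ℝ)) * ((tabs r c).card : ℝ)) := by
  classical
  obtain ⟨hs1, hs2, hs3, hs4, hs5⟩ := sortedCols_spec r c
  have hnum := numPos_eq c
  have hkn : (sortedCols c).length < n + 1 := by omega
  have hF : ∀ ω : AllW m n N δ → ℝ, finalF m n N K δ hm (fun i => (r i : ℝ)) (fun j => (c j : ℝ)) ω
      = if (sortedCols c).length = 0 then 1
        else finalK m (sortedCols c).length N K δ hm (fun i => (r i : ℝ))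
          (fun j => sortWires (fun j => (c j : ℝ)) ⟨n - (sortedCols c).length + j, by omega⟩)
          fun a => ω ⟨⟨(sortedCols c).length, hkn⟩, a⟩ := by
    intro ω
    unfold finalF
    rw [Finset.sum_eq_single (⟨(sortedCols c).length, hkn⟩ : Fin (n + 1))]
    · rw [if_pos hnum]
    · intro k _ hne
      rw [if_neg]
      rw [hnum]
      intro h
      apply hne
      apply Fin.ext
      have : (sortedCols c).length = (k : ℕ) := by exact_mod_cast h
      exact this.symm
    · simp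
  have hN1 : (1 : ℝ) ≤ N := by exact_mod_cast hN
  have hN0 : (0 : ℝ) < N := by linarith
  by_cases hk0 : (sortedCols c).length = 0
  · have hnil : sortedCols c = [] := List.length_eq_zero_iff.mp hk0
    have hr0 : ∑ i, r i = 0 := by
      rw [hsum, ← hs3, hnil]
      rfl
    have hcard : (tabs r c).card = 1 := by
      rw [← hs5]
      generalize (sortedCols c) = l at hnil ⊢
      subst hnil
      exact tabs_card_empty hr0 _
    have h1 : Pr (fun ω : AllW m n N δ → ℝ =>
        (1 - 1 / (N : ℝ)) * ((tabs r c).card : ℝ)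
            ≤ finalF m n N K δ hm (fun i => (r i : ℝ)) (fun j => (c j : ℝ)) ω
          ∧ finalF m n N K δ hm (fun i => (r i : ℝ)) (fun j => (c j : ℝ)) ω
            ≤ (1 + 1 / (N : ℝ)) * ((tabs r c).card : ℝ)) = Pr (fun _ : AllW m n N δ → ℝ => True) := by
      refine Pr_congr fun ω _ => ?_
      rw [hF ω, if_pos hk0, hcard]
      have h2 : 0 < 1 / (N : ℝ) := by positivity
      simp only [Nat.cast_one, mul_one, iff_true]
      constructor <;> linarith
    rw [h1, Pr_true]
    linarith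
  · have hk : 0 < (sortedCols c).length := Nat.pos_of_ne_zero hk0
    have hgood := finalK_good (m := m) (N := N) (K := K) (δ := δ) hm hN hδ0 hδ1 (r := r)
      (cl := sortedCols c) hs1 hs2 hk (hsum.trans hs3.symm) hK
    have hw : (fun j : Fin (sortedCols c).length =>
        sortWires (fun j => (c j : ℝ)) ⟨n - (sortedCols c).length + j, by omega⟩)
        = wireL (sortedCols c) := by
      funext j
      exact sortWires_spec c j _
    have hsig := Pr_sigma (D := Fin (n + 1)) (A := fun k : Fin (n + 1) => FinalW m k N δ)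
      (⟨(sortedCols c).length, hkn⟩ : Fin (n + 1)) (fun ω =>
      (1 - 1 / (N : ℝ)) * ((tabs r (sortedCols c).get).card : ℝ)
          ≤ finalK m (sortedCols c).length N K δ hm (fun i => (r i : ℝ)) (wireL (sortedCols c)) ω
        ∧ finalK m (sortedCols c).length N K δ hm (fun i => (r i : ℝ)) (wireL (sortedCols c)) ω
          ≤ (1 + 1 / (N : ℝ)) * ((tabs r (sortedCols c).get).card : ℝ))
    refine hgood.trans (le_of_eq ?_)
    rw [← hsig]
    refine Pr_congr fun ω _ => ?_
    rw [hF ω, if_neg hk0, hw, hs5]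

end Vale.Agent.Lib.P328.RAM
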