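import Vale.Agent.Lib.P328.RAM.BinS
import Vale.Agent.Lib.P328.RAM.RSpec
import Vale.Agent.Lib.P328.RAM.RCostP
import Vale.Agent.Lib.P328.Samp.QHat

/-!
# P328: one trial as a randomized map on wires (module T)

Given the matrix `t`: if an entry is below `cutK W`: failure. Otherwise `b = exp (betaGate ...)`, `p = rowP t b`.
`k = firstKey` is the first row with `V0 ≤ rowV`, or `m` if there is none (failure). For `k = i`: the other rows
are drawn by `binSampleR`; `x i` is what the column sum leaves; two coins. A failure is the vector with all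
entries `-1`. Random wires `TrialW`: `inl (j, a)` for the sampler of the row `j`, `inr 0`, `inr 1` for the coins.

The second coin has the closed form `coinR` (the binomial coefficients of `uvalHat` and `wt` cancel).

`trialR_close`: the law of the trial is close to `trialHat`, in the sum over `x ∈ lev r c0`.
Proof. Event `trialR = encX x`, `x ∈ lev r c0`, first row `i`: `∀ j ≠ i, binSampleR j = x j`, and both coins accept
(`x i` is then right because `∑ x = c0`). By `Pr_prod`, `Pr_pi` (the block of the row `i` is unused):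
`∏_{j ≠ i} Pr (binSampleR j = x j) * min 1 (K * bwHat i) * min 1 (coinR x)`.
Compare with `trialHat`: `K * bw ≤ 1` (from `bw_sqrt_le`, `V0 ≤ rowV`, `K = √V0`, or `K = 1`),
`|K bwHat - K bw| ≤ 6 / factN0 W` by `bwHat_close`; `coinR x = uvalHat / (2 exp logCapHat * wt)` by `coinR_eq`.
The sum over `x ∈ lev` is at most the sum over the free rows (`x i` is determined); hybrid over the rows:
`∑ |∏ L_j - ∏ bw_j| ≤ (m - 1) / W ^ 29` since `L_j`, `bw_j` are sub-probabilities (`sum_bw_eq_one`, `Pr_total`).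
-/

namespace Vale.Agent.Lib.P328.RAM

open Finset MeasureTheory Vale.Agent.Lib.P328.Cap Vale.Agent.Lib.P328.Fpras Vale.Agent.Lib.P328.Samp

variable {m n : ℕ}

/-- `V0` with a real wire for the column. -/
noncomputable def V0R (P : Par) (m n : ℕ) (c0 : ℝ) : ℝ :=
  if 0 < n ∧ (P.cs : ℝ) < c0 then P.d * c0 / (14 * m) else 0

/-- `K` with a real wire for the column. -/
noncomputable def KR (P : Par) (m n : ℕ) (c0 : ℝ) : ℝ :=
  if 0 < n ∧ (P.cs : ℝ) < c0 then Real.sqrt (V0R P m n c0) else 1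

/-- `rowV` with real margins. -/
noncomputable def rowVR (r : Fin m → ℝ) (t : Fin (n + 1) → Fin m → ℝ) (b : Fin (n + 1) → ℝ) (i : Fin m) : ℝ :=
  r i * rowP t b i * (1 - rowP t b i)

/-- The first row with variance at least `V0`, as a real number, or `m` if there is none. -/
noncomputable def firstKey (P : Par) (r : Fin m → ℝ) (c0 : ℝ) (t : Fin (n + 1) → Fin m → ℝ)
    (b : Fin (n + 1) → ℝ) : ℝ :=
  (range (m + 1)).inf' ⟨0, by simp⟩ fun k =>
    if h : k < m then (if V0R P m n c0 ≤ rowVR r t b ⟨k, h⟩ then (k : ℝ) else m) else m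

/-- The probability of the second coin. -/
noncomputable def coinR (W Tm : ℕ) (Nb : ℝ) (r : Fin m → ℝ) (c0 : ℝ) (c' : Fin n → ℝ)
    (t : Fin (n + 1) → Fin m → ℝ) (b : Fin (n + 1) → ℝ) (x : Fin m → ℝ) : ℝ :=
  Real.exp (∑ i, (x i * (Real.log (t 0 i) - Real.log (rowP t b i))
        - (r i - x i) * Real.log (1 - rowP t b i))
      + logCapGate W Tm Nb (fun i => r i - x i) c' (fun l => t l.succ)
      - logCapGate W Tm Nb r (Fin.cons c0 c') t - Real.log 2)

/-- The random wires of a trial. -/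
abbrev TrialW (m W : ℕ) : Type := (Fin m × BinW W) ⊕ Fin 2

open Classical in
/-- The trial with the row `i` solved last. -/
noncomputable def trialBranchR (W Tm Kb : ℕ) (Nb : ℝ) (P : Par) (r : Fin m → ℝ) (c0 : ℝ) (c' : Fin n → ℝ)
    (t : Fin (n + 1) → Fin m → ℝ) (i : Fin m) (ω : TrialW m W → ℝ) : Fin m → ℝ :=
  let b : Fin (n + 1) → ℝ := fun j => Real.exp (betaGate W Tm Nb r (Fin.cons c0 c') t j)
  let xo : Fin m → ℝ := fun j =>
    binSampleR W Kb (r j) (rowP t b j) fun a => ω (Sum.inl (j, a))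
  let xi : ℝ := c0 - ∑ j ∈ univ.erase i, xo j
  let x : Fin m → ℝ := fun j => if j = i then xi else xo j
  if (∀ j ∈ univ.erase i, 0 ≤ xo j) ∧ 0 ≤ xi ∧ xi ≤ r i
      ∧ ω (Sum.inr 0) ≤ KR P m n c0 * bwHat W (r i) (rowP t b i) xi
      ∧ ω (Sum.inr 1) ≤ coinR W Tm Nb r c0 c' t b x
  then x else fun _ => -1

open Classical in
/-- The trial: a column, or all entries `-1`. -/
noncomputable def trialR (W Tm Kb : ℕ) (Nb : ℝ) (P : Par) (r : Fin m → ℝ) (c0 : ℝ) (c' : Fin n → ℝ)
    (t : Fin (n + 1) → Fin m → ℝ) (ω : TrialW m W → ℝ) : Fin m → ℝ := fun l =>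
  if ∀ j i, cutK W ≤ t j i then
    let b : Fin (n + 1) → ℝ := fun j => Real.exp (betaGate W Tm Nb r (Fin.cons c0 c') t j)
    let k := firstKey P r c0 t b
    if k = m then -1
    else ∑ i : Fin m, if k = ((i : ℕ) : ℝ) then trialBranchR W Tm Kb Nb P r c0 c' t i ω l else 0
  else -1

/-- A column on real wires. -/
noncomputable def encX (x : Fin m → ℕ) : Fin m → ℝ := fun i => (x i : ℝ)

/-- The hypotheses on the sizes: `Tm` covers the ellipsoid method for all totals at most the bound `Nb'`,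
the integer parts are in range. -/
structure SizeOK (W Tm Kb Nb' : ℕ) : Prop where
  W1 : 1000 ≤ W
  T1 : ∀ N, N ≤ Nb' → ellIters W N ≤ Tm
  K1 : 2 * Nb' + 6 * W + 8 ≤ 2 ^ Kb

namespace TrialAux

theorem cons_cast' (c0 : ℕ) (c' : Fin n → ℕ) :
    (Fin.cons (c0 : ℝ) (fun j => (c' j : ℝ)) : Fin (n + 1) → ℝ)
      = fun j => (((Fin.cons c0 c' : Fin (n + 1) → ℕ) j : ℕ) : ℝ) := by
  funext j
  refine Fin.cases ?_ (fun i => ?_) j <;> simp

theorem denom_pos {t : Fin (n + 1) → Fin m → ℝ} (ht : ∀ j i, 0 < t j i)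
    {b : Fin (n + 1) → ℝ} (hb : ∀ j, 0 < b j) (i : Fin m) : 0 < ∑ j, t j i * b j :=
  sum_pos (fun j _ => mul_pos (ht j i) (hb j)) univ_nonempty

theorem rowP_pos {t : Fin (n + 1) → Fin m → ℝ} (ht : ∀ j i, 0 < t j i)
    {b : Fin (n + 1) → ℝ} (hb : ∀ j, 0 < b j) (i : Fin m) : 0 < rowP t b i :=
  div_pos (mul_pos (ht 0 i) (hb 0)) (denom_pos ht hb i)

theorem rowP_le_one {t : Fin (n + 1) → Fin m → ℝ} (ht : ∀ j i, 0 < t j i)
    {b : Fin (n + 1) → ℝ} (hb : ∀ j, 0 < b j) (i : Fin m) : rowP t b i ≤ 1 := by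
  unfold rowP
  rw [div_le_one (denom_pos ht hb i)]
  exact single_le_sum (f := fun j => t j i * b j) (fun j _ => (mul_pos (ht j i) (hb j)).le)
    (mem_univ (0 : Fin (n + 1)))

theorem rowP_lt_one (hn : 0 < n) {t : Fin (n + 1) → Fin m → ℝ} (ht : ∀ j i, 0 < t j i)
    {b : Fin (n + 1) → ℝ} (hb : ∀ j, 0 < b j) (i : Fin m) : rowP t b i < 1 := by
  unfold rowP
  rw [div_lt_one (denom_pos ht hb i), Fin.sum_univ_succ]
  have : 0 < ∑ j : Fin n, t j.succ i * b j.succ := by
    have : Nonempty (Fin n) := ⟨⟨0, hn⟩⟩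
    exact sum_pos (fun j _ => mul_pos (ht _ i) (hb _)) univ_nonempty
  linarith

/-- If there is one column only, every column sum vector in `lev` is `r`. -/
theorem eq_of_no_cols {r x : Fin m → ℕ} {c0 : ℕ} {c' : Fin n → ℕ} (hn : n = 0)
    (hsum : ∑ i, r i = c0 + ∑ j, c' j) (hx : x ∈ lev r c0) (i : Fin m) : x i = r i := by
  subst hn
  obtain ⟨hxr, hxs⟩ := mem_lev.mp hx
  have h1 : ∑ i, x i = ∑ i, r i := by
    rw [hxs, hsum]
    simp
  by_contra hne
  have hlt : x i < r i := lt_of_le_of_ne (hxr i) hne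
  have := sum_lt_sum (fun j _ => hxr j) ⟨i, mem_univ i, hlt⟩
  omega

/-- One factor of the closed form of the coin. -/
theorem coin_factor {R v : ℕ} (hv : v ≤ R) {τ p : ℝ} (hτ : 0 < τ) (hp : 0 < p)
    (hdi : p < 1 ∨ v = R) :
    Real.exp ((v : ℝ) * (Real.log τ - Real.log p) - ((R : ℝ) - (v : ℝ)) * Real.log (1 - p))
      = ((R.choose v : ℝ) * τ ^ v) / bw R p v := by
  have hq : 0 < (1 - p) ^ (R - v) := by
    rcases hdi with h | h
    · exact pow_pos (by linarith) _
    · subst h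
      simp
  have h3 : Real.exp (((R - v : ℕ) : ℝ) * Real.log (1 - p)) = (1 - p) ^ (R - v) := by
    rcases hdi with h | h
    · rw [Real.exp_nat_mul, Real.exp_log (by linarith)]
    · subst h
      simp
  have e : (v : ℝ) * (Real.log τ - Real.log p) - ((R : ℝ) - (v : ℝ)) * Real.log (1 - p)
      = (v : ℝ) * Real.log τ - ((v : ℝ) * Real.log p + ((R - v : ℕ) : ℝ) * Real.log (1 - p)) := by
    rw [Nat.cast_sub hv]
    ring
  have hch : (0 : ℝ) < (R.choose v : ℝ) := by exact_mod_cast Nat.choose_pos hv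
  rw [e, Real.exp_sub, Real.exp_add, h3, Real.exp_nat_mul, Real.exp_nat_mul, Real.exp_log hτ,
    Real.exp_log hp]
  unfold bw
  have hpv : 0 < p ^ v := pow_pos hp v
  field_simp

end TrialAux

open TrialAux in
/-- The closed form of the coin. -/
theorem coinR_eq {W Tm Nb : ℕ} (hT : ellIters W Nb ≤ Tm) {r : Fin m → ℕ} {c0 : ℕ} {c' : Fin n → ℕ}
    (hsum : ∑ i, r i = c0 + ∑ j, c' j) {t : Fin (n + 1) → Fin m → ℝ} (ht : ∀ j i, 0 < t j i)
    {b : Fin (n + 1) → ℝ} (hb : ∀ j, 0 < b j) {x : Fin m → ℕ} (hx : x ∈ lev r c0) :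
    coinR W Tm (Nb : ℝ) (fun i => (r i : ℝ)) (c0 : ℝ) (fun j => (c' j : ℝ)) t b (encX x)
      = uvalHat W Nb r c' t x
        / (2 * Real.exp (logCapHat W Nb r (Fin.cons c0 c') t) * wt r (rowP t b) x) := by
  obtain ⟨hxr, hxs⟩ := mem_lev.mp hx
  have hp0 := rowP_pos ht hb
  have hdi : ∀ i, rowP t b i < 1 ∨ x i = r i := by
    intro i
    rcases Nat.eq_zero_or_pos n with h | h
    · exact Or.inr (eq_of_no_cols h hsum hx i)
    · exact Or.inl (rowP_lt_one h ht hb i)
  have hbw : ∀ i, 0 < bw (r i) (rowP t b i) (x i) := by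
    intro i
    have hch : (0 : ℝ) < ((r i).choose (x i) : ℝ) := by exact_mod_cast Nat.choose_pos (hxr i)
    have hq : 0 < (1 - rowP t b i) ^ (r i - x i) := by
      rcases hdi i with h | h
      · exact pow_pos (by linarith) _
      · rw [h]
        simp
    unfold bw
    have := pow_pos (hp0 i) (x i)
    positivity
  have hcap1 : logCapGate W Tm (Nb : ℝ) (fun i => (r i : ℝ) - encX x i) (fun j => (c' j : ℝ))
      (fun l => t l.succ) = logCapHat W Nb (fun i => r i - x i) c' fun l => t l.succ := by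
    have : (fun i => (r i : ℝ) - encX x i) = fun i => ((r i - x i : ℕ) : ℝ) := by
      funext i
      simp [encX, Nat.cast_sub (hxr i)]
    rw [this]
    exact logCapGate_eq hT _ _ _
  have hcap2 : logCapGate W Tm (Nb : ℝ) (fun i => (r i : ℝ))
      (Fin.cons (c0 : ℝ) (fun j => (c' j : ℝ))) t = logCapHat W Nb r (Fin.cons c0 c') t := by
    rw [cons_cast']
    exact logCapGate_eq hT _ _ _
  have hprod : Real.exp (∑ i, ((encX x i : ℝ) * (Real.log (t 0 i) - Real.log (rowP t b i))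
        - ((r i : ℝ) - encX x i) * Real.log (1 - rowP t b i)))
      = (∏ i, ((r i).choose (x i) : ℝ) * t 0 i ^ x i) / wt r (rowP t b) x := by
    rw [Real.exp_sum]
    unfold wt
    rw [← prod_div_distrib]
    exact prod_congr rfl fun i _ => coin_factor (hxr i) (ht 0 i) (hp0 i) (hdi i)
  have hwt : 0 < wt r (rowP t b) x := prod_pos fun i _ => hbw i
  unfold coinR uvalHat
  rw [hcap1, hcap2, Real.exp_sub, Real.exp_sub, Real.exp_add, hprod, Real.exp_log two_pos]
  have := Real.exp_pos (logCapHat W Nb r (Fin.cons c0 c') t)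
  field_simp

namespace TrialAux

theorem firstKey_cases (P : Par) (r : Fin m → ℝ) (c0 : ℝ) (t : Fin (n + 1) → Fin m → ℝ)
    (b : Fin (n + 1) → ℝ) :
    firstKey P r c0 t b = m ∨ ∃ i : Fin m, firstKey P r c0 t b = ((i : ℕ) : ℝ) := by
  unfold firstKey
  obtain ⟨k, _, h⟩ := Finset.exists_mem_eq_inf' (s := range (m + 1)) ⟨0, by simp⟩
    (fun k => if h : k < m then (if V0R P m n c0 ≤ rowVR r t b ⟨k, h⟩ then (k : ℝ) else m) else m)
  rw [h]
  by_cases hkm : k < m
  · simp only [hkm, dite_true]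
    split_ifs
    · exact Or.inr ⟨⟨k, hkm⟩, rfl⟩
    · exact Or.inl rfl
  · left
    simp [hkm]

theorem sum_key {k : ℝ} (i : Fin m) (hk : k = ((i : ℕ) : ℝ)) (f : Fin m → ℝ) :
    (∑ i' : Fin m, if k = ((i' : ℕ) : ℝ) then f i' else 0) = f i := by
  rw [Finset.sum_eq_single i]
  · simp [hk]
  · intro b _ hb
    rw [if_neg]
    intro h
    rw [hk] at h
    exact hb (Fin.ext (by exact_mod_cast h.symm))
  · intro h
    exact absurd (mem_univ i) h

theorem cutK_pos {W : ℕ} (hW : 1000 ≤ W) : 0 < cutK W := by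
  unfold cutK
  have : (0 : ℝ) < W := by
    have : 0 < W := by omega
    exact_mod_cast this
  positivity

end TrialAux

open TrialAux in
/-- The values of a trial. -/
theorem trialR_mem {W Tm Kb Nb Nb' : ℕ} (hS : SizeOK W Tm Kb Nb') (hNb : Nb ≤ Nb') (P : Par) {r : Fin m → ℕ}
    (hr : ∑ i, r i ≤ Nb') {c0 : ℕ} {c' : Fin n → ℕ} (t : Fin (n + 1) → Fin m → ℝ)
    (ω : TrialW m W → ℝ) (hω : ω ∈ Cube (TrialW m W)) :
    trialR W Tm Kb (Nb : ℝ) P (fun i => (r i : ℝ)) (c0 : ℝ) (fun j => (c' j : ℝ)) t ω = (fun _ => -1)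
      ∨ ∃ x ∈ lev r c0, trialR W Tm Kb (Nb : ℝ) P (fun i => (r i : ℝ)) (c0 : ℝ) (fun j => (c' j : ℝ)) t ω = encX x := by
  classical
  by_cases hc : ∀ j i, cutK W ≤ t j i
  · have ht : ∀ j i, 0 < t j i := fun j i => lt_of_lt_of_le (cutK_pos hS.W1) (hc j i)
    set b : Fin (n + 1) → ℝ := fun j => Real.exp (betaGate W Tm (Nb : ℝ) (fun i => (r i : ℝ))
      (Fin.cons (c0 : ℝ) (fun j => (c' j : ℝ))) t j) with hbdef
    have hb : ∀ j, 0 < b j := fun j => Real.exp_pos _
    have hTr : ∀ l, trialR W Tm Kb (Nb : ℝ) P (fun i => (r i : ℝ)) (c0 : ℝ) (fun j => (c' j : ℝ)) t ω l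
        = if firstKey P (fun i => (r i : ℝ)) (c0 : ℝ) t b = m then -1
          else ∑ i : Fin m, if firstKey P (fun i => (r i : ℝ)) (c0 : ℝ) t b = ((i : ℕ) : ℝ) then
            trialBranchR W Tm Kb (Nb : ℝ) P (fun i => (r i : ℝ)) (c0 : ℝ) (fun j => (c' j : ℝ)) t i ω l else 0 := by
      intro l
      unfold trialR
      rw [if_pos hc]
    rcases firstKey_cases P (fun i => (r i : ℝ)) (c0 : ℝ) t b with hk | ⟨i, hk⟩
    · left
      funext l
      rw [hTr l, if_pos hk]
    · have hne : firstKey P (fun i => (r i : ℝ)) (c0 : ℝ) t b ≠ m := by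
        rw [hk]
        intro h
        have : (i : ℕ) = m := by exact_mod_cast h
        exact i.2.ne this
      have hT2 : trialR W Tm Kb (Nb : ℝ) P (fun i => (r i : ℝ)) (c0 : ℝ) (fun j => (c' j : ℝ)) t ω
          = trialBranchR W Tm Kb (Nb : ℝ) P (fun i => (r i : ℝ)) (c0 : ℝ) (fun j => (c' j : ℝ)) t i ω := by
        funext l
        rw [hTr l, if_neg hne, sum_key i hk]
      rw [hT2]
      set xo : Fin m → ℝ := fun j =>
        binSampleR W Kb (r j : ℝ) (rowP t b j) fun a => ω (Sum.inl (j, a)) with hxo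
      set xi : ℝ := (c0 : ℝ) - ∑ j ∈ univ.erase i, xo j with hxi
      by_cases hcond : (∀ j ∈ univ.erase i, 0 ≤ xo j) ∧ 0 ≤ xi ∧ xi ≤ (r i : ℝ)
          ∧ ω (Sum.inr 0) ≤ KR P m n (c0 : ℝ) * bwHat W (r i : ℝ) (rowP t b i) xi
          ∧ ω (Sum.inr 1) ≤ coinR W Tm (Nb : ℝ) (fun i => (r i : ℝ)) (c0 : ℝ) (fun j => (c' j : ℝ)) t b
              (fun j => if j = i then xi else xo j)
      · right
        have hval : trialBranchR W Tm Kb (Nb : ℝ) P (fun i => (r i : ℝ)) (c0 : ℝ) (fun j => (c' j : ℝ)) t i ω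
            = fun j => if j = i then xi else xo j := if_pos hcond
        rw [hval]
        obtain ⟨h1, h2, h3, -, -⟩ := hcond
        have hex : ∀ j, ∃ y : ℕ, j ≠ i → (y ≤ r j ∧ xo j = (y : ℝ)) := by
          intro j
          by_cases hji : j = i
          · exact ⟨0, fun h => absurd hji h⟩
          · have hrj : r j ≤ Nb' := (single_le_sum (f := r) (fun _ _ => Nat.zero_le _) (mem_univ j)).trans hr
            have hKb : 2 * r j + 6 * W + 8 ≤ 2 ^ Kb := by
              have := hS.K1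
              omega
            have hcube : (fun a => ω (Sum.inl (j, a))) ∈ Cube (BinW W) := fun a => hω _
            rcases binSampleR_mem hS.W1 hKb (rowP_pos ht hb j) (TrialAux.rowP_le_one ht hb j) _ hcube with h | ⟨y, hy1, hy2⟩
            · have := h1 j (mem_erase.mpr ⟨hji, mem_univ j⟩)
              rw [hxo] at this
              simp only at this
              rw [h] at this
              norm_num at this
            · exact ⟨y, fun _ => ⟨hy1, hy2⟩⟩
        choose y hy using hex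
        have hsumy : ∑ j ∈ univ.erase i, xo j = ((∑ j ∈ univ.erase i, y j : ℕ) : ℝ) := by
          push_cast
          exact sum_congr rfl fun j hj => (hy j (mem_erase.mp hj).1).2
        have hle : ∑ j ∈ univ.erase i, y j ≤ c0 := by
          have : ((∑ j ∈ univ.erase i, y j : ℕ) : ℝ) ≤ (c0 : ℝ) := by
            rw [← hsumy]
            linarith
          exact_mod_cast this
        have hxi' : xi = ((c0 - ∑ j ∈ univ.erase i, y j : ℕ) : ℝ) := by
          rw [hxi, hsumy, Nat.cast_sub hle]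
        refine ⟨fun j => if j = i then c0 - ∑ j ∈ univ.erase i, y j else y j, ?_, ?_⟩
        · rw [mem_lev]
          refine ⟨fun j => ?_, ?_⟩
          · by_cases hji : j = i
            · subst hji
              simp only [if_true]
              rw [hxi'] at h3
              exact_mod_cast h3
            · simp only [hji, if_false]
              exact (hy j hji).1
          · rw [← add_sum_erase univ _ (mem_univ i)]
            simp only [if_true]
            have : ∑ j ∈ univ.erase i, (if j = i then c0 - ∑ j ∈ univ.erase i, y j else y j)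
                = ∑ j ∈ univ.erase i, y j :=
              sum_congr rfl fun j hj => by rw [if_neg (mem_erase.mp hj).1]
            rw [this]
            omega
        · funext j
          unfold encX
          by_cases hji : j = i
          · simp only [hji, if_true]
            exact hxi'
          · simp only [hji, if_false]
            exact (hy j hji).2
      · left
        exact if_neg hcond
  · left
    funext l
    unfold trialR
    rw [if_neg hc]

namespace TrialLaw

open Finset MeasureTheory Vale.Agent.Lib.P328.Cap Vale.Agent.Lib.P328.Fpras Vale.Agent.Lib.P328.Samp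

variable {m n : ℕ}

/-! ### A hybrid argument for products of sub-probabilities -/

theorem tele (a b : Fin m → ℝ) (ha : ∀ j, 0 ≤ a j) (hb : ∀ j, 0 ≤ b j) :
    |∏ j, a j - ∏ j, b j|
      ≤ ∑ i, ∏ j, (if j < i then b j else if j = i then |a j - b j| else a j) := by
  have h := Finset.prod_sub_ordered (s := (univ : Finset (Fin m))) (f := a)
    (g := fun j => a j - b j)
  simp only [sub_sub_cancel] at h
  have h2 : ∏ j, a j - ∏ j, b j = ∑ i, (a i - b i) * (∏ j ∈ univ.filter (· < i), b j)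
      * ∏ j ∈ univ.filter (i < ·), a j := by
    rw [h]; ring
  rw [h2]
  refine (Finset.abs_sum_le_sum_abs _ _).trans (Finset.sum_le_sum fun i _ => le_of_eq ?_)
  rw [abs_mul, abs_mul, abs_of_nonneg (Finset.prod_nonneg fun j _ => hb j),
    abs_of_nonneg (Finset.prod_nonneg fun j _ => ha j),
    ← Finset.mul_prod_erase univ _ (mem_univ i)]
  simp only [lt_irrefl, if_false, if_true]
  have he : (univ : Finset (Fin m)).erase i
      = univ.filter (· < i) ∪ univ.filter (i < ·) := by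
    ext j
    simp only [mem_erase, mem_univ, and_true, mem_union, mem_filter, true_and]
    exact ⟨fun hj => lt_or_gt_of_ne hj, fun hj => hj.elim ne_of_lt ne_of_gt⟩
  have hd : Disjoint (univ.filter (· < i)) (univ.filter (i < ·)) := by
    rw [Finset.disjoint_left]
    intro j h1 h2
    simp only [mem_filter, mem_univ, true_and] at h1 h2
    exact lt_asymm h1 h2
  rw [he, Finset.prod_union hd, mul_assoc]
  congr 2
  · refine Finset.prod_congr rfl fun j hj => ?_
    simp only [mem_filter, mem_univ, true_and] at hj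
    simp [hj]
  · refine Finset.prod_congr rfl fun j hj => ?_
    simp only [mem_filter, mem_univ, true_and] at hj
    simp [not_lt.2 hj.le, hj.ne']

theorem hybrid (S : Fin m → Finset ℕ) (L B : Fin m → ℕ → ℝ) {δ : ℝ}
    (hL0 : ∀ j v, 0 ≤ L j v) (hB0 : ∀ j v, 0 ≤ B j v)
    (hL1 : ∀ j, ∑ v ∈ S j, L j v ≤ 1) (hB1 : ∀ j, ∑ v ∈ S j, B j v ≤ 1)
    (hd : ∀ j, ∑ v ∈ S j, |L j v - B j v| ≤ δ) :
    ∑ y ∈ Fintype.piFinset S, |∏ j, L j (y j) - ∏ j, B j (y j)| ≤ m * δ := by
  calc ∑ y ∈ Fintype.piFinset S, |∏ j, L j (y j) - ∏ j, B j (y j)|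
      ≤ ∑ y ∈ Fintype.piFinset S, ∑ i, ∏ j, (if j < i then B j (y j)
          else if j = i then |L j (y j) - B j (y j)| else L j (y j)) :=
        Finset.sum_le_sum fun y _ => tele _ _ (fun j => hL0 j _) (fun j => hB0 j _)
    _ = ∑ i, ∑ y ∈ Fintype.piFinset S, ∏ j, (if j < i then B j (y j)
          else if j = i then |L j (y j) - B j (y j)| else L j (y j)) := Finset.sum_comm
    _ = ∑ i, ∏ j, ∑ v ∈ S j, (if j < i then B j v
          else if j = i then |L j v - B j v| else L j v) := by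
        refine Finset.sum_congr rfl fun i _ => ?_
        exact (Finset.prod_univ_sum S (fun j v => if j < i then B j v
          else if j = i then |L j v - B j v| else L j v)).symm
    _ ≤ ∑ _i : Fin m, δ := by
        refine Finset.sum_le_sum fun i _ => ?_
        have hnn : ∀ j, 0 ≤ ∑ v ∈ S j, (if j < i then B j v
            else if j = i then |L j v - B j v| else L j v) := by
          intro j
          refine Finset.sum_nonneg fun v _ => ?_
          split_ifs
          · exact hB0 j v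
          · exact abs_nonneg _
          · exact hL0 j v
        rw [← Finset.mul_prod_erase univ _ (mem_univ i)]
        have h1 : ∑ v ∈ S i, (if i < i then B i v
            else if i = i then |L i v - B i v| else L i v) ≤ δ := by
          simpa using hd i
        have h2 : ∏ j ∈ univ.erase i, ∑ v ∈ S j, (if j < i then B j v
            else if j = i then |L j v - B j v| else L j v) ≤ 1 := by
          refine Finset.prod_le_one (fun j _ => hnn j) fun j hj => ?_
          have hji : j ≠ i := (Finset.mem_erase.1 hj).1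
          by_cases hlt : j < i
          · simpa [hlt] using hB1 j
          · simpa [hlt, hji] using hL1 j
        have h3 := hnn i
        calc _ ≤ δ * 1 := mul_le_mul h1 h2 (Finset.prod_nonneg fun j _ => hnn j) (h3.trans h1)
          _ = δ := mul_one δ
    _ = m * δ := by simp

/-! ### Independent wires -/

/-- The product formula, with no measurability needed. -/
theorem Pr_prod' {Ω₁ Ω₂ : Type} [Fintype Ω₁] [Fintype Ω₂] (E₁ : (Ω₁ → ℝ) → Prop)
    (E₂ : (Ω₂ → ℝ) → Prop) :
    Pr (fun ω : (Ω₁ ⊕ Ω₂) → ℝ => E₁ (fun a => ω (Sum.inl a)) ∧ E₂ (fun a => ω (Sum.inr a)))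
      = Pr E₁ * Pr E₂ := by
  have hp := volume_measurePreserving_sumPiEquivProdPi (fun _ : Ω₁ ⊕ Ω₂ => ℝ)
  have hset : {ω : Ω₁ ⊕ Ω₂ → ℝ | ω ∈ Cube (Ω₁ ⊕ Ω₂) ∧
        (E₁ (fun a => ω (Sum.inl a)) ∧ E₂ (fun a => ω (Sum.inr a)))}
      = (MeasurableEquiv.sumPiEquivProdPi (fun _ : Ω₁ ⊕ Ω₂ => ℝ)) ⁻¹'
        ({ω | ω ∈ Cube Ω₁ ∧ E₁ ω} ×ˢ {ω | ω ∈ Cube Ω₂ ∧ E₂ ω}) := by
    ext ω
    simp only [Set.mem_ofPred_eq, Set.mem_preimage, Set.mem_prod, MeasurableEquiv.coe_sumPiEquivProdPi,
      Equiv.sumPiEquivProdPi_apply, Cube, Sum.forall]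
    tauto
  rw [Pr, hset, hp.measure_preimage_equiv, Measure.volume_eq_prod, Measure.prod_prod,
    ENNReal.toReal_mul]
  rfl

/-- Upper bounds for all coordinates. -/
theorem Pr_le_all {Ω : Type} [Fintype Ω] (u : Ω → ℝ) (hu : ∀ a, 0 ≤ u a) :
    Pr (fun ω : Ω → ℝ => ∀ a, ω a ≤ u a) = ∏ a, min 1 (u a) := by
  have h : {ω : Ω → ℝ | ω ∈ Cube Ω ∧ ∀ a, ω a ≤ u a}
      = Set.pi Set.univ (fun a => Set.Icc (0 : ℝ) (min 1 (u a))) := by
    ext ω
    simp only [Set.mem_ofPred_eq, Cube, Set.mem_pi, Set.mem_univ, true_implies, Set.mem_Icc,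
      le_min_iff]
    constructor
    · rintro ⟨h1, h2⟩ a
      exact ⟨(h1 a).1, (h1 a).2, h2 a⟩
    · intro h1
      exact ⟨fun a => ⟨(h1 a).1, (h1 a).2.1⟩, fun a => (h1 a).2.2⟩
  rw [Pr, h, volume_pi_pi, ENNReal.toReal_prod]
  refine Finset.prod_congr rfl fun a _ => ?_
  rw [Real.volume_Icc, sub_zero, ENNReal.toReal_ofReal (le_min zero_le_one (hu a))]

/-! ### Measurability of the sampler -/

theorem measurable_floorAux (b : ℕ) {st : ℝ → ℝ} (hst : Measurable st) :
    Measurable fun y => floorAux y b (st y) := by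
  induction b generalizing st with
  | zero => simpa [floorAux] using hst
  | succ b ih =>
    simp only [floorAux]
    refine ih ?_
    refine Measurable.ite ?_ (hst.add_const _) hst
    exact measurableSet_le (hst.add_const _) measurable_id

theorem measurable_floorR (K : ℕ) : Measurable (floorR K) :=
  measurable_floorAux K (st := fun _ => 0) measurable_const

theorem measurable_stirMain : Measurable stirMain := by
  unfold stirMain
  fun_prop

theorem measurable_logFactHat (W : ℕ) : Measurable (logFactHat W) := by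
  unfold logFactHat
  refine Measurable.add (Finset.measurable_sum _ fun l _ => ?_) ?_
  · exact Measurable.ite (measurableSet_le measurable_const measurable_id)
      measurable_const measurable_const
  · exact Measurable.ite (measurableSet_lt measurable_const measurable_id)
      (measurable_stirMain.sub_const _) measurable_const

theorem measurable_bwHat (W : ℕ) (R p : ℝ) : Measurable (bwHat W R p) := by
  unfold bwHat
  have h := measurable_logFactHat W
  by_cases hp : 1 ≤ p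
  · simp only [hp, if_true]
    exact Measurable.ite (measurableSet_eq) measurable_const measurable_const
  · simp only [hp, if_false]
    have h1 : Measurable fun y : ℝ => logFactHat W (R - y) := h.comp (measurable_const.sub measurable_id)
    have h2 : Measurable fun y : ℝ => logFactHat W R - logFactHat W y - logFactHat W (R - y)
        + y * Real.log p + (R - y) * Real.log (1 - p) := by
      refine Measurable.add (Measurable.add (Measurable.sub (Measurable.sub measurable_const h) h1) ?_) ?_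
      · exact measurable_id.mul_const _
      · exact (measurable_const.sub measurable_id).mul_const _
    exact Real.measurable_exp.comp h2

theorem measurable_binTry (W Kb : ℕ) (R p : ℝ) : Measurable (binTry W Kb R p) := by
  classical
  have hy : Measurable fun ω : Fin 2 → ℝ => winC Kb R p - winA W Kb R p
      + floorR Kb (ω 0 * (2 * winA W Kb R p + 1)) :=
    measurable_const.add ((measurable_floorR Kb).comp ((measurable_pi_apply 0).mul_const _))
  have hS : MeasurableSet {ω : Fin 2 → ℝ | 0 ≤ winC Kb R p - winA W Kb R p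
      + floorR Kb (ω 0 * (2 * winA W Kb R p + 1)) ∧ winC Kb R p - winA W Kb R p
      + floorR Kb (ω 0 * (2 * winA W Kb R p + 1)) ≤ R ∧ ω 1 * (2 * bUp (binV R p))
        ≤ bwHat W R p (winC Kb R p - winA W Kb R p
      + floorR Kb (ω 0 * (2 * winA W Kb R p + 1)))} := by
    refine (measurableSet_le measurable_const hy).inter ((measurableSet_le hy measurable_const).inter ?_)
    exact measurableSet_le ((measurable_pi_apply 1).mul_const _) ((measurable_bwHat W R p).comp hy)
  unfold binTry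
  exact Measurable.ite hS hy measurable_const

theorem measurable_rejStep {Ω : Type} [Fintype Ω] {att : (Ω → ℝ) → ℝ} (hatt : Measurable att) :
    Measurable fun p : (Unit → ℝ) × (Ω → ℝ) => rejStep att p.1 p.2 := by
  refine measurable_pi_lambda _ fun _ => ?_
  have h0 : Measurable fun p : (Unit → ℝ) × (Ω → ℝ) => p.1 () :=
    (measurable_pi_apply ()).comp measurable_fst
  unfold rejStep
  exact Measurable.ite (measurableSet_le measurable_const h0) h0 (hatt.comp measurable_snd)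

theorem measurable_binSampleR (W Kb : ℕ) (R p : ℝ) : Measurable (binSampleR W Kb R p) := by
  unfold binSampleR
  by_cases hp : 1 ≤ p
  · simp only [hp, if_true]
    exact measurable_const
  · simp only [hp, if_false]
    have h := measurable_runSeq (measurable_rejStep (measurable_binTry W Kb R p))
      (fun _ => -1) (binJ W)
    exact (measurable_pi_apply ()).comp h

/-- The law of the sampler is a sub-probability. -/
theorem sum_binSampleR_le (W Kb R : ℕ) (p : ℝ) :
    ∑ v ∈ range (R + 1), Pr (fun ω => binSampleR W Kb R p ω = (v : ℝ)) ≤ 1 := by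
  have hm : ∀ v ∈ range (R + 1), MeasurableSet {ω | binSampleR W Kb R p ω = (v : ℝ)} := fun v _ =>
    (measurable_binSampleR W Kb R p) (measurableSet_singleton _)
  have h := Pr_exists_finset (range (R + 1)) (fun v ω => binSampleR W Kb R p ω = (v : ℝ)) hm
    (fun i _ j _ hij ω h1 h2 => hij (by
      have := h1.symm.trans h2
      exact_mod_cast this))
  rw [← h]
  exact Pr_le_one _

/-! ### The first row -/

theorem firstKey_eq_none {P : Par} {r : Fin m → ℝ} {c0 : ℝ} {t : Fin (n + 1) → Fin m → ℝ}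
    {b : Fin (n + 1) → ℝ} (h : ∀ i, ¬ V0R P m n c0 ≤ rowVR r t b i) :
    firstKey P r c0 t b = m := by
  unfold firstKey
  apply le_antisymm
  · exact Finset.inf'_le_of_le _ (Finset.mem_range.2 (Nat.lt_succ_self m)) (by simp)
  · refine Finset.le_inf' _ _ fun k _ => ?_
    split_ifs with h1 h2
    · exact absurd h2 (h _)
    · exact le_rfl
    · exact le_rfl

theorem firstKey_eq_first {P : Par} {r : Fin m → ℝ} {c0 : ℝ} {t : Fin (n + 1) → Fin m → ℝ}
    {b : Fin (n + 1) → ℝ} (i : Fin m) (hi : V0R P m n c0 ≤ rowVR r t b i)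
    (hmin : ∀ j : Fin m, V0R P m n c0 ≤ rowVR r t b j → i ≤ j) :
    firstKey P r c0 t b = ((i : ℕ) : ℝ) := by
  unfold firstKey
  apply le_antisymm
  · refine Finset.inf'_le_of_le _ (Finset.mem_range.2 (Nat.lt_succ_of_lt i.2)) ?_
    simp [i.2, hi]
  · refine Finset.le_inf' _ _ fun k _ => ?_
    split_ifs with h1 h2
    · have := hmin ⟨k, h1⟩ h2
      exact_mod_cast this
    · exact_mod_cast i.2.le
    · exact_mod_cast i.2.le

theorem firstIdx_le {k : ℕ} (p : Fin k → Prop) (h : ∃ i, p i) (j : Fin k) (hj : p j) :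
    firstIdx p h ≤ j := by
  classical
  unfold firstIdx
  exact Finset.min'_le _ _ (by simp [hj])

theorem V0R_eq (P : Par) (m n c0 : ℕ) : V0R P m n (c0 : ℝ) = P.V0 m n c0 := by
  unfold V0R Par.V0
  simp only [Nat.cast_lt]

theorem KR_eq (P : Par) (m n c0 : ℕ) : KR P m n (c0 : ℝ) = P.K m n c0 := by
  unfold KR Par.K
  simp only [Nat.cast_lt, V0R_eq]

theorem K_nonneg (P : Par) (m n c0 : ℕ) : 0 ≤ P.K m n c0 := by
  unfold Par.K
  split_ifs
  · exact Real.sqrt_nonneg _
  · exact zero_le_one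

theorem cons_cast (c0 : ℕ) (c' : Fin n → ℕ) :
    (Fin.cons (c0 : ℝ) (fun j => (c' j : ℝ)) : Fin (n + 1) → ℝ)
      = fun j => ((Fin.cons c0 c' : Fin (n + 1) → ℕ) j : ℝ) := by
  funext j
  refine Fin.cases ?_ (fun l => ?_) j <;> simp

/-- The point of the ellipsoid method on real wires. -/
noncomputable def bG (W Tm : ℕ) (Nb : ℝ) (r : Fin m → ℝ) (c0 : ℝ) (c' : Fin n → ℝ)
    (t : Fin (n + 1) → Fin m → ℝ) : Fin (n + 1) → ℝ :=
  fun j => Real.exp (betaGate W Tm Nb r (Fin.cons c0 c') t j)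

theorem bG_eq {W Tm Nb : ℕ} (hT : ellIters W Nb ≤ Tm) (r : Fin m → ℕ) (c0 : ℕ) (c' : Fin n → ℕ)
    (t : Fin (n + 1) → Fin m → ℝ) :
    bG W Tm (Nb : ℝ) (fun i => (r i : ℝ)) (c0 : ℝ) (fun j => (c' j : ℝ)) t = q_bH W Nb r c0 c' t := by
  unfold bG q_bH
  rw [cons_cast, betaGate_eq hT]

theorem encX_ne (hm : 0 < m) (x : Fin m → ℕ) : encX x ≠ fun _ => -1 := by
  intro h
  have := congrFun h ⟨0, hm⟩
  have h0 : (0 : ℝ) ≤ (x ⟨0, hm⟩ : ℝ) := Nat.cast_nonneg _
  simp only [encX] at this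
  linarith

/-- The event that the branch of the row `i` returns `x`. -/
theorem branch_iff {W Tm Kb : ℕ} {Nb : ℝ} {P : Par} (hm : 0 < m) {r : Fin m → ℕ} {c0 : ℕ} {c' : Fin n → ℕ}
    {t : Fin (n + 1) → Fin m → ℝ} {i : Fin m} {ω : TrialW m W → ℝ} {x : Fin m → ℕ}
    (hx : x ∈ lev r c0) :
    trialBranchR W Tm Kb Nb P (fun i => (r i : ℝ)) (c0 : ℝ) (fun j => (c' j : ℝ)) t i ω = encX x
      ↔ (∀ j ∈ univ.erase i, binSampleR W Kb (r j)
            (rowP t (bG W Tm Nb (fun i => (r i : ℝ)) (c0 : ℝ) (fun j => (c' j : ℝ)) t) j)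
            (fun a => ω (Sum.inl (j, a))) = x j)
        ∧ ω (Sum.inr 0) ≤ KR P m n (c0 : ℝ) * bwHat W (r i)
            (rowP t (bG W Tm Nb (fun i => (r i : ℝ)) (c0 : ℝ) (fun j => (c' j : ℝ)) t) i) (x i)
        ∧ ω (Sum.inr 1) ≤ coinR W Tm Nb (fun i => (r i : ℝ)) (c0 : ℝ) (fun j => (c' j : ℝ)) t
            (bG W Tm Nb (fun i => (r i : ℝ)) (c0 : ℝ) (fun j => (c' j : ℝ)) t) (encX x) := by
  classical
  obtain ⟨hx1, hx2⟩ := mem_lev.1 hx
  set b := bG W Tm Nb (fun i => (r i : ℝ)) (c0 : ℝ) (fun j => (c' j : ℝ)) t with hb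
  set xo : Fin m → ℝ := fun j =>
    binSampleR W Kb (r j) (rowP t b j) fun a => ω (Sum.inl (j, a)) with hxo
  have hsum : (c0 : ℝ) = ∑ j, (x j : ℝ) := by
    rw [← hx2]; push_cast; rfl
  have hsplit : (c0 : ℝ) - ∑ j ∈ univ.erase i, (x j : ℝ) = x i := by
    rw [hsum, ← Finset.add_sum_erase univ _ (mem_univ i)]
    ring
  unfold trialBranchR
  show (if (∀ j ∈ univ.erase i, 0 ≤ xo j) ∧ 0 ≤ (c0 : ℝ) - ∑ j ∈ univ.erase i, xo j
      ∧ (c0 : ℝ) - ∑ j ∈ univ.erase i, xo j ≤ (r i : ℝ)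
      ∧ ω (Sum.inr 0) ≤ KR P m n (c0 : ℝ) * bwHat W (r i) (rowP t b i)
          ((c0 : ℝ) - ∑ j ∈ univ.erase i, xo j)
      ∧ ω (Sum.inr 1) ≤ coinR W Tm Nb (fun i => (r i : ℝ)) (c0 : ℝ) (fun j => (c' j : ℝ)) t b
          (fun j => if j = i then (c0 : ℝ) - ∑ j ∈ univ.erase i, xo j else xo j)
    then (fun j => if j = i then (c0 : ℝ) - ∑ j ∈ univ.erase i, xo j else xo j)
    else fun _ => -1) = encX x ↔ _
  constructor
  · intro h
    split_ifs at h with hc
    · have h1 : ∀ j ∈ univ.erase i, xo j = x j := by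
        intro j hj
        have := congrFun h j
        simpa [(Finset.mem_erase.1 hj).1, encX] using this
      have h2 : (c0 : ℝ) - ∑ j ∈ univ.erase i, xo j = x i := by
        have := congrFun h i
        simpa [encX] using this
      refine ⟨h1, ?_, ?_⟩
      · have := hc.2.2.2.1
        rwa [h2] at this
      · have := hc.2.2.2.2
        rwa [h] at this
    · exact absurd h.symm (encX_ne hm x)
  · rintro ⟨h1, h2, h3⟩
    have hs : ∑ j ∈ univ.erase i, xo j = ∑ j ∈ univ.erase i, (x j : ℝ) :=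
      Finset.sum_congr rfl h1
    have hxi : (c0 : ℝ) - ∑ j ∈ univ.erase i, xo j = x i := by rw [hs, hsplit]
    have hloc : (fun j => if j = i then (c0 : ℝ) - ∑ j ∈ univ.erase i, xo j else xo j) = encX x := by
      funext j
      by_cases hj : j = i
      · rw [if_pos hj, hj, hxi]; rfl
      · simp only [hj, if_false, encX]
        exact h1 j (Finset.mem_erase.2 ⟨hj, mem_univ j⟩)
    rw [if_pos, hloc]
    refine ⟨fun j hj => ?_, ?_, ?_, ?_, ?_⟩
    · have h1' : xo j = x j := h1 j hj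
      rw [h1']; exact Nat.cast_nonneg _
    · rw [hxi]; exact Nat.cast_nonneg _
    · rw [hxi]; exact_mod_cast hx1 i
    · rw [hxi]; exact h2
    · rw [hloc]; exact h3

/-- The probability of the event of the branch. -/
theorem Pr_branch {W : ℕ} {L : Fin m → (BinW W → ℝ) → ℝ} {i : Fin m} {x : Fin m → ℕ} {u0 u1 : ℝ}
    (h0 : 0 ≤ u0) (h1 : 0 ≤ u1) :
    Pr (fun ω : TrialW m W → ℝ => (∀ j ∈ univ.erase i, L j (fun a => ω (Sum.inl (j, a))) = x j)
        ∧ ω (Sum.inr 0) ≤ u0 ∧ ω (Sum.inr 1) ≤ u1)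
      = (∏ j ∈ univ.erase i, Pr (fun ω => L j ω = x j)) * (min 1 u0 * min 1 u1) := by
  classical
  have h := Pr_prod' (Ω₁ := Fin m × BinW W) (Ω₂ := Fin 2)
    (fun v => ∀ j, (fun j (w : BinW W → ℝ) => j = i ∨ L j w = x j) j fun a => v (j, a))
    (fun v => ∀ a, v a ≤ ![u0, u1] a)
  have h2 : Pr (fun ω : TrialW m W → ℝ => (∀ j ∈ univ.erase i, L j (fun a => ω (Sum.inl (j, a))) = x j)
        ∧ ω (Sum.inr 0) ≤ u0 ∧ ω (Sum.inr 1) ≤ u1)
      = Pr (fun ω : (Fin m × BinW W ⊕ Fin 2) → ℝ =>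
          (∀ j, (fun j (w : BinW W → ℝ) => j = i ∨ L j w = x j) j fun a => ω (Sum.inl (j, a)))
          ∧ ∀ a, ω (Sum.inr a) ≤ ![u0, u1] a) := by
    refine Pr_congr fun ω _ => ?_
    constructor
    · rintro ⟨h1, h2, h3⟩
      refine ⟨fun j => ?_, fun a => ?_⟩
      · by_cases hj : j = i
        · exact Or.inl hj
        · exact Or.inr (h1 j (Finset.mem_erase.2 ⟨hj, mem_univ j⟩))
      · fin_cases a
        · exact h2
        · exact h3
    · rintro ⟨h1, h2⟩
      refine ⟨fun j hj => ?_, h2 0, h2 1⟩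
      exact (h1 j).resolve_left (Finset.mem_erase.1 hj).1
  have hp := Pr_pi (I := Fin m) (Ω := BinW W) (fun j (w : BinW W → ℝ) => j = i ∨ L j w = x j)
  rw [h2, h, hp, Pr_le_all]
  · rw [Fin.prod_univ_two, ← Finset.mul_prod_erase univ _ (mem_univ i)]
    have h3 : Pr (fun w : BinW W → ℝ => i = i ∨ L i w = x i) = 1 := by
      rw [← Pr_true (Ω := BinW W)]
      exact Pr_congr fun ω _ => by simp
    rw [h3, one_mul]
    congr 1
    refine Finset.prod_congr rfl fun j hj => ?_
    refine Pr_congr fun ω _ => ?_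
    have hj' := (Finset.mem_erase.1 hj).1
    simp [hj']
  · intro a
    fin_cases a
    · exact h0
    · exact h1

theorem trialR_neg_of_not_cut {W Tm Kb : ℕ} {Nb : ℝ} {P : Par} {r : Fin m → ℝ} {c0 : ℝ}
    {c' : Fin n → ℝ} {t : Fin (n + 1) → Fin m → ℝ} (h : ¬ ∀ j i, cutK W ≤ t j i)
    (ω : TrialW m W → ℝ) : trialR W Tm Kb Nb P r c0 c' t ω = fun _ => -1 := by
  funext l
  unfold trialR
  rw [if_neg h]

theorem trialR_neg_of_none {W Tm Kb : ℕ} {Nb : ℝ} {P : Par} {r : Fin m → ℝ} {c0 : ℝ}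
    {c' : Fin n → ℝ} {t : Fin (n + 1) → Fin m → ℝ} (hk : firstKey P r c0 t (bG W Tm Nb r c0 c' t) = m)
    (ω : TrialW m W → ℝ) : trialR W Tm Kb Nb P r c0 c' t ω = fun _ => -1 := by
  funext l
  unfold trialR
  split_ifs with h
  · show (if firstKey P r c0 t (bG W Tm Nb r c0 c' t) = m then (-1 : ℝ) else _) = -1
    rw [if_pos hk]
  · rfl

theorem trialR_eq_branch {W Tm Kb : ℕ} {Nb : ℝ} {P : Par} {r : Fin m → ℝ} {c0 : ℝ}
    {c' : Fin n → ℝ} {t : Fin (n + 1) → Fin m → ℝ} (h : ∀ j i, cutK W ≤ t j i) {i : Fin m}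
    (hk : firstKey P r c0 t (bG W Tm Nb r c0 c' t) = ((i : ℕ) : ℝ)) (ω : TrialW m W → ℝ) :
    trialR W Tm Kb Nb P r c0 c' t ω = trialBranchR W Tm Kb Nb P r c0 c' t i ω := by
  funext l
  unfold trialR
  rw [if_pos h]
  show (if firstKey P r c0 t (bG W Tm Nb r c0 c' t) = m then (-1 : ℝ)
    else ∑ i' : Fin m, if firstKey P r c0 t (bG W Tm Nb r c0 c' t) = ((i' : ℕ) : ℝ)
      then trialBranchR W Tm Kb Nb P r c0 c' t i' ω l else 0) = _
  rw [hk, if_neg]
  · rw [Finset.sum_eq_single i]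
    · simp
    · intro j _ hj
      rw [if_neg]
      intro h2
      exact hj (Fin.ext (by exact_mod_cast h2.symm))
    · simp
  · intro h2
    have : (i : ℕ) = m := by exact_mod_cast h2
    exact i.2.ne this

theorem abs_combo {LL BB a A c ε : ℝ} (hLL : 0 ≤ LL) (hc0 : 0 ≤ c) (hc1 : c ≤ 1) (hA0 : 0 ≤ A)
    (hA1 : A ≤ 1) (h : |a - A| ≤ ε) : |LL * (a * c) - BB * A * c| ≤ |LL - BB| + LL * ε := by
  have e : LL * (a * c) - BB * A * c = c * ((LL - BB) * A + LL * (a - A)) := by ring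
  rw [e, abs_mul, abs_of_nonneg hc0]
  have h1 : |(LL - BB) * A + LL * (a - A)| ≤ |LL - BB| + LL * ε := by
    refine (abs_add_le _ _).trans (add_le_add ?_ ?_)
    · rw [abs_mul, abs_of_nonneg hA0]
      exact mul_le_of_le_one_right (abs_nonneg _) hA1
    · rw [abs_mul, abs_of_nonneg hLL]
      exact mul_le_mul_of_nonneg_left h hLL
  calc _ ≤ 1 * |(LL - BB) * A + LL * (a - A)| := by gcongr
    _ ≤ _ := by rw [one_mul]; exact h1

theorem abs_min_sub {u v ε : ℝ} (hv : v ≤ 1) (h : |u - v| ≤ ε) : |min 1 u - v| ≤ ε := by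
  rcases le_total u 1 with h1 | h1
  · rwa [min_eq_right h1]
  · rw [min_eq_left h1]
    refine le_trans ?_ h
    rw [abs_of_nonneg (by linarith), abs_of_nonneg (by linarith)]
    linarith

theorem rowP_pos {t : Fin (n + 1) → Fin m → ℝ} {b : Fin (n + 1) → ℝ} (ht : ∀ j i, 0 < t j i)
    (hb : ∀ j, 0 < b j) (i : Fin m) : 0 < rowP t b i := by
  unfold rowP
  exact div_pos (mul_pos (ht 0 i) (hb 0))
    (Finset.sum_pos (fun j _ => mul_pos (ht j i) (hb j)) ⟨0, mem_univ _⟩)

/-- The sum over the level set is at most the sum over the free coordinates. -/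
theorem sum_lev_le {r : Fin m → ℕ} {c0 : ℕ} (i : Fin m) (G : (Fin m → ℕ) → ℝ) (hG : ∀ y, 0 ≤ G y) :
    ∑ x ∈ lev r c0, G (Function.update x i 0)
      ≤ ∑ y ∈ Fintype.piFinset (fun j => if j = i then {0} else range (r j + 1)), G y := by
  classical
  have hinj : Set.InjOn (fun x : Fin m → ℕ => Function.update x i 0) (lev r c0 : Set (Fin m → ℕ)) := by
    intro x hx x' hx' h
    obtain ⟨_, h2⟩ := mem_lev.1 (Finset.mem_coe.1 hx)
    obtain ⟨_, h2'⟩ := mem_lev.1 (Finset.mem_coe.1 hx')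
    have hne : ∀ j, j ≠ i → x j = x' j := by
      intro j hj
      have := congrFun h j
      simpa [Function.update_of_ne hj] using this
    have hs : ∑ j ∈ univ.erase i, x j = ∑ j ∈ univ.erase i, x' j :=
      Finset.sum_congr rfl fun j hj => hne j (Finset.mem_erase.1 hj).1
    have h3 := Finset.add_sum_erase univ x (mem_univ i)
    have h3' := Finset.add_sum_erase univ x' (mem_univ i)
    have hi : x i = x' i := by omega
    funext j
    by_cases hj : j = i
    · rw [hj]; exact hi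
    · exact hne j hj
  rw [← Finset.sum_image (f := G) hinj]
  refine Finset.sum_le_sum_of_subset_of_nonneg ?_ fun y _ _ => hG y
  intro y hy
  obtain ⟨x, hx, rfl⟩ := Finset.mem_image.1 hy
  refine Fintype.mem_piFinset.2 fun j => ?_
  by_cases hj : j = i
  · subst hj
    simp
  · have := (mem_lev.1 hx).1 j
    simp only [hj, if_false, Function.update_of_ne hj, Finset.mem_range]
    omega

theorem prod_update (L : Fin m → ℕ → ℝ) (i : Fin m) (x : Fin m → ℕ) :
    ∏ j, (if j = i then (1 : ℝ) else L j (Function.update x i 0 j)) = ∏ j ∈ univ.erase i, L j (x j) := by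
  rw [← Finset.mul_prod_erase univ _ (mem_univ i)]
  simp only [if_true, one_mul]
  refine Finset.prod_congr rfl fun j hj => ?_
  have hj' := (Finset.mem_erase.1 hj).1
  simp [hj']

/-- **The law of a trial is close to `trialHat`.** -/
theorem trialR_close' {W Tm Kb Nb Nb' : ℕ} (hS : SizeOK W Tm Kb Nb') (hNb : Nb ≤ Nb') (P : Par)
    (hm : 0 < m) {r : Fin m → ℕ} (hr : ∑ i, r i ≤ Nb') {c0 : ℕ} {c' : Fin n → ℕ}
    (hsum : ∑ i, r i = c0 + ∑ j, c' j) (t : Fin (n + 1) → Fin m → ℝ) :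
    ∑ x ∈ lev r c0, |Pr (fun ω => trialR W Tm Kb (Nb : ℝ) P (fun i => (r i : ℝ)) (c0 : ℝ)
          (fun j => (c' j : ℝ)) t ω = encX x) - trialHat W Nb P r c0 c' t x|
      ≤ ((m : ℝ) + 1) / (W : ℝ) ^ 29 := by
  classical
  have hW := hS.W1
  have hW0 : (0 : ℝ) < W := by
    have : 0 < W := by omega
    exact_mod_cast this
  have hW1000 : (1000 : ℝ) ≤ W := by exact_mod_cast hW
  have hT : ellIters W Nb ≤ Tm := hS.T1 Nb hNb
  have hrhs : 0 ≤ ((m : ℝ) + 1) / (W : ℝ) ^ 29 := by positivity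
  have hzero : ∀ x : Fin m → ℕ,
      (∀ ω, trialR W Tm Kb (Nb : ℝ) P (fun i => (r i : ℝ)) (c0 : ℝ)
          (fun j => (c' j : ℝ)) t ω = fun _ => -1) →
      Pr (fun ω => trialR W Tm Kb (Nb : ℝ) P (fun i => (r i : ℝ)) (c0 : ℝ)
          (fun j => (c' j : ℝ)) t ω = encX x) = 0 := by
    intro x h
    rw [← Pr_false (Ω := TrialW m W)]
    refine Pr_congr fun ω _ => ?_
    rw [h ω]
    exact ⟨fun h2 => encX_ne hm x h2.symm, False.elim⟩
  by_cases hcut : ∀ j i, cutK W ≤ t j i
  swap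
  · refine le_trans (le_of_eq ?_) hrhs
    refine Finset.sum_eq_zero fun x _ => ?_
    rw [hzero x (trialR_neg_of_not_cut hcut), q_trialHat_not_cut hcut x]
    simp
  have ht : ∀ j i, 0 < t j i := fun j i => (q_cutK_pos (by omega)).trans_le (hcut j i)
  have hbG := bG_eq hT r c0 c' t
  set b := q_bH W Nb r c0 c' t with hb
  have hbpos : ∀ j, 0 < b j := q_bH_pos W Nb r c0 c' t
  have hrow : ∀ i, V0R P m n (c0 : ℝ) ≤ rowVR (fun i => (r i : ℝ)) t
      (bG W Tm (Nb : ℝ) (fun i => (r i : ℝ)) (c0 : ℝ) (fun j => (c' j : ℝ)) t) i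
      ↔ P.V0 m n c0 ≤ rowV r t b i := by
    intro i
    rw [hbG, V0R_eq]
    rfl
  by_cases hgood : ∃ i, P.V0 m n c0 ≤ rowV r t b i
  swap
  · have hk := firstKey_eq_none (P := P) (r := fun i => (r i : ℝ)) (c0 := (c0 : ℝ)) (t := t)
      (b := bG W Tm (Nb : ℝ) (fun i => (r i : ℝ)) (c0 : ℝ) (fun j => (c' j : ℝ)) t)
      (fun i h => hgood ⟨i, (hrow i).1 h⟩)
    refine le_trans (le_of_eq ?_) hrhs
    refine Finset.sum_eq_zero fun x _ => ?_
    rw [hzero x (trialR_neg_of_none hk), q_trialHat_not_good hgood x]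
    simp
  -- the first row
  have hgood' : ∃ i, P.V0 m n c0 ≤ rowV r t
      (fun j => Real.exp (betaHat W Nb r (Fin.cons c0 c') t j)) i := hgood
  set i := firstIdx _ hgood' with hi
  have hi1 : P.V0 m n c0 ≤ rowV r t b i := firstIdx_spec _ hgood'
  have hi2 : ∀ j, P.V0 m n c0 ≤ rowV r t b j → i ≤ j := fun j hj => firstIdx_le _ hgood' j hj
  have hk : firstKey P (fun i => (r i : ℝ)) (c0 : ℝ) t
      (bG W Tm (Nb : ℝ) (fun i => (r i : ℝ)) (c0 : ℝ) (fun j => (c' j : ℝ)) t) = ((i : ℕ) : ℝ) :=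
    firstKey_eq_first i ((hrow i).2 hi1) fun j hj => hi2 j ((hrow j).1 hj)
  -- the laws
  set L : Fin m → ℕ → ℝ := fun j v => Pr (fun ω : BinW W → ℝ =>
    binSampleR W Kb (r j) (rowP t b j) ω = (v : ℝ)) with hL
  set B : Fin m → ℕ → ℝ := fun j v => bw (r j) (rowP t b j) v with hB
  have hp0 : ∀ j, 0 < rowP t b j := rowP_pos ht hbpos
  have hp1 : ∀ j, rowP t b j ≤ 1 := rowP_le_one ht hbpos
  have hN0 : (factN0 W : ℝ) = (W : ℝ) ^ 30 := by
    unfold factN0
    push_cast
    rfl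
  set ε : ℝ := 6 / (W : ℝ) ^ 30 with hε
  have hε0 : 0 ≤ ε := by positivity
  -- one column
  have hone : ∀ x ∈ lev r c0, |Pr (fun ω => trialR W Tm Kb (Nb : ℝ) P (fun i => (r i : ℝ)) (c0 : ℝ)
          (fun j => (c' j : ℝ)) t ω = encX x) - trialHat W Nb P r c0 c' t x|
      ≤ |∏ j ∈ univ.erase i, L j (x j) - ∏ j ∈ univ.erase i, B j (x j)|
        + (∏ j ∈ univ.erase i, L j (x j)) * ε := by
    intro x hx
    have hxle := (mem_lev.1 hx).1
    have hcoin := coinR_eq (W := W) (Tm := Tm) (Nb := Nb) hT (r := r) (c0 := c0) (c' := c') hsum ht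
      hbpos hx
    -- the trial
    have hPr : Pr (fun ω => trialR W Tm Kb (Nb : ℝ) P (fun i => (r i : ℝ)) (c0 : ℝ)
          (fun j => (c' j : ℝ)) t ω = encX x)
        = (∏ j ∈ univ.erase i, L j (x j))
          * (min 1 (P.K m n c0 * bwHat W (r i) (rowP t b i) (x i))
            * min 1 (coinR W Tm (Nb : ℝ) (fun i => (r i : ℝ)) (c0 : ℝ) (fun j => (c' j : ℝ)) t b (encX x))) := by
      have h1 := Pr_branch (W := W) (m := m) (L := fun j => binSampleR W Kb (r j) (rowP t b j))
        (i := i) (x := x)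
        (u0 := P.K m n c0 * bwHat W (r i) (rowP t b i) (x i))
        (u1 := coinR W Tm (Nb : ℝ) (fun i => (r i : ℝ)) (c0 : ℝ) (fun j => (c' j : ℝ)) t b (encX x))
        (mul_nonneg (K_nonneg P m n c0) ?_) (Real.exp_pos _).le
      · rw [← h1]
        refine Pr_congr fun ω _ => ?_
        rw [trialR_eq_branch hcut hk ω, branch_iff hm hx, hbG, KR_eq]
      · obtain ⟨θ, _, h2⟩ := bwHat_close (W := W) (by omega) (hxle i) (hp0 i) (hp1 i)
        rw [h2]
        exact mul_nonneg (bw_nonneg (hp0 i).le (hp1 i) _) (Real.exp_pos _).le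
    -- the target
    have hHat : trialHat W Nb P r c0 c' t x
        = (∏ j ∈ univ.erase i, B j (x j))
          * min 1 (P.K m n c0 * bw (r i) (rowP t b i) (x i))
          * min 1 (coinR W Tm (Nb : ℝ) (fun i => (r i : ℝ)) (c0 : ℝ) (fun j => (c' j : ℝ)) t b (encX x)) := by
      rw [hcoin]
      unfold trialHat
      rw [if_pos hcut]
      show (if h : ∃ i, P.V0 m n c0 ≤ rowV r t
        (fun j => Real.exp (betaHat W Nb r (Fin.cons c0 c') t j)) i then _ else _) = _
      rw [dif_pos hgood']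
      rfl
    rw [hPr, hHat]
    have hKbw : P.K m n c0 * bw (r i) (rowP t b i) (x i) ≤ 1 :=
      q_K_bw_le_one (P := P) (r := r) (c0 := c0) ht hbpos hi1 (x i)
    have hKbw0 : 0 ≤ P.K m n c0 * bw (r i) (rowP t b i) (x i) :=
      mul_nonneg (K_nonneg P m n c0) (bw_nonneg (hp0 i).le (hp1 i) _)
    refine abs_combo (Finset.prod_nonneg fun j _ => Pr_nonneg _)
      (le_min zero_le_one (Real.exp_pos _).le) (min_le_left _ _)
      (le_min zero_le_one hKbw0) (min_le_left _ _) ?_
    rw [min_eq_right hKbw]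
    refine abs_min_sub hKbw ?_
    obtain ⟨θ, hθ, h2⟩ := bwHat_close (W := W) (by omega) (hxle i) (hp0 i) (hp1 i)
    rw [h2, hN0] at *
    have hθ1 : |θ| ≤ 1 := by
      refine hθ.trans ?_
      rw [div_le_one (by positivity)]
      have : (1000 : ℝ) ≤ (W : ℝ) ^ 30 :=
        hW1000.trans (le_self_pow₀ (by linarith) (by norm_num))
      linarith
    have e : P.K m n c0 * (bw (r i) (rowP t b i) (x i) * Real.exp θ)
        - P.K m n c0 * bw (r i) (rowP t b i) (x i)
        = (P.K m n c0 * bw (r i) (rowP t b i) (x i)) * (Real.exp θ - 1) := by ring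
    rw [e, abs_mul, abs_of_nonneg hKbw0]
    have h3 := Real.abs_exp_sub_one_le hθ1
    calc _ ≤ 1 * |Real.exp θ - 1| := by gcongr
      _ ≤ 2 * |θ| := by rw [one_mul]; exact h3
      _ ≤ 2 * (3 / (W : ℝ) ^ 30) := by gcongr
      _ = ε := by rw [hε]; ring
  -- the sum
  set L' : Fin m → ℕ → ℝ := fun j v => if j = i then 1 else L j v with hL'
  set B' : Fin m → ℕ → ℝ := fun j v => if j = i then 1 else B j v with hB'
  set G : (Fin m → ℕ) → ℝ := fun y => |∏ j, L' j (y j) - ∏ j, B' j (y j)| + (∏ j, L' j (y j)) * ε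
    with hG
  have hL'0 : ∀ j v, 0 ≤ L' j v := by
    intro j v
    simp only [hL']
    split_ifs
    · exact zero_le_one
    · exact Pr_nonneg _
  have hB'0 : ∀ j v, 0 ≤ B' j v := by
    intro j v
    simp only [hB']
    split_ifs
    · exact zero_le_one
    · exact bw_nonneg (hp0 j).le (hp1 j) v
  have hG0 : ∀ y, 0 ≤ G y := fun y =>
    add_nonneg (abs_nonneg _) (mul_nonneg (Finset.prod_nonneg fun j _ => hL'0 j _) hε0)
  have hGx : ∀ x : Fin m → ℕ, G (Function.update x i 0)
      = |∏ j ∈ univ.erase i, L j (x j) - ∏ j ∈ univ.erase i, B j (x j)|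
        + (∏ j ∈ univ.erase i, L j (x j)) * ε := by
    intro x
    simp only [hG, hL', hB']
    rw [prod_update L i x, prod_update B i x]
  set S : Fin m → Finset ℕ := fun j => if j = i then {0} else range (r j + 1) with hSet
  have hL1 : ∀ j, ∑ v ∈ S j, L' j v ≤ 1 := by
    intro j
    by_cases hj : j = i
    · simp [hSet, hL', hj]
    · simp only [hSet, hL', hj, if_false]
      exact sum_binSampleR_le W Kb (r j) _
  have hB1 : ∀ j, ∑ v ∈ S j, B' j v ≤ 1 := by
    intro j
    by_cases hj : j = i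
    · simp [hSet, hB', hj]
    · simp only [hSet, hB', hj, if_false]
      exact (sum_bw_eq_one _ _).le
  have hδ : (0 : ℝ) ≤ 1 / (W : ℝ) ^ 29 := by positivity
  have hd : ∀ j, ∑ v ∈ S j, |L' j v - B' j v| ≤ 1 / (W : ℝ) ^ 29 := by
    intro j
    by_cases hj : j = i
    · simp only [hSet, hL', hB', hj, if_true, sub_self, abs_zero, Finset.sum_const_zero]
      exact hδ
    · simp only [hSet, hL', hB', hj, if_false]
      have hrj : r j ≤ Nb' := (Finset.single_le_sum (f := r) (fun _ _ => Nat.zero_le _) (mem_univ j)).trans hr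
      have hK : 2 * r j + 6 * W + 8 ≤ 2 ^ Kb := by
        have := hS.K1
        omega
      exact binSampleR_close hW hK (hp0 j) (hp1 j)
  have hhyb := hybrid S L' B' hL'0 hB'0 hL1 hB1 hd
  have hprod : ∑ y ∈ Fintype.piFinset S, ∏ j, L' j (y j) ≤ 1 := by
    rw [← Finset.prod_univ_sum S L']
    exact Finset.prod_le_one (fun j _ => Finset.sum_nonneg fun v _ => hL'0 j v) fun j _ => hL1 j
  calc _ ≤ ∑ x ∈ lev r c0, G (Function.update x i 0) :=
        Finset.sum_le_sum fun x hx => by rw [hGx]; exact hone x hx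
    _ ≤ ∑ y ∈ Fintype.piFinset S, G y := sum_lev_le i G hG0
    _ = ∑ y ∈ Fintype.piFinset S, |∏ j, L' j (y j) - ∏ j, B' j (y j)|
          + (∑ y ∈ Fintype.piFinset S, ∏ j, L' j (y j)) * ε := by
        rw [Finset.sum_add_distrib, Finset.sum_mul]
    _ ≤ m * (1 / (W : ℝ) ^ 29) + 1 * ε := by
        gcongr
    _ ≤ ((m : ℝ) + 1) / (W : ℝ) ^ 29 := by
        have h1 : ε ≤ 1 / (W : ℝ) ^ 29 := by
          rw [hε, div_le_div_iff₀ (by positivity) (by positivity)]
          have : (W : ℝ) ^ 30 = W * (W : ℝ) ^ 29 := by ring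
          rw [this]
          have h29 : (0 : ℝ) < (W : ℝ) ^ 29 := by positivity
          nlinarith
        have e : ((m : ℝ) + 1) / (W : ℝ) ^ 29 = m * (1 / (W : ℝ) ^ 29) + 1 / (W : ℝ) ^ 29 := by ring
        rw [e]
        linarith

end TrialLaw

/-- **The law of a trial is close to `trialHat`.** -/
theorem trialR_close {W Tm Kb Nb Nb' : ℕ} (hS : SizeOK W Tm Kb Nb') (hNb : Nb ≤ Nb') (P : Par)
    (hPd : 0 ≤ P.d) (hm : 0 < m) {r : Fin m → ℕ} (hr : ∑ i, r i ≤ Nb') {c0 : ℕ} {c' : Fin n → ℕ}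
    (hsum : ∑ i, r i = c0 + ∑ j, c' j) (t : Fin (n + 1) → Fin m → ℝ) :
    ∑ x ∈ lev r c0, |Pr (fun ω => trialR W Tm Kb (Nb : ℝ) P (fun i => (r i : ℝ)) (c0 : ℝ)
          (fun j => (c' j : ℝ)) t ω = encX x) - trialHat W Nb P r c0 c' t x|
      ≤ ((m : ℝ) + 1) / (W : ℝ) ^ 29 :=
  TrialLaw.trialR_close' hS hNb P hm hr hsum t

namespace TrialCost

variable {ι : Type} {X : ℕ} {m n : ℕ}

theorem dConst (hX : 1000 ≤ X) {B : ℕ} (hB : B ≤ X) (P : Par) (hd : P.d = 1 / (B : ℝ) ^ 26) :
    P1 X 20 (fun _ : ι → ℝ => P.d) := by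
  have h26 : (26 : ℕ) ≤ X ^ 1 := by rw [pow_one]; omega
  refine ((P1.one.div ((P1.natLe hB).pow h26)).mono (by norm_num)).congr fun _ => hd

theorem csConst (hX : 1000 ≤ X) {B : ℕ} (hB : B ≤ X) (P : Par) (hcs : P.cs = B ^ 28) :
    P1 X 10 (fun _ : ι → ℝ => (P.cs : ℝ)) := by
  have h28 : (28 : ℕ) ≤ X ^ 1 := by rw [pow_one]; omega
  refine ((P1.natLe hB).pow h28).congr fun _ => ?_
  rw [hcs]
  push_cast
  rfl

theorem V0R_cost (hX : 1000 ≤ X) (hm : m ≤ X) {B : ℕ} (hB : B ≤ X) (P : Par)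
    (hd : P.d = 1 / (B : ℝ) ^ 26) (hcs : P.cs = B ^ 28) (C0 : ι) :
    P1 X 80 (fun x => V0R P m n (x C0)) := by
  by_cases hn : 0 < n
  · have h14 : P1 (ι := ι) X 6 (fun _ => ((14 : ℕ) : ℝ)) := P1.natLe (by omega)
    have hm' : P1 (ι := ι) X 6 (fun _ => (m : ℝ)) := P1.natLe hm
    have h1 := P1.iteLt (csConst hX hB P hcs (ι := ι)) (P1.var C0)
      (((dConst hX hB P hd).mul (P1.var C0)).div (h14.mul hm')) P1.zero
    refine (h1.mono (by norm_num)).congr fun x => ?_
    unfold V0R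
    by_cases hc : (P.cs : ℝ) < x C0
    · rw [if_pos ⟨hn, hc⟩, if_pos hc]
      norm_num
    · rw [if_neg (fun h => hc h.2), if_neg hc]
  · refine (P1.zero.mono (by norm_num)).congr fun x => ?_
    unfold V0R
    rw [if_neg (fun h => hn h.1)]

theorem KR_cost (hX : 1000 ≤ X) (hm : m ≤ X) {B : ℕ} (hB : B ≤ X) (P : Par)
    (hd : P.d = 1 / (B : ℝ) ^ 26) (hcs : P.cs = B ^ 28) (C0 : ι) :
    P1 X 100 (fun x => KR P m n (x C0)) := by
  by_cases hn : 0 < n
  · have h1 := P1.iteLt (csConst hX hB P hcs (ι := ι)) (P1.var C0)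
      (V0R_cost (n := n) hX hm hB P hd hcs C0).sqrt P1.one
    refine (h1.mono (by norm_num)).congr fun x => ?_
    unfold KR
    by_cases hc : (P.cs : ℝ) < x C0
    · rw [if_pos ⟨hn, hc⟩, if_pos hc]
    · rw [if_neg (fun h => hc h.2), if_neg hc]
  · refine (P1.one.mono (by norm_num)).congr fun x => ?_
    unfold KR
    rw [if_neg (fun h => hn h.1)]

theorem cutK_cost (hX : 1000 ≤ X) {W : ℕ} (hW : W ≤ X) : P1 X 20 (fun _ : ι → ℝ => cutK W) := by
  have h26 : (26 : ℕ) ≤ X ^ 1 := by rw [pow_one]; omega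
  exact ((P1.one.div ((P1.natLe hW).pow h26)).mono (by norm_num))

theorem cons_wires (C0 : ι) (C' : Fin n → ι) (x : ι → ℝ) :
    (fun j => x ((Fin.cons C0 C' : Fin (n + 1) → ι) j))
      = (Fin.cons (x C0) (fun j => x (C' j)) : Fin (n + 1) → ℝ) := by
  funext j
  refine Fin.cases ?_ (fun j => ?_) j <;> simp

/-- A real function of three computed values. -/
theorem comp3 {a b c e : ℕ} {f1 f2 f3 : (ι → ℝ) → ℝ} (hX : 1000 ≤ X) (h1 : P1 X a f1) (h2 : P1 X b f2)
    (h3 : P1 X c f3) {g : ((ι ⊕ Fin 3) → ℝ) → ℝ} (hg : P1 X e g) :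
    P1 X (1 + (a + b + c) + e + 2)
      (fun x => g (Sum.elim x (fun k => (![f1 x, f2 x, f3 x] : Fin 3 → ℝ) k))) := by
  have hcard : Fintype.card (Fin 3) ≤ X ^ 1 := by simp; omega
  have hf : PC X (1 + (a + b + c)) (fun (x : ι → ℝ) (k : Fin 3) => (![f1 x, f2 x, f3 x] : Fin 3 → ℝ) k) := by
    refine PC.pi hcard fun k => ?_
    fin_cases k
    · exact h1.mono (by omega)
    · exact h2.mono (by omega)
    · exact h3.mono (by omega)
  exact P1.bind hf hg

/-- A condition fixed at compile time. -/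
theorem ite_const {a b : ℕ} {p : Prop} [Decidable p] {u v : (ι → ℝ) → ℝ} (hX : 2 ≤ X) (hu : P1 X a u)
    (hv : P1 X b v) : P1 X (a + b) (fun x => if p then u x else v x) := by
  by_cases hp : p
  · exact (hu.mono (by omega)).congr fun x => by rw [if_pos hp]
  · exact (hv.mono (by omega)).congr fun x => by rw [if_neg hp]

theorem firstKey_cost {a b : ℕ} (hX : 1000 ≤ X) (hm : m ≤ X) (P : Par)
    {r : (ι → ℝ) → Fin m → ℝ} {c0 : (ι → ℝ) → ℝ} {t : (ι → ℝ) → Fin (n + 1) → Fin m → ℝ}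
    {bb : (ι → ℝ) → Fin (n + 1) → ℝ}
    (hV : P1 X a (fun x => V0R P m n (c0 x)))
    (hrv : ∀ i, P1 X b (fun x => rowVR (r x) (t x) (bb x) i)) :
    P1 X (a + b + 6 + 6 + 3 + 2 + 1) (fun x => firstKey P (r x) (c0 x) (t x) (bb x)) := by
  unfold firstKey
  have hN : m + 1 ≤ X ^ 2 := by nlinarith
  refine P1.infRange (d := 2) (Nat.succ_pos m) hN fun k hk => ?_
  by_cases h : k < m
  · simp only [h, dif_pos]
    exact hV.ite (hrv ⟨k, h⟩) (P1.natLe (by omega)) (P1.natLe hm)
  · simp only [h, dif_neg, not_false_iff]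
    exact (P1.natLe hm).mono (by omega)

theorem nest {A B C D E : Prop} [Decidable A] [Decidable B] [Decidable C] [Decidable D] [Decidable E]
    [Decidable (A ∧ B ∧ C ∧ D ∧ E)] (x : Fin m → ℝ) (l : Fin m) :
    (if A ∧ B ∧ C ∧ D ∧ E then x else fun _ => -1) l =
      if A then if B then if C then if D then if E then x l else -1 else -1 else -1 else -1 else -1 := by
  by_cases hA : A <;> by_cases hB : B <;> by_cases hC : C <;> by_cases hD : D <;> by_cases hE : E <;>
    simp [hA, hB, hC, hD, hE]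

/-- The branch of the row `i` as nested comparisons. -/
theorem branch_eq (W Tm Kb : ℕ) (Nb : ℝ) (P : Par) (r : Fin m → ℝ) (c0 : ℝ) (c' : Fin n → ℝ)
    (t : Fin (n + 1) → Fin m → ℝ) (i l : Fin m) (ω : TrialW m W → ℝ)
    (b : Fin (n + 1) → ℝ) (hb : b = fun j => Real.exp (betaGate W Tm Nb r (Fin.cons c0 c') t j))
    (xo : Fin m → ℝ) (hxo : xo = fun j => binSampleR W Kb (r j) (rowP t b j) fun a => ω (Sum.inl (j, a)))
    (xi : ℝ) (hxi : xi = c0 - ∑ j ∈ univ.erase i, xo j)
    (xv : Fin m → ℝ) (hxv : xv = fun j => if j = i then xi else xo j) :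
    trialBranchR W Tm Kb Nb P r c0 c' t i ω l =
      if ∀ j ∈ univ.erase i, (0 : ℝ) ≤ xo j then
        if 0 ≤ xi then
          if xi ≤ r i then
            if ω (Sum.inr 0) ≤ KR P m n c0 * bwHat W (r i) (rowP t b i) xi then
              if ω (Sum.inr 1) ≤ coinR W Tm Nb r c0 c' t b xv then xv l else -1
            else -1
          else -1
        else -1
      else -1 := by
  subst hb hxo hxi hxv
  unfold trialBranchR
  dsimp only
  exact nest _ l

end TrialCost

/-- A trial is a circuit in the margins, the column, the matrix and the random wires. The parameters of the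
run `P` are constants given by a natural number `B`. -/
theorem trialR_cost : ∃ e, ∀ {m n X W Tm Kb B : ℕ} {ι : Type} (_ : 1000 ≤ X) (_ : m ≤ X) (_ : n + 1 ≤ X)
    (_ : W ≤ X) (_ : Tm ≤ X ^ 4) (_ : Kb ≤ X) (_ : B ≤ X) (P : Par) (_ : P.d = 1 / (B : ℝ) ^ 26)
    (_ : P.cs = B ^ 28) (Nb : ι) (R : Fin m → ι) (C0 : ι) (C' : Fin n → ι) (T : Fin (n + 1) → Fin m → ι)
    (Ωw : TrialW m W → ι) (l : Fin m),
    P1 X e (fun x => trialR W Tm Kb (x Nb) P (fun i => x (R i)) (x C0) (fun j => x (C' j))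
      (fun j i => x (T j i)) (fun a => x (Ωw a)) l) := by
  classical
  obtain ⟨eb, hbeta⟩ := betaGate_cost
  obtain ⟨ec, hcap⟩ := logCapGate_cost
  obtain ⟨es, hsamp⟩ := binSampleR_cost
  obtain ⟨ew, hbw⟩ := bwHat_cost
  refine ⟨?e, fun {m n X W Tm Kb B ι} hX hm hn hW hTm hKb hB P hd hcs Nb R C0 C' T Ωw l => ?_⟩
  swap
  have hX2 : 2 ≤ X := by omega
  have hm1 : m ≤ X ^ 1 := by rw [pow_one]; exact hm
  have hn0 : n ≤ X := by omega
  set Cw : Fin (n + 1) → ι := Fin.cons C0 C' with hCw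
  have hCons : ∀ x : ι → ℝ, (Fin.cons (x C0) (fun j => x (C' j)) : Fin (n + 1) → ℝ) = fun j => x (Cw j) :=
    fun x => (TrialCost.cons_wires C0 C' x).symm
  -- the point of the ellipsoid method
  obtain ⟨bx, hbx⟩ : ∃ bx : (ι → ℝ) → Fin (n + 1) → ℝ, ∀ x, bx x = fun j =>
      Real.exp (betaGate W Tm (x Nb) (fun i => x (R i)) (Fin.cons (x C0) (fun j => x (C' j)))
        (fun j i => x (T j i)) j) := ⟨_, fun _ => rfl⟩
  have hb : ∀ j, P1 X (eb + 1) (fun x => bx x j) := fun j =>
    ((hbeta hX hm hn hW hTm Nb R Cw T j).exp).congr fun x => by rw [hbx, hCons]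
  -- the binomial parameters
  obtain ⟨px, hpx⟩ : ∃ px : (ι → ℝ) → Fin m → ℝ, ∀ x i, px x i = rowP (fun j i => x (T j i)) (bx x) i :=
    ⟨_, fun _ _ => rfl⟩
  have hp : ∀ i, P1 X _ (fun x => px x i) := fun i =>
    (((P1.var (T 0 i)).mul (hb 0)).div
      (P1.sumFin hn fun j => (P1.var (T j i)).mul (hb j))).congr fun x => by
        rw [hpx]; rfl
  have hrv : ∀ i, P1 X _ (fun x => rowVR (fun i => x (R i)) (fun j i => x (T j i)) (bx x) i) := fun i =>
    (((P1.var (R i)).mul (hp i)).mul (P1.one.sub (hp i))).congr fun x => by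
      unfold rowVR
      rw [hpx]
  have hkey := TrialCost.firstKey_cost (r := fun x i => x (R i)) (c0 := fun x => x C0)
    (t := fun x j i => x (T j i)) (bb := bx) hX hm P
    (TrialCost.V0R_cost (n := n) hX hm hB P hd hcs C0) hrv
  -- the samples
  obtain ⟨xo, hxo⟩ : ∃ xo : (ι → ℝ) → Fin m → ℝ, ∀ x, xo x = fun j =>
      binSampleR W Kb (x (R j)) (rowP (fun j i => x (T j i)) (bx x) j) fun a => x (Ωw (Sum.inl (j, a))) :=
    ⟨_, fun _ => rfl⟩
  have hxoc : ∀ j, P1 X _ (fun x => xo x j) := fun j =>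
    (P1.bind (show PC X _ (fun (x : ι → ℝ) (_ : Unit) => px x j) from hp j)
      (hsamp hX hW hKb (Sum.inl (R j)) (Sum.inr ()) (fun a => Sum.inl (Ωw (Sum.inl (j, a)))))).congr
      fun x => by
        rw [hxo, hpx]
        rfl
  have hcardE : ∀ i : Fin m, (univ.erase i).card ≤ X ^ 1 := fun i => by
    rw [Finset.card_erase_of_mem (mem_univ i), Finset.card_univ, Fintype.card_fin]
    omega
  have hxi : ∀ i, P1 X _ (fun x => x C0 - ∑ j ∈ univ.erase i, xo x j) := fun i =>
    (P1.var C0).sub (P1.sum (d := 1) (univ.erase i) (hcardE i) fun j _ => hxoc j)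
  have hxv : ∀ i j, P1 X _ (fun x => if j = i then x C0 - ∑ j ∈ univ.erase i, xo x j else xo x j) :=
    fun i j => TrialCost.ite_const hX2 (hxi i) (hxoc j)
  -- the coin
  have hdiff : ∀ i, PC X _ (fun (x : ι → ℝ) (j : Fin m) =>
      x (R j) - if j = i then x C0 - ∑ j ∈ univ.erase i, xo x j else xo x j) := fun i =>
    PC.pi (d := 1) (by simpa using hm) fun j => (P1.var (R j)).sub (hxv i j)
  have hcap1 : ∀ i, P1 X _ (fun x => logCapGate W Tm (x Nb)
      (fun j => x (R j) - if j = i then x C0 - ∑ j ∈ univ.erase i, xo x j else xo x j)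
      (fun j => x (C' j)) (fun l j => x (T l.succ j))) := fun i =>
    P1.bind (hdiff i) (hcap hX hm hn0 hW hTm (Sum.inl Nb) (fun j => Sum.inr j) (fun j => Sum.inl (C' j))
      (fun l j => Sum.inl (T l.succ j)))
  have hcap2 : P1 X ec (fun x => logCapGate W Tm (x Nb) (fun i => x (R i))
      (Fin.cons (x C0) fun j => x (C' j)) (fun j i => x (T j i))) :=
    (hcap hX hm hn hW hTm Nb R Cw T).congr fun x => by rw [hCons]
  have hlog2 : P1 (ι := ι) X _ (fun _ => Real.log 2) :=
    ((P1.natLe (N := 2) (by omega)).log).congr fun _ => by norm_num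
  have hcoin : ∀ i, P1 X _ (fun x => coinR W Tm (x Nb) (fun i => x (R i)) (x C0) (fun j => x (C' j))
      (fun j i => x (T j i)) (bx x) (fun j => if j = i then x C0 - ∑ j ∈ univ.erase i, xo x j else xo x j)) :=
    fun i => (((((P1.sumFin hm fun k =>
      ((hxv i k).mul ((P1.log (P1.var (T 0 k))).sub (P1.log (hp k)))).sub
        (((P1.var (R k)).sub (hxv i k)).mul (P1.log (P1.one.sub (hp k))))).add
      (hcap1 i)).sub hcap2).sub hlog2).exp).congr fun x => by
        unfold coinR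
        simp only [hpx]
  -- the first coin
  have hKbw : ∀ i, P1 X _ (fun x => KR P m n (x C0) *
      bwHat W (x (R i)) (px x i) (x C0 - ∑ j ∈ univ.erase i, xo x j)) := fun i =>
    (TrialCost.KR_cost (n := n) hX hm hB P hd hcs C0).mul
      (TrialCost.comp3 hX (P1.var (R i)) (hp i) (hxi i) (hbw hX hW (Sum.inr 0) (Sum.inr 1) (Sum.inr 2)))
  -- the branch
  have hbranch : ∀ i, P1 X _ (fun x => trialBranchR W Tm Kb (x Nb) P (fun i => x (R i)) (x C0)
      (fun j => x (C' j)) (fun j i => x (T j i)) i (fun a => x (Ωw a)) l) := fun i =>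
    (P1.iteAll (F := fun (_ : Fin m) (_ : ι → ℝ) => (0 : ℝ)) (G := fun j x => xo x j) (d := 1)
      (univ.erase i) (hcardE i) (fun _ _ => P1.zero) (fun j _ => hxoc j)
      (P1.ite P1.zero (hxi i)
        (P1.ite (hxi i) (P1.var (R i))
          (P1.ite (P1.var (Ωw (Sum.inr 0))) (hKbw i)
            (P1.ite (P1.var (Ωw (Sum.inr 1))) (hcoin i) (hxv i l) P1.one.neg)
            P1.one.neg)
          P1.one.neg)
        P1.one.neg)
      P1.one.neg).congr fun x => by
      rw [TrialCost.branch_eq W Tm Kb (x Nb) P (fun i => x (R i)) (x C0) (fun j => x (C' j))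
        (fun j i => x (T j i)) i l (fun a => x (Ωw a)) (bx x) (hbx x) (xo x) (hxo x) _ rfl _ rfl]
      simp only [hpx]
  -- the top level
  have hcond : ((univ : Finset (Fin (n + 1) × Fin m))).card ≤ X ^ 2 := by
    rw [Finset.card_univ, Fintype.card_prod, Fintype.card_fin, Fintype.card_fin, pow_two]
    exact Nat.mul_le_mul hn hm
  have hsel := P1.select (K := m) (F := fun i x => trialBranchR W Tm Kb (x Nb) P (fun i => x (R i)) (x C0)
      (fun j => x (C' j)) (fun j i => x (T j i)) i (fun a => x (Ωw a)) l) hm hkey hbranch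
  have htop := P1.iteAll (F := fun (_ : Fin (n + 1) × Fin m) (_ : ι → ℝ) => cutK W)
    (G := fun q x => x (T q.1 q.2)) (d := 2) univ hcond
    (fun _ _ => TrialCost.cutK_cost hX hW) (fun _ _ => P1.var _)
    (P1.iteEq hkey (P1.natLe hm) P1.one.neg hsel) (P1.one.neg)
  refine htop.congr fun x => ?_
  unfold trialR
  dsimp only
  have hbe : (fun j => Real.exp (betaGate W Tm (x Nb) (fun i => x (R i)) (Fin.cons (x C0) fun j => x (C' j))
      (fun j i => x (T j i)) j)) = bx x := (hbx x).symm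
  rw [hbe]
  by_cases h1 : ∀ j i, cutK W ≤ x (T j i)
  · have h2 : ∀ q ∈ (univ : Finset (Fin (n + 1) × Fin m)), cutK W ≤ x (T q.1 q.2) :=
      fun q _ => h1 q.1 q.2
    rw [if_pos h1, if_pos h2]
  · have h2 : ¬ ∀ q ∈ (univ : Finset (Fin (n + 1) × Fin m)), cutK W ≤ x (T q.1 q.2) :=
      fun h => h1 fun j i => h (j, i) (mem_univ _)
    rw [if_neg h1, if_neg h2]

end Vale.Agent.Lib.P328.RAM
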