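import Vale.Agent.Lib.P328.RAM.Trial
import Vale.Agent.Lib.P328.RAM.RCostT

/-!
# P328: a trial is a measurable function of the matrix and of the random wires

For an arbitrary `P : Par`. The gates of `Trial.lean` are measurable because they are circuits; the rest is a
finite combination of comparisons.
-/

namespace Vale.Agent.Lib.P328.RAM

open Finset MeasureTheory Vale.Agent.Lib.P328.Cap Vale.Agent.Lib.P328.Fpras Vale.Agent.Lib.P328.Samp

namespace TrialMeas

/-- Circuits are measurable. -/
theorem P1.measurable {ι : Type} {X e : ℕ} {f : (ι → ℝ) → ℝ} (h : P1 X e f) (hX : 2 ≤ X) :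
    Measurable f :=
  (measurable_pi_apply ()).comp (Cost.measurable (h hX))

variable {A : Type} [MeasurableSpace A] {m n : ℕ}

/-- The wires of the gates. -/
abbrev GW (m n : ℕ) : Type := Unit ⊕ (Fin m ⊕ (Fin n ⊕ (Fin n × Fin m)))

/-- The values on the wires of the gates. -/
def gw (Nb : ℝ) (R : Fin m → ℝ) (C : Fin n → ℝ) (T : Fin n → Fin m → ℝ) : GW m n → ℝ :=
  Sum.elim (fun _ => Nb) (Sum.elim R (Sum.elim C fun p => T p.1 p.2))

lemma measurable_gw {Nb : A → ℝ} {R : A → Fin m → ℝ} {C : A → Fin n → ℝ} {T : A → Fin n → Fin m → ℝ}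
    (hNb : Measurable Nb) (hR : ∀ i, Measurable fun a => R a i) (hC : ∀ j, Measurable fun a => C a j)
    (hT : ∀ j i, Measurable fun a => T a j i) :
    Measurable fun a => gw (Nb a) (R a) (C a) (T a) := by
  refine measurable_pi_lambda _ fun q => ?_
  rcases q with _ | i | j | p
  · exact hNb
  · exact hR i
  · exact hC j
  · exact hT p.1 p.2

theorem meas_betaGate (W Tm : ℕ) {Nb : A → ℝ} {R : A → Fin m → ℝ} {C : A → Fin n → ℝ}
    {T : A → Fin n → Fin m → ℝ} (hNb : Measurable Nb) (hR : ∀ i, Measurable fun a => R a i)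
    (hC : ∀ j, Measurable fun a => C a j) (hT : ∀ j i, Measurable fun a => T a j i) (j : Fin n) :
    Measurable fun a => betaGate W Tm (Nb a) (R a) (C a) (T a) j := by
  obtain ⟨e, he⟩ := betaGate_cost
  set X := 1000 + m + n + W + Tm with hXdef
  have h4 : Tm ≤ X ^ 4 := le_trans (by omega : Tm ≤ X) (Nat.le_self_pow (by norm_num) X)
  have h := he (m := m) (n := n) (X := X) (W := W) (Tm := Tm) (ι := GW m n) (by omega) (by omega)
    (by omega) (by omega) h4 (Sum.inl ()) (fun i => Sum.inr (Sum.inl i))
    (fun j => Sum.inr (Sum.inr (Sum.inl j))) (fun j i => Sum.inr (Sum.inr (Sum.inr (j, i)))) j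
  exact (P1.measurable h (by omega)).comp (measurable_gw hNb hR hC hT)

theorem meas_logCapGate (W Tm : ℕ) {Nb : A → ℝ} {R : A → Fin m → ℝ} {C : A → Fin n → ℝ}
    {T : A → Fin n → Fin m → ℝ} (hNb : Measurable Nb) (hR : ∀ i, Measurable fun a => R a i)
    (hC : ∀ j, Measurable fun a => C a j) (hT : ∀ j i, Measurable fun a => T a j i) :
    Measurable fun a => logCapGate W Tm (Nb a) (R a) (C a) (T a) := by
  obtain ⟨e, he⟩ := logCapGate_cost
  set X := 1000 + m + n + W + Tm with hXdef
  have h4 : Tm ≤ X ^ 4 := le_trans (by omega : Tm ≤ X) (Nat.le_self_pow (by norm_num) X)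
  have h := he (m := m) (n := n) (X := X) (W := W) (Tm := Tm) (ι := GW m n) (by omega) (by omega)
    (by omega) (by omega) h4 (Sum.inl ()) (fun i => Sum.inr (Sum.inl i))
    (fun j => Sum.inr (Sum.inr (Sum.inl j))) (fun j i => Sum.inr (Sum.inr (Sum.inr (j, i))))
  exact (P1.measurable h (by omega)).comp (measurable_gw hNb hR hC hT)

theorem meas_bwHat (W : ℕ) {R p y : A → ℝ} (hR : Measurable R) (hp : Measurable p) (hy : Measurable y) :
    Measurable fun a => bwHat W (R a) (p a) (y a) := by
  obtain ⟨e, he⟩ := bwHat_cost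
  set X := 1000 + W with hXdef
  have h := he (X := X) (W := W) (ι := Fin 3) (by omega) (by omega) 0 1 2
  refine (P1.measurable h (by omega)).comp (f := fun a => ![R a, p a, y a]) ?_
  refine measurable_pi_lambda _ fun q => ?_
  fin_cases q
  · exact hR
  · exact hp
  · exact hy

theorem meas_binSampleR (W Kb : ℕ) {R p : A → ℝ} {ω : A → BinW W → ℝ} (hR : Measurable R)
    (hp : Measurable p) (hω : ∀ k, Measurable fun a => ω a k) :
    Measurable fun a => binSampleR W Kb (R a) (p a) (ω a) := by
  obtain ⟨e, he⟩ := binSampleR_cost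
  set X := 1000 + W + Kb with hXdef
  have h := he (X := X) (W := W) (Kb := Kb) (ι := Fin 2 ⊕ BinW W) (by omega) (by omega) (by omega)
    (Sum.inl 0) (Sum.inl 1) Sum.inr
  refine (P1.measurable h (by omega)).comp
    (f := fun a => Sum.elim ![R a, p a] (ω a)) ?_
  refine measurable_pi_lambda _ fun q => ?_
  rcases q with q | k
  · fin_cases q
    · exact hR
    · exact hp
  · exact hω k

/-- The smallest of finitely many measurable functions. -/
theorem meas_inf_range {F : ℕ → A → ℝ} (hF : ∀ k, Measurable (F k)) (N : ℕ) :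
    Measurable fun a => (range (N + 1)).inf' ⟨0, by simp⟩ fun k => F k a := by
  induction N with
  | zero =>
    simpa using hF 0
  | succ N ih =>
    have h : (fun a => (range (N + 1 + 1)).inf' ⟨0, by simp⟩ fun k => F k a)
        = fun a => min (F (N + 1) a) ((range (N + 1)).inf' ⟨0, by simp⟩ fun k => F k a) := by
      funext a
      simp only [Finset.range_add_one (n := N + 1)]
      rw [Finset.inf'_insert]
      exact ⟨0, by simp⟩
    rw [h]
    exact (hF (N + 1)).min ih

theorem meas_rowP {t : A → Fin (n + 1) → Fin m → ℝ} {b : A → Fin (n + 1) → ℝ}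
    (ht : ∀ j i, Measurable fun a => t a j i) (hb : ∀ j, Measurable fun a => b a j) (i : Fin m) :
    Measurable fun a => rowP (t a) (b a) i := by
  unfold rowP
  exact ((ht 0 i).mul (hb 0)).div (Finset.measurable_sum _ fun j _ => (ht j i).mul (hb j))

theorem meas_firstKey (P : Par) (r : Fin m → ℝ) (c0 : ℝ) {t : A → Fin (n + 1) → Fin m → ℝ}
    {b : A → Fin (n + 1) → ℝ} (ht : ∀ j i, Measurable fun a => t a j i)
    (hb : ∀ j, Measurable fun a => b a j) :
    Measurable fun a => firstKey P r c0 (t a) (b a) := by
  unfold firstKey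
  refine meas_inf_range (F := fun k a => if h : k < m then
    (if V0R P m n c0 ≤ rowVR r (t a) (b a) ⟨k, h⟩ then (k : ℝ) else m) else m) (fun k => ?_) m
  by_cases h : k < m
  · simp only [dif_pos h]
    have hp := meas_rowP ht hb ⟨k, h⟩
    have hV : Measurable fun a => rowVR r (t a) (b a) ⟨k, h⟩ := by
      unfold rowVR
      exact (hp.const_mul _).mul (measurable_const.sub hp)
    exact Measurable.ite (measurableSet_le measurable_const hV) measurable_const measurable_const
  · simp only [dif_neg h]
    exact measurable_const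

theorem meas_coinR (W Tm : ℕ) (Nb : ℝ) (r : Fin m → ℝ) (c0 : ℝ) (c' : Fin n → ℝ)
    {t : A → Fin (n + 1) → Fin m → ℝ} {b : A → Fin (n + 1) → ℝ} {x : A → Fin m → ℝ}
    (ht : ∀ j i, Measurable fun a => t a j i) (hb : ∀ j, Measurable fun a => b a j)
    (hx : ∀ i, Measurable fun a => x a i) :
    Measurable fun a => coinR W Tm Nb r c0 c' (t a) (b a) (x a) := by
  unfold coinR
  have hp := meas_rowP ht hb
  refine Real.measurable_exp.comp (((Measurable.add ?_ ?_).sub ?_).sub measurable_const)
  · refine Finset.measurable_sum _ fun i _ => ?_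
    exact ((hx i).mul ((Real.measurable_log.comp (ht 0 i)).sub (Real.measurable_log.comp (hp i)))).sub
      ((measurable_const.sub (hx i)).mul (Real.measurable_log.comp (measurable_const.sub (hp i))))
  · exact meas_logCapGate (Nb := fun _ => Nb) (R := fun a i => r i - x a i) (C := fun _ => c')
      (T := fun a l => t a l.succ) W Tm measurable_const (fun i => measurable_const.sub (hx i))
      (fun _ => measurable_const) (fun l i => ht l.succ i)
  · exact meas_logCapGate (Nb := fun _ => Nb) (R := fun _ => r) (C := fun _ => Fin.cons c0 c')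
      (T := t) W Tm measurable_const (fun _ => measurable_const) (fun _ => measurable_const) ht

theorem meas_trialBranchR (W Tm Kb : ℕ) (Nb : ℝ) (P : Par) (r : Fin m → ℝ) (c0 : ℝ) (c' : Fin n → ℝ)
    {t : A → Fin (n + 1) → Fin m → ℝ} {ω : A → TrialW m W → ℝ}
    (ht : ∀ j i, Measurable fun a => t a j i) (hω : ∀ k, Measurable fun a => ω a k) (i : Fin m) :
    Measurable fun a => trialBranchR W Tm Kb Nb P r c0 c' (t a) i (ω a) := by
  set b : A → Fin (n + 1) → ℝ := fun a j => Real.exp (betaGate W Tm Nb r (Fin.cons c0 c') (t a) j)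
    with hbdef
  have hbg : ∀ j, Measurable fun a => betaGate W Tm Nb r (Fin.cons c0 c') (t a) j := fun j =>
    meas_betaGate (Nb := fun _ => Nb) (R := fun _ => r) (C := fun _ => Fin.cons c0 c') (T := t) W Tm
      measurable_const (fun _ => measurable_const) (fun _ => measurable_const) ht j
  have hb : ∀ j, Measurable fun a => b a j := fun j => (hbg j).exp
  have hp := meas_rowP ht hb
  set xo : A → Fin m → ℝ := fun a j =>
    binSampleR W Kb (r j) (rowP (t a) (b a) j) fun k => ω a (Sum.inl (j, k)) with hxodef
  have hxo : ∀ j, Measurable fun a => xo a j := fun j =>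
    meas_binSampleR W Kb measurable_const (hp j) fun k => hω _
  set xi : A → ℝ := fun a => c0 - ∑ j ∈ univ.erase i, xo a j with hxidef
  have hxi : Measurable xi :=
    measurable_const.sub (Finset.measurable_sum _ fun j _ => hxo j)
  set x : A → Fin m → ℝ := fun a j => if j = i then xi a else xo a j with hxdef
  have hx : ∀ j, Measurable fun a => x a j := by
    intro j
    by_cases hj : j = i
    · simp only [hxdef, if_pos hj]
      exact hxi
    · simp only [hxdef, if_neg hj]
      exact hxo j
  have hset : MeasurableSet {a | (∀ j ∈ univ.erase i, 0 ≤ xo a j) ∧ 0 ≤ xi a ∧ xi a ≤ r i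
      ∧ ω a (Sum.inr 0) ≤ KR P m n c0 * bwHat W (r i) (rowP (t a) (b a) i) (xi a)
      ∧ ω a (Sum.inr 1) ≤ coinR W Tm Nb r c0 c' (t a) (b a) (x a)} := by
    have s1 : MeasurableSet {a | ∀ j ∈ univ.erase i, 0 ≤ xo a j} := by
      have : {a | ∀ j ∈ univ.erase i, 0 ≤ xo a j} = ⋂ j ∈ univ.erase i, {a | 0 ≤ xo a j} := by
        ext a
        simp
      rw [this]
      exact Finset.measurableSet_biInter _ fun j _ => measurableSet_le measurable_const (hxo j)
    refine s1.inter ((measurableSet_le measurable_const hxi).inter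
      ((measurableSet_le hxi measurable_const).inter
        ((measurableSet_le (hω _) ?_).inter (measurableSet_le (hω _) ?_))))
    · exact (meas_bwHat W measurable_const (hp i) hxi).const_mul _
    · exact meas_coinR W Tm Nb r c0 c' ht hb hx
  unfold trialBranchR
  exact Measurable.ite hset (measurable_pi_lambda _ hx) measurable_const

/-- A trial is measurable, for every `P`. -/
theorem meas_trialR (W Tm Kb : ℕ) (Nb : ℝ) (P : Par) (r : Fin m → ℝ) (c0 : ℝ) (c' : Fin n → ℝ)
    {t : A → Fin (n + 1) → Fin m → ℝ} {ω : A → TrialW m W → ℝ}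
    (ht : ∀ j i, Measurable fun a => t a j i) (hω : ∀ k, Measurable fun a => ω a k) (l : Fin m) :
    Measurable fun a => trialR W Tm Kb Nb P r c0 c' (t a) (ω a) l := by
  set b : A → Fin (n + 1) → ℝ := fun a j => Real.exp (betaGate W Tm Nb r (Fin.cons c0 c') (t a) j)
    with hbdef
  have hbg : ∀ j, Measurable fun a => betaGate W Tm Nb r (Fin.cons c0 c') (t a) j := fun j =>
    meas_betaGate (Nb := fun _ => Nb) (R := fun _ => r) (C := fun _ => Fin.cons c0 c') (T := t) W Tm
      measurable_const (fun _ => measurable_const) (fun _ => measurable_const) ht j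
  have hb : ∀ j, Measurable fun a => b a j := fun j => (hbg j).exp
  have hk : Measurable fun a => firstKey P r c0 (t a) (b a) := meas_firstKey P r c0 ht hb
  have hcut : MeasurableSet {a | ∀ j i, cutK W ≤ t a j i} := by
    simp only [Set.ofPred_forall]
    exact MeasurableSet.iInter fun j => MeasurableSet.iInter fun i =>
      measurableSet_le measurable_const (ht j i)
  unfold trialR
  refine Measurable.ite hcut ?_ measurable_const
  refine Measurable.ite (measurableSet_eq_fun hk measurable_const) measurable_const ?_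
  refine Finset.measurable_sum _ fun i _ => ?_
  refine Measurable.ite (measurableSet_eq_fun hk measurable_const) ?_ measurable_const
  exact (measurable_pi_apply l).comp (meas_trialBranchR W Tm Kb Nb P r c0 c' ht hω i)

/-- The coordinates `tMapR` are measurable functions of the point. -/
theorem meas_tMapR (i0 : Fin m) (j0 : Fin n) (r : Fin m → ℝ) (c : Fin n → ℝ)
    {y : A → Fin n × Fin m → ℝ} (hy : ∀ k, Measurable fun a => y a k) (j : Fin n) (i : Fin m) :
    Measurable fun a => tMapR i0 j0 r c (y a) j i := by
  obtain ⟨e, he⟩ := tMapR_cost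
  set X := 1000 + m + n with hXdef
  have h := he (m := m) (n := n) (X := X) (ι := (Fin m ⊕ Fin n) ⊕ (Fin n × Fin m)) (by omega) (by omega)
    (by omega) i0 j0 (fun i => Sum.inl (Sum.inl i)) (fun j => Sum.inl (Sum.inr j)) Sum.inr j i
  refine (P1.measurable h (by omega)).comp (f := fun a => Sum.elim (Sum.elim r c) (y a)) ?_
  refine measurable_pi_lambda _ fun q => ?_
  rcases q with q | k
  · exact measurable_const
  · exact hy k

/-- The section of a measurable event has a measurable probability. -/
theorem measurable_Pr_section {Ω : Type} [Fintype Ω] {E : A → (Ω → ℝ) → Prop}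
    (hE : MeasurableSet {p : A × (Ω → ℝ) | E p.1 p.2}) : Measurable fun a => Pr (E a) := by
  have hs : MeasurableSet {p : A × (Ω → ℝ) | p.2 ∈ Cube Ω ∧ E p.1 p.2} :=
    (measurable_snd measurableSet_cube).inter hE
  have h := measurable_measure_prodMk_left (ν := (volume : Measure (Ω → ℝ))) hs
  exact h.ennreal_toReal

end TrialMeas

end Vale.Agent.Lib.P328.RAM
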