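import Vale.Agent.Lib.P328.RAM.Down
import Vale.Agent.Lib.P328.Samp.QClose

/-!
# P328: one step of the walk on the tree as a randomized map on wires (module W)

State `NodeW k m`: the depth `inl ()`, and an array: `inr (l, i)` is the entry `i` of the column at level `l` from the
root, zero beyond the depth. `encNode v` encodes the node `v` (a list, the last column first).

One step at depth `d`: `ω (inr 0) ≤ 1/8`: if `d < k` run `downSelR` on the residual margins with the block `⟨d, ·⟩`
of random wires, on success go to the child; `1/8 < ω (inr 0) ≤ 2/8`: if `d > 0` toss the coin `ω (inr 1)` with the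
probability `rateR` of the parent, on success go to the parent; otherwise stay.

`Q' v w = Pr (step (encNode v) = encNode w)` is a Markov kernel on the nodes, and close to `walkQ`:
on the child `x :: v`: `(1/8) * Pr (downSelR = encX x)` (`Pr_prod`, the other blocks are unused: `Pr_sigma`),
on the parent: `(1/8) * min 1 (rateR)`, with `rateR` within the factor `exp (± 3 / factN0)` of the true rate by
`bwHat_close`; the true rate is at most one. `downSelR_close`. So the sum of the differences at most `(m + 2) / W ^ 29`.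
-/

namespace Vale.Agent.Lib.P328.RAM

open Finset MeasureTheory Vale.Agent.Lib.P328.Cap Vale.Agent.Lib.P328.Fpras Vale.Agent.Lib.P328.Samp

variable {m : ℕ}

/-- The wires of a state. -/
abbrev NodeW (k m : ℕ) : Type := Unit ⊕ (Fin k × Fin m)

/-- The state of a node: the depth, and the columns, with the first filled column at level zero. -/
noncomputable def encNode (k : ℕ) (v : List (Fin m → ℕ)) : NodeW k m → ℝ
  | Sum.inl _ => (v.length : ℝ)
  | Sum.inr (l, i) => if h : (l : ℕ) < v.length then ((v.get ⟨v.length - 1 - l, by omega⟩ i : ℕ) : ℝ) else 0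

/-- The remaining row sums at level `d`: the levels below `d` are subtracted. -/
noncomputable def resR {k : ℕ} (r : Fin m → ℝ) (st : NodeW k m → ℝ) (d : ℕ) (i : Fin m) : ℝ :=
  r i - ∑ l : Fin k, if (l : ℕ) < d then st (Sum.inr (l, i)) else 0

/-- The columns after the column `d`. -/
noncomputable def restCols {k : ℕ} (L : Fin k → ℝ) (d : Fin k) : Fin (k - 1 - d) → ℝ :=
  fun j => L ⟨d + 1 + j, by omega⟩

/-- The state with new depth `D` and level `d` replaced by `x`. -/
noncomputable def setLevel {k : ℕ} (st : NodeW k m → ℝ) (d : Fin k) (x : Fin m → ℝ) (D : ℝ) : NodeW k m → ℝ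
  | Sum.inl _ => D
  | Sum.inr (l, i) => if l = d then x i else st (Sum.inr (l, i))

/-- The random wires of one step: one block for each depth, and two coins. -/
abbrev StepW (k m W : ℕ) : Type := (Σ d : Fin k, DownW (k - 1 - d) m W) ⊕ Fin 2

/-- The computed rate of the node with next column `c0`, `n` more columns and total `C`. -/
noncomputable def rateR (W : ℕ) (P : Par) (m n : ℕ) (c0 C : ℝ) : ℝ :=
  KR P m n c0 * bwHat W C (c0 / C) c0 / 2

/-- The attempt to move down from depth `d`. -/
noncomputable def walkDown {k : ℕ} (W Tm Kb : ℕ) (P : Par) (hm : 0 < m) (r : Fin m → ℝ) (L : Fin k → ℝ) (d : Fin k)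
    (st : NodeW k m → ℝ) (ω : StepW k m W → ℝ) : NodeW k m → ℝ :=
  let x := downSelR W Tm Kb P (fun i => resR r st d i) (L d) (restCols L d) fun a => ω (Sum.inl ⟨d, a⟩)
  if x ⟨0, hm⟩ < 0 then st else setLevel st d x ((d : ℝ) + 1)

/-- The attempt to move up from depth `p + 1`. -/
noncomputable def walkUp {k : ℕ} (W : ℕ) (P : Par) (r : Fin m → ℝ) (L : Fin k → ℝ) (p : Fin k)
    (st : NodeW k m → ℝ) (ω : StepW k m W → ℝ) : NodeW k m → ℝ :=
  if ω (Sum.inr 1) ≤ rateR W P m (k - 1 - p) (L p) (∑ i, resR r st p i) then setLevel st p (fun _ => 0) (p : ℝ)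
  else st

/-- The step at depth `d`. -/
noncomputable def walkBranch {k : ℕ} (W Tm Kb : ℕ) (P : Par) (hm : 0 < m) (r : Fin m → ℝ) (L : Fin k → ℝ)
    (d : ℕ) (st : NodeW k m → ℝ) (ω : StepW k m W → ℝ) : NodeW k m → ℝ :=
  if ω (Sum.inr 0) ≤ 1 / 8 then
    if h : d < k then walkDown W Tm Kb P hm r L ⟨d, h⟩ st ω else st
  else if ω (Sum.inr 0) ≤ 2 / 8 then
    if h : d ≠ 0 ∧ d - 1 < k then walkUp W P r L ⟨d - 1, h.2⟩ st ω else st
  else st

open Classical in
/-- One step: the branch for the depth on the wire `inl ()`. -/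
noncomputable def walkStepR {k : ℕ} (W Tm Kb : ℕ) (P : Par) (hm : 0 < m) (r : Fin m → ℝ) (L : Fin k → ℝ)
    (st : NodeW k m → ℝ) (ω : StepW k m W → ℝ) : NodeW k m → ℝ := fun a =>
  ∑ d : Fin (k + 1), if st (Sum.inl ()) = ((d : ℕ) : ℝ) then walkBranch W Tm Kb P hm r L d st ω a else 0

/-- Unused blocks of wires do not matter. -/
theorem Pr_sigma {D : Type} [Fintype D] [DecidableEq D] {A : D → Type} [∀ d, Fintype (A d)] (d : D)
    (E : (A d → ℝ) → Prop) :
    Pr (fun ω : (Σ d, A d) → ℝ => E fun a => ω ⟨d, a⟩) = Pr E := by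
  classical
  let p : (Σ d, A d) → Prop := fun q => q.1 = d
  let e := Equiv.sumCompl p
  have h1 := Pr_reindex e (fun ω : (Σ d, A d) → ℝ => E fun a => ω ⟨d, a⟩)
  rw [← h1]
  have h2 : ∀ a : A d, e.symm ⟨d, a⟩ = Sum.inl ⟨⟨d, a⟩, rfl⟩ := by
    intro a
    rw [Equiv.symm_apply_eq]
    rfl
  have h3 : (fun ω : ({q // p q} ⊕ {q // ¬ p q}) → ℝ =>
        E fun a => ω (e.symm ⟨d, a⟩))
      = fun ω => (fun u : {q // p q} → ℝ => E fun a => u ⟨⟨d, a⟩, rfl⟩) (fun a => ω (Sum.inl a))
          ∧ (fun _ : {q // ¬ p q} → ℝ => True) (fun a => ω (Sum.inr a)) := by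
    funext ω
    simp only [h2, and_true]
  rw [h3]
  refine (TrialLaw.Pr_prod' (fun u : {q // p q} → ℝ => E fun a => u ⟨⟨d, a⟩, rfl⟩)
    (fun _ : {q // ¬ p q} → ℝ => True)).trans ?_
  rw [Pr_true, mul_one]
  let e2 : {q // p q} ≃ A d := Equiv.sigmaSubtype d
  have h4 := Pr_reindex e2 E
  rw [← h4]
  refine Pr_congr fun u _ => ?_
  have h5 : ∀ a : A d, (⟨⟨d, a⟩, rfl⟩ : {q // p q}) = e2.symm a := by
    intro a
    rw [Equiv.eq_symm_apply]
    rfl
  simp only [h5]

namespace WalkAux

section Enc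

variable {k : ℕ}

theorem encNode_depth (v : List (Fin m → ℕ)) : encNode k v (Sum.inl ()) = (v.length : ℝ) := rfl

theorem encNode_lt {v : List (Fin m → ℕ)} {l : Fin k} (h : (l : ℕ) < v.length) (i : Fin m) :
    encNode k v (Sum.inr (l, i)) = ((v.get ⟨v.length - 1 - l, by omega⟩ i : ℕ) : ℝ) :=
  dif_pos h

theorem encNode_ge {v : List (Fin m → ℕ)} {l : Fin k} (h : v.length ≤ (l : ℕ)) (i : Fin m) :
    encNode k v (Sum.inr (l, i)) = 0 :=
  dif_neg (by omega)

theorem encNode_cons_lt {y : Fin m → ℕ} {v : List (Fin m → ℕ)} {l : Fin k} (h : (l : ℕ) < v.length)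
    (i : Fin m) : encNode k (y :: v) (Sum.inr (l, i)) = encNode k v (Sum.inr (l, i)) := by
  have h1 : (l : ℕ) < (y :: v).length := by simp; omega
  rw [encNode_lt h1, encNode_lt h]
  have h2 : (y :: v).length - 1 - (l : ℕ) = (v.length - 1 - l) + 1 := by simp; omega
  congr 2
  simp only [List.get_eq_getElem, h2, List.getElem_cons_succ]

theorem encNode_cons_eq {y : Fin m → ℕ} {v : List (Fin m → ℕ)} {l : Fin k} (h : (l : ℕ) = v.length)
    (i : Fin m) : encNode k (y :: v) (Sum.inr (l, i)) = (y i : ℝ) := by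
  have h1 : (l : ℕ) < (y :: v).length := by simp; omega
  rw [encNode_lt h1]
  have h2 : (y :: v).length - 1 - (l : ℕ) = 0 := by simp; omega
  congr 2
  simp only [List.get_eq_getElem, h2, List.getElem_cons_zero]

theorem encNode_cons_gt {y : Fin m → ℕ} {v : List (Fin m → ℕ)} {l : Fin k} (h : v.length < (l : ℕ))
    (i : Fin m) : encNode k (y :: v) (Sum.inr (l, i)) = 0 :=
  encNode_ge (by simp; omega) i

/-- The step down on the states. -/
theorem setLevel_down (y : Fin m → ℕ) (v : List (Fin m → ℕ)) (d : Fin k) (hd : (d : ℕ) = v.length) :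
    setLevel (encNode k v) d (encX y) ((d : ℝ) + 1) = encNode k (y :: v) := by
  funext a
  rcases a with ⟨⟩ | ⟨l, i⟩
  · change ((d : ℕ) : ℝ) + 1 = (((y :: v).length : ℕ) : ℝ)
    rw [hd]
    simp
  · change (if l = d then encX y i else encNode k v (Sum.inr (l, i))) = _
    split_ifs with h
    · subst h
      rw [encNode_cons_eq hd]
      rfl
    · have h1 : (l : ℕ) ≠ d := fun h2 => h (Fin.ext h2)
      rcases lt_or_gt_of_ne h1 with h2 | h2
      · rw [encNode_cons_lt (by omega)]
      · rw [encNode_cons_gt (by omega), encNode_ge (by omega)]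

/-- The step up on the states. -/
theorem setLevel_up (y : Fin m → ℕ) (v : List (Fin m → ℕ)) (d : Fin k) (hd : (d : ℕ) = v.length) :
    setLevel (encNode k (y :: v)) d (fun _ => 0) (d : ℝ) = encNode k v := by
  funext a
  rcases a with ⟨⟩ | ⟨l, i⟩
  · change ((d : ℕ) : ℝ) = ((v.length : ℕ) : ℝ)
    rw [hd]
  · change (if l = d then (0 : ℝ) else encNode k (y :: v) (Sum.inr (l, i))) = _
    split_ifs with h
    · subst h
      rw [encNode_ge (by omega)]
    · have h1 : (l : ℕ) ≠ d := fun h2 => h (Fin.ext h2)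
      rcases lt_or_gt_of_ne h1 with h2 | h2
      · rw [encNode_cons_lt (by omega)]
      · rw [encNode_cons_gt (by omega), encNode_ge (by omega)]

/-- The filled levels add up to the sum of the columns. -/
theorem sum_levels (v : List (Fin m → ℕ)) (hk : v.length ≤ k) (i : Fin m) :
    ∑ l : Fin k, (if (l : ℕ) < v.length then encNode k v (Sum.inr (l, i)) else 0)
      = (((v.map fun x => x i).sum : ℕ) : ℝ) := by
  induction v with
  | nil => simp
  | cons y p ih =>
    have hk' : p.length ≤ k := by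
      simp only [List.length_cons] at hk
      omega
    have h1 := ih hk'
    have hlt : p.length < k := by
      simp only [List.length_cons] at hk
      omega
    have h2 : ∑ l : Fin k, (if (l : ℕ) < (y :: p).length then encNode k (y :: p) (Sum.inr (l, i)) else 0)
        = ∑ l : Fin k, ((if (l : ℕ) < p.length then encNode k p (Sum.inr (l, i)) else 0)
            + if l = ⟨p.length, hlt⟩ then (y i : ℝ) else 0) := by
      refine Finset.sum_congr rfl fun l _ => ?_
      by_cases h3 : (l : ℕ) < p.length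
      · have h4 : (l : ℕ) < (y :: p).length := by simp; omega
        have h5 : l ≠ ⟨p.length, hlt⟩ := fun h6 => by
          rw [h6] at h3
          simp at h3
        rw [if_pos h4, if_pos h3, if_neg h5, encNode_cons_lt h3, add_zero]
      · by_cases h6 : (l : ℕ) = p.length
        · have h4 : (l : ℕ) < (y :: p).length := by simp; omega
          have h5 : l = ⟨p.length, hlt⟩ := Fin.ext h6
          rw [if_pos h4, if_neg h3, if_pos h5, encNode_cons_eq h6, zero_add]
        · have h4 : ¬ (l : ℕ) < (y :: p).length := by simp; omega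
          have h5 : l ≠ ⟨p.length, hlt⟩ := fun h7 => h6 (by rw [h7])
          rw [if_neg h4, if_neg h3, if_neg h5, add_zero]
    rw [h2, Finset.sum_add_distrib, h1, Finset.sum_ite_eq' Finset.univ]
    simp only [Finset.mem_univ, if_true, List.map_cons, List.sum_cons]
    push_cast
    ring

/-- The levels below the last one. -/
theorem sum_levels_cons (y : Fin m → ℕ) (v : List (Fin m → ℕ)) (hk : v.length ≤ k) (i : Fin m) :
    ∑ l : Fin k, (if (l : ℕ) < v.length then encNode k (y :: v) (Sum.inr (l, i)) else 0)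
      = (((v.map fun x => x i).sum : ℕ) : ℝ) := by
  rw [← sum_levels v hk i]
  refine Finset.sum_congr rfl fun l _ => ?_
  split_ifs with h
  · exact encNode_cons_lt h i
  · rfl

end Enc

section Tree

variable {r : Fin m → ℕ} {c : List ℕ}

theorem kids_empty' (v : List (Fin m → ℕ)) (h : c.length ≤ v.length) : kids r c v = ∅ :=
  kids_empty r c v h

/-- The columns of a node fit into the row sums. -/
theorem node_sum_le {v : List (Fin m → ℕ)} (hv : v ∈ nodes (kids r c) c.length) (i : Fin m) :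
    (v.map fun x => x i).sum ≤ r i := by
  induction v with
  | nil => simp
  | cons x p ih =>
    obtain ⟨h1, h2⟩ := (cons_mem_nodes (fun v h => kids_empty r c v h)).1 hv
    have h3 := ih h1
    obtain ⟨c0, l, hd⟩ := exists_drop_of_kids h2
    rw [kids_inner hd] at h2
    have h4 := (mem_lev.1 h2).1 i
    simp only [res] at h4
    simp only [List.map_cons, List.sum_cons]
    omega

theorem resR_encNode {k : ℕ} {v : List (Fin m → ℕ)} (hk : v.length ≤ k)
    (hv : v ∈ nodes (kids r c) c.length) (i : Fin m) :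
    resR (fun i => (r i : ℝ)) (encNode k v) v.length i = (res r v i : ℝ) := by
  unfold resR res
  rw [sum_levels v hk i, Nat.cast_sub (node_sum_le hv i)]

theorem resR_encNode_cons {k : ℕ} {y : Fin m → ℕ} {v : List (Fin m → ℕ)} (hk : v.length ≤ k)
    (hv : v ∈ nodes (kids r c) c.length) (i : Fin m) :
    resR (fun i => (r i : ℝ)) (encNode k (y :: v)) v.length i = (res r v i : ℝ) := by
  unfold resR res
  rw [sum_levels_cons y v hk i, Nat.cast_sub (node_sum_le hv i)]

theorem length_le {v : List (Fin m → ℕ)} (hv : v ∈ nodes (kids r c) c.length) : v.length ≤ c.length :=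
  length_le_of_mem_nodes hv

end Tree

end WalkAux


namespace WalkCost

variable {ι : Type} {X : ℕ}

/-- The residual margins. -/
theorem resR_cost {m k : ℕ} (hX : 1000 ≤ X) (hk : k ≤ X) (R : Fin m → ι) (St : NodeW k m → ι) (d : ℕ) (i : Fin m) :
    P1 X 22 (fun x => resR (fun i => x (R i)) (fun b => x (St b)) d i) := by
  have hX2 : 2 ≤ X := by omega
  have h : P1 X ((0 + 3) + 1 + 6) (fun x : ι → ℝ => ∑ l : Fin k, if (l : ℕ) < d then x (St (Sum.inr (l, i))) else 0) :=
    P1.sumFin hk fun l => TrialCost.ite_const hX2 (P1.var _) P1.zero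
  exact (((P1.var (R i)).sub h).mono (by norm_num))

/-- The attempt to move down. -/
theorem walkDown_cost : ∃ e, ∀ {m k X W Tm Kb B : ℕ} {ι : Type} (_ : 1000 ≤ X) (_ : m ≤ X) (_ : k + 1 ≤ X)
    (_ : W ≤ X) (_ : Tm ≤ X ^ 4) (_ : Kb ≤ X) (_ : B ≤ X) (P : Par) (_ : P.d = 1 / (B : ℝ) ^ 26)
    (_ : P.cs = B ^ 28) (hm : 0 < m) (R : Fin m → ι) (L : Fin k → ι) (St : NodeW k m → ι)
    (Ωw : StepW k m W → ι) (d : Fin k) (a : NodeW k m),
    P1 X e (fun x => walkDown W Tm Kb P hm (fun i => x (R i)) (fun j => x (L j)) d (fun b => x (St b))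
      (fun b => x (Ωw b)) a) := by
  classical
  obtain ⟨e1, hds⟩ := downSelR_cost
  refine ⟨?e, fun {m k X W Tm Kb B ι} hX hm hk hW hTm hKb hB P hd hcs hm0 R L St Ωw d a => ?_⟩
  swap
  have hX2 : 2 ≤ X := by omega
  have hres : PC X (1 + 22) (fun (x : ι → ℝ) (i : Fin m) =>
      resR (fun i => x (R i)) (fun b => x (St b)) d i) :=
    PC.pi (d := 1) (by simpa using hm) fun i => resR_cost hX (by omega) R St d i
  have hn : k - 1 - d + 1 ≤ X := by omega
  have hx : ∀ i, P1 X (1 + 22 + e1 + 2) (fun x => downSelR W Tm Kb P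
      (fun i => resR (fun i => x (R i)) (fun b => x (St b)) d i) (x (L d))
      (restCols (fun j => x (L j)) d) (fun b => x (Ωw (Sum.inl ⟨d, b⟩))) i) := fun i =>
    P1.bind hres (hds hX hm hn hW hTm hKb hB P hd hcs (fun i => Sum.inr i) (Sum.inl (L d))
      (fun j => Sum.inl (L ⟨d + 1 + j, by omega⟩)) (fun b => Sum.inl (Ωw (Sum.inl ⟨d, b⟩))) i)
  have hD : P1 (ι := ι) X (6 + 6 + 2) (fun _ => (d : ℝ) + 1) :=
    (P1.natLe (N := (d : ℕ)) (by omega)).add ((P1.natLe (N := 1) (by omega)).congr fun _ => by norm_num)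
  -- the value after the move
  have hS : P1 X (1 + 22 + e1 + 2 + 14) (fun x => setLevel (fun b => x (St b)) d
      (fun i => downSelR W Tm Kb P
        (fun i => resR (fun i => x (R i)) (fun b => x (St b)) d i) (x (L d))
        (restCols (fun j => x (L j)) d) (fun b => x (Ωw (Sum.inl ⟨d, b⟩))) i) ((d : ℝ) + 1) a) := by
    rcases a with _ | ⟨l, i⟩
    · exact hD.mono (by omega)
    · by_cases hl : l = d
      · exact ((hx i).mono (by omega)).congr fun x => by
          simp [setLevel, hl]
      · exact ((P1.var (St (Sum.inr (l, i)))).mono (by omega)).congr fun x => by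
          simp [setLevel, hl]
  refine (P1.iteLt (hx ⟨0, hm0⟩) P1.zero (P1.var (St a)) hS).congr fun x => ?_
  unfold walkDown
  dsimp only
  by_cases hc : downSelR W Tm Kb P (fun i => resR (fun i => x (R i)) (fun b => x (St b)) d i) (x (L d))
      (restCols (fun j => x (L j)) d) (fun b => x (Ωw (Sum.inl ⟨d, b⟩))) ⟨0, hm0⟩ < 0
  · rw [if_pos hc, if_pos hc]
  · rw [if_neg hc, if_neg hc]

/-- The attempt to move up. -/
theorem walkUp_cost : ∃ e, ∀ {m k X W B : ℕ} {ι : Type} (_ : 1000 ≤ X) (_ : m ≤ X) (_ : k + 1 ≤ X)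
    (_ : W ≤ X) (_ : B ≤ X) (P : Par) (_ : P.d = 1 / (B : ℝ) ^ 26)
    (_ : P.cs = B ^ 28) (R : Fin m → ι) (L : Fin k → ι) (St : NodeW k m → ι)
    (Ωw : StepW k m W → ι) (p : Fin k) (a : NodeW k m),
    P1 X e (fun x => walkUp W P (fun i => x (R i)) (fun j => x (L j)) p (fun b => x (St b))
      (fun b => x (Ωw b)) a) := by
  classical
  obtain ⟨e1, hbw⟩ := bwHat_cost
  refine ⟨?e, fun {m k X W B ι} hX hm hk hW hB P hd hcs R L St Ωw p a => ?_⟩
  swap
  have hX2 : 2 ≤ X := by omega
  have hC : P1 X (22 + 1 + 6) (fun x => ∑ i, resR (fun i => x (R i)) (fun b => x (St b)) p i) :=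
    P1.sumFin hm fun i => resR_cost hX (by omega) R St p i
  have h2 : P1 (ι := ι) X 6 (fun _ => (2 : ℝ)) :=
    (P1.natLe (N := 2) (by omega)).congr fun _ => by norm_num
  have hbw' := TrialCost.comp3 hX hC ((P1.var (L p)).div hC) (P1.var (L p))
    (hbw (ι := ι ⊕ Fin 3) hX hW (Sum.inr 0) (Sum.inr 1) (Sum.inr 2))
  have hrate := (((TrialCost.KR_cost (n := k - 1 - p) hX hm hB P hd hcs (L p)).mul hbw').div h2)
  have hS : P1 X 6 (fun x => setLevel (fun b => x (St b)) p (fun _ => 0) (p : ℝ) a) := by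
    rcases a with _ | ⟨l, i⟩
    · exact P1.natLe (by omega)
    · by_cases hl : l = p
      · exact ((P1.zero).mono (by omega)).congr fun x => by
          simp [setLevel, hl]
      · exact ((P1.var (St (Sum.inr (l, i)))).mono (by omega)).congr fun x => by
          simp [setLevel, hl]
  refine (P1.ite (P1.var (Ωw (Sum.inr 1))) hrate hS (P1.var (St a))).congr fun x => ?_
  unfold walkUp
  by_cases hc : x (Ωw (Sum.inr 1)) ≤ rateR W P m (k - 1 - p) (x (L p))
      (∑ i, resR (fun i => x (R i)) (fun b => x (St b)) p i)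
  · rw [if_pos hc, if_pos (by exact hc)]
  · rw [if_neg hc, if_neg (by exact hc)]

/-- The step at a depth. -/
theorem walkBranch_cost : ∃ e, ∀ {m k X W Tm Kb B : ℕ} {ι : Type} (_ : 1000 ≤ X) (_ : m ≤ X) (_ : k + 1 ≤ X)
    (_ : W ≤ X) (_ : Tm ≤ X ^ 4) (_ : Kb ≤ X) (_ : B ≤ X) (P : Par) (_ : P.d = 1 / (B : ℝ) ^ 26)
    (_ : P.cs = B ^ 28) (hm : 0 < m) (R : Fin m → ι) (L : Fin k → ι) (St : NodeW k m → ι)
    (Ωw : StepW k m W → ι) (d : ℕ) (a : NodeW k m),
    P1 X e (fun x => walkBranch W Tm Kb P hm (fun i => x (R i)) (fun j => x (L j)) d (fun b => x (St b))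
      (fun b => x (Ωw b)) a) := by
  classical
  obtain ⟨e1, hdown⟩ := walkDown_cost
  obtain ⟨e2, hup⟩ := walkUp_cost
  refine ⟨?e, fun {m k X W Tm Kb B ι} hX hm hk hW hTm hKb hB P hd hcs hm0 R L St Ωw d a => ?_⟩
  swap
  have hU : P1 X e1 (fun x => (if h : d < k then walkDown W Tm Kb P hm0 (fun i => x (R i)) (fun j => x (L j))
      ⟨d, h⟩ (fun b => x (St b)) (fun b => x (Ωw b)) else fun b => x (St b)) a) := by
    by_cases h : d < k
    · simp only [h, dif_pos]
      exact hdown hX hm hk hW hTm hKb hB P hd hcs hm0 R L St Ωw ⟨d, h⟩ a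
    · simp only [h, dif_neg, not_false_iff]
      exact (P1.var _).mono (by omega)
  have hV : P1 X e2 (fun x => (if h : d ≠ 0 ∧ d - 1 < k then walkUp W P (fun i => x (R i)) (fun j => x (L j))
      ⟨d - 1, h.2⟩ (fun b => x (St b)) (fun b => x (Ωw b)) else fun b => x (St b)) a) := by
    by_cases h : d ≠ 0 ∧ d - 1 < k
    · rw [show (fun x : ι → ℝ => (if h : d ≠ 0 ∧ d - 1 < k then walkUp W P (fun i => x (R i)) (fun j => x (L j))
        ⟨d - 1, h.2⟩ (fun b => x (St b)) (fun b => x (Ωw b)) else fun b => x (St b)) a)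
          = fun x => walkUp W P (fun i => x (R i)) (fun j => x (L j))
        ⟨d - 1, h.2⟩ (fun b => x (St b)) (fun b => x (Ωw b)) a from funext fun x => by rw [dif_pos h]]
      exact hup hX hm hk hW hB P hd hcs R L St Ωw ⟨d - 1, h.2⟩ a
    · rw [show (fun x : ι → ℝ => (if h : d ≠ 0 ∧ d - 1 < k then walkUp W P (fun i => x (R i)) (fun j => x (L j))
        ⟨d - 1, h.2⟩ (fun b => x (St b)) (fun b => x (Ωw b)) else fun b => x (St b)) a)
          = fun x => x (St a) from funext fun x => by rw [dif_neg h]]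
      exact (P1.var _).mono (by omega)
  have h18 : P1 (ι := ι) X (0 + (6 + 1) + 2) (fun _ => (1 / 8 : ℝ)) :=
    P1.one.div ((P1.natLe (N := 8) (by omega)).congr fun _ => by norm_num)
  have h28 : P1 (ι := ι) X (6 + (6 + 1) + 2) (fun _ => (2 / 8 : ℝ)) :=
    ((P1.natLe (N := 2) (by omega)).congr (fun _ => by norm_num) : P1 (ι := ι) X 6 (fun _ => (2 : ℝ))).div
      ((P1.natLe (N := 8) (by omega)).congr fun _ => by norm_num)
  refine (P1.ite (P1.var (Ωw (Sum.inr 0))) h18 hU
    (P1.ite (P1.var (Ωw (Sum.inr 0))) h28 hV (P1.var (St a)))).congr fun x => ?_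
  unfold walkBranch
  by_cases h1 : x (Ωw (Sum.inr 0)) ≤ 1 / 8
  · rw [if_pos h1, if_pos h1]
  · rw [if_neg h1, if_neg h1]
    by_cases h2 : x (Ωw (Sum.inr 0)) ≤ 2 / 8
    · rw [if_pos h2, if_pos h2]
    · rw [if_neg h2, if_neg h2]

end WalkCost

section Spec

variable {r : Fin m → ℕ} {c : List ℕ} {W Tm Kb Nb' : ℕ} {P : Par}

/-- The wires of the sorted columns. -/
noncomputable def wireL (c : List ℕ) : Fin c.length → ℝ := fun j => (c.get j : ℝ)

/-- The kernel of the step on nodes. -/
noncomputable def walkKer (W Tm Kb : ℕ) (P : Par) (hm : 0 < m) (r : Fin m → ℕ) (c : List ℕ)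
    (v w : List (Fin m → ℕ)) : ℝ :=
  Pr fun ω => walkStepR W Tm Kb P hm (fun i => (r i : ℝ)) (wireL c) (encNode c.length v) ω = encNode c.length w

/-- The later columns, as natural numbers. -/
def cR (c : List ℕ) (d : Fin c.length) : Fin (c.length - 1 - d) → ℕ := fun j => c.get ⟨d + 1 + j, by omega⟩

namespace WalkAux

theorem restCols_wireL (d : Fin c.length) :
    restCols (wireL c) d = fun j => (cR c d j : ℝ) := rfl

theorem drop_get {v : List (Fin m → ℕ)} (d : Fin c.length) (hd : (d : ℕ) = v.length) :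
    c.drop v.length = c.get d :: c.drop ((d : ℕ) + 1) := by
  rw [← hd]
  simp

/-- The step is the branch for the depth of the node. -/
theorem step_eq (hm : 0 < m) {v : List (Fin m → ℕ)} (hk : v.length ≤ c.length) (rR : Fin m → ℝ)
    (ω : StepW c.length m W → ℝ) :
    walkStepR W Tm Kb P hm rR (wireL c) (encNode c.length v) ω
      = walkBranch W Tm Kb P hm rR (wireL c) v.length (encNode c.length v) ω := by
  funext a
  unfold walkStepR
  rw [Finset.sum_eq_single (⟨v.length, by omega⟩ : Fin (c.length + 1))]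
  · exact if_pos (by rw [encNode_depth])
  · intro b _ hb
    refine if_neg fun h => hb (Fin.ext ?_)
    rw [encNode_depth] at h
    exact_mod_cast h.symm
  · intro h
    exact absurd (Finset.mem_univ _) h

/-- The attempt to move down on the state of a node. -/
theorem walkDown_eq (hm : 0 < m) {v : List (Fin m → ℕ)} (hv : v ∈ nodes (kids r c) c.length)
    (d : Fin c.length) (hd : (d : ℕ) = v.length) (ω : StepW c.length m W → ℝ) :
    walkDown W Tm Kb P hm (fun i => (r i : ℝ)) (wireL c) d (encNode c.length v) ω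
      = if downSelR W Tm Kb P (fun i => (res r v i : ℝ)) (c.get d : ℝ) (fun j => (cR c d j : ℝ))
            (fun a => ω (Sum.inl ⟨d, a⟩)) ⟨0, hm⟩ < 0 then encNode c.length v
        else setLevel (encNode c.length v) d
          (downSelR W Tm Kb P (fun i => (res r v i : ℝ)) (c.get d : ℝ) (fun j => (cR c d j : ℝ))
            (fun a => ω (Sum.inl ⟨d, a⟩))) ((d : ℝ) + 1) := by
  have h1 : (fun i => resR (fun i => (r i : ℝ)) (encNode c.length v) d i) = fun i => (res r v i : ℝ) := by
    funext i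
    rw [hd]
    exact resR_encNode (length_le hv) hv i
  unfold walkDown
  simp only [h1, restCols_wireL]
  rfl

/-- The attempt to move up on the state of a node. -/
theorem walkUp_eq {y : Fin m → ℕ} {v : List (Fin m → ℕ)} (hv : v ∈ nodes (kids r c) c.length)
    (d : Fin c.length) (hd : (d : ℕ) = v.length) (ω : StepW c.length m W → ℝ) :
    walkUp W P (fun i => (r i : ℝ)) (wireL c) d (encNode c.length (y :: v)) ω
      = if ω (Sum.inr 1) ≤ rateR W P m (c.length - 1 - d) (c.get d : ℝ) (∑ i, (res r v i : ℝ)) then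
          encNode c.length v
        else encNode c.length (y :: v) := by
  have h1 : ∑ i, resR (fun i => (r i : ℝ)) (encNode c.length (y :: v)) d i = ∑ i, (res r v i : ℝ) := by
    refine Finset.sum_congr rfl fun i _ => ?_
    rw [hd]
    exact resR_encNode_cons (length_le hv) hv i
  unfold walkUp
  rw [h1]
  change (if _ then _ else _) = _
  rw [setLevel_up y v d hd]
  rfl

theorem encX_zero (hm : 0 < m) (x : Fin m → ℕ) : ¬ encX x ⟨0, hm⟩ < 0 := by
  have : (0 : ℝ) ≤ encX x ⟨0, hm⟩ := Nat.cast_nonneg _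
  linarith

/-- The depth after a step. -/
theorem encNode_eq_length {k : ℕ} {v w : List (Fin m → ℕ)} (h : encNode k v = encNode k w) :
    v.length = w.length := by
  have h1 := congrFun h (Sum.inl ())
  rw [encNode_depth, encNode_depth] at h1
  exact_mod_cast h1

theorem encNode_cons_inj {y y' : Fin m → ℕ} {v : List (Fin m → ℕ)} (hk : v.length < c.length)
    (h : encNode c.length (y :: v) = encNode c.length (y' :: v)) : y = y' := by
  funext i
  have h1 := congrFun h (Sum.inr (⟨v.length, hk⟩, i))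
  rw [encNode_cons_eq rfl, encNode_cons_eq rfl] at h1
  exact_mod_cast h1

end WalkAux

/-- Injectivity of the states of nodes. -/
theorem encNode_injective (hc : ∀ y ∈ c, 0 < y) {v w : List (Fin m → ℕ)}
    (hv : v ∈ nodes (kids r c) c.length) (hw : w ∈ nodes (kids r c) c.length)
    (h : encNode c.length v = encNode c.length w) : v = w := by
  have hlen := WalkAux.encNode_eq_length h
  refine List.ext_get hlen fun n h1 h2 => ?_
  funext i
  have hv' := WalkAux.length_le hv
  have hl : v.length - 1 - n < c.length := by omega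
  have h3 := congrFun h (Sum.inr (⟨v.length - 1 - n, hl⟩, i))
  have hlv : ((⟨v.length - 1 - n, hl⟩ : Fin c.length) : ℕ) < v.length := by
    simp only
    omega
  have hlw : ((⟨v.length - 1 - n, hl⟩ : Fin c.length) : ℕ) < w.length := by
    simp only
    omega
  rw [WalkAux.encNode_lt hlv, WalkAux.encNode_lt hlw] at h3
  have h4 : ((v.get ⟨v.length - 1 - (v.length - 1 - n), by omega⟩ i : ℕ) : ℝ)
      = ((w.get ⟨w.length - 1 - (v.length - 1 - n), by omega⟩ i : ℕ) : ℝ) := h3
  have e1 : v.length - 1 - (v.length - 1 - n) = n := by omega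
  have e2 : w.length - 1 - (v.length - 1 - n) = n := by omega
  simp only [List.get_eq_getElem, e1, e2] at h4
  exact_mod_cast h4

namespace WalkAux

/-- The classification of a step. -/
theorem step_cases (hS : SizeOK W Tm Kb Nb') (hm : 0 < m) (hNb : ∑ i, r i ≤ Nb')
    {v : List (Fin m → ℕ)} (hv : v ∈ nodes (kids r c) c.length)
    (ω : StepW c.length m W → ℝ) (hω : ω ∈ Cube (StepW c.length m W)) :
    walkStepR W Tm Kb P hm (fun i => (r i : ℝ)) (wireL c) (encNode c.length v) ω = encNode c.length v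
    ∨ (∃ (d : Fin c.length) (_ : (d : ℕ) = v.length), ∃ x ∈ lev (res r v) (c.get d),
        walkStepR W Tm Kb P hm (fun i => (r i : ℝ)) (wireL c) (encNode c.length v) ω
          = encNode c.length (x :: v)
        ∧ ω (Sum.inr 0) ≤ 1 / 8
        ∧ downSelR W Tm Kb P (fun i => (res r v i : ℝ)) (c.get d : ℝ) (fun j => (cR c d j : ℝ))
            (fun a => ω (Sum.inl ⟨d, a⟩)) = encX x)
    ∨ (∃ (y : Fin m → ℕ) (v' : List (Fin m → ℕ)) (d : Fin c.length), v = y :: v' ∧ (d : ℕ) = v'.length
        ∧ walkStepR W Tm Kb P hm (fun i => (r i : ℝ)) (wireL c) (encNode c.length v) ω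
          = encNode c.length v'
        ∧ 1 / 8 < ω (Sum.inr 0) ∧ ω (Sum.inr 0) ≤ 2 / 8
        ∧ ω (Sum.inr 1) ≤ rateR W P m (c.length - 1 - d) (c.get d : ℝ) (∑ i, (res r v' i : ℝ))) := by
  have hk := length_le hv
  rw [step_eq hm hk]
  unfold walkBranch
  by_cases h1 : ω (Sum.inr 0) ≤ 1 / 8
  · rw [if_pos h1]
    by_cases h2 : v.length < c.length
    · rw [dif_pos h2]
      set d : Fin c.length := ⟨v.length, h2⟩ with hd
      have hd' : (d : ℕ) = v.length := rfl
      rw [walkDown_eq hm hv d hd']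
      have hres : ∑ i, res r v i ≤ Nb' := by
        refine le_trans (Finset.sum_le_sum fun i _ => ?_) hNb
        exact Nat.sub_le _ _
      have hω' : (fun a => ω (Sum.inl ⟨d, a⟩)) ∈ Cube (DownW (c.length - 1 - d) m W) :=
        fun a => hω (Sum.inl ⟨d, a⟩)
      rcases downSelR_mem (r := res r v) (c0 := c.get d) (c' := cR c d) hS P hm hres _ hω' with h3 | h3
      · left
        rw [h3]
        rw [if_pos (by norm_num)]
      · obtain ⟨x, hx, h3⟩ := h3
        right; left
        refine ⟨d, hd', x, hx, ?_, h1, h3⟩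
        rw [h3, if_neg (encX_zero hm x)]
        exact setLevel_down x v d hd'
    · rw [dif_neg h2]
      exact Or.inl rfl
  · rw [if_neg h1]
    push Not at h1
    by_cases h2 : ω (Sum.inr 0) ≤ 2 / 8
    · rw [if_pos h2]
      cases v with
      | nil =>
        rw [dif_neg (by simp)]
        exact Or.inl rfl
      | cons y v' =>
        have h3 : (y :: v').length ≠ 0 ∧ (y :: v').length - 1 < c.length := by
          simp only [List.length_cons] at hk ⊢
          omega
        rw [dif_pos h3]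
        have hd' : ((⟨(y :: v').length - 1, h3.2⟩ : Fin c.length) : ℕ) = v'.length := by simp
        have hv' := ((cons_mem_nodes (fun v h => kids_empty r c v h)).1 hv).1
        rw [walkUp_eq hv' _ hd']
        split_ifs with h4
        · right; right
          exact ⟨y, v', _, rfl, hd', rfl, h1, h2, h4⟩
        · exact Or.inl rfl
    · rw [if_neg h2]
      exact Or.inl rfl

/-- The child event. -/
theorem child_iff (hS : SizeOK W Tm Kb Nb') (hm : 0 < m) (hNb : ∑ i, r i ≤ Nb')
    {v : List (Fin m → ℕ)} (hv : v ∈ nodes (kids r c) c.length) (d : Fin c.length)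
    (hd : (d : ℕ) = v.length) (x : Fin m → ℕ)
    (ω : StepW c.length m W → ℝ) (hω : ω ∈ Cube (StepW c.length m W)) :
    walkStepR W Tm Kb P hm (fun i => (r i : ℝ)) (wireL c) (encNode c.length v) ω = encNode c.length (x :: v)
      ↔ (ω (Sum.inr 0) ≤ 1 / 8 ∧ downSelR W Tm Kb P (fun i => (res r v i : ℝ)) (c.get d : ℝ)
          (fun j => (cR c d j : ℝ)) (fun a => ω (Sum.inl ⟨d, a⟩)) = encX x) := by
  have hk := length_le hv
  have hlt : v.length < c.length := by omega
  constructor
  · intro h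
    rcases step_cases hS hm hNb hv ω hω with h1 | ⟨d', hd', x', _, h2, h3, h4⟩ | ⟨y, v', d', rfl, _, h2, _⟩
    · rw [h1] at h
      have := encNode_eq_length h
      simp at this
    · have e : d' = d := Fin.ext (by omega)
      subst e
      rw [h] at h2
      have := encNode_cons_inj hlt h2
      subst this
      exact ⟨h3, h4⟩
    · rw [h] at h2
      have := encNode_eq_length h2
      simp at this
      omega
  · rintro ⟨h1, h2⟩
    rw [step_eq hm hk]
    unfold walkBranch
    rw [if_pos h1, dif_pos hlt]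
    have e : (⟨v.length, hlt⟩ : Fin c.length) = d := Fin.ext hd.symm
    rw [e, walkDown_eq hm hv d hd, h2, if_neg (encX_zero hm x)]
    exact setLevel_down x v d hd

/-- The parent event. -/
theorem parent_iff (hS : SizeOK W Tm Kb Nb') (hm : 0 < m) (hNb : ∑ i, r i ≤ Nb')
    {y : Fin m → ℕ} {v : List (Fin m → ℕ)} (hv : y :: v ∈ nodes (kids r c) c.length) (d : Fin c.length)
    (hd : (d : ℕ) = v.length)
    (ω : StepW c.length m W → ℝ) (hω : ω ∈ Cube (StepW c.length m W)) :
    walkStepR W Tm Kb P hm (fun i => (r i : ℝ)) (wireL c) (encNode c.length (y :: v)) ω = encNode c.length v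
      ↔ (1 / 8 < ω (Sum.inr 0) ∧ ω (Sum.inr 0) ≤ 2 / 8
        ∧ ω (Sum.inr 1) ≤ rateR W P m (c.length - 1 - d) (c.get d : ℝ) (∑ i, (res r v i : ℝ))) := by
  have hk := length_le hv
  have hv' := ((cons_mem_nodes (fun v h => kids_empty r c v h)).1 hv).1
  constructor
  · intro h
    rcases step_cases hS hm hNb hv ω hω with h1 | ⟨d', hd', x', _, h2, h3, h4⟩ | ⟨y', v', d', h0, hd', h2, h3, h4, h5⟩
    · rw [h1] at h
      have := encNode_eq_length h
      simp at this
    · rw [h] at h2
      have := encNode_eq_length h2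
      simp at this
      omega
    · obtain ⟨rfl, rfl⟩ := List.cons.inj h0
      have e : d' = d := Fin.ext (by omega)
      subst e
      exact ⟨h3, h4, h5⟩
  · rintro ⟨h1, h2, h3⟩
    rw [step_eq hm hk]
    unfold walkBranch
    rw [if_neg (not_le.2 h1), if_pos h2]
    have h4 : (y :: v).length ≠ 0 ∧ (y :: v).length - 1 < c.length := by
      simp only [List.length_cons] at hk ⊢
      omega
    rw [dif_pos h4]
    have e : (⟨(y :: v).length - 1, h4.2⟩ : Fin c.length) = d := Fin.ext (by simp [hd])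
    rw [e, walkUp_eq hv' d hd, if_pos h3]

/-- The other nodes are not reached. -/
theorem other_false (hS : SizeOK W Tm Kb Nb') (hc : ∀ y ∈ c, 0 < y) (hm : 0 < m) (hNb : ∑ i, r i ≤ Nb')
    {v w : List (Fin m → ℕ)} (hv : v ∈ nodes (kids r c) c.length) (hw : w ∈ nodes (kids r c) c.length)
    (h1 : w ≠ v) (h2 : ∀ x ∈ kids r c v, w ≠ x :: v) (h3 : v = [] ∨ w ≠ v.tail)
    (ω : StepW c.length m W → ℝ) (hω : ω ∈ Cube (StepW c.length m W)) :
    walkStepR W Tm Kb P hm (fun i => (r i : ℝ)) (wireL c) (encNode c.length v) ω ≠ encNode c.length w := by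
  intro h
  rcases step_cases hS hm hNb hv ω hω with h4 | ⟨d, hd, x, hx, h4, _⟩ | ⟨y, v', d, rfl, _, h4, _⟩
  · rw [h] at h4
    exact h1 (encNode_injective hc hw hv h4)
  · have hx' : x ∈ kids r c v := by
      rw [kids_inner (drop_get d hd)]
      exact hx
    have h5 := (cons_mem_nodes (fun v h => kids_empty r c v h)).2 ⟨hv, hx'⟩
    rw [h] at h4
    exact h2 x hx' (encNode_injective hc hw h5 h4)
  · have h5 := ((cons_mem_nodes (fun v h => kids_empty r c v h)).1 hv).1
    rw [h] at h4
    have h6 := encNode_injective hc hw h5 h4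
    rcases h3 with h3 | h3
    · simp at h3
    · exact h3 h6

end WalkAux

/-- The next state is the state of a node. -/
theorem walkStepR_mem (hS : SizeOK W Tm Kb Nb') (hm : 0 < m) (hc : ∀ y ∈ c, 0 < y) (hsum : ∑ i, r i = c.sum)
    (hNb : ∑ i, r i ≤ Nb') {v : List (Fin m → ℕ)} (hv : v ∈ nodes (kids r c) c.length)
    (ω : StepW c.length m W → ℝ) (hω : ω ∈ Cube (StepW c.length m W)) :
    ∃ w ∈ nodes (kids r c) c.length,
      walkStepR W Tm Kb P hm (fun i => (r i : ℝ)) (wireL c) (encNode c.length v) ω = encNode c.length w := by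
  rcases WalkAux.step_cases hS hm hNb hv ω hω with h4 | ⟨d, hd, x, hx, h4, _⟩ | ⟨y, v', d, rfl, _, h4, _⟩
  · exact ⟨v, hv, h4⟩
  · have hx' : x ∈ kids r c v := by
      rw [kids_inner (WalkAux.drop_get d hd)]
      exact hx
    exact ⟨x :: v, (cons_mem_nodes (fun v h => kids_empty r c v h)).2 ⟨hv, hx'⟩, h4⟩
  · exact ⟨v', ((cons_mem_nodes (fun v h => kids_empty r c v h)).1 hv).1, h4⟩

namespace WalkAux

/-! ### Measurability -/

theorem meas_downR (W Tm Kb : ℕ) (Nb : ℝ) (P : Par) {n : ℕ} (i0 : Fin m) (j0 : Fin (n + 1)) (r : Fin m → ℝ)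
    (c0 : ℝ) (c' : Fin n → ℝ) : Measurable (downR W Tm Kb Nb P i0 j0 r c0 c') := by
  refine measurable_pi_lambda _ fun l => ?_
  unfold downR
  have hz : ∀ k, Measurable fun ω : DownW n m W → ℝ =>
      chainRunR W Tm 1 Nb i0 j0 r (Fin.cons c0 c') (fun a => ω (Sum.inl a)) k := fun k =>
    (DownAux.meas_chainRunR W Tm Nb i0 j0 r (Fin.cons c0 c') k).comp
      (measurable_pi_lambda _ fun a => measurable_pi_apply _)
  have hy : ∀ k, Measurable fun ω : DownW n m W → ℝ =>
      cellPtR W (chainRunR W Tm 1 Nb i0 j0 r (Fin.cons c0 c') (fun a => ω (Sum.inl a)))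
        (fun a => ω (Sum.inr (Sum.inl a))) k := by
    intro k
    unfold cellPtR
    exact (((hz k).add (measurable_pi_apply _)).const_mul _).const_add _
  exact TrialMeas.meas_trialR W Tm Kb Nb P r c0 c'
    (fun j i => TrialMeas.meas_tMapR i0 j0 r _ hy j i)
    (fun k => measurable_pi_apply _) l

theorem meas_downSelR (W Tm Kb : ℕ) (P : Par) {n : ℕ} (r : Fin m → ℝ) (c0 : ℝ) (c' : Fin n → ℝ) :
    Measurable (downSelR W Tm Kb P r c0 c') := by
  refine measurable_pi_lambda _ fun l => ?_
  unfold downSelR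
  refine Finset.measurable_sum _ fun i0 _ => Finset.measurable_sum _ fun j0 _ => ?_
  split_ifs
  · exact (measurable_pi_apply l).comp (meas_downR W Tm Kb _ P i0 j0 r c0 c')
  · exact measurable_const
  · exact measurable_const

theorem meas_setLevel {k : ℕ} (st : NodeW k m → ℝ) (d : Fin k) (D : ℝ) :
    Measurable fun x : Fin m → ℝ => setLevel st d x D := by
  refine measurable_pi_lambda _ fun a => ?_
  rcases a with ⟨⟩ | ⟨l, i⟩
  · exact measurable_const
  · unfold setLevel
    by_cases h : l = d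
    · simp only [h, if_true]
      exact measurable_pi_apply i
    · simp only [h, if_false]
      exact measurable_const

theorem meas_walkBranch {k : ℕ} (W Tm Kb : ℕ) (P : Par) (hm : 0 < m) (rR : Fin m → ℝ) (L : Fin k → ℝ)
    (d : ℕ) (st : NodeW k m → ℝ) : Measurable (walkBranch W Tm Kb P hm rR L d st) := by
  unfold walkBranch
  refine Measurable.ite (measurableSet_le (measurable_pi_apply _) measurable_const) ?_ ?_
  · split_ifs with h
    · unfold walkDown
      simp only []
      have hx := (meas_downSelR W Tm Kb P (fun i => resR rR st (⟨d, h⟩ : Fin k) i) (L ⟨d, h⟩)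
        (restCols L ⟨d, h⟩)).comp (f := fun ω : StepW k m W → ℝ => fun a => ω (Sum.inl ⟨⟨d, h⟩, a⟩))
        (measurable_pi_lambda _ fun a => measurable_pi_apply _)
      refine Measurable.ite (measurableSet_lt ((measurable_pi_apply _).comp hx) measurable_const)
        measurable_const ?_
      exact (meas_setLevel st _ _).comp hx
    · exact measurable_const
  · refine Measurable.ite (measurableSet_le (measurable_pi_apply _) measurable_const) ?_ measurable_const
    split_ifs with h
    · unfold walkUp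
      exact Measurable.ite (measurableSet_le (measurable_pi_apply _) measurable_const)
        measurable_const measurable_const
    · exact measurable_const

/-- One step is measurable, for every `P`. -/
theorem meas_walkStepR {k : ℕ} (W Tm Kb : ℕ) (P : Par) (hm : 0 < m) (rR : Fin m → ℝ) (L : Fin k → ℝ)
    (st : NodeW k m → ℝ) : Measurable (walkStepR W Tm Kb P hm rR L st) := by
  refine measurable_pi_lambda _ fun a => ?_
  unfold walkStepR
  refine Finset.measurable_sum _ fun d _ => ?_
  split_ifs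
  · exact (measurable_pi_apply a).comp (meas_walkBranch W Tm Kb P hm rR L d st)
  · exact measurable_const

/-! ### The kernel -/

theorem vol_min {q : ℝ} (h0 : 0 ≤ q) : (volume (Set.Iic q ∩ Set.Icc 0 1)).toReal = min 1 q := by
  have hset : Set.Iic q ∩ Set.Icc (0 : ℝ) 1 = Set.Icc 0 (min 1 q) := by
    ext u
    simp only [Set.mem_inter_iff, Set.mem_Iic, Set.mem_Icc, le_min_iff]
    tauto
  rw [hset, Real.volume_Icc, sub_zero, ENNReal.toReal_ofReal (le_min (by norm_num) h0)]

theorem ker_child (hS : SizeOK W Tm Kb Nb') (hm : 0 < m) (hNb : ∑ i, r i ≤ Nb')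
    {v : List (Fin m → ℕ)} (hv : v ∈ nodes (kids r c) c.length) (d : Fin c.length)
    (hd : (d : ℕ) = v.length) (x : Fin m → ℕ) :
    walkKer W Tm Kb P hm r c v (x :: v) = (1 / 8) * Pr (fun ω' => downSelR W Tm Kb P
      (fun i => (res r v i : ℝ)) (c.get d : ℝ) (fun j => (cR c d j : ℝ)) ω' = encX x) := by
  unfold walkKer
  rw [Pr_congr fun ω hω => child_iff (P := P) hS hm hNb hv d hd x ω hω]
  have h1 := TrialLaw.Pr_prod'
    (fun u : (Σ d : Fin c.length, DownW (c.length - 1 - d) m W) → ℝ =>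
      downSelR W Tm Kb P (fun i => (res r v i : ℝ)) (c.get d : ℝ) (fun j => (cR c d j : ℝ))
        (fun a => u ⟨d, a⟩) = encX x)
    (fun w : Fin 2 → ℝ => w 0 ≤ 1 / 8)
  have h2 := Pr_sigma (A := fun d : Fin c.length => DownW (c.length - 1 - d) m W) d
    (fun ω' => downSelR W Tm Kb P (fun i => (res r v i : ℝ)) (c.get d : ℝ) (fun j => (cR c d j : ℝ))
      ω' = encX x)
  have h3 := Pr_le_coord (Ω := Fin 2) 0 (p := 1 / 8) (by norm_num) (by norm_num)
  rw [h2, h3] at h1
  rw [mul_comm, ← h1]
  refine Pr_congr fun ω _ => ?_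
  exact and_comm

theorem ker_parent (hS : SizeOK W Tm Kb Nb') (hm : 0 < m) (hNb : ∑ i, r i ≤ Nb')
    {y : Fin m → ℕ} {v : List (Fin m → ℕ)} (hv : y :: v ∈ nodes (kids r c) c.length) (d : Fin c.length)
    (hd : (d : ℕ) = v.length)
    (hq : 0 ≤ rateR W P m (c.length - 1 - d) (c.get d : ℝ) (∑ i, (res r v i : ℝ))) :
    walkKer W Tm Kb P hm r c (y :: v) v
      = (1 / 8) * min 1 (rateR W P m (c.length - 1 - d) (c.get d : ℝ) (∑ i, (res r v i : ℝ))) := by
  unfold walkKer
  rw [Pr_congr fun ω hω => parent_iff (P := P) hS hm hNb hv d hd ω hω]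
  set q := rateR W P m (c.length - 1 - d) (c.get d : ℝ) (∑ i, (res r v i : ℝ)) with hqdef
  have h1 := TrialLaw.Pr_prod'
    (fun _ : (Σ d : Fin c.length, DownW (c.length - 1 - d) m W) → ℝ => True)
    (fun w : Fin 2 → ℝ => w 0 ∈ Set.Ioc (1 / 8 : ℝ) (2 / 8) ∧ w 1 ∈ Set.Iic q)
  rw [Pr_true, one_mul, BinAux.Pr_two, vol_min hq] at h1
  have h2 : Set.Ioc (1 / 8 : ℝ) (2 / 8) ∩ Set.Icc 0 1 = Set.Ioc (1 / 8 : ℝ) (2 / 8) := by
    refine Set.inter_eq_left.2 fun u hu => ⟨?_, ?_⟩
    · have := hu.1
      linarith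
    · have := hu.2
      linarith
  rw [h2, Real.volume_Ioc, ENNReal.toReal_ofReal (by norm_num)] at h1
  have e : (2 / 8 - 1 / 8 : ℝ) = 1 / 8 := by norm_num
  rw [e] at h1
  rw [← h1]
  refine Pr_congr fun ω _ => ?_
  simp only [true_and, Set.mem_Ioc, Set.mem_Iic, and_assoc]

theorem ker_other (hS : SizeOK W Tm Kb Nb') (hc : ∀ y ∈ c, 0 < y) (hm : 0 < m) (hNb : ∑ i, r i ≤ Nb')
    {v w : List (Fin m → ℕ)} (hv : v ∈ nodes (kids r c) c.length) (hw : w ∈ nodes (kids r c) c.length)
    (h1 : w ≠ v) (h2 : ∀ x ∈ kids r c v, w ≠ x :: v) (h3 : v = [] ∨ w ≠ v.tail) :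
    walkKer W Tm Kb P hm r c v w = 0 := by
  unfold walkKer
  rw [← Pr_false (Ω := StepW c.length m W)]
  refine Pr_congr fun ω hω => ?_
  simp only [iff_false]
  exact other_false hS hc hm hNb hv hw h1 h2 h3 ω hω

/-- Total mass. -/
theorem ker_total (hS : SizeOK W Tm Kb Nb') (hc : ∀ y ∈ c, 0 < y) (hm : 0 < m) (hsum : ∑ i, r i = c.sum)
    (hNb : ∑ i, r i ≤ Nb') {v : List (Fin m → ℕ)} (hv : v ∈ nodes (kids r c) c.length) :
    ∑ w ∈ nodes (kids r c) c.length, walkKer W Tm Kb P hm r c v w = 1 := by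
  classical
  have hmeas := meas_walkStepR W Tm Kb P hm (fun i => (r i : ℝ)) (wireL c) (encNode c.length v)
  have h1 := Pr_total (walkStepR W Tm Kb P hm (fun i => (r i : ℝ)) (wireL c) (encNode c.length v))
    ((nodes (kids r c) c.length).image (encNode c.length))
    (fun y _ => hmeas (measurableSet_singleton y))
    (fun ω hω => by
      obtain ⟨w, hw, h⟩ := walkStepR_mem (P := P) hS hm hc hsum hNb hv ω hω
      rw [h]
      exact Finset.mem_image_of_mem _ hw)
  rw [Finset.sum_image fun a ha b hb hab => encNode_injective hc ha hb hab] at h1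
  exact h1

/-! ### Abstract comparison -/

theorem walk_close2 {X : Type} [DecidableEq X] {S : List X → Finset X} {D : ℕ}
    (hS : ∀ v, D ≤ v.length → S v = ∅) (down : List X → X → ℝ) (up : List X → ℝ)
    {v : List X} (hv : v ∈ nodes S D) (K : List X → ℝ) (dn : X → ℝ) {ε : ℝ} (hε : 0 ≤ ε)
    (hK : ∑ w ∈ nodes S D, K w = 1) (hQ : ∑ w ∈ nodes S D, walk S down up v w = 1)
    (hch : ∀ x ∈ S v, K (x :: v) = dn x)
    (hup : v ≠ [] → |K v.tail - up v| ≤ ε)
    (hoth : ∀ w ∈ nodes S D, w ≠ v → (∀ x ∈ S v, w ≠ x :: v) → (v = [] ∨ w ≠ v.tail) → K w = 0) :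
    ∑ w ∈ nodes S D, |K w - walk S down up v w|
      ≤ 2 * (∑ x ∈ S v, |dn x - down v x| + ε) := by
  classical
  set N := nodes S D with hN
  set φ : List X → X → ℝ := fun _ x => |dn x - down v x| with hφ
  have hφ0 : ∀ a b, 0 ≤ φ a b := fun _ _ => abs_nonneg _
  set e : List X → ℝ := fun w => K w - walk S down up v w with he
  have hbound : ∀ w ∈ N, w ≠ v → |e w| ≤ toChild S φ v w + toParent (fun _ => ε) v w := by
    intro w hw hwv
    have hQw : walk S down up v w = toChild S down v w + toParent up v w := by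
      unfold walk
      rw [if_neg hwv, zero_add]
    have hc0 : 0 ≤ toChild S φ v w := by
      cases w with
      | nil => simp [toChild]
      | cons x p =>
        simp only [toChild]
        split_ifs
        · exact abs_nonneg _
        · exact le_rfl
    have hp0 : 0 ≤ toParent (fun _ => ε) v w := by
      unfold toParent
      split_ifs
      · exact hε
      · exact le_rfl
    by_cases hA : ∃ x ∈ S v, w = x :: v
    · obtain ⟨x, hx, rfl⟩ := hA
      have h1 : ¬ (v ≠ [] ∧ v.tail = x :: v) := by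
        rintro ⟨_, h2⟩
        have := congrArg List.length h2
        simp at this
      have e1 : toParent up v (x :: v) = 0 := if_neg h1
      have e2 : toChild S down v (x :: v) = down v x := by simp [toChild, hx]
      have e3 : toChild S φ v (x :: v) = φ v x := by simp [toChild, hx]
      simp only [he]
      rw [hQw, e1, e2, e3, hch x hx, add_zero]
      linarith
    · push Not at hA
      have e2 : toChild S down v w = 0 := by
        cases w with
        | nil => rfl
        | cons x p =>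
          simp only [toChild]
          refine if_neg ?_
          rintro ⟨rfl, h⟩
          exact hA x h rfl
      by_cases hB : v ≠ [] ∧ v.tail = w
      · obtain ⟨hB1, rfl⟩ := hB
        have e1 : toParent up v v.tail = up v := if_pos ⟨hB1, rfl⟩
        have e3 : toParent (fun _ => ε) v v.tail = ε := if_pos ⟨hB1, rfl⟩
        simp only [he]
        rw [hQw, e1, e2, e3, zero_add]
        have := hup hB1
        linarith
      · have e1 : toParent up v w = 0 := if_neg hB
        have h3 : v = [] ∨ w ≠ v.tail := by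
          by_cases h4 : v = []
          · exact Or.inl h4
          · exact Or.inr fun h5 => hB ⟨h4, h5.symm⟩
        have e4 := hoth w hw hwv hA h3
        simp only [he]
        rw [hQw, e1, e2, e4]
        simp only [add_zero, sub_zero, abs_zero]
        linarith
  have hsum0 : ∑ w ∈ N, e w = 0 := by
    simp only [he]
    rw [Finset.sum_sub_distrib, hK, hQ, sub_self]
  have hsplit : ∀ f : List X → ℝ, ∑ w ∈ N, f w = f v + ∑ w ∈ N.erase v, f w := fun f =>
    (Finset.add_sum_erase N f hv).symm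
  have hev : |e v| ≤ ∑ w ∈ N.erase v, |e w| := by
    have h1 := hsplit e
    rw [hsum0] at h1
    have h2 : e v = -∑ w ∈ N.erase v, e w := by linarith
    rw [h2, abs_neg]
    exact Finset.abs_sum_le_sum_abs _ _
  have herase : ∑ w ∈ N.erase v, |e w| ≤ ∑ x ∈ S v, |dn x - down v x| + ε := by
    have h1 : ∑ w ∈ N.erase v, |e w|
        ≤ ∑ w ∈ N.erase v, (toChild S φ v w + toParent (fun _ => ε) v w) :=
      Finset.sum_le_sum fun w hw =>
        hbound w (Finset.mem_of_mem_erase hw) (Finset.ne_of_mem_erase hw)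
    have h2 : ∑ w ∈ N.erase v, (toChild S φ v w + toParent (fun _ => ε) v w)
        ≤ ∑ w ∈ N, (toChild S φ v w + toParent (fun _ => ε) v w) := by
      refine Finset.sum_le_sum_of_subset_of_nonneg (Finset.erase_subset _ _) fun w _ _ => ?_
      refine add_nonneg ?_ ?_
      · cases w with
        | nil => simp [toChild]
        | cons x p =>
          simp only [toChild]
          split_ifs
          · exact abs_nonneg _
          · exact le_rfl
      · unfold toParent
        split_ifs
        · exact hε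
        · exact le_rfl
    have h3 := sum_toChild S D hS hv φ (fun _ => 1)
    have h4 := sum_toParent S D (fun _ => ε) hS hv (fun _ => 1)
    simp only [mul_one] at h3 h4
    rw [← hN] at h3 h4
    have h6 : ∑ w ∈ N, (toChild S φ v w + toParent (fun _ => ε) v w)
        = ∑ w ∈ N, toChild S φ v w + ∑ w ∈ N, toParent (fun _ => ε) v w := Finset.sum_add_distrib
    rw [h6, h3, h4] at h2
    have h5 : (if v = [] then (0 : ℝ) else ε) ≤ ε := by
      split_ifs
      · exact hε
      · exact le_rfl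
    simp only [hφ] at h2
    linarith
  rw [hsplit fun w => |K w - walk S down up v w|]
  change |e v| + ∑ w ∈ N.erase v, |e w| ≤ _
  linarith

/-! ### The rate -/

theorem rate_close (hW : 1000 ≤ W) (hc : ∀ y ∈ c, 0 < y) (hsum : ∑ i, r i = c.sum)
    {v : List (Fin m → ℕ)} (hv : v ∈ nodes (kids r c) c.length) (d : Fin c.length)
    (hd : (d : ℕ) = v.length) (hrate : rateAt P r c v ≤ 1) :
    0 ≤ rateR W P m (c.length - 1 - d) (c.get d : ℝ) (∑ i, (res r v i : ℝ))
      ∧ |min 1 (rateR W P m (c.length - 1 - d) (c.get d : ℝ) (∑ i, (res r v i : ℝ))) - rateAt P r c v|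
        ≤ 6 / (W : ℝ) ^ 30 := by
  have hdrop := drop_get (c := c) (v := v) d hd
  have hn : c.length - 1 - (d : ℕ) = (c.drop ((d : ℕ) + 1)).length := by
    simp only [List.length_drop]
    omega
  rw [rateAt_inner hdrop] at hrate ⊢
  set c0 := c.get d with hc0
  have hc0pos : 0 < c0 := hc _ (List.get_mem _ _)
  set C := ∑ i, res r v i with hC
  have hbal := res_balance r c hsum hv
  rw [hdrop] at hbal
  have hCge : c0 ≤ C := by
    rw [hC, hbal]
    simp only [List.sum_cons]
    omega
  have hCpos : (0 : ℝ) < C := by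
    have : 0 < C := by omega
    exact_mod_cast this
  have hc0R : (0 : ℝ) < c0 := by exact_mod_cast hc0pos
  have hCgeR : (c0 : ℝ) ≤ C := by exact_mod_cast hCge
  have hp0 : (0 : ℝ) < (c0 : ℝ) / C := div_pos hc0R hCpos
  have hp1 : (c0 : ℝ) / C ≤ 1 := (div_le_one hCpos).2 hCgeR
  have hW2 : 2 ≤ W := by omega
  obtain ⟨θ, hθ, hb⟩ := bwHat_close (W := W) hW2 hCge hp0 hp1
  have hW' : (1000 : ℝ) ≤ W := by exact_mod_cast hW
  have hpow : (1000 : ℝ) ≤ (W : ℝ) ^ 30 := by
    calc (1000 : ℝ) ≤ W := hW'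
      _ = (W : ℝ) ^ 1 := (pow_one _).symm
      _ ≤ (W : ℝ) ^ 30 := pow_le_pow_right₀ (by linarith) (by norm_num)
  have hF : ((factN0 W : ℕ) : ℝ) = (W : ℝ) ^ 30 := by
    unfold factN0
    push_cast
    rfl
  rw [hF] at hθ
  have hδ : 3 / (W : ℝ) ^ 30 ≤ 1 / 2 := by
    rw [div_le_iff₀ (by linarith)]
    linarith
  obtain ⟨h1, h2⟩ := BinAux.exp_bounds hθ hδ
  have hsumC : ∑ i, (res r v i : ℝ) = (C : ℝ) := by
    rw [hC]
    push_cast
    rfl
  have hq : rateR W P m (c.length - 1 - d) (c0 : ℝ) (∑ i, (res r v i : ℝ))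
      = P.rate m (c.drop ((d : ℕ) + 1)).length c0 C * Real.exp θ := by
    unfold rateR Par.rate
    rw [hsumC, hn, TrialLaw.KR_eq, hb]
    ring
  have hK := TrialLaw.K_nonneg P m (c.drop ((d : ℕ) + 1)).length c0
  have hbw : 0 ≤ bw C ((c0 : ℝ) / C) c0 := bw_nonneg hp0.le hp1 _
  have hr0 : 0 ≤ P.rate m (c.drop ((d : ℕ) + 1)).length c0 C := by
    unfold Par.rate
    positivity
  rw [hq]
  refine ⟨mul_nonneg hr0 (Real.exp_pos _).le, ?_⟩
  refine TrialLaw.abs_min_sub hrate ?_
  have e : P.rate m (c.drop ((d : ℕ) + 1)).length c0 C * Real.exp θ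
      - P.rate m (c.drop ((d : ℕ) + 1)).length c0 C
      = P.rate m (c.drop ((d : ℕ) + 1)).length c0 C * (Real.exp θ - 1) := by ring
  rw [e, abs_mul, abs_of_nonneg hr0]
  have h3 : |Real.exp θ - 1| ≤ 6 / (W : ℝ) ^ 30 := by
    have e6 : 6 / (W : ℝ) ^ 30 = 2 * (3 / (W : ℝ) ^ 30) := by ring
    have h4 : 0 ≤ 3 / (W : ℝ) ^ 30 := by positivity
    rw [abs_le, e6]
    constructor <;> linarith
  calc _ ≤ 1 * (6 / (W : ℝ) ^ 30) := mul_le_mul hrate h3 (abs_nonneg _) (by norm_num)
    _ = 6 / (W : ℝ) ^ 30 := one_mul _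

/-! ### The columns after `d` -/

theorem cR_cast (d : Fin c.length) :
    ∃ h : c.length - 1 - (d : ℕ) = (c.drop ((d : ℕ) + 1)).length,
      ∀ j, cR c d j = (c.drop ((d : ℕ) + 1)).get (Fin.cast h j) := by
  have h : c.length - 1 - (d : ℕ) = (c.drop ((d : ℕ) + 1)).length := by
    simp only [List.length_drop]
    omega
  refine ⟨h, fun j => ?_⟩
  simp [cR]

theorem trialI_cast {n : ℕ} {l : List ℕ} (h : n = l.length) {c' : Fin n → ℕ}
    (hc' : ∀ j, c' j = l.get (Fin.cast h j)) (hm : 0 < m) (P : Par) (r : Fin m → ℕ) (c0 : ℕ) (x : Fin m → ℕ) :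
    trialI W hm P r c0 c' x = trialI W hm P r c0 l.get x := by
  subst h
  have : c' = l.get := funext fun j => by simpa using hc' j
  rw [this]

theorem sum_cast {n : ℕ} {l : List ℕ} (h : n = l.length) {c' : Fin n → ℕ}
    (hc' : ∀ j, c' j = l.get (Fin.cast h j)) : ∑ j, c' j = l.sum := by
  subst h
  have : c' = l.get := funext fun j => by simpa using hc' j
  rw [this, sum_get]

end WalkAux

/-- **The kernel of the step is close to `walkQ`.** The hypothesis on the rates: `rate ≤ 1`, which holds for the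
parameters of a run. -/
theorem walkKer_close (hS : SizeOK W Tm Kb Nb') (hPd : 0 ≤ P.d) (hm : 0 < m) (hc : ∀ y ∈ c, 0 < y)
    (hsum : ∑ i, r i = c.sum) (hNb : ∑ i, r i ≤ Nb')
    (hrate : ∀ v ∈ nodes (kids r c) c.length, rateAt P r c v ≤ 1)
    {v : List (Fin m → ℕ)} (hv : v ∈ nodes (kids r c) c.length) :
    ∑ w ∈ nodes (kids r c) c.length, |walkKer W Tm Kb P hm r c v w - walkQ W hm P r c v w|
      ≤ ((m : ℝ) + 2) / (W : ℝ) ^ 29 := by
  classical
  have hW := hS.W1
  have hW' : (1000 : ℝ) ≤ W := by exact_mod_cast hW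
  have hWpos : (0 : ℝ) < W := by linarith
  have hS0 : ∀ v : List (Fin m → ℕ), c.length ≤ v.length → kids r c v = ∅ := fun v h => kids_empty r c v h
  -- the moves to the children
  set dn : (Fin m → ℕ) → ℝ := fun x => walkKer W Tm Kb P hm r c v (x :: v) with hdn
  have hdown : ∑ x ∈ kids r c v, |dn x - downQ W hm P r c v x| ≤ (1 / 8) * (((m : ℝ) + 1) / (W : ℝ) ^ 29) := by
    by_cases hlt : v.length < c.length
    · set d : Fin c.length := ⟨v.length, hlt⟩ with hd
      have hd' : (d : ℕ) = v.length := rfl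
      have hdrop := WalkAux.drop_get (c := c) (v := v) d hd'
      rw [kids_inner hdrop]
      obtain ⟨hn, hcR⟩ := WalkAux.cR_cast (c := c) d
      have hbal := res_balance r c hsum hv
      rw [hdrop] at hbal
      have hres : ∑ i, res r v i ≤ Nb' :=
        le_trans (Finset.sum_le_sum fun i _ => Nat.sub_le _ _) hNb
      have hsum' : ∑ i, res r v i = c.get d + ∑ j, cR c d j := by
        rw [hbal, WalkAux.sum_cast hn hcR, List.sum_cons]
      have h1 := downSelR_close (r := res r v) (c0 := c.get d) (c' := cR c d) hS P hPd hm hres hsum'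
      have e : ∑ x ∈ lev (res r v) (c.get d), |dn x - downQ W hm P r c v x|
          = (1 / 8) * ∑ x ∈ lev (res r v) (c.get d),
            |Pr (fun ω => downSelR W Tm Kb P (fun i => (res r v i : ℝ)) (c.get d : ℝ)
                (fun j => (cR c d j : ℝ)) ω = encX x) - trialI W hm P (res r v) (c.get d) (cR c d) x| := by
        rw [Finset.mul_sum]
        refine Finset.sum_congr rfl fun x _ => ?_
        simp only [hdn]
        rw [WalkAux.ker_child hS hm hNb hv d hd' x, q_downQ_inner hdrop,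
          WalkAux.trialI_cast hn hcR, ← mul_sub, abs_mul]
        norm_num
      rw [e]
      exact mul_le_mul_of_nonneg_left h1 (by norm_num)
    · rw [hS0 v (by omega)]
      simp only [Finset.sum_empty]
      positivity
  -- the move to the parent
  have hup : v ≠ [] → |walkKer W Tm Kb P hm r c v v.tail - upAt P r c v| ≤ (1 / 8) * (6 / (W : ℝ) ^ 30) := by
    intro hne
    cases v with
    | nil => exact absurd rfl hne
    | cons y v' =>
      have hv' := ((cons_mem_nodes (fun v h => kids_empty r c v h)).1 hv).1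
      have hk := WalkAux.length_le hv
      simp only [List.length_cons] at hk
      set d : Fin c.length := ⟨v'.length, by omega⟩ with hd
      have hd' : (d : ℕ) = v'.length := rfl
      obtain ⟨h1, h2⟩ := WalkAux.rate_close (P := P) hW hc hsum hv' d hd' (hrate v' hv')
      simp only [List.tail_cons]
      rw [WalkAux.ker_parent hS hm hNb hv d hd' h1]
      change |(1 / 8) * _ - (1 / 8) * rateAt P r c v'| ≤ _
      rw [← mul_sub, abs_mul]
      have e : |(1 / 8 : ℝ)| = 1 / 8 := by norm_num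
      rw [e]
      exact mul_le_mul_of_nonneg_left h2 (by norm_num)
  have hmain := WalkAux.walk_close2 hS0 (downQ W hm P r c) (upAt P r c) hv
    (fun w => walkKer W Tm Kb P hm r c v w) dn (ε := (1 / 8) * (6 / (W : ℝ) ^ 30)) (by positivity)
    (WalkAux.ker_total hS hc hm hsum hNb hv) (q_walkQ_sum_aux hm hv) (fun x _ => rfl) hup
    (fun w hw h1 h2 h3 => WalkAux.ker_other hS hc hm hNb hv hw h1 h2 h3)
  refine hmain.trans ?_
  have hm0 : (0 : ℝ) ≤ m := Nat.cast_nonneg _
  have hpw : (0 : ℝ) < (W : ℝ) ^ 29 := by positivity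
  have e1 : 6 / (W : ℝ) ^ 30 ≤ 1 / (W : ℝ) ^ 29 := by
    rw [div_le_div_iff₀ (by positivity) hpw]
    have : (W : ℝ) ^ 30 = (W : ℝ) ^ 29 * W := by ring
    rw [this]
    nlinarith
  have e2 : ((m : ℝ) + 2) / (W : ℝ) ^ 29 = ((m : ℝ) + 1) * (1 / (W : ℝ) ^ 29) + 1 / (W : ℝ) ^ 29 := by
    ring
  have e3 : ((m : ℝ) + 1) / (W : ℝ) ^ 29 = ((m : ℝ) + 1) * (1 / (W : ℝ) ^ 29) := by ring
  rw [e3] at hdown
  rw [e2]
  have h0 : 0 < 1 / (W : ℝ) ^ 29 := by positivity
  have h4 : 0 ≤ ((m : ℝ) + 1) * (1 / (W : ℝ) ^ 29) := by positivity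
  linarith

/-- The step is a circuit. -/
theorem walkStepR_cost : ∃ e, ∀ {m k X W Tm Kb B : ℕ} {ι : Type} (_ : 1000 ≤ X) (_ : m ≤ X) (_ : k + 1 ≤ X)
    (_ : W ≤ X) (_ : Tm ≤ X ^ 4) (_ : Kb ≤ X) (_ : B ≤ X) (P : Par) (_ : P.d = 1 / (B : ℝ) ^ 26)
    (_ : P.cs = B ^ 28) (hm : 0 < m) (R : Fin m → ι) (L : Fin k → ι) (St : NodeW k m → ι)
    (Ωw : StepW k m W → ι) (a : NodeW k m),
    P1 X e (fun x => walkStepR W Tm Kb P hm (fun i => x (R i)) (fun j => x (L j)) (fun b => x (St b))
      (fun b => x (Ωw b)) a) := by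
  classical
  obtain ⟨e1, hb⟩ := WalkCost.walkBranch_cost
  refine ⟨?e, fun {m k X W Tm Kb B ι} hX hm hk hW hTm hKb hB P hd hcs hm0 R L St Ωw a => ?_⟩
  swap
  have hs := P1.select (K := k + 1) (key := fun x : ι → ℝ => x (St (Sum.inl ())))
    (F := fun d x => walkBranch W Tm Kb P hm0 (fun i => x (R i)) (fun j => x (L j)) d (fun b => x (St b))
      (fun b => x (Ωw b)) a) hk (P1.var _)
    (fun d => hb hX hm hk hW hTm hKb hB P hd hcs hm0 R L St Ωw d a)
  exact hs

end Spec

end Vale.Agent.Lib.P328.RAM
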